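import Vale.Agent.P202.Spec

/-! Module BC: completed base change of the coefficient field. -/

open IsLocalRing MvPowerSeries
open scoped TensorProduct

namespace Vale.Agent.P202.Bcm

universe u

section cpl
variable {T : Type*} [CommRing T] (J : Ideal T)

theorem mem_pow_iff (fg : J.FG) (N : ℕ) (b : AdicCompletion J T) :
    b ∈ (J ^ N).map (algebraMap T (AdicCompletion J T)) ↔ AdicCompletion.evalₐ J N b = 0 := by
  rw [← Submodule.restrictScalars_mem T, ← Ideal.smul_top_eq_map,
    AdicCompletion.pow_smul_top_eq_ker_eval fg, LinearMap.mem_ker]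
  have h : (J ^ N • ⊤ : Ideal T) = J ^ N := by ext x; simp
  constructor
  · intro e
    rw [← AdicCompletion.factor_eval_eq_evalₐ J b h.le, e, map_zero]
  · intro e
    rw [← AdicCompletion.factor_evalₐ_eq_eval J b h.ge, e, map_zero]

theorem eval_alg (N : ℕ) (t : T) :
    AdicCompletion.evalₐ J N (algebraMap T (AdicCompletion J T) t) = Ideal.Quotient.mk _ t :=
  AdicCompletion.evalₐ_of J N t

theorem approx (fg : J.FG) (N : ℕ) (b : AdicCompletion J T) :
    ∃ t, b - algebraMap T (AdicCompletion J T) t ∈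
      (J ^ N).map (algebraMap T (AdicCompletion J T)) := by
  obtain ⟨t, ht⟩ := Ideal.Quotient.mk_surjective (AdicCompletion.evalₐ J N b)
  exact ⟨t, by rw [mem_pow_iff J fg, map_sub, eval_alg, ht, sub_self]⟩

theorem detect (fg : J.FG) (N : ℕ) (t : T)
    (h : algebraMap T (AdicCompletion J T) t ∈ (J ^ N).map (algebraMap T (AdicCompletion J T))) :
    t ∈ J ^ N := by
  rwa [mem_pow_iff J fg, eval_alg, Ideal.Quotient.eq_zero_iff_mem] at h

/-- extension of a continuous map to the completion -/
theorem extend (fg : J.FG) {S : Type*} [CommRing S] (m : Ideal S) [IsAdicComplete m S]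
    (g : T →+* S) (hg : ∀ x ∈ J, g x ∈ m) :
    ∃ g' : AdicCompletion J T →+* S, ∀ x, g' (algebraMap T _ x) = g x := by
  have hle : ∀ n, J ^ n ≤ (m ^ n).comap g := fun n =>
    (Ideal.pow_right_mono (fun x hx => Ideal.mem_comap.2 (hg x hx)) n).trans
      (Ideal.le_comap_pow g n)
  let f : ∀ n, AdicCompletion J T →+* S ⧸ m ^ n := fun n =>
    (Ideal.quotientMap (m ^ n) g (hle n)).comp (AdicCompletion.evalₐ J n).toRingHom
  have hfa : ∀ n x, f n (algebraMap T _ x) = Ideal.Quotient.mk _ (g x) := fun n x => by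
    change Ideal.quotientMap (m ^ n) g (hle n) (AdicCompletion.evalₐ J n (algebraMap T _ x)) = _
    rw [eval_alg, Ideal.quotientMap_mk]
  have hf0 : ∀ n, ∀ b ∈ (J ^ n).map (algebraMap T (AdicCompletion J T)), f n b = 0 :=
    fun n b hb => by
      change Ideal.quotientMap (m ^ n) g (hle n) (AdicCompletion.evalₐ J n b) = _
      rw [(mem_pow_iff J fg n b).1 hb, map_zero]
  have hf : ∀ {a n : ℕ} (h : a ≤ n), (Ideal.Quotient.factorPow m h).comp (f n) = f a := by
    intro a n h
    ext b
    obtain ⟨t, ht⟩ := approx J fg n b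
    have e1 : f n b = Ideal.Quotient.mk _ (g t) := by
      rw [← hfa, ← sub_eq_zero, ← map_sub]; exact hf0 n _ ht
    have e2 : f a b = Ideal.Quotient.mk _ (g t) := by
      rw [← hfa, ← sub_eq_zero, ← map_sub]
      exact hf0 a _ (Ideal.map_mono (Ideal.pow_le_pow_right h) ht)
    rw [RingHom.comp_apply, e1, e2]
    rfl
  refine ⟨IsAdicComplete.liftRingHom m f hf, fun x => ?_⟩
  have := IsHausdorff.funext' m
    (f := fun x : T => IsAdicComplete.liftRingHom m f hf (algebraMap T _ x)) (g := g)
    fun n r => by rw [IsAdicComplete.mk_liftRingHom, hfa]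
  exact congrFun this x

end cpl

/-- an ideal with residue ring a field -/
theorem isMax {K T : Type*} [Field K] [CommRing T] [Algebra K T] {J : Ideal T} (hne : J ≠ ⊤)
    (hres : ∀ t : T, ∃ a : K, t - algebraMap K T a ∈ J) : J.IsMaximal := by
  refine Ideal.isMaximal_iff.2 ⟨(Ideal.ne_top_iff_one J).1 hne, fun I x hI hx hxI => ?_⟩
  obtain ⟨a, ha⟩ := hres x
  have ha0 : a ≠ 0 := by
    rintro rfl
    exact hx (by simpa using ha)
  have h1 : algebraMap K T a ∈ I := by simpa using I.sub_mem hxI (hI ha)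
  have h2 := I.mul_mem_left (algebraMap K T a⁻¹) h1
  rwa [← map_mul, inv_mul_cancel₀ ha0, map_one] at h2

/-- complete with finitely generated ideal and residue ring `K` implies Noetherian -/
theorem noeth (hV : EvStmt.{u}) {K B : Type u} [Field K] [CommRing B] [Algebra K B] (I : Ideal B)
    (fg : I.FG) [hc : IsAdicComplete I B] (hres : ∀ t : B, ∃ a : K, t - algebraMap K B a ∈ I) :
    IsNoetherianRing B := by
  obtain ⟨n, y, hy⟩ := Submodule.fg_iff_exists_fin_generating_family.1 fg
  obtain ⟨f, hf⟩ := (hV K n).ev B I hc y fun i =>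
    Ideal.le_radical (hy ▸ Submodule.subset_span ⟨i, rfl⟩)
  have hmap : (mx K n).map (f : PS K n →+* B) = I := by
    rw [Ideal.map_span, ← Set.range_comp, ← hy]
    congr 2
    funext i
    exact hf i
  have h1 : IsAdicComplete (mx K n) (PS K n) := (hV K n).cpl (PS K n)
  have h2 : IsHausdorff ((mx K n).map (f : PS K n →+* B)) B := by
    rw [hmap]; infer_instance
  have hs : Function.Surjective (f : PS K n →+* B) := by
    refine surjective_of_mk_map_comp_surjective (I := mx K n) _ fun q => ?_
    obtain ⟨b, rfl⟩ := Ideal.Quotient.mk_surjective q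
    obtain ⟨a, ha⟩ := hres b
    refine ⟨algebraMap K _ a, ?_⟩
    rw [RingHom.comp_apply, eq_comm, Ideal.Quotient.eq, hmap]
    simpa using ha
  exact isNoetherianRing_of_surjective _ _ _ hs

theorem abstr (hL : LcStmt.{u}) (hV : EvStmt.{u}) (K R T : Type u) [Field K] [CommRing R]
    [IsLocalRing R] [IsNoetherianRing R] [CommRing T] [Algebra K T] [Algebra R T]
    [Module.Flat R T] (hne : (maximalIdeal R).map (algebraMap R T) ≠ ⊤)
    (hres : ∀ t : T, ∃ a : K, t - algebraMap K T a ∈ (maximalIdeal R).map (algebraMap R T)) :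
    ∃ (R' : Type u) (_ : CommRing R') (_ : IsLocalRing R') (_ : Algebra K R') (j : T →+* R'),
      CL K R' ∧ Unr (j.comp (algebraMap R T)) ∧ (∀ c, j (algebraMap K T c) = algebraMap K R' c) ∧
      ∀ (S : Type u) [CommRing S] (m : Ideal S) [IsAdicComplete m S] (g : T →+* S),
        (∀ x ∈ (maximalIdeal R).map (algebraMap R T), g x ∈ m) →
        ∃ g' : R' →+* S, ∀ x, g' (j x) = g x := by
  set J := (maximalIdeal R).map (algebraMap R T) with hJ
  have fg : J.FG := (maximalIdeal R).fg_of_isNoetherianRing.map _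
  have hmax : J.IsMaximal := isMax hne hres
  have hmax' := AdicCompletion.isMaximal_map_of_le J J le_rfl fg
  have hc := AdicCompletion.isAdicComplete_self J fg
  have hloc : IsLocalRing (AdicCompletion J T) :=
    isLocalRing_of_isAdicComplete_maximal (J.map (algebraMap T (AdicCompletion J T)))
  have hm : J.map (algebraMap T (AdicCompletion J T)) = maximalIdeal _ := eq_maximalIdeal hmax'
  have hres' : ∀ b : AdicCompletion J T, ∃ a : K,
      b - algebraMap K _ a ∈ J.map (algebraMap T (AdicCompletion J T)) := fun b => by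
    obtain ⟨t, ht⟩ := approx J fg 1 b
    obtain ⟨a, ha⟩ := hres t
    rw [pow_one] at ht
    have h1 := Ideal.add_mem _ ht (Ideal.mem_map_of_mem (algebraMap T (AdicCompletion J T)) ha)
    rw [map_sub, sub_add_sub_cancel] at h1
    exact ⟨a, h1⟩
  have hno : IsNoetherianRing (AdicCompletion J T) := noeth hV _ (fg.map _) hres'
  have hpow : ∀ N, (maximalIdeal R ^ N).map
      ((algebraMap T (AdicCompletion J T)).comp (algebraMap R T)) =
      (J ^ N).map (algebraMap T (AdicCompletion J T)) := fun N => by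
    rw [← Ideal.map_map, Ideal.map_pow (algebraMap R T)]
  have hm1 : (maximalIdeal R).map ((algebraMap T (AdicCompletion J T)).comp (algebraMap R T)) =
      maximalIdeal _ := by rw [← Ideal.map_map, hm]
  refine ⟨AdicCompletion J T, inferInstance, hloc, inferInstance, algebraMap T _,
    ⟨hno, hm ▸ hc, hm ▸ hres'⟩, ⟨?_, hm1⟩, fun c => rfl, fun S _ m _ g hg => extend J fg m g hg⟩
  refine hL R T (AdicCompletion J T) (maximalIdeal R) (algebraMap T _) ?_ (fun N b => ?_)
    fun N t ht => ?_
  · rw [hm1]; exact (maximalIdeal.isMaximal _).ne_top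
  · rw [hpow]; exact approx J fg N b
  · rw [hpow] at ht
    rw [Ideal.map_pow]
    exact detect J fg N t ht

end Vale.Agent.P202.Bcm

namespace Vale.Agent.P202

universe u

open Bcm

theorem bcStmt (hL : LcStmt.{u}) (hV : EvStmt.{u}) : BcStmt.{u} := by
  intro κ K R _ _ _ _ _ _ hR
  have := hR.noeth
  let iK : K →+* R ⊗[κ] K := (Algebra.TensorProduct.includeRight (R := κ) (A := R)).toRingHom
  let _ : Algebra K (R ⊗[κ] K) := iK.toAlgebra
  have hiK : ∀ a : K, algebraMap K (R ⊗[κ] K) a = (1 : R) ⊗ₜ a := fun a => rfl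
  have hiR : ∀ a : R, algebraMap R (R ⊗[κ] K) a = a ⊗ₜ (1 : K) := fun a => rfl
  have hne : (maximalIdeal R).map (algebraMap R (R ⊗[κ] K)) ≠ ⊤ := by
    have hf : Module.FaithfullyFlat R (R ⊗[κ] K) := inferInstance
    intro h
    have := Module.FaithfullyFlat.submodule_ne_top (R := R) (M := R ⊗[κ] K)
      (maximalIdeal.isMaximal R)
    rw [Ideal.smul_top_eq_map, h] at this
    exact this rfl
  have hres : ∀ t : R ⊗[κ] K, ∃ a : K,
      t - algebraMap K _ a ∈ (maximalIdeal R).map (algebraMap R (R ⊗[κ] K)) := fun t => by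
    induction t using TensorProduct.induction_on with
    | zero => exact ⟨0, by simp⟩
    | tmul r a =>
      obtain ⟨c, hc⟩ := hR.res r
      refine ⟨c • a, ?_⟩
      have h1 := Ideal.mul_mem_right ((1 : R) ⊗ₜ[κ] a) _
        (Ideal.mem_map_of_mem (algebraMap R (R ⊗[κ] K)) hc)
      rw [hiR, Algebra.TensorProduct.tmul_mul_tmul, mul_one, one_mul, TensorProduct.sub_tmul,
        Algebra.algebraMap_eq_smul_one, TensorProduct.smul_tmul] at h1
      rwa [hiK]
    | add x y hx hy =>
      obtain ⟨a, ha⟩ := hx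
      obtain ⟨b, hb⟩ := hy
      refine ⟨a + b, ?_⟩
      have := Ideal.add_mem _ ha hb
      rwa [map_add, add_sub_add_comm]
  obtain ⟨R', i1, i2, i3, j, h1, h2, h3, h4⟩ := abstr hL hV K R (R ⊗[κ] K) hne hres
  refine ⟨R', i1, i2, i3, j.comp (algebraMap R _), h1, h2, fun c => ?_,
    fun S _ _ _ g hS hg hc => ?_⟩
  · rw [RingHom.comp_apply, ← h3, hiK, hiR, Algebra.algebraMap_eq_smul_one,
      TensorProduct.smul_tmul, Algebra.algebraMap_eq_smul_one]
  · have := hS.cpl
    let _ : Algebra κ S := ((algebraMap K S).comp (algebraMap κ K)).toAlgebra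
    let g1 : R →ₐ[κ] S := { g with commutes' := hc }
    let g2 : K →ₐ[κ] S := { algebraMap K S with commutes' := fun _ => rfl }
    let G : R ⊗[κ] K →ₐ[κ] S := Algebra.TensorProduct.lift g1 g2 fun _ _ => Commute.all _ _
    have hG1 : ∀ x, G (algebraMap R _ x) = g x := fun x => by
      rw [hiR, Algebra.TensorProduct.lift_tmul, map_one, mul_one]; rfl
    have hG2 : ∀ x, G (algebraMap K _ x) = algebraMap K S x := fun x => by
      rw [hiK, Algebra.TensorProduct.lift_tmul, map_one, one_mul]; rfl
    obtain ⟨g', hg'⟩ := h4 S (maximalIdeal S) G.toRingHom fun x hx => by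
      have : (maximalIdeal R).map (algebraMap R (R ⊗[κ] K)) ≤
          (maximalIdeal S).comap G.toRingHom :=
        Ideal.map_le_iff_le_comap.2 fun y hy => by
          change G (algebraMap R _ y) ∈ maximalIdeal S
          rw [hG1]; exact hg y hy
      exact this hx
    refine ⟨{ g' with commutes' := fun c => ?_ }, fun x => ?_⟩
    · change g' (algebraMap K R' c) = _
      rw [← h3, hg']; exact hG2 c
    · change g' (j (algebraMap R _ x)) = _
      rw [hg']; exact hG1 x

end Vale.Agent.P202
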