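import Vale.Agent.P202.Spec

open Finset IsLocalRing

namespace Vale.Agent.P202

universe u

namespace B1M

open MvPowerSeries in
theorem max_ps (k : Type u) [Field k] (n : ℕ) : maximalIdeal (PS k n) = mx k n := by
  have key : ∀ (s : Finset (Fin n)) (f : PS k n),
      (∀ m : Fin n →₀ ℕ, (∀ i ∈ s, m i = 0) → coeff m f = 0) → f ∈ mx k n := by
    intro s
    induction s using Finset.induction_on with
    | empty => intro f hf; rw [show f = 0 from MvPowerSeries.ext fun m => hf m (by simp)]; simp
    | insert i s _ ih =>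
      intro f hf
      let g : PS k n := fun m => if m i = 0 then coeff m f else 0
      have hg : ∀ m, coeff m g = if m i = 0 then coeff m f else 0 := fun _ => rfl
      obtain ⟨u, hu⟩ := (X_dvd_iff (s := i) (φ := f - g)).2 fun m hm => by simp [hg, hm]
      rw [eq_add_of_sub_eq hu]
      refine add_mem (Ideal.mul_mem_right _ _ (Ideal.subset_span ⟨i, rfl⟩)) (ih g fun m hm => ?_)
      rw [hg]; split_ifs with h
      exacts [hf m (by simpa [h] using hm), rfl]
  refine le_antisymm (fun f hf => key Finset.univ f fun m hm => ?_) (Ideal.span_le.2 ?_)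
  · rw [show m = 0 from Finsupp.ext fun i => hm i (Finset.mem_univ i)]
    simpa [isUnit_iff_constantCoeff] using hf
  · rintro _ ⟨i, rfl⟩
    simp [isUnit_iff_constantCoeff]

theorem dim_ps_le (k : Type u) [Field k] (n : ℕ) : ringKrullDim (PS k n) ≤ n := by
  refine (ringKrullDim_le_spanFinrank_maximalIdeal _).trans ?_
  rw [max_ps]
  have := (Submodule.spanFinrank_span_le_ncard_of_finite (R := PS k n)
    (Set.finite_range (MvPowerSeries.X : Fin n → PS k n))).trans
      (show _ ≤ n by
        rw [← Set.image_univ]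
        exact (Set.ncard_image_le Set.finite_univ).trans (by simp [Set.ncard_univ]))
  exact_mod_cast this

end B1M

open B1M in
theorem ben1Stmt : Ben1Stmt.{u} := by
  intro K R S _ _ _ _ _ _ _ f _ d D _ _ hd hD
  letI := f.toAlgebra
  have hf : algebraMap R S = f := rfl
  have : IsLocalHom (algebraMap R S) := ‹IsLocalHom f›
  have h1 := Ideal.height_le_height_add_of_liesOver (maximalIdeal R) (maximalIdeal S)
  set J := (maximalIdeal R).map (algebraMap R S) with hJ
  have hle : J ≤ maximalIdeal S := by
    rw [hJ, Ideal.map_le_iff_le_comap]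
    exact (Ideal.LiesOver.over (p := maximalIdeal R) (P := maximalIdeal S)).le
  have hp : ((maximalIdeal S).map (Ideal.Quotient.mk J)).IsPrime :=
    Ideal.map_isPrime_of_surjective Ideal.Quotient.mk_surjective (by simpa using hle)
  obtain ⟨lq, -, hlen⟩ :=
    ((maximalIdeal S).map (Ideal.Quotient.mk J)).exists_ltSeries_length_eq_height
  let l' : LTSeries (PrimeSpectrum S) := lq.map (PrimeSpectrum.comap (Ideal.Quotient.mk J))
    (RingHom.strictMono_comap_of_surjective Ideal.Quotient.mk_surjective)
  let l'' : LTSeries (PrimeSpectrum (PS K D)) :=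
    l'.map (PrimeSpectrum.comap (algebraMap (PS K D) S))
      fun a b h => Ideal.IsIntegral.comap_lt_comap (R := PS K D) (I := a.asIdeal)
        (J := b.asIdeal) h
  have hQ : J ≤ l'.head.asIdeal := fun x hx => by
    simp only [l', LTSeries.head_map, PrimeSpectrum.comap_asIdeal, Ideal.mem_comap]
    rw [Ideal.Quotient.eq_zero_iff_mem.2 hx]; exact zero_mem _
  obtain ⟨P, hP, hPQ⟩ := Ideal.exists_minimalPrimes_le hQ
  refine ⟨P, hP, ?_⟩
  have := hP.isPrime
  let p : PrimeSpectrum (PS K D) := ⟨P.comap (algebraMap (PS K D) S), inferInstance⟩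
  have h2 : (l''.length : ℕ∞) ≤ Order.coheight p :=
    Order.length_le_coheight (Ideal.comap_mono hPQ)
  have h3 : ((Order.height p + Order.coheight p : ℕ∞) : WithBot ℕ∞) ≤ ringKrullDim (PS K D) := by
    rw [ringKrullDim, Order.krullDim_eq_iSup_height_add_coheight_of_nonempty, WithBot.coe_le_coe]
    exact le_iSup (fun a => Order.height a + Order.coheight a) p
  have h4 : (maximalIdeal R).height = d := by
    rw [← WithBot.coe_inj, maximalIdeal_height_eq_ringKrullDim, hd]; rfl
  have h5 : Order.height p + Order.coheight p ≤ (maximalIdeal S).height := by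
    rw [← WithBot.coe_le_coe, maximalIdeal_height_eq_ringKrullDim]
    exact h3.trans ((dim_ps_le K D).trans hD)
  have h6 : p.asIdeal.height + (lq.length : ℕ∞) ≤ d + (lq.length : ℕ∞) := by
    rw [p.height_eq_orderHeight]
    refine (add_le_add le_rfl h2).trans (h5.trans (h1.trans ?_))
    rw [h4, hlen]
  exact (ENat.add_le_add_iff_right (ENat.coe_ne_top _)).1 h6

end Vale.Agent.P202
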