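import Vale.Agent.P202.Dev

/-! Module B2: the multiplicity of a localisation of a finite algebra over power series. -/

open Finset Matrix MvPowerSeries Filter Topology IsLocalRing
open scoped Kronecker Nat

namespace Vale.Agent.P202

universe u

namespace Bn

section gen
variable {A : Type*} [CommRing A] {E : Type*} [AddCommGroup E] [Module A E]
  {F : Type*} [AddCommGroup F] [Module A F]

theorem len_map (h : E →ₗ[A] F) (Q : Submodule A E) :
    Module.length A (Q.map h) = Module.length A (Q ⧸ (LinearMap.ker h).comap Q.subtype) := by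
  have e := (h ∘ₗ Q.subtype).quotKerEquivRange
  rw [LinearMap.range_comp, Submodule.range_subtype, LinearMap.ker_comp] at e
  exact e.length_eq.symm

theorem len_split (S : Submodule A E) (f : E →ₗ[A] F) :
    Module.length A S = Module.length A ↥(S ⊓ LinearMap.ker f) + Module.length A (S.map f) := by
  rw [len_map f S]
  have e : ↥(S ⊓ LinearMap.ker f) ≃ₗ[A] ((LinearMap.ker f).comap S.subtype) := by
    rw [inf_comm]
    have := Submodule.comapSubtypeEquivOfLe (p := LinearMap.ker f ⊓ S) (q := S) inf_le_right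
    rw [Submodule.comap_inf, Submodule.comap_subtype_self, inf_top_eq] at this
    exact this.symm
  rw [e.length_eq]
  exact Module.length_eq_add_of_exact ((LinearMap.ker f).comap S.subtype).subtype
    ((LinearMap.ker f).comap S.subtype).mkQ (Submodule.subtype_injective _)
    (Submodule.mkQ_surjective _) (LinearMap.exact_subtype_mkQ _)

theorem len_span {ι : Type*} [Fintype ι] (v : ι → E) (J : Ideal A)
    (h : ∀ i, ∀ a ∈ J, a • v i = 0) (W : Submodule A E)
    (hW : W ≤ Submodule.span A (Set.range v)) :
    Module.length A W ≤ Fintype.card ι * Module.length A (A ⧸ J) := by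
  classical
  let G : (ι → A ⧸ J) →ₗ[A] E := ∑ i, (Submodule.liftQ J (LinearMap.toSpanSingleton A E (v i))
    fun a ha => h i a ha) ∘ₗ LinearMap.proj i
  have h1 : W ≤ LinearMap.range G := by
    refine hW.trans (Submodule.span_le.2 ?_)
    rintro _ ⟨i, rfl⟩
    refine ⟨Pi.single i (Submodule.Quotient.mk 1), ?_⟩
    simp only [G, LinearMap.sum_apply, LinearMap.comp_apply, LinearMap.proj_apply]
    rw [sum_eq_single i (fun j _ hj => by rw [Pi.single_eq_of_ne hj, map_zero]) (by simp),
      Pi.single_eq_same]
    exact one_smul A (v i)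
  refine (Module.length_le_of_injective (Submodule.inclusion h1)
    (Submodule.inclusion_injective h1)).trans ((Module.length_le_of_surjective G.rangeRestrict
      G.surjective_rangeRestrict).trans (le_of_eq ?_))
  rw [Module.length_pi_of_fintype]
  simp

theorem len_pow (J : Ideal A) (a : A) (u : ℕ) : Module.length A (A ⧸ (J ⊔ Ideal.span {a ^ u})) ≤
    u * Module.length A (A ⧸ (J ⊔ Ideal.span {a})) := by
  induction u with
  | zero => simp
  | succ u ih =>
    have hle : (J ⊔ Ideal.span {a ^ (u + 1)}) ≤ J ⊔ Ideal.span {a ^ u} :=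
      sup_le_sup_left (Ideal.span_singleton_le_span_singleton.2 (pow_dvd_pow a u.le_succ)) _
    have h1 := len_split ⊤ (Submodule.factor hle)
    rw [Submodule.map_top, LinearMap.range_eq_top.2 (Submodule.factor_surjective hle),
      Module.length_top, Module.length_top] at h1
    rw [h1, Nat.cast_succ, add_mul, one_mul, add_comm]
    refine add_le_add ih ?_
    refine (len_span (fun _ : Unit => Submodule.Quotient.mk (a ^ u)) (J ⊔ Ideal.span {a})
      (fun _ b hb => ?_) _ ?_).trans (by simp)
    · rw [← Submodule.Quotient.mk_smul, Submodule.Quotient.mk_eq_zero, smul_eq_mul]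
      have h2 : (J ⊔ Ideal.span {a}) * Ideal.span {a ^ u} ≤ J ⊔ Ideal.span {a ^ (u + 1)} := by
        rw [Ideal.sup_mul, Ideal.span_singleton_mul_span_singleton, ← pow_succ']
        exact sup_le_sup_right Ideal.mul_le_left _
      exact h2 (Ideal.mul_mem_mul hb (Ideal.mem_span_singleton_self _))
    · rintro x ⟨-, hx⟩
      obtain ⟨x, rfl⟩ := Submodule.Quotient.mk_surjective _ x
      have hx' : x ∈ J ⊔ Ideal.span {a ^ u} := (Submodule.Quotient.mk_eq_zero _).1 hx
      obtain ⟨y, hy, z, hz, rfl⟩ := Submodule.mem_sup.1 hx'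
      obtain ⟨b, rfl⟩ := Ideal.mem_span_singleton'.1 hz
      rw [Submodule.Quotient.mk_add,
        (Submodule.Quotient.mk_eq_zero _).2 (Submodule.mem_sup_left hy), zero_add, ← smul_eq_mul,
        Submodule.Quotient.mk_smul]
      exact Submodule.smul_mem _ _ (Submodule.subset_span ⟨(), rfl⟩)

theorem len_pows {ι : Type*} [DecidableEq ι] (a : ι → A) (u : ℕ) (s : Finset ι) : ∀ J : Ideal A,
    Module.length A (A ⧸ (J ⊔ Ideal.span ((fun i => a i ^ u) '' s))) ≤
      u ^ s.card * Module.length A (A ⧸ (J ⊔ Ideal.span (a '' s))) := by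
  induction s using Finset.induction_on with
  | empty => intro J; rw [coe_empty, Set.image_empty, Set.image_empty]; simp
  | insert i s hi ih =>
    intro J
    rw [coe_insert, Set.image_insert_eq, Set.image_insert_eq, Ideal.span_insert, Ideal.span_insert,
      card_insert_of_notMem hi, ← sup_assoc, pow_succ, mul_assoc]
    refine (ih _).trans (mul_le_mul_right ?_ _)
    rw [sup_right_comm, ← sup_assoc, sup_right_comm J (Ideal.span {a i})]
    exact len_pow _ _ _

end gen

theorem bound {B O S T : Type*} [CommRing B] [CommRing O] [CommRing S] [CommRing T] [Algebra B S]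
    [Algebra B O] [Algebra O T] [Algebra S T] [Algebra B T] [IsScalarTower B O T]
    [IsScalarTower B S T] (N : Submonoid S) [IsLocalization N T] {n ρ : ℕ} (s : Fin n → S)
    (hs : Submodule.span B (Set.range s) = ⊤) (ω : Fin ρ → S) (g : B)
    (hg : ∀ x : S, g • x ∈ Submodule.span B (Set.range ω)) (J : Ideal O) :
    Module.length T (T ⧸ J.map (algebraMap O T)) ≤ ρ * Module.length O (O ⧸ J) +
      n * Module.length O (O ⧸ (J ⊔ Ideal.span {algebraMap B O g})) := by
  let j : S →ₗ[B] T := (IsScalarTower.toAlgHom B S T).toLinearMap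
  have hj : ∀ {m : ℕ} (v : Fin m → S), ∀ x ∈ Submodule.span B (Set.range v),
      j x ∈ Submodule.span O (Set.range fun i => j (v i)) := by
    intro m v x hx
    have := Submodule.mem_map_of_mem (f := j) hx
    rw [Submodule.map_span, ← Set.range_comp] at this
    exact Submodule.span_le_restrictScalars B O _ this
  let M : Submodule O T := Submodule.span O (Set.range fun i => j (s i))
  have hM : ∀ x, algebraMap S T x ∈ M := fun x => hj s x (hs ▸ trivial)
  let Φ : Ideal T → Submodule O M := fun I => (I.restrictScalars O).comap M.subtype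
  have hΦ : StrictMono Φ := by
    refine Monotone.strictMono_of_injective
      (fun I I' h => Submodule.comap_mono (Submodule.restrictScalars_mono O h)) ?_
    have : ∀ I I', Φ I = Φ I' → I ≤ I' := fun I I' e x hx => by
      obtain ⟨a, b, rfl⟩ := IsLocalization.exists_mk'_eq N x
      rw [IsLocalization.mk'_mem_iff] at hx ⊢
      have h1 : (⟨_, hM a⟩ : M) ∈ Φ I := hx
      rw [e] at h1
      exact h1
    exact fun I I' e => le_antisymm (this _ _ e) (this _ _ e.symm)
  let P := (J.map (algebraMap O T)).restrictScalars O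
  have h1 : Module.length T (T ⧸ J.map (algebraMap O T)) ≤ Module.length O (M.map P.mkQ) := by
    rw [len_map, Submodule.ker_mkQ, Module.length_quotient, Module.length_quotient]
    exact Order.coheight_le_coheight_apply_of_strictMono Φ hΦ _
  have hJ : ∀ a ∈ J, ∀ x : T ⧸ P, a • x = 0 := fun a ha x => by
    obtain ⟨x, rfl⟩ := P.mkQ_surjective x
    rw [← map_smul, Submodule.mkQ_apply, Submodule.Quotient.mk_eq_zero, Algebra.smul_def]
    exact Ideal.mul_mem_right _ _ (Ideal.mem_map_of_mem _ ha)
  let W : Submodule O (T ⧸ P) := Submodule.span O (Set.range fun i => P.mkQ (j (ω i)))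
  refine h1.trans ((len_split _ W.mkQ).le.trans (add_le_add ?_ ?_))
  · refine (len_span (fun i => P.mkQ (j (ω i))) J (fun i a ha => hJ a ha _) _ ?_).trans (by simp)
    rw [Submodule.ker_mkQ]; exact inf_le_right
  · refine (len_span (fun i => W.mkQ (P.mkQ (j (s i)))) (J ⊔ Ideal.span {algebraMap B O g})
      (fun i a ha => ?_) _ ?_).trans (by simp)
    · obtain ⟨y, hy, z, hz, rfl⟩ := Submodule.mem_sup.1 ha
      obtain ⟨b, rfl⟩ := Ideal.mem_span_singleton'.1 hz
      rw [← map_smul, add_smul, hJ y hy, zero_add, mul_smul, Submodule.mkQ_apply,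
        Submodule.Quotient.mk_eq_zero]
      refine W.smul_mem _ ?_
      rw [← map_smul, algebraMap_smul, ← map_smul]
      have := Submodule.mem_map_of_mem (f := P.mkQ) (hj ω _ (hg (s i)))
      rwa [Submodule.map_span, ← Set.range_comp] at this
    · rw [Submodule.map_span, Submodule.map_span, ← Set.range_comp, ← Set.range_comp]
      exact le_rfl

theorem ex_om (B S : Type*) [CommRing B] [IsDomain B] [AddCommGroup S] [Module B S]
    [Module.Finite B S] : ∃ (ω : Fin (Module.finrank B S) → S) (g : B), g ≠ 0 ∧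
      ∀ x : S, g • x ∈ Submodule.span B (Set.range ω) := by
  obtain ⟨ω, hω⟩ := exists_linearIndependent_of_le_finrank (R := B) (M := S) le_rfl
  have h1 := Submodule.finrank_quotient_add_finrank (Submodule.span B (Set.range ω))
  rw [finrank_span_eq_card hω, Fintype.card_fin, add_eq_right,
    Module.finrank_eq_zero_iff_isTorsion] at h1
  obtain ⟨g, hg, hg'⟩ := Submodule.annihilator_top_inter_nonZeroDivisors h1
  refine ⟨ω, g, nonZeroDivisors.ne_zero hg', fun x => ?_⟩
  rw [← Submodule.Quotient.mk_eq_zero, Submodule.Quotient.mk_smul]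
  exact Submodule.mem_annihilator.1 hg _ trivial

theorem small (h1 : Gon1Stmt.{u}) (hR : RkStmt.{u}) (hV : EvStmt.{u}) (hU : UnrStmt.{u})
    (O : Type u) [CommRing O] [IsDomain O] [IsLocalRing O] [IsNoetherianRing O] (hO : HasPF O)
    {d : ℕ} (y : Fin d → O) (hy : Ideal.span (Set.range y) = maximalIdeal O) (g : O) (hg : g ≠ 0) :
    Tendsto (fun t : ℕ => ((Module.length O (O ⧸ (Ideal.span (Set.range fun l => y l ^ t) ⊔
      Ideal.span {g}))).toNat : ℝ) / (t : ℝ) ^ d) atTop (𝓝 0) := by
  obtain ⟨K, O', _, _, _, _, _, a, hC, ha⟩ := h1 O hO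
  obtain ⟨f, hf⟩ := (hV K d).ev O' _ hC.cpl (fun l => a (y l)) fun l => Ideal.le_radical
    (ha.map ▸ Ideal.mem_map_of_mem _ (hy ▸ Ideal.subset_span ⟨l, rfl⟩))
  let := f.toRingHom.toAlgebra
  have : IsScalarTower K (PS K d) O' := .of_algebraMap_eq fun c => (f.commutes c).symm
  have hb : ∀ t, (br K d t).map (algebraMap (PS K d) O') =
      (Ideal.span (Set.range fun l => y l ^ t)).map a := fun t => by
    rw [Ideal.map_span, Ideal.map_span, ← Set.range_comp, ← Set.range_comp]
    congr 2
    funext l
    simp only [Function.comp, map_pow, ← hf]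
    rfl
  have hm : (mx K d).map (algebraMap (PS K d) O') = maximalIdeal O' := by
    have := hb 1
    simp only [br, pow_one] at this
    rw [this, ← ha.map, ← hy]
  have : Module.Finite (PS K d) O' := by
    refine (hV K d).fin O' ?_ ?_
    · rw [← IsHausdorff.map_algebraMap_iff (S := O'), hm]
      exact hC.cpl.toIsHausdorff
    · rw [Ideal.smul_top_eq_map, hm]
      change Module.length K (O' ⧸ maximalIdeal O') ≠ ⊤
      rw [← hU.2.2 K O' (O' ⧸ maximalIdeal O') hC.res, Module.length_eq_one_iff.2
        (isSimpleModule_iff_isCoatom.2 (maximalIdeal.isMaximal O').out)]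
      simp
  let G : O' →ₗ[PS K d] O' := (LinearMap.lsmul O' O' (a g)).restrictScalars _
  have hG : Function.Injective G := by
    let := a.toAlgebra
    have : Module.Flat O O' := ha.flat
    exact Module.Flat.isSMulRegular_of_nonZeroDivisors (M := O') (mem_nonZeroDivisors_of_ne_zero hg)
  have := Dv.dom K d
  have hz : Module.finrank (PS K d) (O' ⧸ LinearMap.range G) = 0 := by
    have := Dv.fr_add G (LinearMap.range G).mkQ hG (Submodule.mkQ_surjective _)
      (LinearMap.exact_iff.2 (Submodule.ker_mkQ _))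
    omega
  obtain ⟨-, b2, -, b4, -⟩ := hR K d (O' ⧸ LinearMap.range G)
  rw [hz, Nat.cast_zero] at b4
  refine squeeze_zero (fun t => by positivity) (fun t => ?_) b4
  refine div_le_div_of_nonneg_right (Nat.cast_le.2 (ENat.toNat_le_toNat ?_ (b2 t))) (by positivity)
  rw [← (hU.2.1 O O' a ha).2.2, hU.2.2 K O' _ hC.res]
  refine Dv.cl_le (K := K) (A := O') _ _ ((LinearMap.range G).mkQ.restrictScalars K) fun v hv => ?_
  have e0 : (br K d t • ⊤ : Submodule (PS K d) (O' ⧸ LinearMap.range G)) =
      (br K d t • ⊤ : Submodule _ _).map (LinearMap.range G).mkQ := by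
    rw [Submodule.map_smul'', Submodule.map_top, Submodule.range_mkQ]
  rw [e0] at hv
  obtain ⟨w, hw, e⟩ := hv
  obtain ⟨z, hz⟩ := (Submodule.Quotient.eq _).1 e.symm
  rw [(eq_sub_iff_add_eq'.1 hz).symm, Ideal.map_sup]
  rw [Ideal.smul_top_eq_map, hb] at hw
  exact Submodule.add_mem_sup hw (Ideal.mul_mem_right _ _
    (Ideal.mem_map_of_mem _ (Ideal.mem_span_singleton_self g)))

theorem gens (O : Type*) [CommRing O] [IsRegularLocalRing O] (d : ℕ) (h : ringKrullDim O ≤ d) :
    ∃ y : Fin d → O, Ideal.span (Set.range y) = maximalIdeal O := by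
  classical
  obtain ⟨s, hs, hs'⟩ := Submodule.FG.exists_span_finset_card_eq_spanFinrank
    (IsNoetherian.noetherian (maximalIdeal O))
  rw [← IsRegularLocalRing.spanFinrank_maximalIdeal, ← hs] at h
  have h' : s.card ≤ d := by exact_mod_cast h
  refine ⟨fun i => if h : i.1 < s.card then (s.equivFin.symm ⟨i, h⟩ : O) else 0, ?_⟩
  rw [← hs']
  refine le_antisymm (Ideal.span_le.2 ?_) (Submodule.span_mono fun x hx => ?_)
  · rintro _ ⟨i, rfl⟩
    dsimp only
    split_ifs
    · exact Submodule.subset_span (Finset.coe_mem _)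
    · exact zero_mem _
  · exact ⟨⟨s.equivFin ⟨x, hx⟩, (s.equivFin ⟨x, hx⟩).2.trans_le h'⟩, by simp⟩

end Bn

open Bn in
theorem ben2Stmt (hG : RegStmt.{u}) (h1 : Gon1Stmt.{u}) (hR : RkStmt.{u}) (hV : EvStmt.{u})
    (hU : UnrStmt.{u}) : Ben2Stmt.{u} := by
  intro K S _ _ _ d D _ _ P _ hK hP
  have := hG K D
  have := Dv.dom K D
  set p := P.comap (algebraMap (PS K D) S) with hp
  have : P.LiesOver p := ⟨rfl⟩
  let O := Localization.AtPrime p
  let T := Localization.AtPrime P
  let := Localization.AtPrime.algebraOfLiesOver p P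
  have : IsScalarTower (PS K D) O T := inferInstance
  have : IsNoetherianRing S := IsNoetherianRing.of_finite (PS K D) S
  obtain ⟨y, hy⟩ := gens O d (by
    rw [IsLocalization.AtPrime.ringKrullDim_eq_height p O]; exact WithBot.coe_le_coe.2 hP)
  have hm : ∀ t, (Ideal.span (Set.range fun l => y l ^ t)).map (algebraMap O T) =
      Ideal.span (Set.range fun l => algebraMap O T (y l) ^ t) := fun t => by
    rw [Ideal.map_span, ← Set.range_comp]
    simp only [Function.comp_def, map_pow]
  have hm1 : Ideal.span (Set.range fun l => algebraMap O T (y l)) =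
      p.map (algebraMap (PS K D) T) := by
    have := hm 1
    simp only [pow_one] at this
    rw [← this, hy, ← Localization.AtPrime.map_eq_maximalIdeal, Ideal.map_map,
      ← IsScalarTower.algebraMap_eq]
  have hcm : (maximalIdeal T).comap (algebraMap S T) = P := Localization.AtPrime.under_maximalIdeal
  have hle : p.map (algebraMap (PS K D) T) ≤ maximalIdeal T := by
    rw [Ideal.map_le_iff_le_comap, IsScalarTower.algebraMap_eq (PS K D) S T, ← Ideal.comap_comap,
      hcm]
  obtain ⟨c, hc⟩ := Ideal.exists_pow_le_of_le_radical_of_fg (I := maximalIdeal T)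
    (J := p.map (algebraMap (PS K D) T)) (by
      rw [Ideal.radical_eq_sInf]
      refine le_sInf fun Q hQ => ?_
      have := hQ.2
      have h2 : Q.comap (algebraMap S T) ≤ P :=
        (Ideal.comap_mono (le_maximalIdeal this.ne_top)).trans hcm.le
      have h3 : p ≤ (Q.comap (algebraMap S T)).comap (algebraMap (PS K D) S) := by
        rw [Ideal.comap_comap, ← IsScalarTower.algebraMap_eq, ← Ideal.map_le_iff_le_comap]
        exact hQ.1
      rcases h2.eq_or_lt with e | e
      · rw [← Localization.AtPrime.map_eq_maximalIdeal, Ideal.map_le_iff_le_comap, e]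
      · exact absurd h3 (Ideal.IsIntegral.comap_lt_comap (R := PS K D) e).not_ge)
    (IsNoetherian.noetherian _)
  refine ⟨fun l => algebraMap O T (y l), c, fun l => hle (hm1 ▸ Ideal.subset_span ⟨l, rfl⟩),
    hm1 ▸ hc, fun ε hε => ?_⟩
  obtain ⟨n, s, hs⟩ := Module.Finite.exists_fin (R := PS K D) (M := S)
  obtain ⟨ω, g, hg, hω⟩ := ex_om (PS K D) S
  have hO : HasPF O := by
    obtain ⟨F, _, _, ⟨j⟩⟩ := hK
    exact ⟨F, _, inferInstance, ⟨((algebraMap (PS K D) O).comp (algebraMap K _)).comp j⟩⟩
  have hg' : algebraMap (PS K D) O g ≠ 0 :=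
    (map_ne_zero_iff _ (IsLocalization.injective O p.primeCompl_le_nonZeroDivisors)).2 hg
  have h2 := (small h1 hR hV hU O hO y hy _ hg').const_mul (n : ℝ)
  rw [mul_zero] at h2
  filter_upwards [h2.eventually (gt_mem_nhds hε), eventually_ge_atTop 1] with t ht ht1
  have h3 := bound (T := T) P.primeCompl s hs ω g hω (Ideal.span (Set.range fun l => y l ^ t))
  rw [hm] at h3
  have h4 := len_pows y t univ ⊥
  rw [bot_sup_eq, bot_sup_eq, coe_univ, Set.image_univ, Set.image_univ, card_univ,
    Fintype.card_fin, hy, Module.length_eq_one_iff.2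
    (isSimpleModule_iff_isCoatom.2 (maximalIdeal.isMaximal O).out), mul_one] at h4
  have h5 : Module.length O (O ⧸ (Ideal.span (Set.range fun l => y l ^ t) ⊔
      Ideal.span {algebraMap (PS K D) O g})) ≠ ⊤ := ne_top_of_le_ne_top (by simp)
    ((Module.length_le_of_surjective _ (Submodule.factor_surjective le_sup_left)).trans h4)
  have h6 := h3.trans (add_le_add_left (mul_le_mul_right h4 _) _)
  lift Module.length O (O ⧸ (Ideal.span (Set.range fun l => y l ^ t) ⊔
      Ideal.span {algebraMap (PS K D) O g})) to ℕ using h5 with b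
  have h7 := ENat.toNat_le_of_le_coe (n := Module.finrank (PS K D) S * t ^ d + n * b)
    (by push_cast; exact h6)
  have h8 : (0 : ℝ) < (t : ℝ) ^ d := by positivity
  rw [ENat.toNat_natCast, ← mul_div_assoc, div_lt_iff₀ h8] at ht
  refine (Nat.cast_le.2 h7).trans ?_
  push_cast
  linarith

end Vale.Agent.P202
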