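import Vale.Agent.P202.Base

open Finset Matrix MvPowerSeries Filter Topology IsLocalRing
open scoped Kronecker Nat

namespace Vale.Agent.P202

universe u

namespace Cbm

section one
variable {k : Type u} [Field k] {r : ℕ}

/-- the Cech differential with coefficients in the field -/
noncomputable def pd (k : Type u) [Field k] (r : ℕ) : Matrix (FJ r) (FJ r) k := ∑ b, ep k b

theorem pd_sq : pd k r * pd k r = 0 := by
  unfold pd
  rw [sum_mul_sum]
  exact sum_anti _ (fun j => ep_sq _ j) fun j l => ep_anti _ j l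

theorem io_pd (b : Fin r × Bool) : io k b * pd k r + pd k r * io k b = 1 := by
  unfold pd
  rw [mul_sum, sum_mul, ← sum_add_distrib, sum_congr rfl fun l _ => io_ep k b l]
  simp

theorem pd_apply (y : FJ r → k) (J : FJ r) :
    (pd k r *ᵥ y) J = ∑ b, ∑ J', (ct b J' J : k) * y J' := by
  rw [sum_comm]
  simp [pd, mulVec, dotProduct, Matrix.sum_apply, sum_mul]

theorem pd_ne {y : FJ r → k} {J : FJ r} (h : (pd k r *ᵥ y) J ≠ 0) :
    ∃ J', y J' ≠ 0 ∧ J' ⊆ J ∧ J.card = J'.card + 1 := by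
  rw [pd_apply] at h
  obtain ⟨b, -, h⟩ := exists_ne_zero_of_sum_ne_zero h
  obtain ⟨J', -, h⟩ := exists_ne_zero_of_sum_ne_zero h
  have h1 : ct b J' J ≠ 0 := fun e => h (by simp [e])
  exact ⟨J', right_ne_zero_of_mul h, by rw [(ct_ne' h1).2]; exact subset_insert _ _, ct_card h1⟩

theorem io_ne {y : FJ r → k} {J : FJ r} {b : Fin r × Bool} (h : (io k b *ᵥ y) J ≠ 0) :
    b ∉ J ∧ y (insert b J) ≠ 0 := by
  simp only [mulVec, dotProduct, map_apply] at h
  obtain ⟨J', -, h⟩ := exists_ne_zero_of_sum_ne_zero h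
  have h1 : ct b J J' ≠ 0 := fun e => h (by simp [e])
  exact ⟨(ct_ne' h1).1, by rw [← (ct_ne' h1).2]; exact right_ne_zero_of_mul h⟩

theorem contr (b : Fin r × Bool) (y : FJ r → k) :
    io k b *ᵥ (pd k r *ᵥ y) + pd k r *ᵥ (io k b *ᵥ y) = y := by
  rw [mulVec_mulVec, mulVec_mulVec, ← add_mulVec, io_pd, one_mulVec]

/-- allowed charts -/
def al (U W : Fin r → Prop) (J : FJ r) : Prop :=
  ∀ a, ((a, false) ∈ J ∨ (a, true) ∈ J) ∧ ((a, true) ∉ J → U a) ∧ ((a, false) ∉ J → W a)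

variable {U W : Fin r → Prop}

theorem al_mono {J J' : FJ r} (h : J ⊆ J') (hJ : al U W J) : al U W J' := fun a =>
  ⟨(hJ a).1.imp (@h _) (@h _), fun c => (hJ a).2.1 fun d => c (h d),
    fun c => (hJ a).2.2 fun d => c (h d)⟩

theorem al_true {J : FJ r} {a : Fin r} (h : al U W (insert (a, true) J)) (hU : U a)
    (hf : (a, false) ∈ J) : al U W J := fun a' => by
  by_cases e : a' = a
  · subst e
    exact ⟨Or.inl hf, fun _ => hU, fun c => absurd hf c⟩
  · have := h a'
    simpa [e] using this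

theorem al_false {J : FJ r} {a : Fin r} (h : al U W (insert (a, false) J)) (hW : W a)
    (hf : (a, true) ∈ J) : al U W J := fun a' => by
  by_cases e : a' = a
  · subst e
    exact ⟨Or.inr hf, fun c => absurd hf c, fun _ => hW⟩
  · have := h a'
    simpa [e] using this

theorem desc (m : ℕ) (S : Finset (Fin r)) : ∀ y : FJ r → k, pd k r *ᵥ y = 0 →
    (∀ J, y J ≠ 0 → al U W J ∧ J.card = m ∧ ∃ a ∈ S, U a ∧ (a, false) ∈ J) →
    ∃ v : FJ r → k, pd k r *ᵥ v = y ∧
      ∀ J, v J ≠ 0 → al U W J ∧ J.card + 1 = m ∧ ∃ a, (a, false) ∈ J := by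
  classical
  induction S using Finset.induction_on with
  | empty =>
    intro y _ h
    refine ⟨0, ?_, fun J hJ => absurd rfl hJ⟩
    rw [mulVec_zero]
    ext J
    by_contra c
    simpa using (h J (Ne.symm c)).2.2
  | insert a S _ ih =>
    intro y hy h
    set y1 : FJ r → k := fun J => if ∃ a' ∈ S, U a' ∧ (a', false) ∈ J then 0 else y J with hy1
    set y2 : FJ r → k := fun J => if ∃ a' ∈ S, U a' ∧ (a', false) ∈ J then y J else 0 with hy2
    have e12 : y = y1 + y2 := by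
      ext J
      simp only [hy1, hy2, Pi.add_apply]
      split_ifs <;> simp
    have s1 : ∀ J, y1 J ≠ 0 → al U W J ∧ J.card = m ∧ U a ∧ (a, false) ∈ J := by
      intro J hJ
      simp only [hy1] at hJ
      split_ifs at hJ with c
      · exact absurd rfl hJ
      · obtain ⟨h1, h2, a', ha', h3⟩ := h J hJ
        rcases mem_insert.1 ha' with rfl | ha'
        · exact ⟨h1, h2, h3⟩
        · exact absurd ⟨a', ha', h3⟩ c
    have s2 : ∀ J, y2 J ≠ 0 → al U W J ∧ J.card = m ∧ ∃ a' ∈ S, U a' ∧ (a', false) ∈ J := by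
      intro J hJ
      simp only [hy2] at hJ
      split_ifs at hJ with c
      · exact ⟨(h J hJ).1, (h J hJ).2.1, c⟩
      · exact absurd rfl hJ
    have d12 : pd k r *ᵥ y1 = -(pd k r *ᵥ y2) := by
      rw [e12, mulVec_add] at hy
      exact eq_neg_of_add_eq_zero_left hy
    have e3 : y - pd k r *ᵥ (io k (a, true) *ᵥ y1) = y2 + io k (a, true) *ᵥ (pd k r *ᵥ y1) := by
      have := contr (a, true) y1
      rw [e12]
      nth_rewrite 1 [← this]
      abel
    obtain ⟨v, hv, sv⟩ := ih (y - pd k r *ᵥ (io k (a, true) *ᵥ y1)) (by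
      rw [mulVec_sub, hy, mulVec_mulVec, pd_sq, zero_mulVec, sub_zero]) (by
      intro J hJ
      rw [e3, Pi.add_apply] at hJ
      by_cases c : y2 J = 0
      · rw [c, zero_add] at hJ
        obtain ⟨n1, n2⟩ := io_ne hJ
        obtain ⟨J1, a1, a2, a3⟩ := pd_ne n2
        rw [d12, Pi.neg_apply, neg_ne_zero] at n2
        obtain ⟨J2, b1, b2, -⟩ := pd_ne n2
        obtain ⟨c1, c2, c3, c4⟩ := s1 J1 a1
        obtain ⟨-, -, a', d1, d2, d3⟩ := s2 J2 b1
        refine ⟨al_true (al_mono a2 c1) c3 (by simpa using a2 c4), ?_, a', d1, d2,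
          by simpa using b2 d3⟩
        rw [card_insert_of_notMem n1] at a3
        omega
      · exact s2 J c)
    refine ⟨v + io k (a, true) *ᵥ y1, by rw [mulVec_add, hv]; abel, fun J hJ => ?_⟩
    rw [Pi.add_apply] at hJ
    by_cases c : v J = 0
    · rw [c, zero_add] at hJ
      obtain ⟨n1, n2⟩ := io_ne hJ
      obtain ⟨c1, c2, c3, c4⟩ := s1 _ n2
      have c5 : (a, false) ∈ J := by simpa using c4
      rw [card_insert_of_notMem n1] at c2
      exact ⟨al_true c1 c3 c5, c2, a, c5⟩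
    · exact sv J c

/-- the chart set that carries the cohomology -/
def J0 (U : Fin r → Prop) [DecidablePred U] : FJ r :=
  univ.filter fun p : Fin r × Bool => p.2 = true ∨ ¬U p.1

theorem J0_card [DecidablePred U] : (J0 U).card = r + #{a | ¬U a} := by
  rw [J0, card_filter, Fintype.sum_prod_type, card_filter]
  simp only [Fintype.sum_bool, true_or, if_true, Bool.false_eq_true, false_or, sum_add_distrib]
  simp

theorem one [DecidablePred U] (m : ℕ) (y : FJ r → k) (hy : pd k r *ᵥ y = 0)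
    (h : ∀ J, y J ≠ 0 → al U W J ∧ J.card = m)
    (h0 : (∀ a, U a ↔ W a) → r + #{a | ¬U a} = m → y (J0 U) = 0) :
    ∃ v : FJ r → k, pd k r *ᵥ v = y ∧
      ∀ J, v J ≠ 0 → al U W J ∧ J.card + 1 = m ∧ ((∀ a, U a ↔ W a) → ∃ a, (a, false) ∈ J) := by
  by_cases hUW : ∀ a, U a ↔ W a
  · obtain ⟨v, hv, sv⟩ := desc (U := U) (W := W) m univ y hy fun J hJ => by
      refine ⟨(h J hJ).1, (h J hJ).2, ?_⟩
      by_contra c
      push Not at c
      have e : J = J0 U := by
        ext ⟨a, b⟩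
        have h1 := (h J hJ).1 a
        have h2 := c a (mem_univ a)
        have h3 := hUW a
        cases b <;> simp only [J0, mem_filter, mem_univ, true_and] <;> tauto
      refine hJ (e ▸ h0 hUW ?_)
      rw [← J0_card, ← e, (h J hJ).2]
    exact ⟨v, hv, fun J hJ => ⟨(sv J hJ).1, (sv J hJ).2.1, fun _ => (sv J hJ).2.2⟩⟩
  · obtain ⟨a, ha⟩ := not_forall.1 hUW
    by_cases hU : U a
    · refine ⟨io k (a, true) *ᵥ y, ?_, fun J hJ => ?_⟩
      · have := contr (a, true) y
        rwa [hy, mulVec_zero, zero_add] at this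
      · obtain ⟨n1, n2⟩ := io_ne hJ
        obtain ⟨c1, c2⟩ := h _ n2
        rw [card_insert_of_notMem n1] at c2
        refine ⟨al_true c1 hU ?_, c2, fun c => absurd c hUW⟩
        by_contra c
        exact ha ⟨fun _ => (c1 a).2.2 (by simpa using c), fun _ => hU⟩
    · refine ⟨io k (a, false) *ᵥ y, ?_, fun J hJ => ?_⟩
      · have := contr (a, false) y
        rwa [hy, mulVec_zero, zero_add] at this
      · obtain ⟨n1, n2⟩ := io_ne hJ
        obtain ⟨c1, c2⟩ := h _ n2
        rw [card_insert_of_notMem n1] at c2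
        refine ⟨al_false c1 (by tauto) ?_, c2, fun c => absurd c hUW⟩
        by_contra c
        exact hU ((c1 a).2.1 (by simpa using c))

end one

section step
variable {k : Type u} [Field k] {r : ℕ} {θ : PS k (r + 1) →ₐ[k] LL k r} {ι : Type} [Fintype ι]
  [DecidableEq ι] {deg : ι → ℕ} {D : Matrix ι ι (PS k (r + 1))}

theorem coeff_cb (x : ι × FJ r → LL k r) (i : ι) (J : FJ r) (e : Mon r) :
    coeff e (LM θ 1 (cb k r) x (i, J)) = (pd k r *ᵥ fun J' => coeff e (x (i, J'))) J := by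
  rw [LM_cb_apply, pd_apply, map_sum]
  refine sum_congr rfl fun b _ => ?_
  rw [map_sum]
  refine sum_congr rfl fun J' _ => ?_
  rw [← zsmul_eq_mul, map_zsmul, zsmul_eq_mul]

/-- the part of a cochain in the degrees satisfying `P` -/
def pt (deg : ι → ℕ) (P : ℕ → Prop) [DecidablePred P] (x : ι × FJ r → LL k r) :
    ι × FJ r → LL k r := fun p => if P (deg p.1) then x p else 0

omit [DecidableEq ι] in
theorem sg_pt (hD : Gr deg deg (-1) D) (P : ℕ → Prop) [DecidablePred P] (x : ι × FJ r → LL k r)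
    (i : ι) (J : FJ r) : LM θ D (sg k r) (pt deg P x) (i, J) =
      if P (deg i + 1) then LM θ D (sg k r) x (i, J) else 0 := by
  rw [LM_sg_apply, LM_sg_apply]
  have key : ∀ j, θ (D i j) * pt deg P x (j, J) =
      if P (deg i + 1) then θ (D i j) * x (j, J) else 0 := by
    intro j
    by_cases h : D i j = 0
    · simp [h]
    · have h1 := hD _ _ h
      have h2 : deg j = deg i + 1 := by omega
      simp only [pt, h2]
      split_ifs <;> simp
  rw [sum_congr rfl fun j _ => key j]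
  split_ifs <;> simp

theorem cb_pt (P : ℕ → Prop) [DecidablePred P] (x : ι × FJ r → LL k r)
    (i : ι) (J : FJ r) : LM θ 1 (cb k r) (pt deg P x) (i, J) =
      if P (deg i) then LM θ 1 (cb k r) x (i, J) else 0 := by
  rw [LM_cb_apply, LM_cb_apply]
  simp only [pt]
  split_ifs <;> simp

variable {B S : ℕ → FJ r → Set (Mon r)}

/-- the filtration by degree -/
def fl (B S : ℕ → FJ r → Set (Mon r)) (q : ℕ) : ℕ → FJ r → Set (Mon r) :=
  fun p J => if p < q then B p J else S p J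

omit [Fintype ι] [DecidableEq ι] in
theorem pt_mem {Ω Ω' : ℕ → FJ r → Set (Mon r)} {P : ℕ → Prop} [DecidablePred P] {n : ℤ}
    {x : ι × FJ r → LL k r} (hx : x ∈ XX k deg Ω n) (h : ∀ p J, P p → Ω p J ⊆ Ω' p J) :
    pt deg P x ∈ XX k deg Ω' n := by
  refine mem_XX.2 fun i J e he => ?_
  simp only [pt] at he
  split_ifs at he with c
  · exact ⟨(mem_XX.1 hx i J e he).1, h _ _ c (mem_XX.1 hx i J e he).2⟩
  · simp at he

theorem fl_le (hSB : ∀ p J, S p J ⊆ B p J) (q p : ℕ) (J : FJ r) : fl B S q p J ⊆ B p J := by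
  unfold fl
  split_ifs
  exacts [le_rfl, hSB p J]

theorem le_fl (hSB : ∀ p J, S p J ⊆ B p J) (q p : ℕ) (J : FJ r) : S p J ⊆ fl B S q p J := by
  unfold fl
  split_ifs
  exacts [hSB p J, le_rfl]

theorem fl_succ (hSB : ∀ p J, S p J ⊆ B p J) (q p : ℕ) (J : FJ r) :
    fl B S q p J ⊆ fl B S (q + 1) p J := by
  unfold fl
  split_ifs
  exacts [le_rfl, by omega, hSB p J, le_rfl]

theorem fl_cx (hD : Gr deg deg (-1) D) (hSB : ∀ p J, S p J ⊆ B p J)
    (hB : CxD (DD θ D) (XX k deg B)) (hS : CxD (DD θ D) (XX k deg S)) (q : ℕ) :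
    CxD (DD θ D) (XX k deg (fl B S q)) := by
  intro n x hx
  have e : x = pt deg (· < q) x + pt deg (fun p => ¬p < q) x := by
    ext1 p
    simp only [pt, Pi.add_apply]
    split_ifs <;> simp
  rw [e, map_add]
  refine add_mem ?_ (XX_mono (le_fl hSB q) _ (hS n _ (pt_mem hx fun p J c => by simp [fl, c])))
  have h1 := hB n _ (pt_mem (P := (· < q)) hx fun p J _ => fl_le hSB q p J)
  refine mem_XX.2 fun i J e he => ⟨(mem_XX.1 h1 i J e he).1, ?_⟩
  by_cases c : deg i < q
  · simpa [fl, c] using (mem_XX.1 h1 i J e he).2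
  · rw [DD_eq, Pi.add_apply, sg_pt hD, cb_pt, if_neg c, if_neg (by omega)] at he
    simp at he

theorem hh0 {E : Type*} [AddCommGroup E] [Module k E] (D g : Module.End k E)
    (X X' : ℤ → Submodule k E) (n : ℤ) : hh D g 0 X X' n = rl (Bc D X X' n) (Zc D X X' n) := by
  simp [hh, Module.End.one_eq_id]

variable {N0 : ℕ} {ν : Fin r → ℤ} {Ω Ω' : ℕ → Set (Mon r)}

/-- the monomials that count -/
def cnt (N0 : ℕ) (ν : Fin r → ℤ) (Ω Ω' : ℕ → Set (Mon r)) (B : ℕ → FJ r → Set (Mon r)) (n : ℤ)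
    (p : ℕ) : Set (Mon r) :=
  {e | e ∈ Ω p ∧ e ∉ Ω' p ∧ typ N0 ν e (p - n) ∧ e ∈ B p (J0 fun a => N0 ≤ e (some a))}

theorem step (hD : Gr deg deg (-1) D) (g : Module.End k (ι × FJ r → LL k r))
    (hB1 : ∀ p J, B p J ⊆ Ω p ∩ cond N0 ν J) (hSB : ∀ p J, Ω' p ∩ cond N0 ν J ⊆ B p J)
    (hB2 : ∀ p J e, e ∈ Ω p → e ∉ Ω' p → e ∈ cond N0 ν J →
      ((∀ a, N0 ≤ e (some a) ↔ (e (some a) : ℤ) ≤ ν a + e none) → ∃ a, (a, false) ∈ J) →
        e ∈ B p J)
    (hB : CxD (DD θ D) (XX k deg B)) (hS : CxD (DD θ D) (XS k N0 ν deg Ω')) (q : ℕ) (n : ℤ) :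
    hh (DD θ D) g 0 (XX k deg (fl B (fun p J => Ω' p ∩ cond N0 ν J) (q + 1)))
      (XX k deg (fl B (fun p J => Ω' p ∩ cond N0 ν J) q)) n ≤
      ∑ i, if deg i = q then (cnt N0 ν Ω Ω' B n (deg i)).encard else 0 := by
  classical
  set S : ℕ → FJ r → Set (Mon r) := fun p J => Ω' p ∩ cond N0 ν J with hSd
  let T : ι → Set (Mon r) := fun i => {e | deg i = q ∧ e ∈ cnt N0 ν Ω Ω' B n (deg i)}
  let f : (ι × FJ r → LL k r) →ₗ[k] (∀ i, T i → k) :=
    LinearMap.pi fun i => LinearMap.pi fun e =>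
      (coeff e.1 : LL k r →ₗ[k] k) ∘ₗ LinearMap.proj (i, J0 fun a => N0 ≤ e.1 (some a))
  rw [hh0]
  refine (rl_le_of_comap f (P' := ⊥) (Q' := ⊤) ?_ (by simp)).trans ?_
  · rintro z ⟨hz, hz'⟩ hf
    have hf' : ∀ i e, e ∈ T i → coeff e (z (i, J0 fun a => N0 ≤ e (some a))) = 0 := fun i e he =>
      congrFun (congrFun ((Submodule.mem_bot k).1 hf) i) ⟨e, he⟩
    have hz2 : DD θ D (pt deg (q + 1 ≤ ·) z) ∈ XX k deg S (n - 1) :=
      hS n _ (pt_mem hz fun p J c => by simp [fl, Nat.not_lt.2 c, hSd])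
    have key : ∀ i e, deg i = q → e ∈ Ω q → e ∉ Ω' q → ∃ v : FJ r → k,
        (pd k r *ᵥ v = fun J => coeff e (z (i, J))) ∧ ∀ J, v J ≠ 0 →
          (deg i : ℤ) + r - J.card = n + 1 ∧ e ∈ B q J := by
      intro i e hi h1 h2
      by_cases hn : (q : ℤ) + r - n < 0
      · refine ⟨0, ?_, fun J hJ => absurd rfl hJ⟩
        rw [mulVec_zero]
        ext J
        by_contra c
        have := (mem_XX.1 hz i J e (Ne.symm c)).1
        omega
      refine Exists.imp (fun v hv => ⟨hv.1, fun J hJ => ?_⟩) (one (U := fun a => N0 ≤ e (some a))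
        (W := fun a => (e (some a) : ℤ) ≤ ν a + e none) ((q : ℤ) + r - n).toNat
        (fun J => coeff e (z (i, J))) ?_ ?_ ?_)
      · obtain ⟨a1, a2, a3⟩ := hv.2 J hJ
        exact ⟨by omega, hB2 q J e h1 h2 a1 a3⟩
      · ext1 J
        rw [← coeff_cb (θ := θ), Pi.zero_apply]
        have a1 : coeff e (DD θ D z (i, J)) = 0 := by
          by_contra c
          have := (mem_XX.1 hz' i J e c).2
          simp only [fl, hi, lt_irrefl, if_false] at this
          exact h2 this.1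
        have a2 : coeff e (DD θ D (pt deg (q + 1 ≤ ·) z) (i, J)) = 0 := by
          by_contra c
          have := (mem_XX.1 hz2 i J e c).2
          rw [hi] at this
          exact h2 this.1
        rw [DD_eq, Pi.add_apply, sg_pt hD, cb_pt, if_pos (by omega), if_neg (by omega),
          add_zero] at a2
        rwa [DD_eq, Pi.add_apply, map_add, a2, zero_add] at a1
      · intro J hJ
        obtain ⟨a1, a2⟩ := mem_XX.1 hz i J e hJ
        exact ⟨(hB1 _ _ (fl_le hSB _ _ _ a2)).2, by omega⟩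
      · intro a1 a2
        by_contra c
        refine c (hf' i e ⟨hi, hi ▸ h1, hi ▸ h2, ⟨a1, ?_⟩,
          fl_le hSB _ _ _ (mem_XX.1 hz i _ e c).2⟩)
        simp only [not_le] at a2
        omega
    choose! v hv sv using key
    let w : ι × FJ r → LL k r := fun p e =>
      if deg p.1 = q ∧ e ∈ Ω q ∧ e ∉ Ω' q then v p.1 e p.2 else 0
    have hwc : ∀ i J e, coeff e (w (i, J)) =
        if deg i = q ∧ e ∈ Ω q ∧ e ∉ Ω' q then v i e J else 0 := fun _ _ _ => rfl
    have hw : w ∈ XX k deg (fl B S (q + 1)) (n + 1) := by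
      refine mem_XX.2 fun i J e he => ?_
      rw [hwc] at he
      split_ifs at he with c
      · obtain ⟨a1, a2⟩ := sv i e c.1 c.2.1 c.2.2 J he
        exact ⟨a1, by simpa [fl, c.1] using a2⟩
      · exact absurd rfl he
    have hDw : DD θ D w ∈ XX k deg (fl B S (q + 1)) n := by
      simpa using fl_cx hD hSB hB hS (q + 1) (n + 1) w hw
    refine Submodule.mem_sup.2 ⟨z - DD θ D w, ?_, _, ⟨w, hw, rfl⟩, by abel⟩
    have h3 := sub_mem hz hDw
    refine mem_XX.2 fun i J e he => ⟨(mem_XX.1 h3 i J e he).1, ?_⟩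
    have h4 := (mem_XX.1 h3 i J e he).2
    by_cases hi : deg i = q
    · simp only [fl, hi, lt_irrefl, if_false, Nat.lt_succ_self, if_true] at h4 ⊢
      refine ⟨?_, (hB1 _ _ h4).2⟩
      by_contra c
      have h5 := (hB1 _ _ h4).1
      apply he
      have e1 : w = pt deg (· = q) w := by
        ext1 p
        simp only [pt]
        split_ifs with c1
        · rfl
        · ext e'
          rw [hwc, if_neg (fun c2 => c1 c2.1), map_zero]
      have e2 : LM θ D (sg k r) w (i, J) = 0 := by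
        rw [e1, sg_pt hD, if_neg (by omega)]
      rw [Pi.sub_apply, map_sub, DD_eq, Pi.add_apply, e2, zero_add, coeff_cb]
      simp only [hwc, hi, h5, c, true_and, not_false_eq_true, if_true]
      rw [hv i e hi h5 c, sub_self]
    · unfold fl at h4 ⊢
      split_ifs at h4 ⊢
      exacts [h4, by omega, by omega, h4]
  · rw [rl_top, (Submodule.quotEquivOfEqBot _ rfl).length_eq, Module.length_pi_of_fintype]
    refine sum_le_sum fun i _ => ?_
    rw [Module.length_pi, Module.length_eq_one, mul_one, ENat.card_coe_set_eq]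
    split_ifs with c
    · exact Set.encard_le_encard fun e he => he.2
    · simp [T, c]

theorem total (hL : LatStmt.{u}) (hD : Gr deg deg (-1) D) (hDD : D * D = 0)
    (g : Module.End k (ι × FJ r → LL k r))
    (hB1 : ∀ p J, B p J ⊆ Ω p ∩ cond N0 ν J) (hSB : ∀ p J, Ω' p ∩ cond N0 ν J ⊆ B p J)
    (hB2 : ∀ p J e, e ∈ Ω p → e ∉ Ω' p → e ∈ cond N0 ν J →
      ((∀ a, N0 ≤ e (some a) ↔ (e (some a) : ℤ) ≤ ν a + e none) → ∃ a, (a, false) ∈ J) →
        e ∈ B p J)
    (hB : CxD (DD θ D) (XX k deg B)) (hS : CxD (DD θ D) (XS k N0 ν deg Ω')) (n : ℤ) :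
    hh (DD θ D) g 0 (XX k deg B) (XS k N0 ν deg Ω') n ≤
      ∑ i, (cnt N0 ν Ω Ω' B n (deg i)).encard := by
  set S : ℕ → FJ r → Set (Mon r) := fun p J => Ω' p ∩ cond N0 ν J with hSd
  have hl := hL k _ (DD θ D) 1 (DD_sq θ hDD) (Commute.one_right _)
  have key : ∀ q : ℕ, hh (DD θ D) 1 0 (XX k deg (fl B S q)) (XX k deg S) n ≤
      ∑ i, if deg i < q then (cnt N0 ν Ω Ω' B n (deg i)).encard else 0 := by
    intro q
    induction q with
    | zero =>
      have : fl B S 0 = S := by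
        funext p J
        simp [fl]
      rw [this, hh0]
      exact (rl_eq_zero.2 (inf_le_left.trans le_sup_left)).le.trans zero_le
    | succ q ih =>
      refine (hl.sub _ (XX k deg (fl B S q)) _ (fl_cx hD hSB hB hS _) (fl_cx hD hSB hB hS _) hS
        (XX_mono (le_fl hSB q)) (XX_mono (fl_succ hSB q)) n).trans ?_
      refine (add_le_add ih (step hD 1 hB1 hSB hB2 hB hS q n)).trans ?_
      rw [← sum_add_distrib]
      refine sum_le_sum fun i _ => ?_
      split_ifs <;> first | omega | simp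
  have h1 := key (univ.sup deg + 1)
  have h2 : ∀ i, deg i < univ.sup deg + 1 := fun i => Nat.lt_succ_of_le (le_sup (mem_univ i))
  have h3 : XX k deg (fl B S (univ.sup deg + 1)) = XX k deg B := by
    funext m
    ext x
    simp [mem_XX, fl, h2]
  simp only [h2, if_true, h3, hh0] at h1
  rw [hh0]
  exact h1

theorem flat_cx (hΩ : ∀ p, Ω' p ⊆ Ω p) (h1 : CxD (DD θ D) (XS k N0 ν deg Ω))
    (h2 : CxD (DD θ D) (XS k N0 ν deg Ω')) : CxD (DD θ D)
      (XX k deg fun p J => (Ω' p ∪ {e | e ∈ Ω p ∧ ∃ a, (a, false) ∈ J}) ∩ cond N0 ν J) := by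
  classical
  intro n x hx
  let x1 : ι × FJ r → LL k r := fun p => if ∃ a, (a, false) ∈ p.2 then x p else 0
  let x2 : ι × FJ r → LL k r := fun p => if ∃ a, (a, false) ∈ p.2 then 0 else x p
  have e : x = x1 + x2 := by
    ext1 p
    simp only [x1, x2, Pi.add_apply]
    split_ifs <;> simp
  have a1 : x1 ∈ XS k N0 ν deg Ω n := mem_XX.2 fun i J e he => by
    simp only [x1] at he
    split_ifs at he with c
    · obtain ⟨b1, b2, b3⟩ := mem_XX.1 hx i J e he
      exact ⟨b1, b2.elim (@hΩ _ e) fun c => c.1, b3⟩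
    · simp at he
  have a2 : x2 ∈ XS k N0 ν deg Ω' n := mem_XX.2 fun i J e he => by
    simp only [x2] at he
    split_ifs at he with c
    · simp at he
    · obtain ⟨b1, b2, b3⟩ := mem_XX.1 hx i J e he
      exact ⟨b1, b2.resolve_right fun d => c d.2, b3⟩
  rw [e, map_add]
  refine add_mem ?_ (XX_mono (fun p J e he => Set.mem_inter (Or.inl he.1) he.2) _ (h2 n _ a2))
  refine mem_XX.2 fun i J e he => ?_
  obtain ⟨b1, b2, b3⟩ := mem_XX.1 (h1 n _ a1) i J e he
  refine ⟨b1, Or.inr ⟨b2, ?_⟩, b3⟩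
  by_contra c
  apply he
  rw [DD_eq, Pi.add_apply, map_add, coeff_cb, LM_sg_apply]
  have d1 : ∀ j, x1 (j, J) = 0 := fun j => if_neg c
  have d2 : (pd k r *ᵥ fun J' => coeff e (x1 (i, J'))) J = 0 := by
    by_contra d
    obtain ⟨J', e1, e2, -⟩ := pd_ne d
    refine e1 ?_
    have : x1 (i, J') = 0 := if_neg fun ⟨a, ha⟩ => c ⟨a, e2 ha⟩
    rw [this, map_zero]
  simp [d1, d2]

end step

end Cbm

open Cbm

theorem cbStmt (hL : LatStmt.{u}) : CbStmt.{u} := by
  intro k _ r θ ι _ _ deg D g N0 ν Ω Ω' hD hDD hΩ h1 h2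
  refine ⟨fun n => ?_, fun ht n => ?_⟩
  · refine (total (Ω := Ω) hL hD hDD g (fun p J => le_rfl)
      (fun p J => Set.inter_subset_inter_left _ (hΩ p)) (fun p J e a _ c _ => ⟨a, c⟩) h1 h2 n).trans
      (sum_le_sum fun i _ => Set.encard_le_encard fun e he => ⟨he.1, he.2.1, he.2.2.1⟩)
  · refine le_antisymm ((total (Ω := Ω) hL hD hDD g ?_ ?_ ?_ ?_ h2 n).trans ?_) zero_le
    · exact fun p J e he => ⟨he.1.elim (@hΩ p e) fun c => c.1, he.2⟩
    · exact fun p J e he => ⟨Or.inl he.1, he.2⟩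
    · exact fun p J e a b c d => ⟨Or.inr ⟨a, d (ht p e a b).1⟩, c⟩
    · exact flat_cx hΩ h1 h2
    · refine (sum_eq_zero fun i _ => Set.encard_eq_zero.2 ?_).le
      refine Set.eq_empty_of_forall_notMem fun e he => ?_
      obtain ⟨a1, a2, -, a4, -⟩ := he
      obtain ⟨a, ha⟩ := (a4.resolve_left a2).2
      have h3 := (ht _ e a1 a2).2
      have h4 : ({a | e (some a) < N0} : Finset (Fin r)) = ∅ := by
        rw [← card_eq_zero]; exact_mod_cast h3
      have h5 : a ∈ ({a | e (some a) < N0} : Finset (Fin r)) := by simpa [J0] using ha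
      simp [h4] at h5

end Vale.Agent.P202
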