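import Vale.Agent.P202.Base

/-! The inequality over the power series ring. -/

open Finset Matrix MvPowerSeries Filter Topology IsLocalRing
open scoped Kronecker Nat

namespace Vale.Agent.P202

universe u

theorem mem_imY {A : Type*} [CommRing A] {n β : Type*} [Fintype n] [DecidableEq n] [Fintype β]
    {Y : β → Matrix n n A} {t : ℕ} {v : n → A} :
    v ∈ imY Y t ↔ ∃ u : β → n → A, ∑ l, Y l ^ t *ᵥ u l = v := by
  constructor
  · intro h
    obtain ⟨f, hf, rfl⟩ := (Submodule.mem_iSup_iff_exists_finsupp _ _).1 h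
    choose u hu using hf
    exact ⟨u, by rw [Finsupp.sum_fintype _ _ fun _ => rfl]; exact sum_congr rfl fun l _ => hu l⟩
  · rintro ⟨u, rfl⟩
    exact sum_mem fun l _ => Submodule.mem_iSup_of_mem l ⟨u l, rfl⟩

theorem coreAStmt (hE : EuStmt.{u}) (hK : KosStmt.{u}) : CoreAStmt.{u} := by
  intro k _ r
  obtain ⟨C, hC⟩ := hE k r
  refine ⟨(5 * (r + 1) + 3) * 2 ^ (r + 1) * C, ?_⟩
  intro γ o s M t ho hs ht n ι _ _ _ _ Y deg D hY g hD hz d d' N lam hN hl
  obtain ⟨f, hf⟩ := hC γ o s M ho hs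
  obtain ⟨g1, gt, hk⟩ := hK k r γ M s _ _ f hf t n Y ht hY
  have a4 := hf.e4 ι deg D g hD hz
  have a1 := hf.e1 ι _ deg D kd (Kos Y) g g1 d d'
  let π : (Finset (Fin (r + 1)) × n → PS k (r + 1)) →ₗ[PS k (r + 1)] (n → PS k (r + 1)) :=
    LinearMap.funLeft _ _ fun a => (∅, a)
  have a3 := hf.e3 _ kd _ gt (N.comap π) lam (fun v hv => by
    obtain ⟨w, hw⟩ := mem_imY.1 (hN _ hv)
    refine ⟨fun p => ∑ l, if p.1 = {l} then w l p.2 else 0, fun ⟨I, a⟩ hI => ?_⟩
    obtain rfl : I = ∅ := card_eq_zero.1 hI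
    rw [kos_zero, ← Finset.sum_apply, hw]; rfl) (by
    refine le_trans ?_ hl
    rw [cl_eq, cl_eq]
    exact rl_le_of_comap (π.restrictScalars k) (fun x _ h => h) fun x _ => by simp)
  have hc : (Fintype.card (Finset (Fin (r + 1)) × n) : ℤ) = 2 ^ (r + 1) * Fintype.card n := by simp
  rw [hc] at a1 a3
  zify
  set W : ℤ := (M + s + 1) ^ r with hW
  set T : ℤ := t ^ (r + 1) with hT
  set x : ℤ := #{i | deg i = 0} * s ^ (r + 1) with hx
  set P : ℤ := 2 ^ (r + 1) with hP
  set ci : ℤ := Nat.cast (Fintype.card ι) with hci0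
  set cn : ℤ := Nat.cast (Fintype.card n) with hcn0
  set F : ℤ := Nat.cast ((r + 1)!) with hF0
  have hF : 1 ≤ F := by simp only [F]; exact_mod_cast Nat.factorial_pos _
  have hT1 : 1 ≤ T := one_le_pow₀ (by exact_mod_cast ht)
  have hP1 : 1 ≤ P := one_le_pow₀ (by norm_num)
  have hW0 : 0 ≤ W := by positivity
  have hci : 0 ≤ ci := by positivity
  have hcn : 0 ≤ cn := by positivity
  push_cast at a1 a3 a4 hk
  rw [← hW] at a1 a3 a4 hk
  set η : ℤ := C * o * W
  have hη : 0 ≤ η := by positivity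
  have b1 : F * x ≤ f _ kd (Kos Y) + (2 * ci + P * cn) * η := by
    have := (abs_le.1 a1).2
    simp only [hx]; linarith
  have b2 : F * (T * x) ≤ F * lam + (P * cn * (C * (o + s + 1) * W) +
      T * ((2 * ci + P * cn) * η + 5 * (r + 1) * (P * cn) * η)) := by
    have := (abs_le.1 hk).1
    have := mul_le_mul_of_nonneg_left b1 (zero_le_one.trans hT1)
    linarith
  have b3 : P * cn * (C * (o + s + 1) * W) + T * ((2 * ci + P * cn) * η + 5 * (r + 1) * (P * cn) * η)
      ≤ (5 * (r + 1) + 3) * P * C * (ci + cn) * (o * T + s + 1) * W := by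
    have c1 : (o : ℤ) + s + 1 ≤ o * T + s + 1 := by nlinarith [(by positivity : (0 : ℤ) ≤ o)]
    have c2 : T * η ≤ C * (o * T + s + 1) * W := by
      simp only [η]
      have : (0 : ℤ) ≤ C * (s + 1) * W := by positivity
      linarith
    have c3 : 2 * ci + P * cn + 5 * (r + 1) * (P * cn) ≤ (5 * (r + 1) + 2) * P * (ci + cn) := by
      have : (0 : ℤ) ≤ (r + 1) * P * ci := by positivity
      nlinarith
    calc _ = P * cn * (C * (o + s + 1) * W) +
          (2 * ci + P * cn + 5 * (r + 1) * (P * cn)) * (T * η) := by ring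
      _ ≤ P * (ci + cn) * (C * (o * T + s + 1) * W) +
          (5 * (r + 1) + 2) * P * (ci + cn) * (C * (o * T + s + 1) * W) := by
        gcongr; linarith
      _ = _ := by ring
  set Z : ℤ := (5 * (r + 1) + 3) * P * C * (ci + cn) * (o * T + s + 1) * W
  have hZ : 0 ≤ Z := by positivity
  have : F * (T * x) ≤ F * (lam + Z) := by
    have := le_mul_of_one_le_left hZ hF
    rw [mul_add F]
    exact b2.trans (add_le_add le_rfl (b3.trans this))
  have := le_of_mul_le_mul_left this (zero_lt_one.trans_le hF)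
  rw [mul_assoc T]
  simp only [Nat.cast_eq_zero]
  exact this

end Vale.Agent.P202
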