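import Vale.Agent.P202.Lat

/-! Module D: devissage from domains to the core inequality in prime characteristic. -/

open Finset Matrix MvPowerSeries Filter Topology IsLocalRing
open scoped Kronecker Nat

namespace Vale.Agent.P202

universe u

namespace Dv

theorem dom (K : Type u) [Field K] (d : ℕ) : IsDomain (PS K d) := NoZeroDivisors.to_isDomain _

section gen
variable {K : Type*} [Field K] {A B M M' : Type*} [CommRing A] [Algebra K A] [AddCommGroup M]
  [Module A M] [Module K M] [IsScalarTower K A M] [CommRing B] [Algebra K B] [AddCommGroup M']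
  [Module B M'] [Module K M'] [IsScalarTower K B M']

theorem cl_le (N : Submodule A M) (N' : Submodule B M') (f : M →ₗ[K] M')
    (h : ∀ v, f v ∈ N' → v ∈ N) : cl K N ≤ cl K N' := by
  have e : ∀ N : Submodule A M, cl K N = rl (N.restrictScalars K) ⊤ := fun N => by
    rw [rl, Submodule.map_top, Submodule.range_mkQ, Module.length_top]; rfl
  have e' : cl K N' = rl (N'.restrictScalars K) ⊤ := by
    rw [rl, Submodule.map_top, Submodule.range_mkQ, Module.length_top]; rfl
  rw [e, e']
  refine le_trans ?_ (Lt.rl_mono (Q := Submodule.map f ⊤) (le_top.trans le_sup_right))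
  rw [Lt.rl_map]
  exact Lt.rl_anti fun v hv => h v hv.1

theorem cl_eq (N : Submodule A M) : cl K N = rl (N.restrictScalars K) ⊤ := by
  rw [rl, Submodule.map_top, Submodule.range_mkQ, Module.length_top]; rfl

theorem cl_pow (J : Ideal A) (a : A) (u : ℕ) :
    cl K ((J ⊔ Ideal.span {a ^ u}) • ⊤ : Submodule A M) ≤
      u * cl K ((J ⊔ Ideal.span {a}) • ⊤ : Submodule A M) := by
  induction u with
  | zero => simp [cl]
  | succ u ih =>
    have hle : (J ⊔ Ideal.span {a ^ (u + 1)}) ≤ J ⊔ Ideal.span {a ^ u} :=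
      sup_le_sup_left (Ideal.span_singleton_le_span_singleton.2 (pow_dvd_pow a u.le_succ)) _
    have h1 := Lt.rl_add (k := K) ((Submodule.restrictScalars_mono K
      (Submodule.smul_mono_left (N := (⊤ : Submodule A M)) hle))) ⊤
    rw [← cl_eq, ← cl_eq] at h1
    rw [h1, Nat.cast_succ, add_mul, one_mul, add_comm]
    refine add_le_add ih ?_
    let g : M →ₗ[K] M := (LinearMap.lsmul A M (a ^ u)).restrictScalars K
    refine le_trans (Lt.rl_mono (Q' := Submodule.map g ⊤) ?_) ?_
    · rw [top_inf_eq, Submodule.sup_smul, Submodule.restrictScalars_sup]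
      refine sup_le_sup (Submodule.restrictScalars_mono K
        (Submodule.smul_mono_left le_sup_left)) fun v hv => ?_
      rw [Submodule.restrictScalars_mem, Submodule.ideal_span_singleton_smul] at hv
      obtain ⟨w, -, rfl⟩ := (Submodule.mem_smul_pointwise_iff_exists _ _ _).1 hv
      exact ⟨w, trivial, rfl⟩
    · rw [Lt.rl_map, cl_eq]
      refine Lt.rl_anti fun v hv => ?_
      have hv1 : v ∈ ((J ⊔ Ideal.span {a}) • ⊤ : Submodule A M) := hv.1
      change a ^ u • v ∈ ((J ⊔ Ideal.span {a ^ (u + 1)}) • ⊤ : Submodule A M)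
      have h2 : Ideal.span {a ^ u} * (J ⊔ Ideal.span {a}) ≤ J ⊔ Ideal.span {a ^ (u + 1)} := by
        rw [Ideal.mul_sup, Ideal.span_singleton_mul_span_singleton, ← pow_succ]
        exact sup_le_sup_right Ideal.mul_le_right _
      refine Submodule.smul_mono_left h2 ?_
      rw [Submodule.mul_smul]
      exact Submodule.smul_mem_smul (Ideal.mem_span_singleton_self _) hv1

theorem cl_pows {ι : Type*} [DecidableEq ι] (a : ι → A) (u : ℕ) (s : Finset ι) : ∀ J : Ideal A,
    cl K ((J ⊔ Ideal.span ((fun i => a i ^ u) '' s)) • ⊤ : Submodule A M) ≤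
      u ^ s.card * cl K ((J ⊔ Ideal.span (a '' s)) • ⊤ : Submodule A M) := by
  induction s using Finset.induction_on with
  | empty => simp
  | insert i s hi ih =>
    intro J
    rw [coe_insert, Set.image_insert_eq, Set.image_insert_eq, Ideal.span_insert, Ideal.span_insert,
      card_insert_of_notMem hi, ← sup_assoc, pow_succ, mul_assoc]
    refine (ih _).trans (mul_le_mul_right ?_ _)
    rw [sup_right_comm, ← sup_assoc, sup_right_comm J (Ideal.span {a i})]
    exact cl_pow _ _ _

theorem fr_add [IsDomain A] {M₁ M₃ : Type*} [AddCommGroup M₁] [Module A M₁] [AddCommGroup M₃]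
    [Module A M₃] [Module.Finite A M] (f : M₁ →ₗ[A] M) (g : M →ₗ[A] M₃)
    (hf : Function.Injective f) (hg : Function.Surjective g) (h : Function.Exact f g) :
    Module.finrank A M = Module.finrank A M₁ + Module.finrank A M₃ := by
  rw [← Submodule.finrank_quotient_add_finrank (LinearMap.ker g),
    (g.quotKerEquivOfSurjective hg).finrank_eq, h.linearMap_ker_eq,
    (LinearEquiv.ofInjective f hf).finrank_eq, add_comm]

end gen

theorem rk_le (hR : RkStmt.{u}) (K : Type u) [Field K] (d : ℕ) (M : Type u) [AddCommGroup M]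
    [Module (PS K d) M] [Module K M] [IsScalarTower K (PS K d) M] [Module.Finite (PS K d) M]
    (t lam : ℕ) (ht : 1 ≤ t) (h : cl K (br K d t • ⊤ : Submodule (PS K d) M) ≤ lam) :
    t ^ d * Module.finrank (PS K d) M ≤ lam := by
  obtain ⟨-, h2, -, h4, -⟩ := hR K d M
  have h5 := h4.comp (tendsto_id.const_mul_atTop' (r := t) ht)
  have ht' : (0 : ℝ) < (t : ℝ) ^ d := by positivity
  have : (Module.finrank (PS K d) M : ℝ) ≤ lam / (t : ℝ) ^ d := by
    refine le_of_tendsto h5 ((eventually_ge_atTop 1).mono fun v hv => ?_)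
    have h6 := cl_pows (K := K) (M := M) (fun i : Fin d => (X i : PS K d) ^ t) v univ ⊥
    simp only [bot_sup_eq, coe_univ, Set.image_univ, ← pow_mul, card_univ,
      Fintype.card_fin] at h6
    have h7 := h6.trans (mul_le_mul_right h _)
    have h8 := h2 (t * v)
    simp only [Function.comp, id]
    lift cl K (br K d (t * v) • ⊤ : Submodule (PS K d) M) to ℕ using h8 with b
    have h9 : (b : ℝ) ≤ (v : ℝ) ^ d * lam := by exact_mod_cast h7
    have hv' : (0 : ℝ) < (v : ℝ) ^ d := by positivity
    rw [ENat.toNat_natCast, Nat.cast_mul, mul_pow, div_le_div_iff₀ (by positivity) ht']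
    nlinarith
  rw [le_div_iff₀ ht'] at this
  rw [mul_comm]
  exact_mod_cast this

section fm
variable {K : Type u} [Field K] {d : ℕ} {R : Type u} [CommRing R] [Algebra K R] {n : Type}
  [Fintype n] [DecidableEq n]

/-- column vectors, with the power series ring acting through matrices -/
def FM (_f : PS K d →ₐ[K] Matrix n n R) (M : Type u) : Type u := n → M

variable (f : PS K d →ₐ[K] Matrix n n R) {M M' : Type u} [AddCommGroup M] [Module R M]
  [AddCommGroup M'] [Module R M']

instance : AddCommGroup (FM f M) := inferInstanceAs (AddCommGroup (n → M))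

noncomputable instance : Module (PS K d) (FM f M) :=
  letI := Matrix.Module.matrixModule (ι := n) (R := R) (M := M)
  Module.compHom (n → M) f.toRingHom

theorem smul_ap (a : PS K d) (v : FM f M) (i : n) : (a • v) i = ∑ j, f a i j • v j := rfl

instance [Module K M] : Module K (FM f M) := inferInstanceAs (Module K (n → M))

instance [Module K M] [IsScalarTower K R M] : IsScalarTower K (PS K d) (FM f M) where
  smul_assoc c a v := by
    funext i
    change ∑ j, f (c • a) i j • v j = c • ∑ j, f a i j • v j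
    simp [smul_sum]

/-- functoriality -/
def fmap (g : M →ₗ[R] M') : FM f M →ₗ[PS K d] FM f M' where
  toFun v := fun i => g (v i)
  map_add' v w := funext fun i => map_add g (v i) (w i)
  map_smul' a v := funext fun i => by
    change g (∑ j, f a i j • v j) = ∑ j, f a i j • g (v j)
    simp

theorem fmap_inj {g : M →ₗ[R] M'} (h : Function.Injective g) : Function.Injective (fmap f g) :=
  fun _ _ e => funext fun i => h (congrFun e i)

theorem fmap_surj {g : M →ₗ[R] M'} (h : Function.Surjective g) :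
    Function.Surjective (fmap f g) := fun w =>
  ⟨fun i => (h (w i)).choose, funext fun i => (h (w i)).choose_spec⟩

theorem fmap_exact {M'' : Type u} [AddCommGroup M''] [Module R M''] {g : M →ₗ[R] M'}
    {g' : M' →ₗ[R] M''} (h : Function.Exact g g') : Function.Exact (fmap f g) (fmap f g') := by
  intro v
  constructor
  · intro e
    have : ∀ i, ∃ x, g x = v i := fun i => (h (v i)).1 (congrFun e i)
    choose w hw using this
    exact ⟨w, funext hw⟩
  · rintro ⟨w, rfl⟩
    exact funext fun i => (h _).2 ⟨w i, rfl⟩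

theorem br_iff {R' : Type u} [CommRing R'] [Algebra R R'] (Y : Fin d → Matrix n n R')
    (hY : ∀ l, Y l = (f (X l)).map (algebraMap R R')) (t : ℕ) (v : FM f R') :
    v ∈ (br K d t • ⊤ : Submodule (PS K d) (FM f R')) ↔ (v : n → R') ∈ imY Y t := by
  have key : ∀ l (w : FM f R'), ((X l : PS K d) ^ t • w : FM f R') = (Y l ^ t) *ᵥ w := by
    intro l w
    funext i
    rw [smul_ap, hY, ← RingHom.mapMatrix_apply, ← map_pow, ← map_pow]
    simp only [mulVec, dotProduct, Algebra.smul_def, RingHom.mapMatrix_apply, Matrix.map_apply]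
  constructor
  · intro hv
    refine Submodule.smul_induction_on hv (fun a ha w _ => ?_) fun x y hx hy => add_mem hx hy
    induction ha using Submodule.span_induction generalizing w with
    | mem a ha =>
      obtain ⟨l, rfl⟩ := ha
      exact Submodule.mem_iSup_of_mem (p := fun l => LinearMap.range (Y l ^ t).mulVecLin) l
        ⟨w, (key l w).symm⟩
    | zero => exact (zero_smul (PS K d) w).symm ▸ (imY Y t).zero_mem
    | add a b _ _ ha hb =>
      exact (add_smul a b w).symm ▸ (imY Y t).add_mem (ha w trivial) (hb w trivial)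
    | smul c a _ ha =>
      have e : (c • a) • w = a • c • w := by rw [smul_eq_mul, mul_comm, mul_smul]
      exact e ▸ ha _ trivial
  · intro hv
    refine Submodule.iSup_induction _ (motive := fun v : n → R' =>
      (v : FM f R') ∈ (br K d t • ⊤ : Submodule (PS K d) (FM f R'))) hv ?_ (zero_mem _)
      fun x y hx hy => add_mem hx hy
    rintro l _ ⟨w, rfl⟩
    have := Submodule.smul_mem_smul (I := br K d t) (N := (⊤ : Submodule (PS K d) (FM f R')))
      (n := w) (r := X l ^ t) (Ideal.subset_span ⟨l, rfl⟩) trivial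
    exact (congrArg (· ∈ (br K d t • ⊤ : Submodule (PS K d) (FM f R'))) (key l w)).mp this

end fm

section main
variable {K : Type u} [Field K] {d : ℕ} {R : Type u} [CommRing R] [Algebra (PS K d) R]
  [Algebra K R] [IsScalarTower K (PS K d) R] [Module.Finite (PS K d) R] {m : Ideal R} {c : ℕ}
  {S : Type u} [CommRing S] {n : Type} [Fintype n] [DecidableEq n] {ρ : S →+* Matrix n n R}
  {y ξ : Fin d → S} {N : ℕ}

omit [IsScalarTower K (PS K d) R] in
open scoped IsMulCommutative in
theorem ex_f (hV : Ev K d) (h1 : Red K d m c) (h2 : Dat K d m ρ y ξ N) :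
    ∃ f : PS K d →ₐ[K] Matrix n n R, ∀ l, f (X l) = ρ (y l) := by
  let Λ := Algebra.adjoin R (Set.range fun l => ρ (y l))
  have hc : IsMulCommutative Λ := Algebra.isMulCommutative_adjoin R (by
    rintro _ ⟨i, rfl⟩ _ ⟨j, rfl⟩
    rw [← map_mul, mul_comm, map_mul])
  have : Module.Finite (PS K d) (Matrix n n R) := Module.Finite.trans R _
  have : Module.Finite (PS K d) Λ :=
    Module.Finite.of_injective (Λ.val.toLinearMap.restrictScalars (PS K d)) Subtype.val_injective
  have hcp : IsAdicComplete ((mx K d).map (algebraMap (PS K d) Λ)) Λ :=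
    (IsAdicComplete.map_algebraMap_iff _ _).2 (hV.cpl Λ)
  obtain ⟨g, hg⟩ := hV.ev Λ _ hcp (fun l => ⟨ρ (y l), Algebra.subset_adjoin ⟨l, rfl⟩⟩) (by
    intro l
    set z : Λ := ⟨ρ (y l), Algebra.subset_adjoin ⟨l, rfl⟩⟩ with hz
    have e1 : Polynomial.aeval (z ^ N) (ρ (y l) ^ N).charpoly = 0 := by
      apply Subtype.val_injective
      have := Polynomial.aeval_algHom_apply Λ.val (z ^ N) (ρ (y l) ^ N).charpoly
      exact this.symm.trans (Matrix.aeval_self_charpoly _)
    have : Nontrivial R := nontrivial_of_ne 1 0 fun e => h1.ne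
      ((Ideal.eq_top_iff_one m).2 (e ▸ m.zero_mem))
    have e2 : (z ^ N) ^ Fintype.card n ∈ m.map (algebraMap R Λ) := by
      rw [(ρ (y l) ^ N).charpoly_monic.as_sum, map_add, map_pow, Polynomial.aeval_X,
        Matrix.charpoly_natDegree_eq_dim, map_sum, add_eq_zero_iff_eq_neg] at e1
      rw [e1]
      refine neg_mem (sum_mem fun i hi => ?_)
      rw [map_mul, Polynomial.aeval_C]
      refine Ideal.mul_mem_right _ _ (Ideal.mem_map_of_mem _ ?_)
      exact Ideal.pow_le_self (by have := mem_range.1 hi; omega)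
        (Matrix.coeff_charpoly_mem_ideal_pow (h2.nil l) i)
    refine ⟨N * Fintype.card n * (c + 1), ?_⟩
    rw [pow_mul, pow_mul]
    have e3 := Ideal.pow_mem_pow e2 (c + 1)
    rw [← Ideal.map_pow] at e3
    have e4 := Ideal.map_mono (f := algebraMap R Λ) (h1.red.trans Ideal.mul_le_left) e3
    rwa [Ideal.map_map, ← IsScalarTower.algebraMap_eq] at e4)
  exact ⟨(Λ.val.restrictScalars K).comp g, fun l => congrArg Subtype.val (hg l)⟩

theorem fin_f (hR : RkStmt.{u}) (hV : Ev K d) (h1 : Red K d m c) (h2 : Dat K d m ρ y ξ N)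
    (f : PS K d →ₐ[K] Matrix n n R) (hf : ∀ l, f (X l) = ρ (y l)) :
    Module.Finite (PS K d) (FM f R) := by
  refine hV.fin _ ⟨fun v hv => ?_⟩ ?_
  · obtain ⟨N1, hN⟩ := Ideal.exists_pow_le_of_le_radical_of_fg (I := mx K d) (J := br K d N)
      (Ideal.span_le.2 (by rintro _ ⟨l, rfl⟩; exact ⟨N, Ideal.subset_span ⟨l, rfl⟩⟩))
      (Submodule.fg_span (Set.finite_range _))
    let G : ℕ → Submodule (PS K d) (FM f R) := fun j =>
      { carrier := {v | ∀ i, v i ∈ m ^ j}
        add_mem' := fun ha hb i => add_mem (ha i) (hb i)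
        zero_mem' := fun i => zero_mem _
        smul_mem' := fun a v hv i => sum_mem fun j _ => Ideal.mul_mem_left _ _ (hv j) }
    have hG : ∀ j, (mx K d ^ (N1 * j) • ⊤ : Submodule (PS K d) (FM f R)) ≤ G j := by
      intro j
      induction j with
      | zero => intro v _ i; simp
      | succ j ih =>
        rw [mul_add_one, pow_add, mul_comm, Submodule.mul_smul]
        refine (Submodule.smul_mono hN ih).trans ?_
        rw [Submodule.span_smul_eq, Submodule.set_smul_le_iff]
        rintro _ w ⟨l, rfl⟩ hw i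
        rw [smul_ap, map_pow, hf, pow_succ']
        exact sum_mem fun j _ => Ideal.mul_mem_mul (h2.nil l i j) (hw j)
    funext i
    refine (hV.cpl R).toIsHausdorff.haus (v i) fun j => ?_
    rw [SModEq.zero, Ideal.smul_top_eq_map, Submodule.restrictScalars_mem, Ideal.map_pow]
    have := hG _ (SModEq.zero.1 (hv (N1 * ((c + 1) * j)))) i
    rw [pow_mul] at this
    exact Ideal.pow_right_mono (h1.red.trans Ideal.mul_le_left) j this
  · refine ne_top_of_le_ne_top ((hR K d (n → R)).2.1 N)
      (cl_le _ _ (LinearMap.id : (n → R) →ₗ[K] (n → R)) fun v hv => ?_)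
    have e : mx K d = br K d 1 := by simp only [br, pow_one]
    rw [e, br_iff f (R' := R) (fun l => ρ (y l)) (fun l => by simp [hf])]
    have : (br K d N • ⊤ : Submodule (PS K d) (n → R)) ≤
        (imY (fun l => ρ (y l)) 1).restrictScalars _ := by
      rw [Submodule.span_smul_eq, Submodule.set_smul_le_iff]
      rintro _ w ⟨l, rfl⟩ -
      obtain ⟨z, hz⟩ := Ideal.mem_span_range_iff_exists_fun.1 (h2.pw l)
      have e2 : (X l : PS K d) ^ N • w = ρ (ξ l ^ N) *ᵥ w := by
        rw [map_pow, h2.sc, smul_pow, one_pow, smul_mulVec, one_mulVec, ← map_pow, algebraMap_smul]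
      rw [Submodule.restrictScalars_mem, e2, ← hz, map_sum, sum_mulVec]
      refine sum_mem fun j _ => Submodule.mem_iSup_of_mem j ⟨ρ (z j) *ᵥ w, ?_⟩
      rw [mul_comm, map_mul, pow_one, mulVecLin_apply, mulVec_mulVec]
    exact this hv

end main

theorem lim_le {a b : ℕ → ℝ} {ρ ρ' C : ℝ} {r : ℕ}
    (ha : Tendsto (fun t : ℕ => a t / (t : ℝ) ^ (r + 1)) atTop (𝓝 ρ'))
    (hb : Tendsto (fun t : ℕ => b t / (t : ℝ) ^ (r + 1)) atTop (𝓝 0))
    (h : ∀ t : ℕ, 1 ≤ t → (t : ℝ) ^ (r + 1) * ρ ≤ a t + C * b t + C * (t + 1) ^ r) : ρ ≤ ρ' := by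
  have h0 : Tendsto (fun t : ℕ => (t : ℝ)⁻¹) atTop (𝓝 0) := tendsto_inv_atTop_nhds_zero_nat
  have h1 := (ha.add (hb.const_mul C)).add ((((h0.const_add 1).pow r).mul h0).const_mul C)
  simp only [mul_zero, add_zero] at h1
  refine ge_of_tendsto h1 ((eventually_ge_atTop 1).mono fun t ht => ?_)
  have ht' : (0 : ℝ) < t := by exact_mod_cast ht
  have e : (1 + (t : ℝ)⁻¹) ^ r * (t : ℝ)⁻¹ = (t + 1) ^ r / (t : ℝ) ^ (r + 1) := by
    rw [show 1 + (t : ℝ)⁻¹ = (t + 1) / t by field_simp, div_pow, pow_succ]; field_simp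
  rw [e, ← mul_div_assoc, ← mul_div_assoc, ← add_div, ← add_div, le_div_iff₀ (by positivity),
    mul_comm]
  exact h t ht

theorem prime_case (hD : DomStmt.{u}) (hR : RkStmt.{u}) {K : Type u} [Field K] [PerfectField K]
    (p : ℕ) [Fact p.Prime] [CharP K p] {r : ℕ} {R : Type u} [CommRing R]
    [Algebra (PS K (r + 1)) R] [Algebra K R] [IsScalarTower K (PS K (r + 1)) R]
    [Module.Finite (PS K (r + 1)) R] {m : Ideal R} {c : ℕ} {S : Type u} [CommRing S] {n : Type}
    [Fintype n] [DecidableEq n] {ρ : S →+* Matrix n n R} {y ξ : Fin (r + 1) → S} {N : ℕ}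
    (h1 : Red K (r + 1) m c) (h2 : Dat K (r + 1) m ρ y ξ N)
    (f : PS K (r + 1) →ₐ[K] Matrix n n R) (hf : ∀ l, f (X l) = ρ (y l)) (P : Ideal R)
    [hP : P.IsPrime] [Module.Finite (PS K (r + 1)) (FM f (R ⧸ P))] :
    Module.finrank (PS K (r + 1)) (R ⧸ P) ≤ Module.finrank (PS K (r + 1)) (FM f (R ⧸ P)) := by
  have := dom K (r + 1)
  have hPm : P ≤ m := fun b hb => by
    by_contra h
    exact hP.ne_top (P.eq_top_of_isUnit_mem hb (h1.unit b h))
  have h1' : Red K (r + 1) (m.map (Ideal.Quotient.mk P)) c := by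
    refine ⟨fun b => ?_, fun e => ?_, fun b hb => ?_, fun j => Ideal.mem_map_of_mem _ (h1.x j), ?_⟩
    · obtain ⟨b, rfl⟩ := Ideal.Quotient.mk_surjective b
      obtain ⟨a, ha⟩ := h1.res b
      exact ⟨a, Ideal.mem_map_of_mem (Ideal.Quotient.mk P) ha⟩
    · have := congrArg (Ideal.comap (Ideal.Quotient.mk P)) e
      rw [Ideal.comap_map_of_surjective _ Ideal.Quotient.mk_surjective, ← RingHom.ker_eq_comap_bot,
        Ideal.mk_ker, sup_eq_left.2 hPm, Ideal.comap_top] at this
      exact h1.ne this
    · obtain ⟨b, rfl⟩ := Ideal.Quotient.mk_surjective b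
      exact (h1.unit b fun h => hb (Ideal.mem_map_of_mem _ h)).map _
    · have := Ideal.map_mono (f := Ideal.Quotient.mk P) h1.red
      rwa [Ideal.map_mul, Ideal.map_pow, Ideal.map_pow, Ideal.map_map] at this
  have h2' : Dat K (r + 1) (m.map (Ideal.Quotient.mk P))
      ((Ideal.Quotient.mk P).mapMatrix.comp ρ) y ξ N := by
    refine ⟨h2.ne, fun j => ?_, h2.pw, fun l i i' => ?_⟩
    · rw [RingHom.comp_apply, h2.sc]
      ext i i'
      simp only [RingHom.mapMatrix_apply, Matrix.map_apply, Matrix.smul_apply, smul_eq_mul, map_mul,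
        Matrix.one_apply]
      split_ifs <;> simp
    · rw [RingHom.comp_apply, ← map_pow]
      exact Ideal.mem_map_of_mem _ (h2.nil l i i')
  obtain ⟨δ, C, hδ, h⟩ := hD K p r (R ⧸ P) _ c S n _ y ξ N h1' h2'
  obtain ⟨δ, rfl⟩ := Ideal.Quotient.mk_surjective δ
  have hbr := br_iff f (R' := R ⧸ P) (fun l => ((Ideal.Quotient.mk P).mapMatrix.comp ρ) (y l))
    (fun l => by rw [hf]; rfl)
  let g := fmap f (LinearMap.lsmul R (R ⧸ P) δ)
  have hg : Function.Injective g := fmap_inj f fun a b e => mul_left_cancel₀ hδ e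
  have hz : Module.finrank (PS K (r + 1)) (FM f (R ⧸ P) ⧸ LinearMap.range g) = 0 := by
    have := fr_add g (LinearMap.range g).mkQ hg (Submodule.mkQ_surjective _)
      (LinearMap.exact_iff.2 (Submodule.ker_mkQ _))
    omega
  obtain ⟨-, a2, -, a4, -⟩ := hR K (r + 1) (FM f (R ⧸ P))
  obtain ⟨-, b2, -, b4, -⟩ := hR K (r + 1) (FM f (R ⧸ P) ⧸ LinearMap.range g)
  rw [hz, Nat.cast_zero] at b4
  have := lim_le (ρ := Module.finrank (PS K (r + 1)) (R ⧸ P)) (C := C) a4 b4 fun t ht => by
    have := h t _ _ ht (le_trans ?_ (ENat.natCast_toNat (a2 t)).ge)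
      (le_trans ?_ (ENat.natCast_toNat (b2 t)).ge)
    · exact_mod_cast this
    · exact cl_le _ _ (LinearMap.id : (n → R ⧸ P) →ₗ[K] (n → R ⧸ P)) fun v hv => (hbr t v).1 hv
    · refine cl_le _ _ (((LinearMap.range g).mkQ.restrictScalars K).comp
        (LinearMap.id : (n → R ⧸ P) →ₗ[K] (n → R ⧸ P))) fun v hv => ?_
      have e0 : (br K (r + 1) t • ⊤ : Submodule (PS K (r + 1))
          (FM f (R ⧸ P) ⧸ LinearMap.range g)) = (br K (r + 1) t • ⊤ : Submodule _ _).map
            (LinearMap.range g).mkQ := by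
        rw [Submodule.map_smul'', Submodule.map_top, Submodule.range_mkQ]
      rw [e0] at hv
      obtain ⟨w, hw, e⟩ := hv
      obtain ⟨z, hz⟩ := (Submodule.Quotient.eq _).1 e.symm
      let w' : n → R ⧸ P := w
      let z' : n → R ⧸ P := z
      have e2 : v = w' + Ideal.Quotient.mk P δ • z' := (eq_sub_iff_add_eq'.1 hz).symm
      rw [e2]
      exact Submodule.add_mem_sup ((hbr t w).1 hw)
        (Submodule.smul_mem_smul (Ideal.mem_span_singleton_self _) trivial)
  exact_mod_cast this

end Dv

open Dv in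
theorem corePStmt (hD : DomStmt.{u}) (hR : RkStmt.{u}) (hV : EvStmt.{u}) : CorePStmt.{u} := by
  intro K _ _ p _ _ d R _ _ _ _ _ m c S _ n _ _ ρ y ξ N h1 h2 t lam h
  cases d with
  | zero =>
    have := rk_le hR K 0 R 1 lam le_rfl (le_trans ?_ h)
    · simpa using this
    · refine cl_le _ _ (LinearMap.pi fun _ => LinearMap.id) fun v hv => ?_
      obtain ⟨i⟩ := h2.ne
      rw [imY, iSup_of_empty, Submodule.mem_bot] at hv
      rw [show v = 0 from congrFun hv i]
      exact zero_mem _
  | succ r =>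
    rcases Nat.eq_zero_or_pos t with rfl | ht
    · simp
    have := dom K (r + 1)
    obtain ⟨f, hf⟩ := ex_f (hV K _) h1 h2
    have hF := fin_f hR (hV K _) h1 h2 f hf
    have : IsNoetherianRing R := IsNoetherianRing.of_finite (PS K (r + 1)) R
    have key : ∀ (M : Type u) [AddCommGroup M] [Module R M] [hM : Module.Finite R M],
        Module.Finite (PS K (r + 1)) (FM f M) ∧
        ∀ [Module (PS K (r + 1)) M] [IsScalarTower (PS K (r + 1)) R M],
          Module.finrank (PS K (r + 1)) M ≤ Module.finrank (PS K (r + 1)) (FM f M) := by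
      intro M _ _ hM
      induction hM using IsNoetherianRing.induction_on_isQuotientEquivQuotientPrime R with
      | subsingleton M =>
        have : Subsingleton (FM f M) := inferInstanceAs (Subsingleton (n → M))
        exact ⟨inferInstance, fun [_] [_] => by simp [Module.finrank_zero_of_subsingleton]⟩
      | quotient M P e =>
        have h3 : Module.Finite (PS K (r + 1)) (FM f (R ⧸ P.1)) :=
          Module.Finite.of_surjective _ (fmap_surj f (Submodule.mkQ_surjective P.1))
        let e' := LinearEquiv.ofBijective (fmap f e.toLinearMap)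
          ⟨fmap_inj f e.injective, fmap_surj f e.surjective⟩
        refine ⟨Module.Finite.equiv e'.symm, fun [_] [_] => ?_⟩
        rw [e'.finrank_eq, (e.restrictScalars (PS K (r + 1))).finrank_eq]
        exact prime_case hD hR p h1 h2 f hf P.1
      | exact M₁ M₂ M₃ g g' hg hg' he i1 i3 =>
        have := i1.1
        have := i3.1
        have h3 := Module.Finite.of_exact (fmap_exact f he) (fmap_surj f hg')
        refine ⟨h3, fun [_] [_] => ?_⟩
        let := Module.compHom M₁ (algebraMap (PS K (r + 1)) R)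
        let := Module.compHom M₃ (algebraMap (PS K (r + 1)) R)
        have : IsScalarTower (PS K (r + 1)) R M₁ := .of_algebraMap_smul fun _ _ => rfl
        have : IsScalarTower (PS K (r + 1)) R M₃ := .of_algebraMap_smul fun _ _ => rfl
        have : Module.Finite (PS K (r + 1)) M₂ := Module.Finite.trans R _
        rw [fr_add (g.restrictScalars (PS K (r + 1))) (g'.restrictScalars _) hg hg' he,
          fr_add _ _ (fmap_inj f hg) (fmap_surj f hg') (fmap_exact f he)]
        exact add_le_add i1.2 i3.2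
    refine (Nat.mul_le_mul_left _ (key R).2).trans (rk_le hR K _ _ t lam ht (le_trans ?_ h))
    exact cl_le _ _ (LinearMap.id : (n → R) →ₗ[K] (n → R)) fun v hv =>
      (br_iff f (R' := R) (fun l => ρ (y l)) (fun l => by simp [hf]) t v).2 hv

end Vale.Agent.P202
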