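import Vale.Agent.P202.Base

/-! Invariance and additivity of the approximate Euler characteristic. -/

open Finset Matrix MvPowerSeries Filter Topology IsLocalRing
open scoped Kronecker Nat

namespace Vale.Agent.P202

universe u

namespace Eo

theorem tau_mono (r o s L : ℕ) {n n' : ℕ} (h : n ≤ n') : tau r o s L n ≤ tau r o s L n' := by
  unfold tau; gcongr

theorem sub_le {a b : ℕ∞} {τ : ℕ} (hb : b ≠ ⊤) (h : a ≤ b + τ) :
    (a.toNat : ℤ) - b.toNat ≤ τ := by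
  lift b to ℕ using hb
  lift a to ℕ using ne_top_of_le_ne_top (by simp) h
  have : a ≤ b + τ := by exact_mod_cast h
  simp only [ENat.toNat_coe]; omega

variable {k : Type u} [Field k] {r : ℕ} {θ : PS k (r + 1) →ₐ[k] LL k r} {γ : PS k (r + 1)}
  {o s L : ℕ} {κ : Fin (r + 1)} {ι ι' : Type} [Fintype ι] [DecidableEq ι] [Fintype ι']
  [DecidableEq ι'] {deg : ι → ℕ} {D : Matrix ι ι (PS k (r + 1))} {deg' : ι' → ℕ}
  {D' : Matrix ι' ι' (PS k (r + 1))}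

omit [DecidableEq ι] [Fintype ι'] [DecidableEq ι'] in
theorem mem0 (hθ : Th0 θ) {P : Matrix ι' ι (PS k (r + 1))} (hP : Gr deg deg' 0 P) {c : ℕ} {n : ℤ}
    {x} (hx : x ∈ XE k s L κ (fun _ => c) deg n) : LM θ P 1 x ∈ XE k s L κ (fun _ => c) deg' n := by
  have := LM_one_mem (σ := 0) (l' := fun _ => c) hθ hP (by simp) (by simp) hx
  rwa [add_zero] at this

theorem mem_Bc {E : Type*} [AddCommGroup E] [Module k E] {D : Module.End k E}
    {X X' : ℤ → Submodule k E} {n : ℤ} {y : E} :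
    y ∈ Bc D X X' n ↔ ∃ a ∈ X' n, ∃ w ∈ X (n + 1), a + D w = y := by
  simp [Bc, Submodule.mem_sup]

theorem dom (hθ : Th0 θ) (t : Tm θ γ o s L κ deg D) (d : Dom γ deg D deg' D') (c b : ℕ) (n : ℤ) :
    hh (DD θ D) (gg θ γ ι) (c + 1) (XE k s L κ (fun _ => b) deg) (fun _ => ⊥) n ≤
      hh (DD θ D') (gg θ γ ι') c (XE k s L κ (fun _ => b) deg') (fun _ => ⊥) n := by
  obtain ⟨P, Q, H, hP, hQ, hH, e1, e2, e3⟩ := d
  refine t.lat.eqv _ _ _ _ _ _ _ (LM θ P 1) (LM θ Q 1) c 1 n (t.cx _ (slope_const _ _)) (cx_bot _ _)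
    (LM_gg θ γ Q 1) (fun z hz => ⟨mem0 hθ hP hz.1, ?_⟩) (fun y hy => ?_) fun z hz => ?_
  · have : DD θ D z = 0 := hz.2
    change DD θ D' _ = 0
    rw [DD_LM θ e1, this, map_zero]
  · obtain ⟨a, ha, w, hw, rfl⟩ := mem_Bc.1 hy
    obtain rfl : a = 0 := ha
    exact mem_Bc.2 ⟨0, zero_mem _, _, mem0 hθ hQ hw, by rw [DD_LM θ e2]; simp⟩
  · have h0 : DD θ D z = 0 := hz.2
    have h1 := DD_LM_sg θ D D H z
    have h2 := LM_add θ (Q * P) (D * H + H * D) 1 z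
    rw [← add_assoc, e3, LM_smul_one, ← h1, h0, map_zero, add_zero] at h2
    refine mem_Bc.2 ⟨0, zero_mem _, _, neg_mem
      (LM_sg_mem (σ := 0) (l' := fun _ => b) hθ hH (by simp) (by simp) hz.1), ?_⟩
    rw [pow_one, h2, LM_mul, mul_one]; simp

end Eo

open Eo

theorem e1Stmt : E1Stmt.{u} := by
  intro k _ r θ hθ γ o s L κ ι ι' _ _ _ _ deg D deg' D' t t' d d'
  have a := (t.tame _ (slope_const _ _) fun _ => le_rfl).1
  have a' := (t'.tame _ (slope_const _ _) fun _ => le_rfl).1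
  rw [eu, eu, chi, chi, ← sum_sub_distrib]
  refine (abs_sum_le_sum_abs _ _).trans ((sum_le_card_nsmul _ _
    (tau r o s L (Fintype.card ι + Fintype.card ι') : ℤ) fun n _ => ?_).trans (le_of_eq ?_))
  · rw [← mul_sub, abs_mul, Int.abs_negOnePow, one_mul, abs_sub_le_iff]
    refine ⟨sub_le (a' n).1 ((a n).2.trans (add_le_add (dom hθ t d _ _ n) ?_)),
      sub_le (a n).1 ((a' n).2.trans (add_le_add (dom hθ t' d' _ _ n) ?_))⟩
    · exact_mod_cast tau_mono _ _ _ _ (Nat.le_add_right _ _)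
    · exact_mod_cast tau_mono _ _ _ _ (Nat.le_add_left _ _)
  · rw [Int.card_Icc, nsmul_eq_mul]
    congr 1
    omega

theorem e2Stmt : E2Stmt.{u} := by
  intro k _ r θ hθ γ o s L κ ι ι₁ ι₂ _ _ _ _ _ _ e deg D deg₁ D₁ deg₂ D₂ T t t₁ t₂
  let i₁ : Matrix ι ι₁ (PS k (r + 1)) := (1 : Matrix ι ι _).submatrix id (e ∘ .inl)
  let i₂ : Matrix ι ι₂ (PS k (r + 1)) := (1 : Matrix ι ι _).submatrix id (e ∘ .inr)
  let p₁ : Matrix ι₁ ι (PS k (r + 1)) := (1 : Matrix ι ι _).submatrix (e ∘ .inl) id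
  let p₂ : Matrix ι₂ ι (PS k (r + 1)) := (1 : Matrix ι ι _).submatrix (e ∘ .inr) id
  have gi₁ : Gr deg₁ deg 0 i₁ := fun a b h => by simpa [T.g1] using Gr.one (d := deg) _ _ h
  have gi₂ : Gr deg₂ deg 0 i₂ := fun a b h => by simpa [T.g2] using Gr.one (d := deg) _ _ h
  have gp₁ : Gr deg deg₁ 0 p₁ := fun a b h => by simpa [T.g1] using Gr.one (d := deg) _ _ h
  have gp₂ : Gr deg deg₂ 0 p₂ := fun a b h => by simpa [T.g2] using Gr.one (d := deg) _ _ h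
  have c₁ : D * i₁ = i₁ * D₁ := by
    ext1 a b
    obtain ⟨a | a, rfl⟩ := e.surjective a <;> simp [i₁, mul_apply, one_apply, T.d1, T.d0]
  have c₂ : D₂ * p₂ = p₂ * D := by
    ext1 a b
    obtain ⟨b | b, rfl⟩ := e.surjective b <;> simp [p₂, mul_apply, one_apply, T.d2, T.d0]
  have id0 : ∀ {ι : Type} [Fintype ι] [DecidableEq ι] (x : ι × FJ r → LL k r),
      LM θ (1 : Matrix ι ι _) 1 x = x := fun x => by
    ext1 ⟨i, J⟩; simp [LM_one_apply, one_apply, apply_ite θ]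
  have m11 : ∀ x, LM θ p₁ 1 (LM θ i₁ 1 x) = x := fun x => by
    rw [LM_mul, mul_one, show p₁ * i₁ = 1 by ext1; simp [p₁, i₁, mul_apply, one_apply], id0]
  have m22 : ∀ x, LM θ p₂ 1 (LM θ i₂ 1 x) = x := fun x => by
    rw [LM_mul, mul_one, show p₂ * i₂ = 1 by ext1; simp [p₂, i₂, mul_apply, one_apply], id0]
  have m21 : ∀ x, LM θ p₂ 1 (LM θ i₁ 1 x) = 0 := fun x => by
    rw [LM_mul, mul_one, show p₂ * i₁ = 0 by ext1; simp [p₂, i₁, mul_apply, one_apply], LM_zero]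
  have m0 : ∀ x, LM θ p₂ 1 x = 0 → LM θ i₁ 1 (LM θ p₁ 1 x) = x := fun x hx => by
    have : i₁ * p₁ + i₂ * p₂ = 1 := by
      ext1 a b
      obtain ⟨a | a, rfl⟩ := e.surjective a <;> obtain ⟨b | b, rfl⟩ := e.surjective b <;>
        simp [p₁, p₂, i₁, i₂, mul_apply, one_apply]
    have h := LM_add θ (i₁ * p₁) (i₂ * p₂) 1 x
    rw [this, id0, ← mul_one (1 : Matrix (FJ r) (FJ r) (LL k r)), ← LM_mul, ← LM_mul, hx,
      map_zero, add_zero] at h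
    exact h.symm
  set X := XE k s L κ (fun _ => L + s * (r + 1)) deg with hX
  set X₁ := XE k s L κ (fun _ => L + s * (r + 1)) deg₁ with hX₁
  set X₂ := XE k s L κ (fun _ => L + s * (r + 1)) deg₂ with hX₂
  let X' : ℤ → Submodule k (ι × FJ r → LL k r) := fun n => X n ⊓ LinearMap.ker (LM θ p₂ 1)
  have cx : Cx _ _ X := t.cx _ (slope_const _ _)
  have cx₁ : Cx _ _ X₁ := t₁.cx _ (slope_const _ _)
  have cx₂ : Cx _ _ X₂ := t₂.cx _ (slope_const _ _)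
  have cx' : Cx (DD θ D) (gg θ γ ι) X' := ⟨fun n x hx => ⟨cx.d n x hx.1, by
      have : LM θ p₂ 1 x = 0 := hx.2
      change LM θ p₂ 1 _ = 0
      rw [← DD_LM θ c₂, this, map_zero]⟩, fun n x hx => ⟨cx.g n x hx.1, by
      have : LM θ p₂ 1 x = 0 := hx.2
      change LM θ p₂ 1 _ = 0
      rw [← LM_gg, this, map_zero]⟩⟩
  have d₁ : ∀ w, LM θ p₂ 1 w = 0 → LM θ p₁ 1 (DD θ D w) = DD θ D₁ (LM θ p₁ 1 w) := fun w hw => by
    rw [← m11 (DD θ D₁ _), ← DD_LM θ c₁, m0 w hw]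
  have q₁ : ∀ c n, hh (DD θ D) (gg θ γ ι) c X' (fun _ => ⊥) n =
      hh (DD θ D₁) (gg θ γ ι₁) c X₁ (fun _ => ⊥) n := fun c n => by
    refine le_antisymm (t.lat.eqv _ _ _ _ _ _ _ (LM θ p₁ 1) (LM θ i₁ 1) c 0 n cx' (cx_bot _ _)
      (LM_gg θ γ _ 1) (fun z hz => ⟨mem0 hθ gp₁ hz.1.1, ?_⟩) (fun y hy => ?_) fun z hz => ?_)
      (t₁.lat.eqv _ _ _ _ _ _ _ (LM θ i₁ 1) (LM θ p₁ 1) c 0 n cx₁ (cx_bot _ _)
      (LM_gg θ γ _ 1) (fun z hz => ⟨⟨mem0 hθ gi₁ hz.1, m21 _⟩, ?_⟩) (fun y hy => ?_) fun z hz => ?_)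
    · have : DD θ D z = 0 := hz.2
      change DD θ D₁ _ = 0
      rw [← d₁ z hz.1.2, this, map_zero]
    · obtain ⟨a, ha, w, hw, rfl⟩ := mem_Bc.1 hy
      obtain rfl : a = 0 := ha
      exact mem_Bc.2 ⟨0, zero_mem _, _, ⟨mem0 hθ gi₁ hw, m21 _⟩, by rw [DD_LM θ c₁]; simp⟩
    · simp [m0 z hz.1.2]
    · have : DD θ D₁ z = 0 := hz.2
      change DD θ D _ = 0
      rw [DD_LM θ c₁, this, map_zero]
    · obtain ⟨a, ha, w, hw, rfl⟩ := mem_Bc.1 hy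
      obtain rfl : a = 0 := ha
      exact mem_Bc.2 ⟨0, zero_mem _, _, mem0 hθ gp₁ hw.1, by rw [← d₁ w hw.2]; simp⟩
    · simp [m11]
  have q₂ : ∀ c n, hh (DD θ D) (gg θ γ ι) c X X' n =
      hh (DD θ D₂) (gg θ γ ι₂) c X₂ (fun _ => ⊥) n := fun c n => by
    refine le_antisymm (t.lat.eqv _ _ _ _ _ _ _ (LM θ p₂ 1) (LM θ i₂ 1) c 0 n cx cx'
      (LM_gg θ γ _ 1) (fun z hz => ⟨mem0 hθ gp₂ hz.1, ?_⟩) (fun y hy => ?_) fun z hz => ?_)
      (t₂.lat.eqv _ _ _ _ _ _ _ (LM θ i₂ 1) (LM θ p₂ 1) c 0 n cx₂ (cx_bot _ _)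
      (LM_gg θ γ _ 1) (fun z hz => ⟨mem0 hθ gi₂ hz.1, cx.d _ _ (mem0 hθ gi₂ hz.1), ?_⟩)
      (fun y hy => ?_) fun z hz => ?_)
    · change DD θ D₂ _ = 0
      rw [DD_LM θ c₂]
      exact hz.2.2
    · obtain ⟨a, ha, w, hw, rfl⟩ := mem_Bc.1 hy
      obtain rfl : a = 0 := ha
      refine mem_Bc.2 ⟨LM θ i₂ 1 (DD θ D₂ w) - DD θ D (LM θ i₂ 1 w), ⟨sub_mem ?_ ?_, ?_⟩, _,
        mem0 hθ gi₂ hw, by simp⟩
      · simpa using mem0 hθ gi₂ (cx₂.d _ _ hw)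
      · simpa using cx.d _ _ (mem0 hθ gi₂ hw)
      · change LM θ p₂ 1 _ = 0
        rw [map_sub, ← DD_LM θ c₂, m22, m22, sub_self]
    · refine Submodule.mem_sup_left ⟨sub_mem (mem0 hθ gi₂ (mem0 hθ gp₂ hz.1)) hz.1, ?_⟩
      change LM θ p₂ 1 _ = 0
      simp [m22]
    · change LM θ p₂ 1 (DD θ D _) = 0
      rw [← DD_LM θ c₂, m22]
      exact hz.2
    · obtain ⟨a, ha, w, hw, rfl⟩ := mem_Bc.1 hy
      have : LM θ p₂ 1 a = 0 := ha.2
      exact mem_Bc.2 ⟨0, zero_mem _, _, mem0 hθ gp₂ hw, by rw [map_add, this, DD_LM θ c₂]⟩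
    · simp [m22]
  have hc : Fintype.card ι₁ + Fintype.card ι₂ = Fintype.card ι := by
    rw [← Fintype.card_sum, Fintype.card_congr e]
  have a := (t.tame _ (slope_const _ _) fun _ => le_rfl).1
  have a₁ := (t₁.tame _ (slope_const _ _) fun _ => le_rfl).1
  have a₂ := (t₂.tame _ (slope_const _ _) fun _ => le_rfl).1
  have := t.lat.add (r + 1) _ (r + 1) X X' (fun _ => ⊥) cx cx' (cx_bot _ _) (fun _ => bot_le)
    (fun _ => inf_le_left) (t.bd _) a (fun n => by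
      rw [q₁, q₁]
      exact ⟨(a₁ n).1, (a₁ n).2.trans (add_le_add le_rfl (by
        exact_mod_cast tau_mono _ _ _ _ (by omega)))⟩) fun n => by
      rw [q₂, q₂]
      exact ⟨(a₂ n).1, (a₂ n).2.trans (add_le_add le_rfl (by
        exact_mod_cast tau_mono _ _ _ _ (by omega)))⟩
  simp only [chi, q₁, q₂] at this
  refine le_of_le_of_eq this ?_
  push_cast; ring

end Vale.Agent.P202
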