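import Vale.Agent.P202.Cb

open Finset Matrix MvPowerSeries Filter Topology IsLocalRing
open scoped Kronecker Nat

namespace Vale.Agent.P202

universe u

namespace E3m

open Cbm

theorem cnt_le {r : ℕ} (S : Set (Mon r)) (u w : ℕ) (f : Mon r → ℕ) (g : Mon r → Fin r → ℕ)
    (h : ∀ e ∈ S, f e < u ∧ ∀ a, g e a < w)
    (inj : ∀ e ∈ S, ∀ e' ∈ S, f e = f e' → (∀ a, g e a = g e' a) → e = e') :
    S.encard ≤ (u * w ^ r : ℕ) := by
  have h1 := Set.encard_le_encard_of_injOn (f := fun e => (f e, g e)) (s := S)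
    (t := ((range u ×ˢ Fintype.piFinset fun _ : Fin r => range w : Finset _) : Set _))
    (fun e he => by simpa using h e he)
    (fun e he e' he' c => inj e he e' he' (congrArg Prod.fst c) (congrFun (congrArg Prod.snd c)))
  rw [Set.encard_coe_eq_coe_finsetCard] at h1
  simpa using h1

theorem mon_ext {r : ℕ} {e e' : Mon r} (h : e none = e' none) (h' : ∀ a, e (some a) = e' (some a)) :
    e = e' := by
  ext a
  cases a
  exacts [h, h' _]

variable {k : Type u} [Field k] {r : ℕ} {θ : PS k (r + 1) →ₐ[k] LL k r} {ι : Type} [Fintype ι]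
  [DecidableEq ι] {deg : ι → ℕ} {D : Matrix ι ι (PS k (r + 1))} {N0 O L u : ℕ} {ν : Fin r → ℤ}

theorem typ_high (hN : N0 = O + L) (hν : ∀ a, (L : ℤ) ≤ ν a) {e : Mon r} {j : ℤ}
    (h : typ N0 ν e j) (he : O ≤ e none) : j = 0 ∧ e ∈ Om N0 ν 0 O := by
  have h1 : ∀ a, N0 ≤ e (some a) := fun a => by
    have := h.1 a
    have := hν a
    omega
  refine ⟨?_, he, fun a => ?_⟩
  · rw [← h.2]
    simpa using h1
  · have := h.1 a
    have := h1 a
    omega

theorem typ_low (hN : N0 = O + L) (hO : O = L + u) (hν : ∀ a, (L : ℤ) ≤ ν a ∧ ν a ≤ O) {j : ℤ}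
    (hj : j < r) : {e : Mon r | e none < O ∧ typ N0 ν e j}.encard ≤ (u * (2 * u) ^ r : ℕ) := by
  have key : ∀ e : Mon r, e none < O → typ N0 ν e j → L ≤ e none ∧
      ∀ a, 2 * L < e (some a) ∧ e (some a) < 2 * L + 2 * u := by
    intro e h1 h2
    obtain ⟨b, hb⟩ : ∃ b, N0 ≤ e (some b) := by
      by_contra c
      push Not at c
      have := h2.2
      simp [c] at this
      omega
    have h3 : L ≤ e none := by
      have := h2.1 b
      have := hν b
      omega
    refine ⟨h3, fun a => ?_⟩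
    have := h2.1 a
    have := hν a
    omega
  refine cnt_le _ _ _ (fun e => e none - L) (fun e a => e (some a) - 2 * L) ?_ ?_
  · rintro e ⟨h1, h2⟩
    obtain ⟨h3, h4⟩ := key e h1 h2
    exact ⟨by omega, fun a => by have := h4 a; omega⟩
  · rintro e ⟨h1, h2⟩ e' ⟨h1', h2'⟩ c c'
    obtain ⟨h3, h4⟩ := key e h1 h2
    obtain ⟨h3', h4'⟩ := key e' h1' h2'
    refine mon_ext (by omega) fun a => ?_
    have := h4 a
    have := h4' a
    have := c' a
    omega

omit [Fintype ι] [DecidableEq ι] in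
theorem XS_union {Ω Ω' : ℕ → Set (Mon r)} (n : ℤ) :
    XS k N0 ν deg (fun p => Ω p ∪ Ω' p) n ≤ XS k N0 ν deg Ω n ⊔ XS k N0 ν deg Ω' n := by
  classical
  intro x hx
  let x1 : ι × FJ r → LL k r := fun p e => if e ∈ Ω (deg p.1) then coeff e (x p) else 0
  have h1 : ∀ i J e, coeff e (x1 (i, J)) = if e ∈ Ω (deg i) then coeff e (x (i, J)) else 0 :=
    fun _ _ _ => rfl
  refine Submodule.mem_sup.2 ⟨x1, mem_XX.2 fun i J e he => ?_, x - x1,
    mem_XX.2 fun i J e he => ?_, by abel⟩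
  · rw [h1] at he
    split_ifs at he with c
    · exact ⟨(mem_XX.1 hx i J e he).1, c, (mem_XX.1 hx i J e he).2.2⟩
    · exact absurd rfl he
  · rw [Pi.sub_apply, map_sub, h1] at he
    split_ifs at he with c
    · simp at he
    · rw [sub_zero] at he
      obtain ⟨a1, a2, a3⟩ := mem_XX.1 hx i J e he
      exact ⟨a1, a2.resolve_left c, a3⟩

/-- the chart set of all `W` charts -/
def JT (r : ℕ) : FJ r := univ.image fun a => (a, true)

theorem JT_card : (JT r).card = r := by
  rw [JT, card_image_of_injective _ (fun a b h => (Prod.mk.inj h).1)]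
  simp

theorem mem_JT {a : Fin r} {b : Bool} : (a, b) ∈ JT r ↔ b = true := by
  cases b <;> simp [JT]

theorem sub_JT {J : FJ r} (h : ¬∃ a, (a, false) ∈ J) : J ⊆ JT r := by
  rintro ⟨a, b⟩ c
  cases b
  · exact absurd ⟨a, c⟩ h
  · exact mem_JT.2 rfl

/-- the corner monomial -/
noncomputable def sgm (r N0 O : ℕ) : Mon r :=
  Finsupp.equivFunOnFinite.symm fun a => a.elim O fun _ => N0

@[simp] theorem sgm_none : sgm r N0 O none = O := rfl

@[simp] theorem sgm_some (a : Fin r) : sgm r N0 O (some a) = N0 := rfl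

/-- placing a vector in the chart set `JT` -/
noncomputable def pl (deg : ι → ℕ) (N0 O q : ℕ) : (ι → LL k r) →ₗ[k] (ι × FJ r → LL k r) where
  toFun F p := if deg p.1 = q ∧ p.2 = JT r then F p.1 * monomial (sgm r N0 O) 1 else 0
  map_add' F G := by
    ext1 p
    simp only [Pi.add_apply]
    split_ifs <;> simp [add_mul]
  map_smul' c F := by
    ext1 p
    simp only [Pi.smul_apply, RingHom.id_apply]
    split_ifs <;> simp

omit [Fintype ι] [DecidableEq ι] in
theorem pl_apply (q : ℕ) (F : ι → LL k r) (i : ι) (J : FJ r) : pl deg N0 O q F (i, J) =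
    if deg i = q ∧ J = JT r then F i * monomial (sgm r N0 O) 1 else 0 := rfl

omit [Fintype ι] [DecidableEq ι] in
theorem pl_mem (hN : N0 = O + L) (hν : ∀ a, (L : ℤ) ≤ ν a) (q b : ℕ) {F : ι → LL k r}
    (hF : ∀ i, F i ∈ Pv k (SB r b)) :
    pl deg N0 O q F ∈ XF k N0 ν 0 (fun _ => O + b) deg q := by
  refine mem_XX.2 fun i J e he => ?_
  rw [pl_apply] at he
  split_ifs at he with c
  · have h1 : monomial (sgm r N0 O) (1 : k) ∈ Pv k (Om N0 ν 0 O ∩ cond N0 ν J) := by
      intro e' he'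
      obtain rfl : e' = sgm r N0 O := by
        by_contra c'
        exact he' (coeff_monomial_ne c' _)
      refine ⟨⟨le_rfl, fun a => ?_⟩, fun a => ⟨Or.inr (c.2 ▸ mem_JT.2 rfl), fun _ => le_rfl,
        fun _ => ?_⟩⟩
      · have := hν a
        simp only [sgm_some, sgm_none]
        omega
      · have := hν a
        simp only [sgm_some, sgm_none]
        omega
    refine ⟨by rw [c.1, c.2, JT_card]; ring, mul_mem_Pv (hF i) h1 (fun a ha b hb => ?_) e he⟩
    exact ⟨add_mem_Om ha hb.1 le_rfl, add_mem_cond ha hb.2⟩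
  · simp at he

/-- the monomials outside the translated cone -/
def AA (N0 O L : ℕ) (ν : Fin r → ℤ) (a : Fin r) : Set (Mon r) :=
  {e | e ∈ Om N0 ν 0 O ∧ e none < O + L ∧ e none + N0 < e (some a) + O}

theorem AA_le (hN : N0 = O + L) (hO : O = L + u) (hν : ∀ a, ν a ≤ O) (a : Fin r) :
    (AA N0 O L ν a).encard ≤ (u * O ^ r : ℕ) := by
  classical
  refine cnt_le _ _ _ (fun e => e (some a) + O - (e none + N0) - 1)
    (fun e b => if b = a then e none - O else e (some b) - N0) ?_ ?_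
  · rintro e ⟨⟨h1, h2⟩, h3, h4⟩
    refine ⟨?_, fun b => ?_⟩
    · have := h2 a
      have := hν a
      omega
    · have := h2 b
      have := hν b
      split_ifs <;> omega
  · rintro e ⟨⟨h1, h2⟩, h3, h4⟩ e' ⟨⟨h1', h2'⟩, h3', h4'⟩ c c'
    have c1 := c' a
    simp only [if_true] at c1 c
    refine mon_ext (by omega) fun b => ?_
    have c2 := c' b
    by_cases hb : b = a
    · subst hb
      omega
    · have := h2 b
      have := h2' b
      simp only [hb, if_false] at c2
      omega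

/-- the bigger set of monomials -/
def O2 (N0 O L : ℕ) (ν : Fin r → ℤ) : ℕ → Set (Mon r) := fun _ =>
  Om N0 ν O (O + L) ∪ Om N0 ν 0 O

/-- the flat subcomplex -/
def Xb (k : Type u) [Field k] (deg : ι → ℕ) (N0 O L : ℕ) (ν : Fin r → ℤ) :
    ℤ → Submodule k (ι × FJ r → LL k r) :=
  XX k deg fun p J => (Om N0 ν O (O + L) ∪ {e | e ∈ O2 N0 O L ν p ∧ ∃ a, (a, false) ∈ J}) ∩
    cond N0 ν J

omit [DecidableEq ι] in
theorem part3 [DecidableEq ι] (hN : N0 = O + L) (hO : O = L + u) (hν : ∀ a, ν a ≤ O)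
    (P : Submodule k (ι × FJ r → LL k r)) (h1 : Xb k deg N0 O L ν 0 ≤ P)
    (h2 : ∀ i, ∀ f ∈ Pv k (SB r 0), pl deg N0 O 0 (Pi.single i f) ∈ P) :
    rl P (XS k N0 ν deg (O2 N0 O L ν) 0) ≤ (Fintype.card ι * (r * (u * O ^ r)) : ℕ) := by
  classical
  let f : (ι × FJ r → LL k r) →ₗ[k] (ι → ∀ a, AA N0 O L ν a → k) :=
    LinearMap.pi fun i => LinearMap.pi fun a => LinearMap.pi fun e =>
      (coeff e.1 : LL k r →ₗ[k] k) ∘ₗ LinearMap.proj (i, JT r)
  refine (rl_le_of_comap f (P' := ⊥) (Q' := ⊤) ?_ (by simp)).trans ?_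
  · intro x hx hf
    have hf' : ∀ i a e, e ∈ AA N0 O L ν a → coeff e (x (i, JT r)) = 0 := fun i a e he =>
      congrFun (congrFun (congrFun ((Submodule.mem_bot k).1 hf) i) a) ⟨e, he⟩
    let F : ι → LL k r := fun i e =>
      if e ∈ SB r 0 then coeff (e + sgm r N0 O) (x (i, JT r)) else 0
    have hF : ∀ i e, coeff e (F i) =
        if e ∈ SB r 0 then coeff (e + sgm r N0 O) (x (i, JT r)) else 0 := fun _ _ => rfl
    have h3 : pl deg N0 O 0 F ∈ P := by
      rw [← univ_sum_single F, map_sum]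
      refine sum_mem fun i _ => h2 i _ fun e he => ?_
      rw [hF] at he
      by_contra c
      exact he (if_neg c)
    have h4 : x - pl deg N0 O 0 F ∈ Xb k deg N0 O L ν 0 := by
      refine mem_XX.2 fun i J e he => ?_
      rw [Pi.sub_apply, map_sub, pl_apply] at he
      split_ifs at he with c
      · obtain ⟨c1, rfl⟩ := c
        rw [coeff_mul_monomial, mul_one, hF] at he
        have h5 : coeff e (x (i, JT r)) ≠ 0 ∧ ¬(sgm r N0 O ≤ e ∧ e - sgm r N0 O ∈ SB r 0) := by
          split_ifs at he with d1 d2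
          · rw [tsub_add_cancel_of_le d1] at he
            simp at he
          · exact ⟨by simpa using he, fun d => d2 d.2⟩
          · exact ⟨by simpa using he, fun d => d1 d.1⟩
        obtain ⟨a1, a2, a3⟩ := mem_XX.1 hx i _ e h5.1
        refine ⟨a1, Or.inl ?_, a3⟩
        by_contra d
        have a4 : e ∈ Om N0 ν 0 O := a2.resolve_left d
        have a5 : e none < O + L := by
          by_contra d'
          exact d ⟨by omega, (Om_mono (Nat.zero_le O) le_rfl a4).2⟩
        refine h5.2 ⟨fun b => ?_, Nat.zero_le _, fun a => ?_⟩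
        · cases b with
          | none => exact a4.1
          | some b => simpa using (a4.2 b).1
        · by_contra d'
          refine h5.1 (hf' i a e ⟨a4, a5, ?_⟩)
          have := a4.1
          simp only [Finsupp.coe_tsub, Pi.sub_apply, sgm_some, sgm_none] at d'
          omega
      · rw [map_zero, sub_zero] at he
        obtain ⟨a1, a2, a3⟩ := mem_XX.1 hx i J e he
        refine ⟨a1, Or.inr ⟨a2, ?_⟩, a3⟩
        by_contra d
        have a4 : J = JT r := eq_of_subset_of_card_le (sub_JT d) (JT_card ▸ cond_card a3)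
        refine c ⟨?_, a4⟩
        rw [a4, JT_card] at a1
        omega
    simpa using add_mem (h1 h4) h3
  · rw [rl_top, (Submodule.quotEquivOfEqBot _ rfl).length_eq, Module.length_pi,
      Module.length_pi_of_fintype]
    have h3 : ∑ a, Module.length k (AA N0 O L ν a → k) ≤ ∑ _a : Fin r, ((u * O ^ r : ℕ) : ℕ∞) := by
      refine sum_le_sum fun a _ => ?_
      rw [Module.length_pi, Module.length_eq_one, mul_one, ENat.card_coe_set_eq]
      exact AA_le hN hO hν a
    refine (mul_le_mul_right h3 _).trans ?_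
    simp

theorem O2_cx (hθ : Th0 θ) (hD : Gr deg deg (-1) D) : CxD (DD θ D) (XS k N0 ν deg (O2 N0 O L ν)) := by
  intro n x hx
  obtain ⟨y, hy, z, hz, rfl⟩ := Submodule.mem_sup.1 (XS_union n hx)
  rw [map_add]
  exact add_mem
    (XS_mono (fun _ => Set.subset_union_left) _
      ((XF_cx hθ hD 0 O (slope_const D (O + L))).d n y hy))
    (XS_mono (fun _ => Set.subset_union_right) _ ((XF_cx hθ hD 0 0 (slope_const D O)).d n z hz))

omit [Fintype ι] [DecidableEq ι] in
theorem Xb_g (hθ : Th0 θ) (γ : PS k (r + 1)) {n : ℤ} {x : ι × FJ r → LL k r}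
    (hx : x ∈ Xb k deg N0 O L ν n) : gg θ γ ι x ∈ Xb k deg N0 O L ν n := by
  refine fun p _ => mul_mem_Pv (hθ.ord γ 0 (by simp)) (hx p trivial) fun a ha c hc => ?_
  obtain ⟨c1, c2, c3⟩ := hc
  refine ⟨c1, ?_, add_mem_cond ha c3⟩
  rcases c2 with c2 | ⟨c2 | c2, c4⟩
  · exact Or.inl (add_mem_Om ha c2 le_rfl)
  · exact Or.inl (add_mem_Om ha c2 le_rfl)
  · exact Or.inr ⟨Or.inr (add_mem_Om ha c2 le_rfl), c4⟩

theorem part1 (hθ : Th0 θ) (hD : Gr deg deg (-1) D) (hN : N0 = O + L) (hν : ∀ a, (L : ℤ) ≤ ν a)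
    {γ : PS k (r + 1)} {c : LL k r} (hc : c ∈ Pv k (SB r 0)) {v w : ι → PS k (r + 1)}
    (h : ∀ i, deg i = 0 → γ * v i = (D *ᵥ w) i) :
    gg θ γ ι (pl deg N0 O 0 fun i => θ (v i) * c) ∈
      Bc (DD θ D) (XS k N0 ν deg (O2 N0 O L ν)) (Xb k deg N0 O L ν) 0 := by
  set w' := pl deg N0 O 1 fun i => θ ((-1) ^ r * w i) * c with hw'
  have h1 : w' ∈ XS k N0 ν deg (O2 N0 O L ν) (0 + 1) :=
    XS_mono (fun _ => Set.subset_union_right) _ (pl_mem hN hν 1 0 fun i =>
      mul_mem_Pv (hθ.ord _ 0 (by simp)) hc fun a ha b hb =>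
        ⟨Nat.zero_le _, fun j => add_le_add (ha.2 j) (hb.2 j)⟩)
  have h2 : LM θ 1 (cb k r) w' ∈ Xb k deg N0 O L ν 0 := by
    refine mem_XX.2 fun i J e he => ?_
    obtain ⟨a1, a2, a3⟩ := mem_XX.1 (LM_cb_mem (θ := θ) h1) i J e he
    refine ⟨by simpa using a1, Or.inr ⟨a2, ?_⟩, a3⟩
    by_contra d
    rw [coeff_cb] at he
    obtain ⟨J', b1, -, b3⟩ := pd_ne he
    have b4 : J' = JT r := by
      by_contra d'
      rw [hw', pl_apply, if_neg (fun d'' => d' d''.2), map_zero] at b1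
      exact b1 rfl
    have b5 := card_le_card (sub_JT d)
    rw [b4] at b3
    omega
  have h3 : LM θ D (sg k r) w' = gg θ γ ι (pl deg N0 O 0 fun i => θ (v i) * c) := by
    ext1 ⟨i, J⟩
    rw [LM_sg_apply, gg_apply, pl_apply]
    by_cases hJ : J = JT r
    · have key : ∀ j, θ (D i j) * w' (j, J) = if deg i = 0 then
          (-1) ^ r * (θ (D i j * w j) * c * monomial (sgm r N0 O) 1) else 0 := by
        intro j
        by_cases h0 : D i j = 0
        · simp [h0]
        · have := hD _ _ h0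
          rw [hw', pl_apply]
          by_cases hi : deg i = 0
          · rw [if_pos hi, if_pos ⟨by omega, hJ⟩]
            simp only [map_mul, map_pow, map_neg, map_one]
            ring
          · rw [if_neg hi, if_neg (fun d => by omega), mul_zero]
      rw [sum_congr rfl fun j _ => key j]
      by_cases hi : deg i = 0
      · simp only [hi, hJ, if_true, and_self, JT_card]
        rw [← mul_sum, ← mul_assoc, ← mul_pow, ← sum_mul, ← sum_mul, ← map_sum]
        have : ∑ j, D i j * w j = γ * v i := (h i hi).symm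
        rw [this, map_mul]
        simp only [mul_neg, mul_one, neg_neg, one_pow, one_mul]
        ring
      · simp [hi]
    · simp [hw', pl_apply, hJ]
  refine Submodule.mem_sup.2 ⟨-LM θ 1 (cb k r) w', neg_mem h2, _, ⟨w', h1, rfl⟩, ?_⟩
  rw [DD_eq, h3]
  abel

theorem zero (hC : CbStmt.{u}) (hT : TauStmt.{u}) (hθ : Th0 θ) {C : ℕ} {w : Fin r ! → LL k r}
    (hw : ∀ j, w j ∈ Pv k (SB r 0))
    (hs : rl ((⨆ j, LinearMap.range (LinearMap.mulRight k (w j) ∘ₗ θ.toLinearMap)) ⊔
      Pv k (SB r L)) (Pv k (SB r 0)) ≤ (C * (L + 1) ^ r : ℕ))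
    (hD : Gr deg deg (-1) D) (hDD : D * D = 0) (hN : N0 = O + L) (hO : O = L + u)
    (hν : ∀ a, (L : ℤ) ≤ ν a ∧ ν a ≤ O) {γ : PS k (r + 1)} {o : ℕ} (ho : γ.order ≤ (o : ℕ∞))
    (hl : Lat (DD θ D) (gg θ γ ι)) (N : Submodule (PS k (r + 1)) (ι → PS k (r + 1))) (lam : ℕ)
    (hv : ∀ v ∈ N, ∃ w, ∀ i, deg i = 0 → γ * v i = (D *ᵥ w) i) (hlam : cl k N ≤ lam) :
    hh (DD θ D) (gg θ γ ι) 0 (XF k N0 ν O (fun _ => O) deg) (XF k N0 ν O (fun _ => O + L) deg) 0 ≤
      (r ! * lam + Fintype.card ι * (C * (L + 1) ^ r) + Fintype.card ι * (r * (u * O ^ r)) +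
        Fintype.card ι * 4 ^ r * o * (O + 1) ^ r : ℕ) := by
  have cX := (XF_cx (N0 := N0) (ν := ν) hθ hD 0 O (slope_const D O)).d
  have cX1 := (XF_cx (N0 := N0) (ν := ν) hθ hD 0 O (slope_const D (O + L))).d
  have cX2 := O2_cx (N0 := N0) (O := O) (L := L) (ν := ν) hθ hD
  have s1 : ∀ p, Om N0 ν O (O + L) ⊆ O2 N0 O L ν p := fun _ => Set.subset_union_left
  have s2 : ∀ p, O2 N0 O L ν p ⊆ Om N0 ν O O := fun _ =>
    Set.union_subset (Om_mono le_rfl (by omega)) (Om_mono (by omega) le_rfl)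
  have cXb : CxD (DD θ D) (Xb k deg N0 O L ν) := flat_cx s1 cX2 cX1
  have l1 : XF k N0 ν O (fun _ => O + L) deg ≤ Xb k deg N0 O L ν :=
    XX_mono fun p J e he => Set.mem_inter (Or.inl he.1) he.2
  have l2 : Xb k deg N0 O L ν ≤ XS k N0 ν deg (O2 N0 O L ν) :=
    XX_mono fun p J e he => Set.mem_inter (he.1.elim (@s1 p e) fun c => c.1) he.2
  have e1 : hh (DD θ D) (gg θ γ ι) 0 (XF k N0 ν O (fun _ => O) deg)
      (XS k N0 ν deg (O2 N0 O L ν)) 0 = 0 := by
    refine le_antisymm (((hC k r θ ι deg D _ N0 ν _ _ hD hDD s2 cX cX2).1 0).trans ?_) zero_le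
    refine (sum_eq_zero fun i _ => Set.encard_eq_zero.2 ?_).le
    exact Set.eq_empty_of_forall_notMem fun e he =>
      he.2.1 (Or.inr (typ_high hN (fun a => (hν a).1) he.2.2 he.1.1).2)
  have e2 : hh (DD θ D) (gg θ γ ι) 0 (Xb k deg N0 O L ν) (XF k N0 ν O (fun _ => O + L) deg) 0 = 0 := by
    refine (hC k r θ ι deg D _ N0 ν _ _ hD hDD s1 cX2 cX1).2 (fun p e h1 h2 => ?_) 0
    have h3 : e ∈ Om N0 ν 0 O := h1.resolve_left h2
    refine ⟨fun a => by have := h3.2 a; omega, ?_⟩
    simpa using fun a => (h3.2 a).1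
  refine (hl.sub _ _ _ cX cX2 cX1 (l1.trans l2) (XS_mono s2) 0).trans ?_
  rw [e1, add_zero]
  refine (hl.sub _ _ _ cX2 cXb cX1 l1 l2 0).trans ?_
  rw [e2, zero_add, hh0]
  set B := Bc (DD θ D) (XS k N0 ν deg (O2 N0 O L ν)) (Xb k deg N0 O L ν) 0 with hB
  set Q := XS k N0 ν deg (O2 N0 O L ν) 0 with hQ
  have hXB : Xb k deg N0 O L ν 0 ≤ B := le_sup_left
  refine (rl_mono le_rfl (Q := Q) (inf_le_left.trans le_sup_right)).trans ?_
  refine (rl_le_add B (B ⊔ Q.map (gg θ γ ι)) Q).trans ?_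
  rw [Nat.cast_add]
  refine add_le_add ?_ ?_
  · set P := B.comap (gg θ γ ι) with hP
    have hXP : Xb k deg N0 O L ν 0 ≤ P := fun x hx => hXB (Xb_g hθ γ hx)
    refine (rl_le_of_map (gg θ γ ι) (P := P) (Q := Q) (fun x hx => hx) le_rfl).trans ?_
    let T : Fin r ! → (ι → PS k (r + 1)) →ₗ[k] (ι × FJ r → LL k r) := fun j =>
      pl deg N0 O 0 ∘ₗ LinearMap.pi fun i =>
        (LinearMap.mulRight k (w j) ∘ₗ θ.toLinearMap) ∘ₗ LinearMap.proj i
    let S : ι → LL k r →ₗ[k] (ι × FJ r → LL k r) := fun i =>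
      pl deg N0 O 0 ∘ₗ LinearMap.single k (fun _ => LL k r) i
    set P1 := P ⊔ ⨆ j, LinearMap.range (T j) with hP1
    set P2 := P1 ⊔ ⨆ i, (Pv k (SB r 0)).map (S i) with hP2
    refine (rl_le_add P P2 Q).trans ?_
    rw [Nat.cast_add]
    refine add_le_add ((rl_le_add P P1 P2).trans ?_) ?_
    · rw [Nat.cast_add]
      refine add_le_add ?_ ?_
      · refine (rl_mono le_rfl le_rfl).trans ((rl_iSup_le P _).trans ?_)
        refine (sum_le_sum (g := fun _ => (lam : ℕ∞)) fun j _ => ?_).trans (by simp)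
        refine le_trans (rl_le_of_map (T j) (P := N.restrictScalars k) (Q := ⊤) (fun v hv' => ?_)
          (by simp)) ((cl_eq (k := k) N).symm.le.trans hlam)
        obtain ⟨w', hw'⟩ := hv v hv'
        exact part1 hθ hD hN (fun a => (hν a).1) (hw j) hw'
      · refine (rl_mono le_rfl le_rfl).trans ((rl_iSup_le P1 _).trans ?_)
        refine (sum_le_sum (g := fun _ => ((C * (L + 1) ^ r : ℕ) : ℕ∞)) fun i _ => ?_).trans
          (by simp)
        refine le_trans (rl_le_of_map (S i) (fun x hx => ?_) le_sup_right) hs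
        refine (?_ : Submodule.map (S i) _ ≤ P1) (Submodule.mem_map_of_mem hx)
        rw [Submodule.map_sup, Submodule.map_iSup]
        refine sup_le (iSup_le fun j => ?_) ?_
        · rintro _ ⟨_, ⟨a, rfl⟩, rfl⟩
          refine Submodule.mem_sup_right (Submodule.mem_iSup_of_mem j ⟨Pi.single i a, ?_⟩)
          simp only [T, S, LinearMap.comp_apply]
          congr 1
          ext1 i'
          by_cases c : i' = i
          · subst c
            simp
          · simp [c]
        · rintro _ ⟨f, hf, rfl⟩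
          refine Submodule.mem_sup_left (hXP (l1 0 ?_))
          refine XF_mono (Nat.zero_le O) (fun _ => le_rfl) 0 (pl_mem hN (fun a => (hν a).1) 0 L
            fun i' => ?_)
          by_cases c : i' = i
          · subst c
            simpa using hf
          · simp [c]
    · exact part3 hN hO (fun a => (hν a).2) P2 (hXP.trans (le_sup_left.trans le_sup_left))
        fun i f hf => Submodule.mem_sup_right (Submodule.mem_iSup_of_mem i ⟨f, hf, rfl⟩)
  · have h1 := (hT k r θ hθ γ o ho ι deg N0 ν 0 (fun _ => O) (fun _ => O + L) (O + 1)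
      (fun _ => Nat.le_add_right _ _) (fun _ a => by
        have := hν a
        push_cast
        omega) 0).2
    refine le_trans (rl_mono ?_ ?_) h1
    · refine sup_le_sup ((XF_mono (Nat.zero_le O) (fun _ => le_rfl) 0).trans ((l1 0).trans hXB))
        (Submodule.map_mono (XS_mono (fun _ => Set.subset_union_right) 0))
    · exact (XS_union 0).trans (sup_le_sup_right (((l1 0).trans hXB).trans le_sup_left) _)

theorem chi_le {E : Type u} [AddCommGroup E] [Module k E] (D g : Module.End k E) (c R : ℕ)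
    (X X' : ℤ → Submodule k E) (H K : ℕ) (h0 : hh D g c X X' 0 ≤ H)
    (h1 : ∀ n, n ≠ 0 → hh D g c X X' n ≤ K) : chi D g c R X X' ≤ H + (2 * R + 1) * K := by
  unfold chi
  refine (sum_le_sum (g := fun n => (if n = 0 then (H : ℤ) else 0) + K) fun n _ => ?_).trans ?_
  · have h2 : ((n.negOnePow : ℤˣ) : ℤ) * (hh D g c X X' n).toNat ≤ (hh D g c X X' n).toNat := by
      rcases Int.units_eq_one_or n.negOnePow with e | e <;> rw [e] <;> simp
    refine h2.trans ?_
    split_ifs with e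
    · have := ENat.toNat_le_of_le_natCast (e ▸ h0)
      omega
    · have := ENat.toNat_le_of_le_natCast (h1 n e)
      omega
  · rw [sum_add_distrib, sum_ite_eq', if_pos (by simp), sum_const, Int.card_Icc, nsmul_eq_mul]
    have : (((R : ℤ) + 1 - -R).toNat : ℤ) = 2 * R + 1 := by omega
    rw [this]

theorem num0 (r C o s L : ℕ) : C * (L + 1) ^ r + r * (s * (r + 1) * (L + s * (r + 1)) ^ r) +
    4 ^ r * o * (L + s * (r + 1) + 1) ^ r ≤
      (C + r * (r + 1) * (r + 1) ^ r + 4 ^ r * (r + 1) ^ r) * (o + s + 1) * (L + s + 1) ^ r := by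
  have h1 : (L + 1) ^ r ≤ (L + s + 1) ^ r := Nat.pow_le_pow_left (by omega) _
  have h2 : (L + s * (r + 1) + 1) ^ r ≤ (r + 1) ^ r * (L + s + 1) ^ r := by
    rw [← mul_pow]
    exact Nat.pow_le_pow_left (by nlinarith) _
  have h3 : (L + s * (r + 1)) ^ r ≤ (r + 1) ^ r * (L + s + 1) ^ r :=
    (Nat.pow_le_pow_left (by omega) _).trans h2
  calc _ ≤ C * ((o + s + 1) * (L + s + 1) ^ r) +
        r * ((o + s + 1) * (r + 1) * ((r + 1) ^ r * (L + s + 1) ^ r)) +
        4 ^ r * (o + s + 1) * ((r + 1) ^ r * (L + s + 1) ^ r) := by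
        gcongr
        · exact h1.trans (Nat.le_mul_of_pos_left _ (by omega))
        · omega
        · omega
    _ = _ := by ring

theorem num1 (r o s L : ℕ) : s * (r + 1) * (2 * (s * (r + 1))) ^ r ≤
    (r + 1) * (2 * (r + 1)) ^ r * (o + s + 1) * (L + s + 1) ^ r := by
  calc _ = (r + 1) * (2 * (r + 1)) ^ r * s * s ^ r := by
        rw [show 2 * (s * (r + 1)) = 2 * (r + 1) * s by ring, mul_pow]
        ring
    _ ≤ _ := by
        gcongr <;> omega

end E3m

open E3m

theorem e3Stmt (hC : CbStmt.{u}) (hT : TauStmt.{u}) : E3Stmt.{u} := by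
  intro k _ r θ hθ
  obtain ⟨C, w, hw, hs⟩ := hθ.span
  refine ⟨C + r * (r + 1) * (r + 1) ^ r + 4 ^ r * (r + 1) ^ r +
    (2 * (r + 1) + 1) * ((r + 1) * (2 * (r + 1)) ^ r), ?_⟩
  intro γ o s L κ ι _ _ deg D ho hs1 hG hM N lam hv hlam
  have hν : ∀ a, (L : ℤ) ≤ nu s L κ a ∧ nu s L κ a ≤ (L + s * (r + 1) : ℕ) := fun a => by
    have := nu_bd s L hs1 κ a
    push_cast
    omega
  have hN : 2 * L + s * (r + 1) = L + s * (r + 1) + L := by ring
  have ht := (hM.tame _ (slope_const D (L + s * (r + 1))) fun _ => le_rfl).2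
  have cX := hM.cx _ (slope_const D (L + s * (r + 1)))
  refine (chi_le _ _ _ _ _ _ (r ! * lam + Fintype.card ι *
    ((C + r * (r + 1) * (r + 1) ^ r + 4 ^ r * (r + 1) ^ r) * (o + s + 1) * (L + s + 1) ^ r))
    (Fintype.card ι * ((r + 1) * (2 * (r + 1)) ^ r * (o + s + 1) * (L + s + 1) ^ r)) ?_ ?_).trans ?_
  · refine (ht 0).trans ((zero hC hT hθ.toTh0 hw (hs L) hG.gr hG.dd hN rfl hν ho hM.lat N lam hv
      hlam).trans ?_)
    refine Nat.cast_le.2 ?_
    have := Nat.mul_le_mul_left (Fintype.card ι) (num0 r C o s L)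
    nlinarith
  · intro n hn
    rcases lt_or_gt_of_ne hn with h | h
    · refine (ht n).trans (((hC k r θ ι deg D _ _ _ _ _ hG.gr hG.dd
        (fun _ => Om_mono le_rfl (Nat.le_add_right _ _)) cX.d
        (hM.cx _ ((slope_const D (L + s * (r + 1))).add L)).d).1 n).trans ?_)
      refine (sum_eq_zero fun i _ => Set.encard_eq_zero.2 ?_).le.trans zero_le
      refine Set.eq_empty_of_forall_notMem fun e he => ?_
      have := (typ_high hN (fun a => (hν a).1) he.2.2 he.1.1).1
      omega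
    · have cX2 := hM.cx _ ((slope_const D (L + s * (r + 1))).sub L)
      refine (hM.lat.down _ _ _ n cX cX2 (XF_mono le_rfl fun _ => Nat.sub_le _ _)
        (hM.gh _ (slope_const D _) (fun _ => Nat.le_add_right _ _) n)).trans ?_
      refine ((hC k r θ ι deg D _ _ _ _ _ hG.gr hG.dd
        (fun _ => Om_mono le_rfl (Nat.sub_le _ _)) cX2.d cX.d).1 (n + 1)).trans ?_
      refine (sum_le_sum (g := fun _ => ((s * (r + 1) * (2 * (s * (r + 1))) ^ r : ℕ) : ℕ∞))
        fun i _ => ?_).trans ?_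
      · refine le_trans (Set.encard_le_encard fun e he => ?_)
          (typ_low hN rfl hν (j := deg i - (n + 1)) (by have := hG.le i; omega))
        refine ⟨?_, he.2.2⟩
        by_contra c
        exact he.2.1 ⟨not_lt.1 c, he.1.2⟩
      · rw [sum_const, card_univ, nsmul_eq_mul, ← Nat.cast_mul]
        exact Nat.cast_le.2 (Nat.mul_le_mul_left _ (num1 r o s L))
  · push_cast
    exact le_of_eq (by ring)

end Vale.Agent.P202
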