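import Vale.Agent.P202.Tam

/-! The lower bound for the approximate Euler characteristic. -/

open Finset Matrix MvPowerSeries Filter Topology IsLocalRing
open scoped Kronecker Nat

namespace Vale.Agent.P202

universe u

namespace Ef

theorem sa {r : ℕ} (κ : Fin (r + 1)) (a : Fin r) :
    (a : ℕ) ≤ (κ.succAbove a : ℕ) ∧ (κ.succAbove a : ℕ) ≤ a + 1 := by
  unfold Fin.succAbove
  split_ifs <;> simp

theorem tele {r : ℕ} (f : Fin (r + 1) → ℤ) :
    ∑ κ : Fin (r + 1), ∏ a, (f (κ.succAbove a) + if κ.succAbove a < κ then 1 else 0) =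
      ∏ j, (f j + 1) - ∏ j, f j := by
  rw [prod_add_ordered, add_sub_cancel_left]
  refine sum_congr rfl fun κ _ => ?_
  rw [← prod_image (s := univ) (g := κ.succAbove) (f := fun j => f j + if j < κ then 1 else 0)
    Fin.succAbove_right_injective.injOn, Fin.image_succAbove_univ, one_mul,
    ← prod_filter_mul_prod_filter_not _ (· < κ)]
  congr 1
  · exact prod_congr (by ext j; simpa using fun h : j < κ => h.ne) fun j hj => by
      rw [if_pos (mem_filter.1 hj).2]
  · refine prod_congr (by
      ext j; simpa using ⟨fun h => lt_of_le_of_ne h.2 (Ne.symm h.1), fun h => ⟨h.ne', h.le⟩⟩)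
      fun j hj => ?_
    rw [if_neg (mem_filter.1 hj).2.not_gt, add_zero]

theorem num (r s L p : ℕ) (hp : p ≤ r + 1) :
    ∑ κ : Fin (r + 1), ∑ m ∈ Ico (L + s * (r + 1 - p)) (L + s * (r + 1)),
      ∏ a, (nu s L κ a + m - (2 * L + s * (r + 1) : ℕ) + 1) =
      if p = 0 then 0 else ((r + 1)! * s ^ (r + 1) : ℤ) := by
  let Q : ℕ → ℤ := fun m => ∏ j : Fin (r + 1), (m - L - s * (r + 1) + s * ((j : ℕ) + 1) : ℤ)
  have : ∀ m : ℕ, ∑ κ : Fin (r + 1), ∏ a, (nu s L κ a + m - (2 * L + s * (r + 1) : ℕ) + 1) =
      Q (m + 1) - Q m := by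
    intro m
    refine Eq.trans ?_ ((tele (r := r) fun j => m - L - s * (r + 1) + s * ((j : ℕ) + 1)).trans ?_)
    · refine sum_congr rfl fun κ _ => prod_congr rfl fun a _ => ?_
      unfold nu; push_cast; ring
    · congr 1
      exact prod_congr rfl fun a _ => by push_cast; ring
  rw [sum_comm, sum_congr rfl fun m _ => this m,
    sum_Ico_sub Q (Nat.add_le_add_left (Nat.mul_le_mul_left _ (Nat.sub_le _ _)) _)]
  split_ifs with h
  · simp [h]
  · have h1 : Q (L + s * (r + 1 - p)) = 0 := by
      refine prod_eq_zero (mem_univ ⟨p - 1, by omega⟩) ?_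
      push_cast [hp, Nat.one_le_iff_ne_zero.2 h]; ring
    have h2 : Q (L + s * (r + 1)) = ∏ j : Fin (r + 1), (s * ((j : ℕ) + 1) : ℤ) :=
      prod_congr rfl fun a _ => by push_cast; ring
    rw [h1, h2, sub_zero, prod_mul_distrib, Fin.prod_univ_eq_prod_range (fun j => (j : ℤ) + 1),
      ← prod_range_add_one_eq_factorial]
    push_cast
    rw [prod_const, card_univ, Fintype.card_fin, mul_comm]

end Ef

open Ef

theorem e4Stmt (hC : CbStmt.{u}) (hN : NumStmt.{u}) : E4Stmt.{u} := by
  intro k _ r θ hθ γ o s L ι _ _ deg D hs g t hD hz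
  let l : ℕ → ℕ := fun p => L + s * (r + 1 - p)
  have sl : Slope D l := ⟨fun a b h => Nat.add_le_add_left (Nat.mul_le_mul_left _ (by omega)) _,
    s, hD, fun p => by
      have : s * (r + 1 - p) ≤ s * (r + 1 - (p + 1) + 1) := Nat.mul_le_mul_left _ (by omega)
      simp only [l]; linarith⟩
  have l1 : ∀ p, l p ≤ L + s * (r + 1) := fun p =>
    Nat.add_le_add_left (Nat.mul_le_mul_left _ (by omega)) _
  have l2 : ∀ i, (l (deg i) : ℤ) = L + s * (r + 1) - s * deg i := fun i => by
    simp only [l]; push_cast [g.le i]; ring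
  have hs' : (1 : ℤ) ≤ s := by exact_mod_cast hs
  have key : ∀ κ, 0 ≤ eu θ γ s L κ deg D + (∑ i, (-1) ^ deg i *
      ∑ m ∈ Ico (l (deg i)) (L + s * (r + 1)), ∏ a,
        (nu s L κ a + m - (2 * L + s * (r + 1) : ℕ) + 1)) +
      4 * (2 * r + 3) * (r + 1) * tau r o s L (Fintype.card ι) := by
    intro κ
    have t := t κ
    have cT := t.cx l sl
    have cX := t.cx _ (slope_const D (L + s * (r + 1)))
    have le : XE k s L κ (fun _ => L + s * (r + 1)) deg ≤ XE k s L κ l deg := XF_mono le_rfl l1
    have f := t.lat.fin (r + 1) _ (r + 1) _ _ cT cX le (t.bd l)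
      (t.fn _ _ l1 fun p => by omega)
    have a := t.lat.add (r + 1) _ (r + 1) _ _ _ cT cX (cx_bot _ _) (fun _ => bot_le) le (t.bd l)
      (t.tame l sl l1).1 (t.tame _ (slope_const _ _) fun _ => le_rfl).1 f.1
    have n := hN k r ι deg (2 * L + s * (r + 1)) (nu s L κ) (L + s * (r + 1)) l
      (fun _ => L + s * (r + 1)) g.le (by omega) l1 fun p a => by
        have := (nu_bd s L hs κ a).1
        have : L ≤ l p := Nat.le_add_right _ _
        omega
    have v : ∀ n, n ≠ 0 → hh (DD θ D) (gg θ γ ι) (r + 1) (XE k s L κ l deg) (fun _ => ⊥) n = 0 := by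
      intro n hn
      rcases lt_or_gt_of_ne hn with hn | hn
      · refine nonpos_iff_eq_zero.1 (((t.tame l sl l1).2 n).trans (hh_zero_of_cb hC _ g.gr g.dd
          (fun p => Om_mono le_rfl (Nat.le_add_right _ _)) cT.d (t.cx _ (sl.add L)).d n
          fun i e h1 _ h3 => ?_).le)
        have : #{a | e (some a) < 2 * L + s * (r + 1)} ≤ #{a : Fin r | (a : ℕ) < deg i} := by
          refine card_le_card fun a ha => mem_filter.2 ⟨mem_univ _, ?_⟩
          have b1 := (mem_filter.1 ha).2
          have b2 := h3.1 a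
          have b3 := h1.1
          have b4 := l2 i
          have b5 := (sa κ a).1
          by_contra b6
          have : (s : ℤ) * deg i ≤ s * (κ.succAbove a : ℕ) := by gcongr; omega
          unfold nu at b2
          zify at b1 b2 b3
          split_ifs at b2 <;> exact absurd (b2.2 (by linarith)) (by linarith)
        rw [Fin.card_filter_val_lt] at this
        have := h3.2
        omega
      · refine nonpos_iff_eq_zero.1 ((t.lat.down (r + 1) _ _ n cT (t.cx _ (sl.sub L))
          (XF_mono le_rfl fun p => Nat.sub_le _ _)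
          (t.gh l sl (fun p => Nat.le_add_right _ _) n)).trans (hh_zero_of_cb hC _ g.gr g.dd
          (fun p => Om_mono le_rfl (Nat.sub_le _ _)) (t.cx _ (sl.sub L)).d cT.d (n + 1)
          fun i e h1 h2 h3 => ?_).le)
        have : #{a : Fin r | (a : ℕ) < deg i - 1} ≤ #{a | e (some a) < 2 * L + s * (r + 1)} := by
          refine card_le_card fun a ha => mem_filter.2 ⟨mem_univ _, ?_⟩
          have b1 := (mem_filter.1 ha).2
          have b3 : e none < l (deg i) := not_le.1 fun c => h2 ⟨c, h1.2⟩
          have b4 := l2 i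
          have b5 := (sa κ a).2
          by_contra b6
          have b2 := (h3.1 a).1 (not_lt.1 b6)
          have : (s : ℤ) * ((κ.succAbove a : ℕ) + 1) ≤ s * deg i := by gcongr; omega
          unfold nu at b2
          zify at b3 b6
          split_ifs at b2 <;> linarith
        rw [Fin.card_filter_val_lt] at this
        have := h3.2
        have := g.le i
        omega
    have p : 0 ≤ chi (DD θ D) (gg θ γ ι) (r + 1) (r + 1) (XE k s L κ l deg) fun _ => ⊥ :=
      sum_nonneg fun n _ => by
        by_cases h : n = 0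
        · simp [h]
        · simp [v n h]
    have f2 := f.2
    unfold XE at f2
    rw [n] at f2
    have := (abs_le.1 a).2
    have := (abs_le.1 f2).2
    unfold eu XE at *
    push_cast at *
    linarith
  have := sum_nonneg fun κ (_ : κ ∈ univ) => key κ
  rw [sum_add_distrib, sum_add_distrib, sum_comm] at this
  simp only [← mul_sum, l, fun i => num r s L (deg i) (g.le i)] at this
  have e : ∑ i, (-1 : ℤ) ^ deg i * (if deg i = 0 then 0 else ((r + 1)! * s ^ (r + 1) : ℤ)) =
      (∑ i, (-1 : ℤ) ^ deg i) * ((r + 1)! * s ^ (r + 1)) -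
        #{i | deg i = 0} * ((r + 1)! * s ^ (r + 1) : ℤ) := by
    rw [card_filter, Nat.cast_sum, sum_mul, sum_mul, ← sum_sub_distrib]
    refine sum_congr rfl fun i _ => ?_
    split_ifs with h <;> simp [h]
  rw [e, hz] at this
  simp only [sum_const, card_univ, Fintype.card_fin, nsmul_eq_mul] at this
  push_cast at this ⊢
  linarith

end Vale.Agent.P202
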