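import Vale.Agent.P202.Base

/-! Assembly of the approximate Euler characteristic. -/

open Finset Matrix MvPowerSeries Filter Topology IsLocalRing
open scoped Kronecker Nat

namespace Vale.Agent.P202

universe u

theorem tau_le (r o s c M n a : ℕ) : a * tau r o s (c * M) n ≤
    n * (a * (4 ^ r * (4 * (r + 1) * (c + 1)) ^ r) * o * (M + s + 1) ^ r) := by
  have h : 4 * (r + 1) * (c * M + s + 1) ≤ 4 * (r + 1) * (c + 1) * (M + s + 1) := by
    rw [mul_assoc (4 * (r + 1))]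
    exact Nat.mul_le_mul_left _ (by nlinarith [Nat.zero_le (c * s)])
  have := Nat.pow_le_pow_left h r
  rw [mul_pow _ (M + s + 1)] at this
  calc a * tau r o s (c * M) n = n * (a * 4 ^ r * o) * (4 * (r + 1) * (c * M + s + 1)) ^ r := by
        unfold tau; ring
    _ ≤ n * (a * 4 ^ r * o) * ((4 * (r + 1) * (c + 1)) ^ r * (M + s + 1) ^ r) :=
        Nat.mul_le_mul_left _ this
    _ = _ := by ring

theorem abs_sum_le {r : ℕ} (f : Fin (r + 1) → ℤ) (b : ℤ) (h : ∀ κ, |f κ| ≤ b) :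
    |∑ κ, f κ| ≤ (r + 1) * b := by
  refine (abs_sum_le_sum_abs _ _).trans ((sum_le_sum fun κ _ => h κ).trans ?_)
  simp

theorem euStmt (h1 : Seg1Stmt.{u}) (h2 : Seg2Stmt.{u}) (hG : GhStmt.{u}) (hT : TamStmt.{u})
    (e1 : E1Stmt.{u}) (e2 : E2Stmt.{u}) (e3 : E3Stmt.{u}) (e4 : E4Stmt.{u}) : EuStmt.{u} := by
  intro k _ r
  obtain ⟨θ, h0⟩ := h1 k r
  obtain ⟨c, hc⟩ := hG k r θ h0
  obtain ⟨C3, hC3⟩ := e3 k r θ (h2 k r θ h0)
  set B := 4 ^ r * (4 * (r + 1) * (c + 1)) ^ r with hB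
  refine ⟨4 * (2 * r + 3) * (r + 1) ^ 2 * B + (r + 1) * C3 * (c + 1) ^ r, fun γ o s M ho hs => ?_⟩
  set C := 4 * (2 * r + 3) * (r + 1) ^ 2 * B + (r + 1) * C3 * (c + 1) ^ r with hC
  have good : ∀ (ι : Type) [Fintype ι] [DecidableEq ι] (deg : ι → ℕ) D, Gd γ M deg D →
      Good θ γ (c * M) deg D := fun ι _ _ deg D h => ⟨h.gr, h.dd, h.le, hc γ M ι deg D h⟩
  have tm : ∀ (ι : Type) [Fintype ι] [DecidableEq ι] (deg : ι → ℕ) D, Gd γ M deg D → ∀ κ,
      Tm θ γ o s (c * M) κ deg D := fun ι _ _ deg D h κ =>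
    hT k r θ h0 γ o s _ κ ι deg D ho hs (good ι deg D h)
  have key : ∀ a n : ℕ, a ≤ 4 * (2 * r + 3) * (r + 1) ^ 2 →
      (a : ℤ) * tau r o s (c * M) n ≤ n * (C * o * (M + s + 1) ^ r : ℕ) := fun a n ha => by
    have : a * B ≤ C := (Nat.mul_le_mul_right _ ha).trans (Nat.le_add_right _ _)
    have := (tau_le r o s c M n a).trans (Nat.mul_le_mul_left n
      (Nat.mul_le_mul_right _ (Nat.mul_le_mul_right o this)))
    exact_mod_cast this
  refine ⟨fun ι _ _ deg D => ∑ κ, eu θ γ s (c * M) κ deg D, ?_, ?_, ?_, ?_⟩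
  · intro ι ι' _ _ _ _ deg D deg' D' g g' d d'
    rw [← sum_sub_distrib]
    refine (abs_sum_le _ _ fun κ => e1 k r θ h0 γ o s _ κ ι ι' deg D deg' D' (tm _ _ _ g κ)
      (tm _ _ _ g' κ) d d').trans ?_
    have := key ((r + 1) * (2 * r + 3)) (Fintype.card ι + Fintype.card ι') (by nlinarith)
    push_cast at this ⊢
    linarith
  · intro ι ι₁ ι₂ _ _ _ _ _ _ e deg D deg₁ D₁ deg₂ D₂ t g g₁ g₂
    rw [← sum_sub_distrib, ← sum_sub_distrib]
    refine (abs_sum_le _ _ fun κ => e2 k r θ h0 γ o s _ κ ι ι₁ ι₂ e deg D deg₁ D₁ deg₂ D₂ t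
      (tm _ _ _ g κ) (tm _ _ _ g₁ κ) (tm _ _ _ g₂ κ)).trans ?_
    have := key (3 * (2 * r + 3) * (r + 1) ^ 2) (Fintype.card ι) (by nlinarith)
    push_cast at this ⊢
    linarith
  · intro ι _ _ deg D g N lam hN hl
    refine (sum_le_sum fun κ _ => hC3 γ o s _ κ ι deg D ho hs (good _ _ _ g) (tm _ _ _ g κ) N lam
      hN hl).trans ?_
    have h : c * M + s + 1 ≤ (c + 1) * (M + s + 1) := by nlinarith [Nat.zero_le (c * s)]
    have h' := Nat.pow_le_pow_left h r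
    rw [mul_pow] at h'
    have : (r + 1) * (C3 * (o + s + 1) * (c * M + s + 1) ^ r) ≤
        C * (o + s + 1) * (M + s + 1) ^ r :=
      calc _ ≤ (r + 1) * (C3 * (o + s + 1) * ((c + 1) ^ r * (M + s + 1) ^ r)) := by gcongr
        _ = (r + 1) * C3 * (c + 1) ^ r * (o + s + 1) * (M + s + 1) ^ r := by ring
        _ ≤ _ := by gcongr; exact Nat.le_add_left _ _
    have := Nat.mul_le_mul_left (Fintype.card ι) this
    zify at this
    simp only [sum_const, card_univ, Fintype.card_fin, nsmul_eq_mul, Nat.factorial_succ]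
    push_cast at this ⊢
    linarith
  · intro ι _ _ deg D g ho' hz
    refine (e4 k r θ h0 γ o s _ ι deg D hs (good _ _ _ g) (tm _ _ _ g) ho' hz).trans ?_
    have := key _ (Fintype.card ι) le_rfl
    push_cast at this ⊢
    linarith

end Vale.Agent.P202
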