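import Vale.Agent.P202.Spec

/-! Module V: evaluation of power series, finiteness and completeness. -/

open Finset Matrix MvPowerSeries Filter Topology IsLocalRing
open scoped Kronecker Nat

namespace Vale.Agent.P202

universe u

namespace EvL

/-- a series supported on the upper set generated by `T` lies in the monomial ideal of `T` -/
theorem mem_span_mon {K σ : Type*} [CommRing K] (J : Ideal (MvPowerSeries σ K))
    (T : Finset (σ →₀ ℕ)) : (∀ t ∈ T, monomial t (1 : K) ∈ J) → ∀ f : MvPowerSeries σ K,
      (∀ m : σ →₀ ℕ, (∀ t ∈ T, ¬ t ≤ m) → coeff m f = 0) → f ∈ J := by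
  classical
  induction T using Finset.induction_on with
  | empty =>
    intro _ f hf
    rw [show f = 0 from MvPowerSeries.ext fun m => hf m (by simp)]; simp
  | insert t T _ ih =>
    intro hT f hf
    let u : MvPowerSeries σ K := fun m => coeff (m + t) f
    have hu : ∀ m, coeff m u = coeff (m + t) f := fun _ => rfl
    have : f - monomial t 1 * u ∈ J := by
      refine ih (fun s hs => hT s (mem_insert_of_mem hs)) _ fun m hm => ?_
      rw [map_sub, coeff_monomial_mul]
      split_ifs with h
      · rw [hu, tsub_add_cancel_of_le h, one_mul, sub_self]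
      · rw [sub_zero]
        exact hf m (by simpa [h] using hm)
    simpa using add_mem this (J.mul_mem_right u (hT t (mem_insert_self _ _)))

theorem mon_mem {K : Type u} [Field K] {d : ℕ} (t : Fin d →₀ ℕ) :
    monomial t (1 : K) ∈ mx K d ^ t.degree := by
  induction t using Finsupp.induction_linear with
  | zero => simp
  | add f g hf hg =>
    rw [map_add, pow_add, ← one_mul (1 : K), ← monomial_mul_monomial]
    exact Ideal.mul_mem_mul hf hg
  | single a b =>
    rw [← X_pow_eq, Finsupp.degree_single]
    exact Ideal.pow_mem_pow (Ideal.subset_span (Set.mem_range_self a)) _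

theorem ord {K : Type u} [Field K] {d : ℕ} (a : PS K d) (s : ℕ) :
    a ∈ mx K d ^ s ↔ (s : ℕ∞) ≤ a.order := by
  constructor
  · intro h
    induction s generalizing a with
    | zero => simp
    | succ s ih =>
      rw [pow_succ] at h
      refine Submodule.mul_induction_on h (fun x hx y hy => ?_) fun x y hx hy =>
        (le_min hx hy).trans min_order_le_add
      refine le_trans ?_ le_order_mul
      push_cast
      refine add_le_add (ih x hx) ?_
      refine Submodule.span_induction (p := fun y _ => (1 : ℕ∞) ≤ order y) ?_ (by simp)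
        (fun x y _ _ hx hy => (le_min hx hy).trans min_order_le_add)
        (fun c x _ hx => hx.trans (le_add_self.trans le_order_mul)) hy
      rintro _ ⟨i, rfl⟩
      simp [one_le_order_iff_constCoeff_eq_zero]
  · intro h
    refine mem_span_mon _ (Finsupp.finite_of_degree_eq (σ := Fin d) s).toFinset
      (fun t ht => ?_) a fun m hm => coeff_of_lt_order (lt_of_lt_of_le ?_ h)
    · have : t.degree = s := by simpa using ht
      exact this ▸ mon_mem t
    · by_contra hc
      obtain ⟨g, h1, h2⟩ := Finsupp.exists_le_degree_eq m s (by exact_mod_cast not_lt.1 hc)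
      exact hm g (by simpa using h2) h1

theorem max (K : Type u) [Field K] (d : ℕ) : maximalIdeal (PS K d) = mx K d := by
  ext a
  rw [← pow_one (mx K d), ord, Nat.cast_one, one_le_order_iff_constCoeff_eq_zero]
  simp [isUnit_iff_constantCoeff]

theorem cpl (K : Type u) [Field K] (d : ℕ) (M : Type*) [AddCommGroup M] [Module (PS K d) M]
    [Module.Finite (PS K d) M] : IsAdicComplete (mx K d) M := by
  have h1 : IsHausdorff (mx K d) M := max K d ▸ inferInstance
  have h2 : IsPrecomplete (mx K d) M := by
    rw [← AdicCompletion.of_surjective_iff]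
    intro y
    obtain ⟨z, rfl⟩ := AdicCompletion.ofTensorProduct_surjective_of_finite (mx K d) M y
    induction z with
    | zero => exact ⟨0, by simp⟩
    | add a b ha hb =>
      obtain ⟨a', ha⟩ := ha
      obtain ⟨b', hb⟩ := hb
      exact ⟨a' + b', by rw [map_add, map_add, ha, hb]⟩
    | tmul r x =>
      obtain ⟨r, rfl⟩ := AdicCompletion.of_surjective (mx K d) (PS K d) r
      refine ⟨r • x, ?_⟩
      rw [AdicCompletion.ofTensorProduct_tmul, map_smul]
      exact (algebraMap_smul (AdicCompletion (mx K d) (PS K d)) r _).symm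
  exact {}

theorem fin (K : Type u) [Field K] (d : ℕ) (M : Type u) [AddCommGroup M] [Module (PS K d) M]
    [Module K M] [IsScalarTower K (PS K d) M] (h : IsHausdorff (mx K d) M)
    (h' : cl K (mx K d • ⊤ : Submodule (PS K d) M) ≠ ⊤) : Module.Finite (PS K d) M := by
  have : Module.Finite K (M ⧸ (mx K d • ⊤ : Submodule (PS K d) M)) :=
    Module.length_ne_top_iff.1 h' |> fun h => by
      have := (isFiniteLength_iff_isNoetherian_isArtinian.1 h).1
      infer_instance
  have : Module.Finite (PS K d) (M ⧸ (mx K d • ⊤ : Submodule (PS K d) M)) :=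
    Module.Finite.of_restrictScalars_finite K _ _
  obtain ⟨n, p, hp⟩ := Module.Finite.exists_fin' (PS K d)
    (M ⧸ (mx K d • ⊤ : Submodule (PS K d) M))
  obtain ⟨f, hf⟩ := Module.projective_lifting_property _ p
    (Submodule.mkQ_surjective (mx K d • ⊤ : Submodule (PS K d) M))
  have := cpl K d (Fin n → PS K d)
  exact Module.Finite.of_surjective f (surjective_of_mkQ_comp_surjective (I := mx K d) (hf ▸ hp))

theorem ev (K : Type u) [Field K] (d : ℕ) (Λ : Type u) [CommRing Λ] [Algebra K Λ] (I : Ideal Λ)
    (h : IsAdicComplete I Λ) (y : Fin d → Λ) (hy : ∀ i, y i ∈ I.radical) :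
    ∃ f : PS K d →ₐ[K] Λ, ∀ i, f (X i) = y i := by
  let : WithIdeal Λ := ⟨I⟩
  obtain ⟨h1, h2⟩ := (IsAdic.isAdicComplete_iff (I := I) rfl).1 h
  let : UniformSpace K := ⊥
  have : DiscreteUniformity K := ⟨rfl⟩
  have : ContinuousSMul K Λ := continuousSMul_of_algebraMap K Λ continuous_of_discreteTopology
  have hy' : HasEval y := ⟨fun i => by
    obtain ⟨c, hc⟩ := hy i
    suffices ∀ m : ℕ, ∃ n₀, ∀ n, n₀ ≤ n → y i ^ n ∈ I ^ m by
      simpa [IsTopologicallyNilpotent, I.hasBasis_nhds_zero_adic.tendsto_right_iff]
    refine fun m => ⟨c * m, fun n hn => ?_⟩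
    obtain ⟨e, rfl⟩ := Nat.exists_eq_add_of_le hn
    rw [pow_add, pow_mul]
    exact Ideal.mul_mem_right _ _ (Ideal.pow_mem_pow hc _), by simp⟩
  exact ⟨aeval hy', fun i => by rw [coe_aeval, eval₂_X]⟩

end EvL

theorem evStmt : EvStmt.{u} := fun K _ d =>
  ⟨EvL.ev K d, EvL.fin K d, fun M => EvL.cpl K d M, EvL.max K d, EvL.ord⟩

end Vale.Agent.P202
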