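import Vale.Agent.P202.Spec

/-! Module F1: lengths of Frobenius pull-backs over a domain finite over the power series ring. -/

open Finset Matrix MvPowerSeries

namespace Vale.Agent.P202.Fr1m

universe u

/-- `δ R ≤ Σ R ^ q v_i` -/
def Sp {R : Type*} [CommRing R] (q : ℕ) (δ : R) {ι : Type} [Fintype ι] (v : ι → R) : Prop :=
  ∀ r, ∃ c : ι → R, δ * r = ∑ i, c i ^ q * v i

theorem iter {R : Type*} [CommRing R] (p : ℕ) (hp : 2 ≤ p) [ExpChar R p] {δ : R} {ι : Type}
    [Fintype ι] {v : ι → R} (h : Sp p (δ ^ p) v) (e : ℕ) :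
    ∃ (κ : Type) (_ : Fintype κ) (w : κ → R), Fintype.card κ = Fintype.card ι ^ e ∧
      Sp (p ^ e) ((δ ^ 2) ^ p ^ e) w := by
  induction e with
  | zero => exact ⟨Unit, inferInstance, fun _ => 1, by simp, fun r => ⟨fun _ => δ ^ 2 * r, by simp⟩⟩
  | succ e ih =>
    obtain ⟨κ, _, w, hc, hw⟩ := ih
    refine ⟨κ × ι, inferInstance, fun x => v x.2 ^ p ^ e * w x.1, by simp [hc, pow_succ],
      fun r => ?_⟩
    obtain ⟨k, rfl⟩ := Nat.exists_eq_add_of_le hp
    obtain ⟨c, hc⟩ := hw (δ ^ (k * (2 + k) ^ e) * r)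
    choose c' hc' using fun I => h (c I)
    refine ⟨fun x => c' x.1 x.2, ?_⟩
    have e1 : (δ ^ 2) ^ (2 + k) ^ (e + 1) * r =
        (δ ^ (2 + k)) ^ (2 + k) ^ e * ((δ ^ 2) ^ (2 + k) ^ e * (δ ^ (k * (2 + k) ^ e) * r)) := by
      simp only [← pow_mul, ← mul_assoc, ← pow_add]
      congr 2
      ring
    rw [e1, hc, Fintype.sum_prod_type, mul_sum]
    refine sum_congr rfl fun I _ => ?_
    rw [← mul_assoc, ← mul_pow, hc', sum_pow_char_pow, sum_mul]
    refine sum_congr rfl fun i _ => ?_
    rw [mul_pow, ← pow_mul, ← pow_succ', mul_assoc]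

/-- exponent vector -/
noncomputable def al {d p : ℕ} (α : Fin d → Fin p) : Fin d →₀ ℕ :=
  Finsupp.equivFunOnFinite.symm fun i => (α i : ℕ)

theorem decomp (K : Type u) [Field K] [PerfectField K] (p : ℕ) [hp : Fact p.Prime] [CharP K p]
    (d : ℕ) : Sp p (1 : PS K d) fun α : Fin d → Fin p => monomial (al α) (1 : K) := by
  classical
  intro a
  have h0 : p ≠ 0 := hp.out.ne_zero
  have hpos : 0 < p := hp.out.pos
  let c : (Fin d → Fin p) → PS K d := fun α β =>
    (frobeniusEquiv K p).symm (coeff (p • β + al α) a)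
  have hc : ∀ α β, coeff β (c α) = (frobeniusEquiv K p).symm (coeff (p • β + al α) a) :=
    fun _ _ => rfl
  refine ⟨c, ?_⟩
  ext m
  let α0 : Fin d → Fin p := fun i => ⟨m i % p, Nat.mod_lt _ hpos⟩
  let β0 : Fin d →₀ ℕ := Finsupp.equivFunOnFinite.symm fun i => m i / p
  have hm : m = p • β0 + al α0 := by
    ext i
    simp [β0, α0, al, Nat.div_add_mod]
  rw [one_mul, map_sum, sum_eq_single α0]
  · conv_rhs => rw [hm]
    rw [coeff_add_mul_monomial, mul_one, ← map_frobenius_expand p h0, coeff_map,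
      coeff_expand_smul, hc, ← hm]
    exact ((frobeniusEquiv K p).apply_symm_apply _).symm
  · intro α _ hα
    rw [coeff_mul_monomial]
    split_ifs with hle
    · obtain ⟨i, hi⟩ := Function.ne_iff.1 hα
      have h1 : (α i : ℕ) ≤ m i := by simpa [al] using hle i
      have h2 : ¬ p ∣ (m - al α) i := by
        intro hd
        apply hi
        have h3 : p ∣ m i - α i := by simpa [al] using hd
        have h4 := ((Nat.modEq_iff_dvd' h1).2 h3)
        ext
        change (α i : ℕ) = m i % p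
        rw [← h4, Nat.mod_eq_of_lt (α i).2]
      rw [← map_frobenius_expand p h0, coeff_map, coeff_expand_of_not_dvd p h0 _ h2, map_zero,
        zero_mul]
    · rfl
  · intro h; exact absurd (mem_univ _) h

theorem push {A R : Type*} [CommRing A] [CommRing R] [Algebra A R] {q : ℕ} {ι κ : Type}
    [Fintype ι] [Fintype κ] {w : ι → A} (h : Sp q 1 w) (ω : κ → R) (r : R)
    (hr : r ∈ Submodule.span A (Set.range ω)) :
    ∃ c : κ × ι → A, r = ∑ x, algebraMap A R (c x) ^ q * (algebraMap A R (w x.2) * ω x.1) := by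
  obtain ⟨a, rfl⟩ := (Submodule.mem_span_range_iff_exists_fun A).1 hr
  choose c hc using fun b => h (a b)
  refine ⟨fun x => c x.1 x.2, ?_⟩
  rw [Fintype.sum_prod_type]
  refine sum_congr rfl fun b _ => ?_
  rw [← one_mul (a b), hc, Algebra.smul_def, map_sum, sum_mul]
  refine sum_congr rfl fun i _ => ?_
  rw [map_mul, map_pow, mul_assoc]

theorem clear (A M : Type*) [CommRing A] [IsDomain A] [AddCommGroup M] [Module A M]
    [Module.Finite A M] : ∃ v : Fin (Module.finrank A M) → M, LinearIndependent A v ∧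
      ∃ g : A, g ≠ 0 ∧ ∀ x, g • x ∈ Submodule.span A (Set.range v) := by
  obtain ⟨v, hv⟩ := exists_linearIndependent_of_le_finrank (R := A) (M := M) le_rfl
  have h1 := (Submodule.span A (Set.range v)).finrank_quotient_add_finrank
  rw [finrank_span_eq_card hv, Fintype.card_fin] at h1
  have h2 : Module.finrank A (M ⧸ Submodule.span A (Set.range v)) = 0 := by omega
  obtain ⟨g, hg, hg'⟩ := Submodule.annihilator_top_inter_nonZeroDivisors
    (Module.finrank_eq_zero_iff_isTorsion.1 h2)
  refine ⟨v, hv, g, nonZeroDivisors.ne_zero hg', fun x => ?_⟩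
  rw [← Submodule.Quotient.mk_eq_zero, Submodule.Quotient.mk_smul]
  exact Submodule.mem_annihilator.1 hg _ Submodule.mem_top

/-- a copy of `R`, to carry the module structure through Frobenius -/
def Fr (R : Type u) : Type u := R

theorem frob {A R : Type u} [CommRing A] [IsDomain A] [CommRing R] [IsDomain R] [Algebra A R]
    [Module.Finite A R] (hρ : 0 < Module.finrank A R) (p : ℕ) [ExpChar R p] {ι : Type} [Fintype ι]
    {w : ι → A} (h : Sp p 1 w) :
    ∃ (m : ℕ) (v : Fin m → R) (δ : R), m ≤ Fintype.card ι ∧ δ ≠ 0 ∧ Sp p (δ ^ p) v := by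
  let _ : AddCommGroup (Fr R) := inferInstanceAs (AddCommGroup R)
  let _ : Module R (Fr R) := Module.compHom R (frobenius R p)
  let _ : Module A (Fr R) := Module.compHom (Fr R) (algebraMap A R)
  let toF : R ≃+ Fr R := AddEquiv.refl R
  have hR : ∀ (r x : R), r • toF x = toF (r ^ p * x) := fun _ _ => rfl
  have hA : ∀ (a : A) (x : R), a • toF x = toF (algebraMap A R a ^ p * x) := fun _ _ => rfl
  have hT : IsScalarTower A R (Fr R) := ⟨fun a r x => by
    obtain ⟨x, rfl⟩ := toF.surjective x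
    rw [hR, hR, hA, Algebra.smul_def, mul_pow, mul_assoc]⟩
  have hsp : ∀ {κ : Type} [Fintype κ] (ω : κ → R) (r : R), r ∈ Submodule.span A (Set.range ω) →
      toF r ∈ Submodule.span A
        (Set.range fun x : κ × ι => toF (algebraMap A R (w x.2) * ω x.1)) := by
    intro κ _ ω r hr
    obtain ⟨c, rfl⟩ := push h ω r hr
    rw [map_sum]
    exact Submodule.sum_mem _ fun x _ => by
      rw [← hA]; exact Submodule.smul_mem _ _ (Submodule.subset_span ⟨x, rfl⟩)
  have hfA : Module.Finite A (Fr R) := by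
    obtain ⟨C, ω, hω⟩ := Module.Finite.exists_fin (R := A) (M := R)
    refine ⟨Submodule.fg_def.2 ⟨_, Set.finite_range
      fun x : Fin C × ι => toF (algebraMap A R (w x.2) * ω x.1), eq_top_iff.2 fun x _ => ?_⟩⟩
    obtain ⟨x, rfl⟩ := toF.surjective x
    exact hsp ω x (hω ▸ Submodule.mem_top)
  have hfR : Module.Finite R (Fr R) := Module.Finite.of_restrictScalars_finite A R (Fr R)
  obtain ⟨ω, hω, g, hg, hgω⟩ := clear A R
  obtain ⟨v, hv, δ, hδ, hδv⟩ := clear R (Fr R)
  have hg' : algebraMap A R g ≠ 0 := fun e => hρ.ne' <|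
    Module.finrank_eq_zero_iff.2 fun x => ⟨g, hg, by rw [Algebra.smul_def, e, zero_mul]⟩
  have h1 := (linearIndependent_smul hω hv).fintype_card_le_finrank
  let N := Submodule.span A
    (Set.range fun x : Fin (Module.finrank A R) × ι => toF (algebraMap A R (w x.2) * ω x.1))
  let f : Fr R →ₗ[A] N :=
    { toFun := fun x => ⟨toF (g • toF.symm x), hsp ω _ (hgω _)⟩
      map_add' := fun x y => by
        ext; simp [smul_add]
      map_smul' := fun a x => by
        obtain ⟨x, rfl⟩ := toF.surjective x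
        ext
        change toF (g • toF.symm (a • toF x)) = a • toF (g • toF.symm (toF x))
        rw [hA, hA, toF.symm_apply_apply, toF.symm_apply_apply, mul_smul_comm] }
  have hf : Function.Injective f := fun x y e => by
    have e1 : g • toF.symm x = g • toF.symm y := toF.injective (congrArg Subtype.val e)
    rw [Algebra.smul_def, Algebra.smul_def] at e1
    exact toF.symm.injective (mul_left_cancel₀ hg' e1)
  have hN : Module.Finite A N := Module.Finite.span_of_finite A (Set.finite_range _)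
  have h2 := (LinearMap.finrank_le_finrank_of_injective hf).trans (finrank_range_le_card _)
  have h3 := h1.trans h2
  simp only [Fintype.card_prod, Fintype.card_fin] at h3
  refine ⟨_, fun i => toF.symm (v i), δ, Nat.le_of_mul_le_mul_left h3 hρ, hδ, fun r => ?_⟩
  obtain ⟨c, hc⟩ := (Submodule.mem_span_range_iff_exists_fun R).1 (hδv (toF r))
  refine ⟨c, toF.injective ?_⟩
  rw [← hR, ← hc, map_sum]
  exact sum_congr rfl fun i _ => by rw [← hR, toF.apply_symm_apply]

section cl
variable {K A M : Type*} [Field K] [CommRing A] [Algebra K A] [AddCommGroup M] [Module A M]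
  [Module K M] [IsScalarTower K A M]

theorem span_of_cl {N : Submodule A M} {lam : ℕ} (h : cl K N ≤ lam) :
    ∃ (m : ℕ) (s : Fin m → M), m ≤ lam ∧
      ∀ u, ∃ a : Fin m → K, u - ∑ j, a j • s j ∈ N := by
  have h1 : Module.length K (M ⧸ N) ≠ ⊤ := ne_top_of_le_ne_top (ENat.natCast_ne_top lam) h
  have h2 := (isFiniteLength_iff_isNoetherian_isArtinian.1 (Module.length_ne_top_iff.1 h1)).1
  have h3 : Module.Finite K (M ⧸ N) := inferInstance
  rw [cl, Module.length_eq_finrank, Nat.cast_le] at h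
  let b := Module.finBasis K (M ⧸ N)
  choose s hs using fun j => N.mkQ_surjective (b j)
  refine ⟨_, s, h, fun u => ⟨b.repr (N.mkQ u), ?_⟩⟩
  rw [← Submodule.Quotient.mk_eq_zero, ← Submodule.mkQ_apply, map_sub, map_sum, sub_eq_zero]
  conv_lhs => rw [← b.sum_repr (N.mkQ u)]
  exact sum_congr rfl fun j _ => by rw [LinearMap.map_smul_of_tower, hs]

theorem cl_of_span (N : Submodule A M) {ι : Type} [Fintype ι] (s : ι → M)
    (h : ∀ u, u ∈ N.restrictScalars K ⊔ Submodule.span K (Set.range s)) :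
    cl K N ≤ Fintype.card ι := by
  have hs : Function.Surjective (Fintype.linearCombination K fun i => N.mkQ (s i)) := fun x => by
    obtain ⟨u, rfl⟩ := N.mkQ_surjective x
    obtain ⟨y, hy, z, hz, rfl⟩ := Submodule.mem_sup.1 (h u)
    obtain ⟨a, rfl⟩ := (Submodule.mem_span_range_iff_exists_fun K).1 hz
    refine ⟨a, ?_⟩
    have hy' : N.mkQ y = 0 := (Submodule.Quotient.mk_eq_zero _).2 hy
    rw [Fintype.linearCombination_apply, map_add, hy', zero_add, map_sum]
    exact sum_congr rfl fun j _ => by rw [LinearMap.map_smul_of_tower]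
  refine (Module.length_le_of_surjective _ hs).trans ?_
  rw [Module.length_eq_finrank, Module.finrank_fintype_fun_eq_card]

end cl

section cnt
variable {K R : Type*} [Field K] [CommRing R] [Algebra K R] {n : Type} [Fintype n] [DecidableEq n]
  (F : R →+* R)

omit [Fintype n] [DecidableEq n] in
theorem step {q : ℕ} (hF : ∀ x, F x = x ^ q) (N : Submodule R (n → R)) {m : ℕ}
    (s : Fin m → n → R) (hs : ∀ u, ∃ a : Fin m → K, u - ∑ j, a j • s j ∈ N)
    (P : Submodule K (n → R)) (v : R) (h1 : ∀ j, v • (F ∘ s j) ∈ P)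
    (h2 : ∀ u ∈ N, v • (F ∘ u) ∈ P) (u : n → R) : v • (F ∘ u) ∈ P := by
  obtain ⟨a, ha⟩ := hs u
  have e : v • (F ∘ u) = v • (F ∘ (u - ∑ j, a j • s j)) + ∑ j, a j ^ q • v • (F ∘ s j) := by
    funext i
    simp only [Pi.smul_apply, Function.comp_apply, Pi.add_apply, Pi.sub_apply, Finset.sum_apply,
      map_sub, map_sum, smul_eq_mul]
    simp only [Algebra.smul_def, map_mul, map_pow, mul_sub, mul_sum, hF (algebraMap K R _)]
    rw [sub_add, ← sum_sub_distrib, sum_eq_zero fun j _ => by ring, sub_zero]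
  rw [e]
  exact P.add_mem (h2 _ ha) (P.sum_mem fun j _ => P.smul_mem _ (h1 j))

theorem comp_mem {β : Type} (W : β → Matrix n n R) (u : n → R) (hu : u ∈ imY W 1) :
    F ∘ u ∈ imY (fun l => (W l).map F) 1 := by
  refine Submodule.iSup_induction _ (motive := fun u => F ∘ u ∈ imY (fun l => (W l).map F) 1) hu
    ?_ ?_ ?_
  · rintro l _ ⟨x, rfl⟩
    refine Submodule.mem_iSup_of_mem l ⟨F ∘ x, ?_⟩
    funext i
    simp only [pow_one, mulVecLin_apply, Function.comp_apply]
    exact (F.map_mulVec _ _ _).symm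
  · have : F ∘ (0 : n → R) = 0 := by funext i; simp
    rw [this]; exact Submodule.zero_mem _
  · intro x y hx hy
    have : F ∘ (x + y) = F ∘ x + F ∘ y := by funext i; simp
    rw [this]; exact Submodule.add_mem _ hx hy

omit [Fintype n] [DecidableEq n] in
theorem vec {q : ℕ} (hF : ∀ x, F x = x ^ q) {δ : R} {ι : Type} [Fintype ι] {v : ι → R}
    (h : Sp q δ v) (P : Submodule K (n → R)) (hP : ∀ i u, v i • (F ∘ u) ∈ P) (y : n → R) :
    δ • y ∈ P := by
  choose c hc using fun i => h (y i)
  have : δ • y = ∑ I, v I • (F ∘ fun i => c i I) := by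
    funext i
    simp only [Pi.smul_apply, smul_eq_mul, Finset.sum_apply, Function.comp_apply, hF, hc]
    exact sum_congr rfl fun I _ => mul_comm _ _
  rw [this]
  exact P.sum_mem fun I _ => hP I _

theorem count {q : ℕ} (hF : ∀ x, F x = x ^ q) {δ : R} {ι κ : Type} [Fintype ι] [Fintype κ]
    {v : ι → R} {w : κ → R} (hv : Sp q (δ ^ q) v) (hw : Sp q 1 w) {β : Type}
    (W : β → Matrix n n R) {lam lam' : ℕ} (h : cl K (imY W 1) ≤ lam)
    (h' : cl K (imY W 1 ⊔ Ideal.span {δ} • ⊤) ≤ lam') :
    cl K (imY (fun l => (W l).map F) 1) ≤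
      (Fintype.card ι * lam + Fintype.card κ * lam' : ℕ) := by
  obtain ⟨m, s, hm, hs⟩ := span_of_cl h
  obtain ⟨m', s', hm', hs'⟩ := span_of_cl h'
  let g : ι × Fin m ⊕ κ × Fin m' → n → R :=
    Sum.elim (fun x => v x.1 • (F ∘ s x.2)) fun x => w x.1 • (F ∘ s' x.2)
  let P := (imY (fun l => (W l).map F) 1).restrictScalars K ⊔ Submodule.span K (Set.range g)
  have hN : ∀ (r : R), ∀ u ∈ imY W 1, r • (F ∘ u) ∈ P := fun r u hu =>
    Submodule.mem_sup_left (Submodule.smul_mem (imY (fun l => (W l).map F) 1) r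
      (comp_mem F W u hu))
  have h1 : ∀ y, δ ^ q • y ∈ P := vec F hF hv P fun i =>
    step F hF _ s hs P _ (fun j => Submodule.mem_sup_right
      (Submodule.subset_span ⟨.inl (i, j), rfl⟩)) (hN _)
  have h2 : ∀ y, (1 : R) • y ∈ P := vec F hF hw P fun i =>
    step F hF _ s' hs' P _ (fun j => Submodule.mem_sup_right
      (Submodule.subset_span ⟨.inr (i, j), rfl⟩)) fun u hu => by
      obtain ⟨x, hx, z, hz, rfl⟩ := Submodule.mem_sup.1 hu
      rw [Submodule.ideal_span_singleton_smul] at hz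
      obtain ⟨z, -, rfl⟩ := (Submodule.mem_smul_pointwise_iff_exists _ _ _).1 hz
      have : w i • (F ∘ (x + δ • z)) = w i • (F ∘ x) + δ ^ q • w i • (F ∘ z) := by
        funext a
        simp only [Pi.smul_apply, Function.comp_apply, Pi.add_apply, smul_eq_mul, map_add, map_mul,
          hF δ]
        ring
      rw [this]
      exact P.add_mem (hN _ _ hx) (h1 _)
  refine (cl_of_span _ g fun u => by simpa using h2 u).trans ?_
  simp only [Fintype.card_sum, Fintype.card_prod, Fintype.card_fin, Nat.cast_le]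
  gcongr

end cnt

end Vale.Agent.P202.Fr1m

namespace Vale.Agent.P202

universe u

open Fr1m

theorem fr1Stmt : Fr1Stmt.{u} := by
  intro K _ _ p hp _ d R _ _ _ _ _ _ hρ
  have := expChar_of_injective_algebraMap (algebraMap K R).injective p
  have := expChar_of_injective_algebraMap (algebraMap K (PS K d)).injective p
  have : IsDomain (PS K d) := NoZeroDivisors.to_isDomain _
  have h0 := decomp K p d
  obtain ⟨m, v, δ, hm, hδ, hv⟩ := frob hρ p h0
  obtain ⟨C, ω, hω⟩ := Module.Finite.exists_fin (R := PS K d) (M := R)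
  refine ⟨δ ^ 2, C, pow_ne_zero 2 hδ, fun e n β _ _ W lam lam' h h' => ?_⟩
  obtain ⟨ι, _, v', hι, hv'⟩ := iter p hp.out.two_le hv e
  obtain ⟨κ, _, w, hκ, hw⟩ := iter p hp.out.two_le (δ := (1 : PS K d))
    ((one_pow p : (1 : PS K d) ^ p = 1).symm ▸ h0) e
  rw [one_pow, one_pow] at hw
  have hw' : Sp (p ^ e) 1 fun x : Fin C × κ => algebraMap (PS K d) R (w x.2) * ω x.1 := fun r => by
    obtain ⟨c, hc⟩ := push hw ω r (hω ▸ Submodule.mem_top)
    exact ⟨_, (one_mul r).trans hc⟩
  refine (count (iterateFrobenius R p e) (fun _ => rfl) hv' hw' W h h').trans ?_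
  simp only [Fintype.card_fun, Fintype.card_fin] at hι hκ hm
  rw [Nat.cast_le, Fintype.card_prod, Fintype.card_fin, hι, hκ, ← pow_mul p e d, mul_comm e d,
    pow_mul, mul_add, mul_comm C, mul_assoc]
  gcongr

end Vale.Agent.P202
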