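import Vale.Agent.P202.Fr2a

/-! Module F2: the domain case in positive characteristic. -/

open Finset Matrix MvPowerSeries Filter Topology IsLocalRing
open scoped Kronecker Nat

namespace Vale.Agent.P202

universe u

namespace F2

theorem nil_sum {S T β : Type*} [CommRing S] [Ring T] [Fintype β] (ρ : S →+* T) (y : β → S) (N : ℕ)
    (h : ∀ l, ρ (y l) ^ N = 0) (G : β → T) (h1 : ∑ l, ρ (y l) * G l = 1) : (1 : T) = 0 := by
  obtain ⟨k, hk⟩ := Ideal.exists_pow_le_of_le_radical_of_fg (I := Ideal.span (Set.range y))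
    (J := RingHom.ker ρ) (Ideal.span_le.2 (by rintro _ ⟨l, rfl⟩; exact ⟨N, by simp [h]⟩))
    (Submodule.fg_span (Set.finite_range y))
  induction k with
  | zero => simpa using hk (show (1 : S) ∈ _ by simp)
  | succ k ih =>
    refine ih fun s hs => ?_
    rw [RingHom.mem_ker, ← mul_one (ρ s), ← h1, mul_sum]
    refine sum_eq_zero fun l _ => ?_
    rw [← mul_assoc, ← map_mul, RingHom.mem_ker.1 (hk ?_), zero_mul]
    rw [pow_succ]
    exact Ideal.mul_mem_mul hs (Ideal.subset_span ⟨l, rfl⟩)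

theorem ex_deg {R S n β ι : Type*} [CommRing R] [CommRing S] [Fintype n] [DecidableEq n]
    [Fintype β] [DecidableEq β] [Fintype ι] (ρ : S →+* Matrix n n R) (y : β → S) (m : Ideal R)
    (hm : m ≠ ⊤) (hn : Nonempty n) (N : ℕ) (nil : ∀ l i i', (ρ (y l) ^ N) i i' ∈ m) {deg : ι → ℕ}
    {P : Matrix (Finset β × n) ι R} {Q : Matrix ι (Finset β × n) R}
    {H : Matrix (Finset β × n) (Finset β × n) R} (hP : Gr deg kd 0 P) (hH : Gr kd kd 1 H)
    (h : P * Q + Kos (fun l => ρ (y l)) * H + H * Kos (fun l => ρ (y l)) = 1) : ∃ i, deg i = 0 := by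
  by_contra h0
  have h1 : ∑ l, ρ (y l) * (of fun c b => ∑ I, (ct l ∅ I : R) * H (I, c) (∅, b)) = 1 := by
    ext a b
    have e := congrFun (congrFun h (∅, a)) (∅, b)
    have e1 : ∀ i, P (∅, a) i = 0 := fun i => by
      by_contra c
      have := hP _ _ c
      exact h0 ⟨i, by simp only [kd, card_empty] at this; omega⟩
    have e2 : ∀ x, H (∅, a) x = 0 := fun x => by
      by_contra c
      have := hH _ _ c
      simp only [kd, card_empty] at this; omega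
    simp only [Matrix.add_apply, mul_apply, e1, e2, zero_mul, sum_const_zero, zero_add, add_zero,
      Kos, Matrix.sum_apply, kroneckerMap_apply, map_apply, Fintype.sum_prod_type, sum_mul,
      one_apply, Prod.mk.injEq, true_and] at e
    simp only [Matrix.sum_apply, mul_apply, of_apply, mul_sum, one_apply, ← e]
    refine sum_congr rfl fun l _ => ?_
    rw [sum_comm]
    exact sum_congr rfl fun I _ => sum_congr rfl fun c _ => by ring
  have h2 := nil_sum ((Ideal.Quotient.mk m).mapMatrix.comp ρ) y N (fun l => by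
    rw [RingHom.comp_apply, ← map_pow]
    ext i j
    exact Ideal.Quotient.eq_zero_iff_mem.2 (nil l i j)) _ (by
      have := congrArg (Ideal.Quotient.mk m).mapMatrix h1
      rwa [map_sum, map_one, sum_congr rfl fun l _ => map_mul _ _ _] at this)
  obtain ⟨a⟩ := hn
  have h3 := congrFun (congrFun h2 a) a
  rw [one_apply_eq, Matrix.zero_apply, ← map_one (Ideal.Quotient.mk m),
    Ideal.Quotient.eq_zero_iff_mem] at h3
  exact hm ((Ideal.eq_top_iff_one m).2 h3)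

theorem red_pow {R : Type*} [CommRing R] {m J : Ideal R} {c : ℕ} (h : m ^ (c + 1) ≤ J * m ^ c)
    (k : ℕ) : m ^ (k + c) ≤ J ^ k * m ^ c := by
  induction k with
  | zero => simp
  | succ k ih =>
    calc m ^ (k + 1 + c) = m ^ (k + c) * m := by ring
      _ ≤ J ^ k * m ^ c * m := Ideal.mul_mono_left ih
      _ = J ^ k * m ^ (c + 1) := by ring
      _ ≤ J ^ k * (J * m ^ c) := Ideal.mul_mono_right h
      _ = _ := by ring

theorem red_mem {R : Type*} [CommRing R] {m J : Ideal R} {c : ℕ} (h : m ^ (c + 1) ≤ J * m ^ c)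
    (k : ℕ) {x : R} (hx : x ∈ m) : x ^ (k + c) ∈ J ^ k :=
  (red_pow h k).trans Ideal.mul_le_left (Ideal.pow_mem_pow hx _)

theorem gen_pow {S β : Type*} [CommRing S] [Fintype β] (y : β → S) {x : S}
    (h : x ∈ Ideal.span (Set.range y)) (t : ℕ) :
    ∃ w : β → S, ∑ l, w l * y l ^ (t + 1) = x ^ (Fintype.card β * t + 1) := by
  obtain ⟨z, rfl⟩ := Ideal.mem_span_range_iff_exists_fun.1 h
  refine Ideal.mem_span_range_iff_exists_fun.1 (Ideal.span_le.2 ?_
    (Ideal.sum_pow_mem_span_pow univ (fun l => z l * y l) t))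
  rintro _ ⟨l, -, rfl⟩
  simp only [mul_pow]
  exact Ideal.mul_mem_left _ _ (Ideal.subset_span ⟨l, rfl⟩)

theorem bern (s c r : ℕ) : (s + c) ^ (r + 1) ≤ s ^ (r + 1) + (r + 1) * c * (s + c) ^ r := by
  induction r with
  | zero => simp
  | succ r ih =>
    have h : s ^ (r + 1) ≤ (s + c) ^ (r + 1) := Nat.pow_le_pow_left (by omega) _
    calc (s + c) ^ (r + 1 + 1) = (s + c) * (s + c) ^ (r + 1) := by ring
      _ ≤ (s + c) * (s ^ (r + 1) + (r + 1) * c * (s + c) ^ r) := Nat.mul_le_mul_left _ ih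
      _ = s ^ (r + 1 + 1) + c * s ^ (r + 1) + (r + 1) * c * (s + c) ^ (r + 1) := by ring
      _ ≤ s ^ (r + 1 + 1) + c * (s + c) ^ (r + 1) + (r + 1) * c * (s + c) ^ (r + 1) := by gcongr
      _ = _ := by ring

theorem lim {p a b g c r : ℕ} (hp : 1 < p) (h : ∀ e s, 1 ≤ s → s + c = p ^ e →
    a * s ^ (r + 1) ≤ b * (s + c) ^ (r + 1) + g * (s + c) ^ r) : a ≤ b := by
  by_contra hab
  have h1 := Nat.lt_pow_self (n := c + g + a * ((r + 1) * c)) hp
  obtain ⟨s, hs⟩ : ∃ s, s + c = p ^ (c + g + a * ((r + 1) * c)) := ⟨_, Nat.sub_add_cancel (by omega)⟩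
  have h2 := h _ s (by omega) hs
  rw [← hs] at h1
  have h3 := Nat.mul_le_mul_left a (bern s c r)
  have h4 : (b + 1) * (s + c) ^ (r + 1) ≤ a * (s + c) ^ (r + 1) := by gcongr; omega
  have h5 : (s + c) * (s + c) ^ r ≤ (g + a * ((r + 1) * c)) * (s + c) ^ r := by
    rw [← pow_succ']; nlinarith
  have := Nat.le_of_mul_le_mul_right h5 (Nat.pow_pos (by omega))
  omega

theorem Lt.ph_nul {A R κ ι τ : Type*} [CommRing A] [CommRing R] [Algebra A R] (L : Lt A R κ)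
    [Fintype κ] [DecidableEq κ] [Fintype ι] [Fintype τ] [DecidableEq ι] [DecidableEq τ]
    (e : τ ≃ ι × κ) {a b : A} (h : L.F (algebraMap A R a) = algebraMap A R b) (t : ℕ) :
    L.δ ^ (t + 1) • L.ph e e (algebraMap A R a • (1 : Matrix ι ι R)) =
      (L.δ ^ (t + 2) * b) • (1 : Matrix τ τ A) := by
  rw [L.ph_smul e e h, L.ph_one, smul_smul, smul_smul]
  congr 1; ring

theorem kos_h {R S n β : Type*} [CommRing R] [CommRing S] [Fintype n] [DecidableEq n]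
    [Fintype β] [DecidableEq β] (ρ : S →+* Matrix n n R) (y w : β → S) {x : R}
    (h : ρ (∑ l, w l * y l) = x • 1) : ∃ H, Gr kd kd 1 H ∧
      Kos (fun l => ρ (y l)) * H + H * Kos (fun l => ρ (y l)) = x • 1 := by
  obtain ⟨h1, h2⟩ := kos_nul (fun l => ρ (y l)) (fun l => ρ (w l))
    fun l j => (Commute.all _ _).map ρ
  refine ⟨_, h1, h2.trans ?_⟩
  simp only [← map_mul, ← map_sum]
  rw [h, kronecker_smul, one_kronecker_one]

section main
variable {K : Type u} [Field K] {r : ℕ} {R : Type u} [CommRing R] [Algebra (PS K (r + 1)) R]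
  {κ : Type} [Fintype κ] [DecidableEq κ] (L : Lt (PS K (r + 1)) R κ) {q : ℕ}
  (hF : ∀ x, L.F x = x ^ q) {S : Type u} [CommRing S] {n : Type} [Fintype n] [DecidableEq n]
  (ρ : S →+* Matrix n n R) (y : Fin (r + 1) → S) {t E : ℕ}
  (hw : ∀ j, ∃ w : Fin (r + 1) → S, ρ (∑ l, w l * y l ^ (t + 1)) =
    algebraMap (PS K (r + 1)) R (X j ^ E) • 1)
include hF hw

theorem com : Com (L.δ ^ (t + 2)) (E * q) (t + 1)
    fun l => L.ph (Equiv.refl _) (Equiv.refl _) (ρ (y l)) := by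
  have hc : ∀ a b, Commute (L.ph (Equiv.refl _) (Equiv.refl _) (ρ a))
      (L.ph (Equiv.refl _) (Equiv.refl _) (ρ b)) := fun a b => by
    rw [Commute, SemiconjBy, L.ph_mul, L.ph_mul, ← map_mul, ← map_mul, mul_comm]
  refine ⟨fun i j => hc _ _, fun j => ?_⟩
  obtain ⟨w, h⟩ := hw j
  refine ⟨_, fun l l' => hc (w l) _, ?_⟩
  rw [← L.ph_nul (Equiv.refl _) (a := X j ^ E) (by rw [hF, ← map_pow, pow_mul]), ← h, map_sum,
    L.ph_sum, smul_sum]
  refine sum_congr rfl fun l _ => ?_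
  rw [L.ph_pow, Matrix.mul_smul, L.ph_mul, smul_smul, ← pow_succ, map_mul, map_pow]

theorem gd {ι : Type} [Fintype ι] [DecidableEq ι] {deg : ι → ℕ} {D : Matrix ι ι R}
    {P : Matrix (Finset (Fin (r + 1)) × n) ι R} {Q : Matrix ι (Finset (Fin (r + 1)) × n) R}
    (h1 : Gr deg deg (-1) D) (h2 : D * D = 0)
    (h3 : ∀ i', ∃ i : Finset (Fin (r + 1)) × n, deg i' = kd i)
    (hP : Gr deg kd 0 P) (hQ : Gr kd deg 0 Q) (h4 : Kos (fun l => ρ (y l)) * P = P * D)
    (h5 : D * Q = Q * Kos fun l => ρ (y l)) (h6 : Q * P = 1) :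
    Gd (L.δ ^ (t + 2)) (E * q) (fun x : ι × κ => deg x.1)
      (L.ph (Equiv.refl _) (Equiv.refl _) D) := by
  refine ⟨L.ph_gr _ _ h1, by rw [L.ph_mul, h2, L.ph_zero, smul_zero], fun x => ?_, fun j => ?_⟩
  · obtain ⟨i, hi⟩ := h3 x.1
    simpa [hi] using kd_le i
  obtain ⟨w, h⟩ := hw j
  obtain ⟨H, g1, g2⟩ := kos_h ρ y (fun l => w l * y l ^ t)
    (by simpa only [mul_assoc, ← pow_succ] using h)
  refine ⟨L.δ ^ t • L.ph (Equiv.refl _) (Equiv.refl _) (Q * H * P),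
    (L.ph_gr _ _ ((hQ.mul g1 (c := 1) (by simp)).mul hP (by simp))).smul _, ?_⟩
  have : D * (Q * H * P) + Q * H * P * D = algebraMap (PS K (r + 1)) R (X j ^ E) • 1 := by
    rw [← h6, ← Matrix.smul_mul, ← Matrix.mul_one Q, ← Matrix.mul_smul, ← g2, Matrix.mul_one,
      Matrix.mul_add, Matrix.add_mul, ← Matrix.mul_assoc, ← Matrix.mul_assoc, h5]
    simp only [Matrix.mul_assoc, h4]
  rw [Matrix.mul_smul, Matrix.smul_mul, L.ph_mul, L.ph_mul, ← smul_add, ← smul_add, ← L.ph_add,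
    this, smul_smul, ← pow_succ]
  exact L.ph_nul _ (by rw [hF, ← map_pow, pow_mul]) t

theorem step [Algebra K R] [IsScalarTower K (PS K (r + 1)) R] (hV : Ev K (r + 1)) {C : ℕ}
    (hC : ∀ (γ : PS K (r + 1)) (o s M t : ℕ), γ.order ≤ (o : ℕ∞) → 1 ≤ s → 1 ≤ t →
      ∀ (n ι : Type) [Fintype n] [DecidableEq n] [Fintype ι] [DecidableEq ι]
      (Y : Fin (r + 1) → Matrix n n (PS K (r + 1))) (deg : ι → ℕ)
      (D : Matrix ι ι (PS K (r + 1))), Com γ M t Y → Gd γ M deg D →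
      (∀ i j, (s : ℕ∞) ≤ (D i j).order) → ∑ i, (-1 : ℤ) ^ deg i = 0 →
      Dom γ deg D kd (Kos Y) → Dom γ kd (Kos Y) deg D →
      ∀ (N : Submodule (PS K (r + 1)) (n → PS K (r + 1))) (lam : ℕ),
      (∀ v ∈ N, γ • v ∈ imY Y t) → cl K N ≤ lam →
      t ^ (r + 1) * #{i | deg i = 0} * s ^ (r + 1) ≤ lam + C * (Fintype.card ι + Fintype.card n) *
        (o * t ^ (r + 1) + s + 1) * (M + s + 1) ^ r)
    {ι : Type} [Fintype ι] [DecidableEq ι] {deg : ι → ℕ} {D : Matrix ι ι R}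
    {P : Matrix (Finset (Fin (r + 1)) × n) ι R} {Q : Matrix ι (Finset (Fin (r + 1)) × n) R}
    {H : Matrix (Finset (Fin (r + 1)) × n) (Finset (Fin (r + 1)) × n) R}
    (m1 : Gr deg deg (-1) D) (m2 : D * D = 0)
    (m4 : ∀ i', ∃ i : Finset (Fin (r + 1)) × n, deg i' = kd i) (m5 : ∑ i, (-1 : ℤ) ^ deg i = 0)
    (m6 : Gr deg kd 0 P) (m7 : Gr kd deg 0 Q) (m8 : Gr kd kd 1 H)
    (m9 : Kos (fun l => ρ (y l)) * P = P * D) (m10 : D * Q = Q * Kos fun l => ρ (y l))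
    (m11 : Q * P = 1)
    (m12 : P * Q + Kos (fun l => ρ (y l)) * H + H * Kos (fun l => ρ (y l)) = 1)
    {i0 : ι} (hi : deg i0 = 0) {o s lam : ℕ} (ho : (L.δ ^ (t + 2)).order ≤ o) (hs : 1 ≤ s)
    (hD : ∀ a b, D a b ^ q ∈ (mx K (r + 1) ^ s).map (algebraMap (PS K (r + 1)) R))
    (h3 : cl K (imY (fun l => (ρ (y l) ^ (t + 1)).map L.F) 1) ≤ lam) :
    (t + 1) ^ (r + 1) * Fintype.card κ * s ^ (r + 1) ≤ lam + C * (Fintype.card (ι × κ) +
      Fintype.card (n × κ)) * (o * (t + 1) ^ (r + 1) + s + 1) * (E * q + s + 1) ^ r := by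
  have d1 := L.ph_dom (Equiv.prodAssoc _ _ _).symm (Equiv.refl _)
    (⟨P, Q, 0, m6, m7, Gr.zero, m9, m10, by simp [m11]⟩ : Dom 1 deg D kd _) t
  have d2 := L.ph_dom (Equiv.refl _) (Equiv.prodAssoc _ _ _).symm
    (⟨Q, P, H, m7, m6, m8, m10, m9, by rw [m12, one_smul]⟩ : Dom 1 kd _ deg D) t
  rw [L.ph_kos] at d1 d2
  have h5 : Fintype.card κ ≤ #{i : ι × κ | deg i.1 = 0} :=
    card_le_card_of_injOn (s := univ) (t := {i : ι × κ | deg i.1 = 0})
      (fun a => (i0, a)) (fun a _ => by simpa using hi) fun a _ b _ h => congrArg Prod.snd h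
  refine le_trans (by gcongr) (hC _ o s _ _ ho hs (by omega) _ _ _ _ _ (com L hF ρ y hw)
    (gd L hF ρ y hw m1 m2 m4 m6 m7 m9 m10 m11)
    (fun i j => (hV.ord _ _).1 (L.ph_mem _ _ (fun a b => by rw [hF]; exact hD a b) i j)) ?_ d1 d2
    (((imY (fun l => (ρ (y l) ^ (t + 1)).map L.F) 1).restrictScalars _).comap
      (L.up (Equiv.refl _))) _ (fun v hv => L.mem_imY _ _ t hv) (le_trans ?_ h3))
  · rw [Fintype.sum_prod_type, sum_comm]
    simp only [m5, sum_const_zero]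
  · rw [cl_eq, cl_eq]
    exact rl_le_of_comap ((L.up (Equiv.refl _)).restrictScalars K) (fun x _ h => h)
      fun _ _ => Submodule.mem_sup_right trivial

end main

theorem ar1 {a b c1 g E s c r : ℕ} (hs : 1 ≤ s)
    (h : a ≤ (s + c) ^ (r + 1) * b + c1 * (g + s + 1) * (E * (s + c) + s + 1) ^ r) :
    a ≤ (b + c1 * (E + 2) ^ r) * (s + c) ^ (r + 1) + c1 * (g + 1) * (E + 2) ^ r * (s + c) ^ r := by
  have h6 : (E * (s + c) + s + 1) ^ r ≤ (E + 2) ^ r * (s + c) ^ r := by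
    rw [← mul_pow]; exact Nat.pow_le_pow_left (by nlinarith) _
  calc a ≤ _ := h
    _ ≤ (s + c) ^ (r + 1) * b + c1 * (g + (s + c) + 1) * ((E + 2) ^ r * (s + c) ^ r) := by
      gcongr; omega
    _ = _ := by ring

theorem ar2 {a lam lam' C c1 N r t : ℕ}
    (h : a ≤ lam + C * lam' + c1 * (N * ((r + 1) * t + 1) + 2) ^ r) :
    a ≤ lam + (C + c1 * (N * (r + 1) + 2) ^ r) * lam' +
      (C + c1 * (N * (r + 1) + 2) ^ r) * (t + 1 + 1) ^ r := by
  have h7 : (N * ((r + 1) * t + 1) + 2) ^ r ≤ (N * (r + 1) + 2) ^ r * (t + 1 + 1) ^ r := by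
    rw [← mul_pow]; exact Nat.pow_le_pow_left (by nlinarith [Nat.zero_le (N * r)]) _
  have h8 := Nat.mul_le_mul_left c1 h7
  nlinarith [Nat.zero_le (C * (t + 1 + 1) ^ r), Nat.zero_le (c1 * (N * (r + 1) + 2) ^ r * lam')]

end F2

open F2 in
theorem domStmt (hM : MinStmt.{u}) (hF : Fr1Stmt.{u}) (hA : CoreAStmt.{u}) (hV : EvStmt.{u}) :
    DomStmt.{u} := by
  intro K _ _ p hp _ r R _ _ _ _ _ _ m c S _ n _ _ ρ y ξ N hR hD
  rcases Nat.eq_zero_or_pos (Module.finrank (PS K (r + 1)) R) with h0 | h0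
  · exact ⟨1, 0, one_ne_zero, by simp [h0]⟩
  have : IsDomain (PS K (r + 1)) := NoZeroDivisors.to_isDomain _
  obtain ⟨al, be, δ, hδ, ba, ab⟩ := exLt _ R h0
  have : CharP R p := charP_of_injective_algebraMap (algebraMap K R).injective p
  have : ExpChar R p := ExpChar.prime hp.out
  obtain ⟨ι, _, _, deg, D, P, Q, H, m1, m2, m3, m4, m5, m6, m7, m8, m9, m10, m11, m12⟩ :=
    hM R m hR.unit _ kd _ (kos_gr fun l => ρ (y l)) (kos_sq _ fun i j => (Commute.all _ _).map ρ)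
  obtain ⟨δ', C, hδ', hC⟩ := hF K p (r + 1) R h0
  obtain ⟨C', hC'⟩ := hA K r
  obtain ⟨i0, hi⟩ := ex_deg ρ y m hR.ne hD.ne N (fun l => hD.nil l) m6 m8 m12
  refine ⟨δ', C + C' * (Fintype.card (ι × Fin (Module.finrank (PS K (r + 1)) R)) + Fintype.card
    (n × Fin (Module.finrank (PS K (r + 1)) R))) * (N * (r + 1) + 2) ^ r, hδ',
    fun t lam lam' ht h1 h2 => ?_⟩
  obtain ⟨t, rfl⟩ : ∃ t', t = t' + 1 := ⟨t - 1, by omega⟩
  have hw : ∀ j, ∃ w : Fin (r + 1) → S, ρ (∑ l, w l * y l ^ (t + 1)) =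
      algebraMap (PS K (r + 1)) R (X j ^ (N * ((r + 1) * t + 1))) • 1 := fun j => by
    obtain ⟨w, h⟩ := gen_pow y (hD.pw j) t
    refine ⟨w, ?_⟩
    rw [h, Fintype.card_fin, ← pow_mul, map_pow, hD.sc, smul_pow, one_pow, map_pow]
  obtain ⟨o, ho⟩ : ∃ o : ℕ, (δ ^ (t + 2)).order ≤ o :=
    ⟨_, (ne_zero_iff_order_finite.1 (pow_ne_zero _ hδ)).ge⟩
  refine ar2 (lim (c := c) (r := r) hp.out.one_lt fun e s hs he =>
    ar1 (g := o * (t + 1) ^ (r + 1)) hs ?_)
  have := step ⟨al, be, δ, iterateFrobenius R p e, ba, ab⟩ (q := p ^ e) (fun _ => rfl) ρ y hw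
    (hV K _) hC' m1 m2 m4 (m5.trans kd_sum) m6 m7 m8 m9 m10 m11 m12 hi ho hs (fun a b => ?_)
    (hC e n _ (fun l => ρ (y l) ^ (t + 1)) lam lam' (by simpa only [imY, pow_one] using h1)
      (by simpa only [imY, pow_one] using h2))
  · rwa [Fintype.card_fin, ← he] at this
  · rw [← he, Ideal.map_pow]
    exact red_mem hR.red s (m3 a b)

end Vale.Agent.P202
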