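import Vale.Agent.P202.Spec

/-! Module FS: field extensions of a perfect field are formally smooth. -/

open MvPolynomial TensorProduct

namespace Vale.Agent.P202

universe u

namespace Fs

lemma cg {k σ S : Type*} [CommRing k] [CommRing S] [Algebra k S] [DecidableEq σ]
    (f g : MvPolynomial σ k →ₐ[k] S) (p : MvPolynomial σ k) (h : ∀ i ∈ p.vars, f (X i) = g (X i)) :
    f p = g p :=
  hom_congr_vars (f₁ := f.toRingHom) (f₂ := g.toRingHom)
    (RingHom.ext fun c => (f.commutes c).trans (g.commutes c).symm) (fun i hi _ => h i hi) rfl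

lemma fs (k l : Type*) [Field k] [PerfectField k] [Field l] [Algebra k l] :
    Algebra.FormallySmooth k l := by
  classical
  let : Algebra (MvPolynomial l k) l := (aeval (R := k) (id : l → l)).toRingHom.toAlgebra
  have : IsScalarTower k (MvPolynomial l k) l :=
    IsScalarTower.of_algebraMap_eq fun c => ((aeval (R := k) (id : l → l)).commutes c).symm
  have hX : ∀ a : l, algebraMap (MvPolynomial l k) l (X a) = a := fun a => aeval_X id a
  have hs : Function.Surjective (algebraMap (MvPolynomial l k) l) := fun a => ⟨X a, hX a⟩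
  refine ⟨inferInstance, (Algebra.FormallySmooth.kerCotangentToTensor_injective_iff hs).1
    ((injective_iff_map_eq_zero _).2 fun x hx => ?_)⟩
  obtain ⟨⟨x, x0⟩, rfl⟩ := Ideal.toCotangent_surjective _ x
  set I := RingHom.ker (algebraMap (MvPolynomial l k) l)
  have h1 : KaehlerDifferential.D k _ x ∈ (I • ⊤ : Submodule (MvPolynomial l k) _) := by
    let e : (MvPolynomial l k ⧸ I) ≃ₐ[MvPolynomial l k] l :=
      Ideal.quotientKerAlgEquivOfSurjective (f := Algebra.ofId (MvPolynomial l k) l) hs
    rw [← Submodule.Quotient.mk_eq_zero, ← quotTensorEquivQuotSMul_mk_one_tmul,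
      LinearEquiv.map_eq_zero_iff,
      ← (TensorProduct.congr e.toLinearEquiv (LinearEquiv.refl _ _)).map_eq_zero_iff]
    simpa using hx
  let l0 := IntermediateField.adjoin k (x.vars : Set l)
  have : Algebra.EssFiniteType k l0 :=
    IntermediateField.essFiniteType_iff.2 (IntermediateField.fg_adjoin_finset _)
  let g := (IsScalarTower.toAlgHom k (MvPolynomial l k) l).kerSquareLift
  have J2 : RingHom.ker g.toRingHom ^ 2 = ⊥ := by
    rw [AlgHom.ker_kerSquareLift, Ideal.cotangentIdeal_square]
  have hg : Function.Surjective g := fun a => ⟨Ideal.Quotient.mk _ (X a), hX a⟩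
  let σ := Algebra.FormallySmooth.liftOfSurjective l0.val g hg ⟨2, J2⟩
  have hσ : ∀ a, g (σ a) = a := Algebra.FormallySmooth.liftOfSurjective_apply l0.val g hg ⟨2, J2⟩
  let w : l → l0 := fun a => if h : a ∈ l0 then ⟨a, h⟩ else 0
  have hw : ∀ a ∈ l0, (w a : l) = a := fun a h => by simp only [w, dif_pos h]
  let φ := aeval (R := k) fun a => if a ∈ l0 then σ (w a) else Ideal.Quotient.mk _ (X a)
  let D := derivationToSquareZeroOfLift (RingHom.ker g.toRingHom) J2 φ (algHom_ext fun a =>
    Ideal.Quotient.eq.2 (by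
      change g (φ (X a) - Ideal.Quotient.mk _ (X a)) = 0
      rw [map_sub, sub_eq_zero, aeval_X]
      split_ifs with h
      exacts [(hσ _).trans ((hw a h).trans (hX a).symm), rfl]))
  have h2 : D x = 0 := by
    rw [← D.liftKaehlerDifferential_comp_D]
    refine Submodule.smul_induction_on h1 (fun r hr n _ => ?_) fun a b ha hb => by
      rw [map_add, ha, hb, add_zero]
    rw [map_smul]
    exact Subtype.ext ((Ideal.mem_bot).1 (((sq _).symm.trans J2).le
      (Ideal.mul_mem_mul (r := Ideal.Quotient.mk _ r) hr (D.liftKaehlerDifferential n).2)))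
  have mem : ∀ a ∈ x.vars, a ∈ l0 := fun a h => IntermediateField.subset_adjoin _ _ h
  have h3 : aeval w x = 0 := l0.val.injective (by
    rw [map_zero]
    refine Eq.trans ?_ x0
    exact cg (l0.val.comp (aeval w)) (aeval id) x fun a h => by simpa using hw a (mem a h))
  have h4 : φ x = σ (aeval w x) :=
    cg φ (σ.comp (aeval w)) x fun a h => by
      rw [AlgHom.comp_apply, aeval_X, aeval_X, if_pos (mem a h)]
  have h5 := congrArg Subtype.val h2
  rw [derivationToSquareZeroOfLift_apply, h4, h3, map_zero, zero_sub] at h5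
  exact (Ideal.toCotangent_eq_zero _ _).2 (Ideal.Quotient.eq_zero_iff_mem.1 (neg_eq_zero.1 h5))

end Fs

theorem fsStmt : FsStmt.{u} := fun k l _ _ _ _ => Fs.fs k l

theorem fsStmt' : FsStmt'.{u} := fun k l _ _ _ _ => Fs.fs k l

end Vale.Agent.P202
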