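import Vale.Agent.P202.Base

/-! The ghost lemma. -/

open Finset Matrix MvPowerSeries Filter Topology IsLocalRing
open scoped Kronecker Nat

namespace Vale.Agent.P202

universe u

namespace Gh

variable {k : Type u} [Field k] {r : ℕ} {ι : Type} [Fintype ι] [DecidableEq ι]

noncomputable def mI (I : Finset (Fin r)) : Mon r :=
  Finsupp.single none 1 + ∑ a ∈ I, Finsupp.single (some a) 1

theorem mI_none (I : Finset (Fin r)) : mI I none = 1 := by
  simp [mI, Finsupp.finsetSum_apply]

theorem mI_some (I : Finset (Fin r)) (a : Fin r) : mI I (some a) = if a ∈ I then 1 else 0 := by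
  simp [mI, Finsupp.finsetSum_apply, Finsupp.single_apply]

theorem mu_pow (I : Finset (Fin r)) (L : ℕ) : mu k I ^ L = monomial (L • mI I) 1 := by
  have : mu k I = monomial (mI I) 1 := by
    simp only [mu, mI, X_def, prod_monomial, monomial_mul_monomial]; simp
  rw [this, monomial_pow, one_pow]

/-- division by a monomial -/
noncomputable def dv (a : Mon r) (f : LL k r) : LL k r := fun e => coeff (e + a) f

theorem mul_dv (a : Mon r) (f : LL k r) (h : ∀ e, coeff e f ≠ 0 → a ≤ e) :
    monomial a 1 * dv a f = f := by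
  ext e
  rw [coeff_monomial_mul]
  split_ifs with c
  · change 1 * coeff (e - a + a) f = _
    rw [tsub_add_cancel_of_le c, one_mul]
  · exact (not_not.1 (mt (h e) c)).symm

variable {θ : PS k (r + 1) →ₐ[k] LL k r} {γ : PS k (r + 1)} {M : ℕ} {deg : ι → ℕ}
  {D : Matrix ι ι (PS k (r + 1))} {N0 : ℕ} {ν : Fin r → ℤ}

theorem step (hθ : Th0 θ) (G : Gd γ M deg D) {L : ℕ} (hL : ∀ I : Finset (Fin r),
    ∃ g : Fin (r + 1) → LL k r, (∀ j, g j ∈ Pv k (SB r 0)) ∧ mu k I ^ L = ∑ j, g j * θ (X j) ^ M)
    {N q : ℕ} {l : ℕ → ℕ} (hl : Antitone l) (h1 : ∀ p, L ≤ l p) (h2 : N + L ≤ N0) {n : ℤ}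
    {z : ι × FJ r → LL k r} (hz : z ∈ XF k N0 ν N l deg n) (h0 : DD θ D z = 0)
    (hq : ∀ i J, J.card < q → z (i, J) = 0) :
    ∃ w ∈ XF k N0 ν (N + L) (fun p => l p - L) deg (n + 1),
      gg θ γ ι z - DD θ D w ∈ XF k N0 ν (N + L) (fun p => l p - L) deg n ∧
      ∀ i J, J.card < q + 1 → (gg θ γ ι z - DD θ D w) (i, J) = 0 := by
  choose g hg eg using hL
  choose h gh eh using G.nul
  let I : FJ r → Finset (Fin r) := fun J => {a | (a, false) ∉ J}
  let y : ι × FJ r → LL k r := fun p => if p.2.card = q then dv (L • mI (I p.2)) (z p) else 0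
  have hy : y ∈ XF k N0 ν (N + L) (fun p => l p - L) deg n := by
    refine mem_XX.2 fun i J e he => ?_
    have he' : coeff (e + L • mI (I J)) (z (i, J)) ≠ 0 := by
      simp only [y] at he
      split_ifs at he
      · exact he
      · simp at he
    obtain ⟨a1, ⟨a2, a3⟩, a4⟩ := mem_XX.1 hz i J _ he'
    simp only [Finsupp.add_apply, Finsupp.smul_apply, mI_none, mI_some, smul_eq_mul] at a2 a3
    refine ⟨a1, ⟨by simp only; omega, fun a => ?_⟩, fun a => ?_⟩
    · have := a3 a
      split_ifs at this <;> omega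
    · have := a4 a
      simp only [Finsupp.add_apply, Finsupp.smul_apply, mI_none, mI_some, smul_eq_mul, I,
        mem_filter, mem_univ, true_and] at this
      refine ⟨this.1, fun c => ?_, fun c => ?_⟩
      · have b := this.2.1 c
        rw [if_neg (not_not.2 (this.1.resolve_right c))] at b
        omega
      · have b := this.2.2 c
        rw [if_pos c] at b
        omega
  have my : ∀ i J, J.card = q → mu k (I J) ^ L * y (i, J) = z (i, J) := fun i J c => by
    simp only [y, if_pos c, mu_pow]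
    refine mul_dv _ _ fun e he => ?_
    obtain ⟨-, ⟨a2, a3⟩, -⟩ := mem_XX.1 hz i J _ he
    rintro (_ | a)
    · have := h1 (deg i)
      simp only [Finsupp.smul_apply, mI_none, smul_eq_mul]; omega
    · have := (a3 a).1
      simp only [Finsupp.smul_apply, mI_some, smul_eq_mul]; split_ifs <;> omega
  have cb0 : ∀ (x : ι × FJ r → LL k r) i (J : FJ r), (∀ J' : FJ r, J'.card < J.card → x (i, J') = 0) →
      LM θ 1 (cb k r) x (i, J) = 0 := fun x i J hx => by
    rw [LM_cb_apply]
    refine sum_eq_zero fun b _ => sum_eq_zero fun J' _ => ?_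
    by_cases c : ct b J' J = 0
    · simp [c]
    · rw [hx J' (by have := ct_card c; omega), mul_zero]
  have dy : ∀ i J, ∑ j, θ (D i j) * y (j, J) = 0 := fun i J => by
    by_cases c : J.card = q
    · have b := congrFun h0 (i, J)
      rw [DD_eq, Pi.add_apply, cb0 z i J fun J' hJ => hq i J' (c ▸ hJ), add_zero, LM_sg_apply] at b
      have b' : ∑ j, θ (D i j) * z (j, J) = 0 := (mul_eq_zero.1 b).resolve_left (by simp)
      have : mu k (I J) ^ L ≠ 0 := by
        rw [mu_pow]; exact fun e => by simpa using congrArg (coeff (L • mI (I J))) e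
      refine (mul_eq_zero.1 ?_).resolve_left this
      rw [mul_sum, ← b']
      exact sum_congr rfl fun j _ => by rw [mul_left_comm, my j J c]
    · simp [y, c]
  let y' : Fin (r + 1) → ι × FJ r → LL k r := fun j p => g (I p.2) j * y p
  have hy' : ∀ j, y' j ∈ XF k N0 ν (N + L) (fun p => l p - L) deg n := fun j p _ =>
    smul_mem_XF (hg (I p.2) j) hy p trivial
  have dy' : ∀ j, LM θ D 1 (y' j) = 0 := fun j => by
    ext1 ⟨i, J⟩
    simp only [LM_one_apply, y', mul_left_comm _ (g _ _), ← mul_sum, dy, mul_zero, Pi.zero_apply]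
  have hw : ∑ j, LM θ (h j) (sg k r) (y' j) ∈ XF k N0 ν (N + L) (fun p => l p - L) deg (n + 1) :=
    sum_mem fun j _ => LM_sg_mem (σ := 0) hθ (gh j) (by simp) (fun p p' e => by
      have := hl (show p ≤ p' by omega); omega) (hy' j)
  have dw : ∀ i J, LM θ D (sg k r) (∑ j, LM θ (h j) (sg k r) (y' j)) (i, J) =
      if J.card = q then θ γ * z (i, J) else 0 := fun i J => by
    have : ∀ j, LM θ D (sg k r) (LM θ (h j) (sg k r) (y' j)) = gg θ (γ * X j ^ M) ι (y' j) := by
      intro j
      rw [← LM_smul_one, ← eh j, LM_add, LM_mul, sg_sq, ← mul_one (1 : Matrix (FJ r) (FJ r) _),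
        ← LM_mul θ (h j) D, dy', map_zero, add_zero]
    rw [map_sum, Finset.sum_apply]
    simp only [this, gg_apply, y', map_mul, map_pow]
    split_ifs with c
    · rw [← my i J c, eg, sum_mul, mul_sum]
      exact sum_congr rfl fun j _ => by ring
    · simp [y, c]
  refine ⟨_, hw, ?_, fun i J c => ?_⟩
  · have hz' := XF_mono (Nat.le_add_right N L) (fun p => Nat.sub_le (l p) L) n
      (smul_mem_XF (hθ.ord γ 0 (by simp)) hz)
    rw [DD_eq]
    refine sub_mem hz' (add_mem (fun p _ => ?_) (by
      have := LM_cb_mem (θ := θ) hw; rwa [add_sub_cancel_right] at this))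
    rw [dw]
    split_ifs
    · exact hz' p trivial
    · exact zero_mem _
  · rw [Pi.sub_apply, DD_eq, Pi.add_apply, dw, cb0, gg_apply]
    · split_ifs with c'
      · simp
      · simp [hq i J (by omega)]
    · intro J' hJ
      simp [Finset.sum_apply, LM_sg_apply, y', y, show J'.card ≠ q by omega]

end Gh

theorem ghStmt : GhStmt.{u} := by
  intro k _ r θ hθ
  obtain ⟨c, hc⟩ := hθ.bpf
  refine ⟨(r + 1) * c, fun γ M ι _ _ deg D G N0 ν => ?_⟩
  have key : ∀ (j N : ℕ) (l : ℕ → ℕ), Antitone l → (∀ p, j * (c * M) ≤ l p) →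
      N + j * (c * M) ≤ N0 → ∀ n, ∀ z ∈ XF k N0 ν N l deg n, DD θ D z = 0 →
      (∀ i J, J.card < 2 * r + 1 - j → z (i, J) = 0) →
      ∃ w ∈ XF k N0 ν (N + j * (c * M)) (fun p => l p - j * (c * M)) deg (n + 1),
        DD θ D w = (gg θ γ ι ^ j) z := by
    intro j
    induction j with
    | zero =>
      refine fun N l _ _ _ n z _ _ hq => ⟨0, zero_mem _, ?_⟩
      ext1 ⟨i, J⟩
      simp [hq i J (by have := FJ_card J; omega)]
    | succ j ih =>
      intro N l hl h1 h2 n z hz h0 hq
      rw [add_mul, one_mul] at h1 h2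
      obtain ⟨w, hw, a1, a2⟩ := Gh.step hθ G (hc M) hl (fun p => by have := h1 p; omega)
        (by omega) hz h0 hq
      obtain ⟨w', hw', e⟩ := ih _ _ (fun a b h => Nat.sub_le_sub_right (hl h) _)
        (fun p => by have := h1 p; omega) (by omega) n _ a1 (by
          have b1 := LinearMap.congr_fun (DD_comm θ D γ).eq z
          have b2 := LinearMap.congr_fun (DD_sq θ G.dd) w
          simp only [Module.End.mul_apply, h0, map_zero, LinearMap.zero_apply] at b1 b2
          rw [map_sub, b1, b2, sub_zero]) fun i J h => a2 i J (by omega)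
      refine ⟨(gg θ γ ι ^ j) w + w', add_mem ?_ (XF_mono ?_ (fun p => ?_) _ hw'), ?_⟩
      · rw [show (gg θ γ ι ^ j) w = θ (γ ^ j) • w from funext fun p => by
          rw [gg_pow_apply, map_pow]; rfl]
        refine XF_mono ?_ (fun p => ?_) _ (smul_mem_XF (hθ.ord _ 0 (by simp)) hw) <;>
          rw [add_mul] <;> omega
      · rw [add_mul]; omega
      · rw [add_mul]; omega
      · have b1 := LinearMap.congr_fun ((DD_comm θ D γ).pow_right j).eq w
        simp only [Module.End.mul_apply] at b1
        rw [map_add, e, b1, map_sub, pow_succ, Module.End.mul_apply]; abel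
  intro N l hl h1 h2 n z hz h0
  rw [mul_assoc] at h1 h2 ⊢
  refine key (r + 1) N l hl h1 h2 n z hz h0 fun i J h => ?_
  ext e
  by_contra he
  have := cond_card (mem_XX.1 hz i J e he).2.2
  omega

end Vale.Agent.P202
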