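import Vale.Agent.P202.Spec

/-! Module O: completion, coefficient fields and algebraically closed residue fields. -/

open IsLocalRing

namespace Vale.Agent.P202

universe u v

namespace Gon

lemma ext {R C : Type*} [CommRing R] [CommRing C] (I : Ideal R) (J : Ideal C) [IsAdicComplete J C]
    (g : R →+* C) (hg : I ≤ J.comap g) :
    ∃ G : AdicCompletion I R →+* C, ∀ x, G (AdicCompletion.of I R x) = g x := by
  have h : ∀ n, I ^ n ≤ (J ^ n).comap g := fun n =>
    (Ideal.pow_right_mono hg n).trans (Ideal.le_comap_pow g n)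
  let f := fun n => (Ideal.quotientMap (J ^ n) g (h n)).comp (AdicCompletion.evalₐ I n).toRingHom
  have hf : ∀ {m n : ℕ} (hle : m ≤ n), (Ideal.Quotient.factorPow J hle).comp (f n) = f m := by
    intro m n hle
    ext x
    obtain ⟨a, rfl⟩ := AdicCompletion.mk_surjective I R x
    have := a.2 hle
    rw [SModEq.sub_mem, smul_eq_mul, Ideal.mul_top] at this
    have e := h m this
    rw [Ideal.mem_comap, map_sub] at e
    simp only [f, RingHom.comp_apply, AlgHom.toRingHom_eq_coe, RingHom.coe_coe,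
      AdicCompletion.evalₐ_mk, Ideal.quotientMap_mk, Ideal.Quotient.factor_mk]
    exact (Ideal.Quotient.eq.2 e).symm
  refine ⟨IsAdicComplete.liftRingHom J f hf, congrFun (IsHausdorff.funext' J fun n x => ?_)⟩
  rw [IsAdicComplete.mk_liftRingHom]
  simp [f]

lemma noeth {A C : Type*} [CommRing A] [IsNoetherianRing A] [CommRing C] (J : Ideal C)
    [IsAdicComplete J C] (hJ : J.FG) (g : A →+* C) (h : ∀ c, ∃ a, c - g a ∈ J) :
    IsNoetherianRing C := by
  obtain ⟨n, y, hy⟩ := Submodule.fg_iff_exists_fin_generating_family.1 hJ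
  obtain ⟨G, hG⟩ := ext (MvPolynomial.idealOfVars (Fin n) A) J (MvPolynomial.eval₂Hom g y)
    (Ideal.span_le.2 (by
      rintro _ ⟨i, rfl⟩
      simpa [← hy] using Submodule.subset_span (Set.mem_range_self i)))
  let F := G.comp (MvPowerSeries.toAdicCompletion (Fin n) A).toRingHom
  have hF : ∀ p : MvPolynomial (Fin n) A, F p = MvPolynomial.eval₂Hom g y p := fun p => by
    rw [← hG, ← MvPowerSeries.toAdicCompletion_coe]; rfl
  have e : (Ideal.span (Set.range MvPowerSeries.X)).map F = J := by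
    rw [Ideal.map_span, ← Set.range_comp, ← hy]
    congr 2
    funext i
    simpa using hF (MvPolynomial.X i)
  refine isNoetherianRing_of_surjective _ _ F (surjective_of_mk_map_comp_surjective
    (I := Ideal.span (Set.range MvPowerSeries.X)) F (haus := by rw [e]; infer_instance) fun c => ?_)
  obtain ⟨c, rfl⟩ := Ideal.Quotient.mk_surjective c
  obtain ⟨a, ha⟩ := h c
  refine ⟨(MvPolynomial.C a : MvPolynomial (Fin n) A), (Ideal.Quotient.eq.2 ?_).symm⟩
  rwa [e, hF, MvPolynomial.eval₂Hom_C]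

lemma cpl (S : Type u) [CommRing S] [IsLocalRing S] [IsNoetherianRing S] :
    ∃ (C : Type u) (_ : CommRing C) (_ : IsLocalRing C) (a : S →+* C), IsNoetherianRing C ∧
      IsAdicComplete (maximalIdeal C) C ∧ Unr a ∧ Nonempty (ResidueField S ≃+* ResidueField C) ∧
      ∀ (D : Type u) [CommRing D] (J : Ideal D) [IsAdicComplete J D] (g : S →+* D),
        maximalIdeal S ≤ J.comap g → ∃ G : C →+* D, ∀ x, G (a x) = g x := by
  have hb := AdicCompletion.residueField_map_bijective S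
  refine ⟨AdicCompletion (maximalIdeal S) S, _, inferInstance, algebraMap _ _,
    noeth (maximalIdeal _) ?_ (algebraMap S _) fun c => ?_, inferInstance,
    ⟨RingHom.flat_algebraMap_iff.2 inferInstance, AdicCompletion.maximalIdeal_eq_map.symm⟩,
    ⟨RingEquiv.ofBijective _ hb⟩, fun D _ J _ g hg => ext _ J g hg⟩
  · rw [AdicCompletion.maximalIdeal_eq_map]
    exact (maximalIdeal S).fg_of_isNoetherianRing.map _
  · obtain ⟨a, ha⟩ := hb.2 (residue _ c)
    obtain ⟨a, rfl⟩ := residue_surjective a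
    exact ⟨a, Ideal.Quotient.eq.1 ha.symm⟩

lemma sect {k : Type v} {C : Type u} [Field k] [CommRing C] [IsLocalRing C]
    (hC : IsAdicComplete (maximalIdeal C) C) (ψ : k →+* C)
    (h : ∀ (l : Type u) [Field l] [Algebra k l], Algebra.FormallySmooth k l) :
    ∃ (s : ResidueField C →+* C) (j : k →+* ResidueField C), (∀ c, s (j c) = ψ c) ∧
      ∀ b, ∃ a, b - s a ∈ maximalIdeal C := by
  let := ψ.toAlgebra
  have := h (ResidueField C)
  obtain ⟨s, hs⟩ := Algebra.FormallySmooth.exists_mkₐ_comp_eq_of_isAdicComplete (R := k)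
    (A := ResidueField C) (I := maximalIdeal C) (AlgHom.id k (ResidueField C))
  exact ⟨s.toRingHom, algebraMap k _, s.commutes, fun b =>
    ⟨residue C b, Ideal.Quotient.eq.1 (AlgHom.congr_fun hs (residue C b)).symm⟩⟩

lemma bc (hB : BcStmt.{u}) {κ K R : Type u} [Field κ] [Field K] [CommRing R] [IsLocalRing R]
    (i : κ →+* K) (s : κ →+* R) (h1 : IsNoetherianRing R) (h2 : IsAdicComplete (maximalIdeal R) R)
    (h3 : ∀ b, ∃ a, b - s a ∈ maximalIdeal R) :
    ∃ (R' : Type u) (_ : CommRing R') (_ : IsLocalRing R') (_ : Algebra K R') (a : R →+* R'),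
      CL K R' ∧ Unr a ∧ (∀ c, a (s c) = algebraMap K R' (i c)) ∧
      ∀ (S : Type u) [CommRing S] [IsLocalRing S] [Algebra K S] (g : R →+* S), CL K S →
        (∀ x ∈ maximalIdeal R, g x ∈ maximalIdeal S) → (∀ c, g (s c) = algebraMap K S (i c)) →
        ∃ g' : R' →ₐ[K] S, ∀ x, g' (a x) = g x := by
  let := i.toAlgebra
  let := s.toAlgebra
  exact hB κ K R ⟨h1, h2, h3⟩

lemma comp {R S T : Type*} [CommRing R] [IsLocalRing R] [CommRing S] [IsLocalRing S] [CommRing T]
    [IsLocalRing T] {f : R →+* S} {g : S →+* T} (hf : Unr f) (hg : Unr g) : Unr (g.comp f) :=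
  ⟨hf.flat.comp hg.flat, by rw [← Ideal.map_map, hf.map, hg.map]⟩

lemma mem {R S : Type*} [CommRing R] [IsLocalRing R] [CommRing S] [IsLocalRing S] {f : R →+* S}
    (hf : Unr f) {x : R} (hx : x ∈ maximalIdeal R) : f x ∈ maximalIdeal S :=
  hf.map ▸ Ideal.mem_map_of_mem f hx

end Gon

open Gon

theorem gon1Stmt (hF : FsStmt.{u}) (hB : BcStmt.{u}) : Gon1Stmt.{u} := by
  rintro S _ _ _ ⟨F, _, _, ⟨ψ⟩⟩
  obtain ⟨C, _, _, a, h1, h2, h3, -, -⟩ := cpl S
  obtain ⟨s, -, -, hs⟩ := sect h2 (a.comp ψ) fun l _ _ => hF F l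
  obtain ⟨S', _, _, _, b, h4, h5, -⟩ :=
    bc hB (algebraMap _ (AlgebraicClosure (ResidueField C))) s h1 h2 hs
  exact ⟨AlgebraicClosure (ResidueField C), S', _, inferInstance, _, _, _, b.comp a, h4, comp h3 h5⟩

theorem gon2Stmt (hF : FsStmt.{u}) (hF' : FsStmt'.{u}) (hB : BcStmt.{u}) : Gon2Stmt.{u} := by
  rintro R S _ _ _ _ _ _ f _ ⟨F, _, _, ⟨ψ⟩⟩ hP
  obtain ⟨C, _, _, a, h1, h2, h3, ⟨e⟩, U⟩ := cpl R
  obtain ⟨D, _, _, b, k1, k2, k3, -, -⟩ := cpl S
  obtain ⟨g, hg⟩ := U D (maximalIdeal D) (b.comp f) fun x hx => mem k3 (map_nonunit f x hx)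
  obtain ⟨s, -, -, hs⟩ := sect h2 (a.comp ψ) fun l _ _ => hF F l
  have := PerfectField.of_ringEquiv e
  obtain ⟨t, j, hj, ht⟩ := sect k2 (g.comp s) fun l _ _ => hF' (ResidueField C) l
  obtain ⟨S', _, _, _, b', k4, k5, k6, -⟩ :=
    bc hB (algebraMap _ (AlgebraicClosure (ResidueField D))) t k1 k2 ht
  obtain ⟨R', _, _, _, a', h4, h5, -, V⟩ :=
    bc hB ((algebraMap _ (AlgebraicClosure (ResidueField D))).comp j) s h1 h2 hs
  obtain ⟨f', hf'⟩ := V S' (b'.comp g) k4 (by
    rw [← h3.map]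
    exact (Ideal.map_le_iff_le_comap (K := (maximalIdeal S').comap (b'.comp g))).2 fun x hx => by
      simpa only [Ideal.mem_comap, RingHom.comp_apply, hg] using
        mem k5 (mem k3 (map_nonunit f x hx)))
    fun c => by rw [RingHom.comp_apply, RingHom.comp_apply, ← k6, hj, RingHom.comp_apply]
  exact ⟨AlgebraicClosure (ResidueField D), R', S', _, inferInstance, _, _, _, _, _, _, a'.comp a,
    b'.comp b, f', h4, k4, comp h3 h5, comp k3 k5, fun x => by
      simp only [RingHom.comp_apply, hf', hg]⟩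

end Vale.Agent.P202
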