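import Vale.Agent.P202.Spec

/-! Module GR: growth of the Hilbert-Samuel function. -/

open Finset Matrix MvPowerSeries Filter Topology IsLocalRing
open scoped Kronecker Nat

namespace Vale.Agent.P202

universe u

section
variable {R : Type u} [CommRing R]

theorem gr_mono {I J : Ideal R} (h : I ≤ J) : Module.length R (R ⧸ J) ≤ Module.length R (R ⧸ I) :=
  Module.length_le_of_surjective (Submodule.factor h) (Submodule.factor_surjective h)

theorem gr_mul (J : Ideal R) (x y : R) : Module.length R (R ⧸ (J ⊔ Ideal.span {x * y})) ≤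
    Module.length R (R ⧸ (J ⊔ Ideal.span {x})) + Module.length R (R ⧸ (J ⊔ Ideal.span {y})) := by
  have h : J ⊔ Ideal.span {x * y} ≤ J ⊔ Ideal.span {y} :=
    sup_le_sup_left (Ideal.span_singleton_le_span_singleton.2 (dvd_mul_left y x)) J
  let g : (R ⧸ (J ⊔ Ideal.span {x})) →ₗ[R] R ⧸ (J ⊔ Ideal.span {x * y}) :=
    Submodule.mapQ _ _ (LinearMap.mulRight R y) (sup_le
      (fun a ha => Ideal.mem_sup_left (J.mul_mem_right y ha))
      ((Ideal.span_singleton_le_iff_mem _).2 (Ideal.mem_sup_right (Ideal.subset_span rfl))))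
  rw [Module.length_eq_add_of_exact (LinearMap.ker (Submodule.factor h)).subtype
    (Submodule.factor h) (Submodule.subtype_injective _) (Submodule.factor_surjective h)
    (LinearMap.exact_subtype_ker_map _)]
  gcongr
  have hg : ∀ a, g a ∈ LinearMap.ker (Submodule.factor h) := fun a => by
    obtain ⟨a, rfl⟩ := Submodule.Quotient.mk_surjective _ a
    exact (Submodule.Quotient.mk_eq_zero _).2
      (Ideal.mem_sup_right (Ideal.mul_mem_left _ a (Ideal.subset_span rfl)))
  refine Module.length_le_of_surjective (g.codRestrict _ hg) ?_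
  rintro ⟨b, hb⟩
  obtain ⟨b, rfl⟩ := Submodule.Quotient.mk_surjective _ b
  obtain ⟨j, hj, _, hc, rfl⟩ := Submodule.mem_sup.1 ((Submodule.Quotient.mk_eq_zero _).1 hb)
  obtain ⟨c, rfl⟩ := Ideal.mem_span_singleton'.1 hc
  refine ⟨Submodule.Quotient.mk c, Subtype.ext ((Submodule.Quotient.eq _).2 ?_)⟩
  simpa using Ideal.mem_sup_left hj

theorem gr_pow (J : Ideal R) (x : R) (N : ℕ) : Module.length R (R ⧸ (J ⊔ Ideal.span {x ^ N})) ≤
    N * Module.length R (R ⧸ (J ⊔ Ideal.span {x})) := by
  induction N with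
  | zero =>
    have : Subsingleton (R ⧸ (J ⊔ Ideal.span {x ^ 0})) :=
      Ideal.Quotient.subsingleton_iff.2 (by simp)
    simp
  | succ N ih =>
    rw [pow_succ, Nat.cast_succ, add_one_mul]
    exact (gr_mul J _ _).trans (add_le_add ih le_rfl)

theorem gr_pows (s : Finset R) (N : ℕ) (J : Ideal R) :
    Module.length R (R ⧸ (J ⊔ Ideal.span ((· ^ N) '' (s : Set R)))) ≤
      N ^ s.card * Module.length R (R ⧸ (J ⊔ Ideal.span (s : Set R))) := by
  classical
  induction s using Finset.induction_on generalizing J with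
  | empty => rw [coe_empty, Set.image_empty, card_empty, pow_zero, one_mul]
  | insert a s ha ih =>
    rw [coe_insert, Set.image_insert_eq, Ideal.span_insert, Ideal.span_insert, ← sup_assoc,
      card_insert_of_notMem ha, pow_succ, mul_assoc, ← sup_assoc, sup_right_comm J (Ideal.span {a})]
    refine (ih _).trans ?_
    rw [sup_right_comm]
    gcongr
    exact gr_pow _ _ _

end

theorem grStmt : GrStmt.{u} := by
  intro R _ _ _ d hd
  obtain ⟨s, hs1, hs2⟩ := (maximalIdeal R).exists_finset_card_eq_height_of_isNoetherianRing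
  have hc : s.card = d := by
    rw [← maximalIdeal_height_eq_ringKrullDim, ← hs2] at hd
    exact_mod_cast hd
  have := quotient_artinian_of_mem_minimalPrimes_of_isLocalRing _ hs1
  have hf : Module.length R (R ⧸ Ideal.span (s : Set R)) ≠ ⊤ := by
    rw [Module.length_eq_of_surjective (R := R ⧸ Ideal.span (s : Set R))
      Ideal.Quotient.mk_surjective]
    exact Module.length_ne_top
  obtain ⟨C, hC⟩ := ENat.ne_top_iff_exists.1 hf
  refine ⟨C, fun N => ?_⟩
  have h1 := gr_pows s N ⊥
  rw [bot_sup_eq, bot_sup_eq, ← hC, hc] at h1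
  have h2 : Ideal.span ((· ^ N) '' (s : Set R)) ≤ maximalIdeal R ^ N := by
    rw [Ideal.span_le]
    rintro _ ⟨x, hx, rfl⟩
    exact Ideal.pow_mem_pow (hs1.1.2 (Ideal.subset_span hx)) N
  have h3 := (gr_mono h2).trans h1
  refine (ENat.toNat_le_of_le_natCast (n := N ^ d * C) (by exact_mod_cast h3)).trans ?_
  rw [mul_comm]
  gcongr
  omega

end Vale.Agent.P202
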