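import Vale.Agent.P202.Spec

/-! Module L: the calculus of relative dimensions for subquotient complexes. -/

open Finset

namespace Vale.Agent.P202

universe u

namespace Lt

variable {k : Type*} [Field k] {E : Type*} [AddCommGroup E] [Module k E]
  {F : Type*} [AddCommGroup F] [Module k F]

theorem len_map (h : E →ₗ[k] F) (Q : Submodule k E) :
    Module.length k (Q.map h) =
      Module.length k (Q ⧸ (LinearMap.ker h).comap Q.subtype) := by
  have e := (h ∘ₗ Q.subtype).quotKerEquivRange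
  rw [LinearMap.range_comp, Submodule.range_subtype, LinearMap.ker_comp] at e
  exact e.length_eq.symm

theorem rl_eq (P Q : Submodule k E) : rl P Q = Module.length k (Q ⧸ P.comap Q.subtype) := by
  rw [rl, len_map, Submodule.ker_mkQ]

theorem rl_map (f : E →ₗ[k] F) (P : Submodule k F) (Q : Submodule k E) :
    rl P (Q.map f) = rl (P.comap f) Q := by
  rw [rl, ← Submodule.map_comp, len_map, rl_eq, LinearMap.ker_comp, Submodule.ker_mkQ]

theorem rl_anti {P P' Q : Submodule k E} (h : P ⊓ Q ≤ P') : rl P' Q ≤ rl P Q := by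
  rw [rl_eq, rl_eq]
  have hle : P.comap Q.subtype ≤ P'.comap Q.subtype := fun x hx => h ⟨hx, x.2⟩
  exact Module.length_le_of_surjective (Submodule.factor hle) (Submodule.factor_surjective hle)

theorem rl_mono {P Q Q' : Submodule k E} (h : Q ≤ P ⊔ Q') : rl P Q ≤ rl P Q' := by
  have hle : Q.map P.mkQ ≤ Q'.map P.mkQ := by
    refine (Submodule.map_mono h).trans ?_
    rw [Submodule.map_sup, Submodule.mkQ_map_self, bot_sup_eq]
  exact Module.length_le_of_injective (Submodule.inclusion hle) (Submodule.inclusion_injective hle)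

theorem rl_congr {P Q Q' : Submodule k E} (h : Q ≤ P ⊔ Q') (h' : Q' ≤ P ⊔ Q) :
    rl P Q = rl P Q' := le_antisymm (rl_mono h) (rl_mono h')

theorem rl_zero {P Q : Submodule k E} : rl P Q = 0 ↔ Q ≤ P := by
  rw [rl, Module.length_eq_zero_iff, Submodule.subsingleton_iff_eq_bot,
    ← le_bot_iff, Submodule.map_le_iff_le_comap, Submodule.comap_bot, Submodule.ker_mkQ]

theorem rl_add {P P' : Submodule k E} (h : P ≤ P') (Q : Submodule k E) :
    rl P Q = rl P (Q ⊓ P') + rl P' Q := by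
  have h1 : ∀ (h : E →ₗ[k] E ⧸ P) (S : Submodule k (E ⧸ P)) (f : (E ⧸ P) →ₗ[k] E ⧸ P'),
      Module.length k S = Module.length k ↥(S ⊓ LinearMap.ker f) + Module.length k (S.map f) := by
    intro _ S f
    rw [len_map f S]
    have e : ↥(S ⊓ LinearMap.ker f) ≃ₗ[k] ((LinearMap.ker f).comap S.subtype) := by
      rw [inf_comm]
      have := Submodule.comapSubtypeEquivOfLe (p := LinearMap.ker f ⊓ S) (q := S) inf_le_right
      rw [Submodule.comap_inf, Submodule.comap_subtype_self, inf_top_eq] at this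
      exact this.symm
    have e2 : Module.length k ↥(S ⊓ LinearMap.ker f) =
        Module.length k ↥((LinearMap.ker f).comap S.subtype) :=
      LinearEquiv.length_eq (R := k) (M := ↥(S ⊓ LinearMap.ker f))
        (N := ↥((LinearMap.ker f).comap S.subtype)) e
    rw [e2]
    exact Module.length_eq_add_of_exact ((LinearMap.ker f).comap S.subtype).subtype
      ((LinearMap.ker f).comap S.subtype).mkQ (Submodule.subtype_injective _)
      (Submodule.mkQ_surjective _) (LinearMap.exact_subtype_mkQ _)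
  rw [rl, h1 P.mkQ _ (Submodule.factor h), rl, rl, ← Submodule.map_comp, Submodule.factor_comp_mk]
  have e : Q.map P.mkQ ⊓ LinearMap.ker (Submodule.factor h) = (Q ⊓ P').map P.mkQ := by
    ext x
    constructor
    · rintro ⟨⟨y, hy, rfl⟩, hx⟩
      refine ⟨y, ⟨hy, ?_⟩, rfl⟩
      simpa using hx
    · rintro ⟨y, ⟨hy, hy'⟩, rfl⟩
      exact ⟨⟨y, hy, rfl⟩, by simpa using hy'⟩
  rw [e]

/-- finite with `g`-defect at most `τ` -/
def T (g : Module.End k E) (τ : ℕ) (P Q : Submodule k E) : Prop :=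
  rl P Q ≠ ⊤ ∧ rl P Q ≤ rl P (Q.map g) + τ

variable {g : Module.End k E} {τ : ℕ}

theorem T_ker {P Q : Submodule k E} (hP : P ≤ P.comap g) (hf : rl P Q ≠ ⊤) :
    rl P Q ≤ rl P (Q.map g) + τ ↔ rl P (Q ⊓ P.comap g) ≤ τ := by
  have h := rl_add hP Q
  rw [← rl_map] at h
  have h2 : rl P (Q.map g) ≠ ⊤ := fun e => hf (by rw [h, e, add_top])
  rw [h, add_comm, ENat.add_le_add_iff_left h2]

theorem T_cok {P Q : Submodule k E} (hQ : Q.map g ≤ Q) (hf : rl P Q ≠ ⊤) :
    rl P Q ≤ rl P (Q.map g) + τ ↔ rl (P ⊔ Q.map g) Q ≤ τ := by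
  have h := rl_add (le_sup_left : P ≤ P ⊔ Q.map g) Q
  rw [rl_congr (Q := Q ⊓ (P ⊔ Q.map g)) (Q' := Q.map g) inf_le_right
    ((le_inf hQ le_sup_right).trans le_sup_right)] at h
  have h2 : rl P (Q.map g) ≠ ⊤ := fun e => hf (by rw [h, e, top_add])
  rw [h, ENat.add_le_add_iff_left h2]

theorem T.sub {P Q Q' : Submodule k E} (h : T g τ P Q) (hP : P ≤ P.comap g) (hQ : Q' ≤ Q) :
    T g τ P Q' := by
  have hf : rl P Q' ≠ ⊤ := ne_top_of_le_ne_top h.1 (rl_mono (hQ.trans le_sup_right))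
  refine ⟨hf, (T_ker hP hf).2 (le_trans (rl_mono ?_) ((T_ker hP h.1).1 h.2))⟩
  exact (inf_le_inf_right _ hQ).trans le_sup_right

theorem T.quo {P P' Q : Submodule k E} (h : T g τ P Q) (hQ : Q.map g ≤ Q) (hP : P ⊓ Q ≤ P') :
    T g τ P' Q := by
  have hf : rl P' Q ≠ ⊤ := ne_top_of_le_ne_top h.1 (rl_anti hP)
  refine ⟨hf, (T_cok hQ hf).2 (le_trans (rl_anti ?_) ((T_cok hQ h.1).1 h.2))⟩
  rw [sup_comm, sup_inf_assoc_of_le _ hQ, sup_comm]
  exact sup_le_sup_right hP _

theorem map_pow_succ (Q : Submodule k E) (c : ℕ) :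
    Q.map (g ^ (c + 1)) = (Q.map (g ^ c)).map g := by
  rw [pow_succ', Module.End.mul_eq_comp, Submodule.map_comp]

theorem map_pow_le {Q : Submodule k E} (hQ : Q.map g ≤ Q) (c : ℕ) : Q.map (g ^ c) ≤ Q := by
  induction c with
  | zero => rw [pow_zero, Module.End.one_eq_id, Submodule.map_id]
  | succ c ih => rw [map_pow_succ]; exact (Submodule.map_mono ih).trans hQ

theorem map_pow_st {Q : Submodule k E} (hQ : Q.map g ≤ Q) (c : ℕ) :
    (Q.map (g ^ c)).map g ≤ Q.map (g ^ c) := by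
  rw [← map_pow_succ, pow_succ, Module.End.mul_eq_comp, Submodule.map_comp]
  exact Submodule.map_mono hQ

theorem T.nil {P Q : Submodule k E} (h : T g τ P Q) (hP : P ≤ P.comap g) (hQ : Q.map g ≤ Q)
    (c : ℕ) : rl P Q ≤ rl P (Q.map (g ^ c)) + (c * τ : ℕ) := by
  induction c with
  | zero => simp [Module.End.one_eq_id]
  | succ c ih =>
    refine ih.trans ?_
    have := (h.sub hP (map_pow_le hQ c)).2
    rw [← map_pow_succ] at this
    refine (add_le_add_left this _).trans (le_of_eq ?_)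
    push_cast; ring

/-- one term of a long exact sequence -/
theorem term {P Q K I : Submodule k E} {c : ℕ} (h : T g τ P (Q.map (g ^ c)))
    (hP : P.map g ≤ P) (hQ : Q.map g ≤ Q) (hK : K.map g ≤ K) (hPK : P ≤ K) (hIQ : I ≤ Q)
    (hIK : I ≤ K) (hI : Q ⊓ K ≤ P ⊔ I) : ∃ e : ℤ, 0 ≤ e ∧ e ≤ c * τ ∧
      ((rl P (Q.map (g ^ c))).toNat : ℤ) =
        (rl P (I.map (g ^ c))).toNat + e + (rl K (Q.map (g ^ c))).toNat := by
  have hP' : P ≤ P.comap g := Submodule.map_le_iff_le_comap.1 hP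
  have h1 := rl_add hPK (Q.map (g ^ c))
  have hN : T g τ P (Q.map (g ^ c) ⊓ K) := h.sub hP' inf_le_left
  have h2 : rl P (I.map (g ^ c)) ≤ rl P (Q.map (g ^ c) ⊓ K) :=
    rl_mono ((le_inf (Submodule.map_mono hIQ)
      ((Submodule.map_mono hIK).trans (map_pow_le hK c))).trans le_sup_right)
  have h3 : rl P (Q.map (g ^ c) ⊓ K) ≤ rl P (I.map (g ^ c)) + (c * τ : ℕ) := by
    refine (hN.nil hP' ((Submodule.map_inf_le _).trans (inf_le_inf (map_pow_st hQ c) hK)) c).trans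
      (add_le_add_left (rl_mono ?_) _)
    refine (Submodule.map_mono ((inf_le_inf_right _ (map_pow_le hQ c)).trans hI)).trans ?_
    rw [Submodule.map_sup]
    exact sup_le_sup_right (map_pow_le hP c) _
  have f1 := h.1
  have f2 := hN.1
  have f3 : rl K (Q.map (g ^ c)) ≠ ⊤ := fun e => f1 (by rw [h1, e, add_top])
  have f4 : rl P (I.map (g ^ c)) ≠ ⊤ := ne_top_of_le_ne_top f2 h2
  lift rl P (Q.map (g ^ c)) to ℕ using f1 with a
  lift rl P (Q.map (g ^ c) ⊓ K) to ℕ using f2 with b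
  lift rl K (Q.map (g ^ c)) to ℕ using f3 with d
  lift rl P (I.map (g ^ c)) to ℕ using f4 with f
  simp only [ENat.toNat_natCast]
  norm_cast at h1 h2 h3
  refine ⟨(b : ℤ) - f, by omega, ?_, by omega⟩
  have : (b : ℤ) ≤ f + c * τ := by exact_mod_cast h3
  linarith

theorem tele (L : ℕ) (a : ℤ → ℤ) (h1 : a (-L) = 0) (h2 : a (L + 1) = 0) :
    ∑ n ∈ Icc (-L : ℤ) L, (n.negOnePow : ℤ) * (a (n + 1) + a n) = 0 := by
  have key : ∀ m : ℕ, ∑ n ∈ Ico (-L : ℤ) (-L + m), (n.negOnePow : ℤ) * (a (n + 1) + a n) =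
      ((-L : ℤ).negOnePow : ℤ) * a (-L) - ((-L + m : ℤ).negOnePow : ℤ) * a (-L + m) := by
    intro m
    induction m with
    | zero => simp
    | succ m ih =>
      have e : (-L + ((m + 1 : ℕ) : ℤ)) = -L + m + 1 := by push_cast; ring
      rw [e, ← Finset.insert_Ico_right_eq_Ico_add_one (by omega), sum_insert (by simp), ih,
        Int.negOnePow_succ]
      push_cast; ring
  have := key (2 * L + 1)
  have e : (-L + ((2 * L + 1 : ℕ) : ℤ)) = L + 1 := by push_cast; ring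
  rw [e, h1, h2, Finset.Ico_add_one_right_eq_Icc] at this
  simpa using this

theorem alt (L : ℕ) (e : ℤ → ℤ) (B : ℤ) (h : ∀ n, |e n| ≤ B) :
    |∑ n ∈ Icc (-L : ℤ) L, (n.negOnePow : ℤ) * e n| ≤ (2 * L + 1) * B := by
  refine (abs_sum_le_sum_abs _ _).trans ?_
  refine (sum_le_card_nsmul _ _ B fun n _ => ?_).trans (le_of_eq ?_)
  · rw [abs_mul, Int.abs_negOnePow, one_mul]; exact h n
  · rw [Int.card_Icc, nsmul_eq_mul]
    congr 1
    omega

section cx
variable {D : Module.End k E} {X X' X'' : ℤ → Submodule k E}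

theorem dd (hD : D * D = 0) (x : E) : D (D x) = 0 := by
  rw [← Module.End.mul_apply, hD, LinearMap.zero_apply]

theorem _root_.Vale.Agent.P202.CxD.up (h : CxD D X) {n : ℤ} {x : E} (hx : x ∈ X (n + 1)) :
    D x ∈ X n := by simpa using h _ _ hx

theorem cm (hc : Commute D g) (x : E) : D (g x) = g (D x) := by
  rw [← Module.End.mul_apply, hc.eq, Module.End.mul_apply]

theorem x_st (hX : Cx D g X) (n : ℤ) : (X n).map g ≤ X n := by
  rintro _ ⟨x, hx, rfl⟩; exact hX.g n x hx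

theorem dm_st (hc : Commute D g) {Q : Submodule k E} (h : Q.map g ≤ Q) :
    (Q.map D).map g ≤ Q.map D := by
  rintro _ ⟨_, ⟨x, hx, rfl⟩, rfl⟩
  exact ⟨g x, h ⟨x, hx, rfl⟩, cm hc x⟩

theorem dc_st (hc : Commute D g) {Q : Submodule k E} (h : Q.map g ≤ Q) :
    (Q.comap D).map g ≤ Q.comap D := by
  rintro _ ⟨x, hx, rfl⟩
  rw [Submodule.mem_comap, cm hc]
  exact h ⟨_, hx, rfl⟩

theorem z_st (hc : Commute D g) (hX : Cx D g X) (hX' : Cx D g X') (n : ℤ) :
    (Zc D X X' n).map g ≤ Zc D X X' n :=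
  (Submodule.map_inf_le _).trans (inf_le_inf (x_st hX n) (dc_st hc (x_st hX' _)))

theorem b_st (hc : Commute D g) (hX : Cx D g X) (hX' : Cx D g X') (n : ℤ) :
    (Bc D X X' n).map g ≤ Bc D X X' n := by
  rw [Bc, Submodule.map_sup]
  exact sup_le_sup (x_st hX' n) (dm_st hc (x_st hX _))

theorem hh0 (n : ℤ) : hh D g 0 X X' n = rl (Bc D X X' n) (Zc D X X' n) := by
  rw [hh, pow_zero, Module.End.one_eq_id, Submodule.map_id]

theorem tame_iff {c : ℕ} : Tame D g c τ X X' ↔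
    ∀ n, T g τ (Bc D X X' n) ((Zc D X X' n).map (g ^ c)) := by
  simp only [Tame, T, hh, map_pow_succ]

theorem mem_b {n : ℤ} {z : E} : z ∈ Bc D X X' n ↔ ∃ x ∈ X' n, ∃ w ∈ X (n + 1), x + D w = z := by
  rw [Bc, Submodule.mem_sup]
  constructor
  · rintro ⟨x, hx, _, ⟨w, hw, rfl⟩, h⟩; exact ⟨x, hx, w, hw, h⟩
  · rintro ⟨x, hx, w, hw, h⟩; exact ⟨x, hx, _, ⟨w, hw, rfl⟩, h⟩

theorem ex2 (hD : D * D = 0) (n : ℤ) :
    Zc D X X'' n ⊓ Bc D X X' n ≤ Bc D X X'' n ⊔ Zc D X' X'' n := by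
  rintro z ⟨hz, hb⟩
  obtain ⟨x, hx, w, hw, rfl⟩ := mem_b.1 hb
  rw [add_comm]
  refine Submodule.add_mem_sup (mem_b.2 ⟨0, zero_mem _, w, hw, zero_add _⟩) ⟨hx, ?_⟩
  have := hz.2
  rwa [SetLike.mem_coe, Submodule.mem_comap, map_add, dd hD, add_zero] at this

theorem bc_le (hD : D * D = 0) (n : ℤ) : Bc D X X' n ≤ (Bc D X' X'' (n - 1)).comap D := by
  intro z hz
  obtain ⟨x, hx, w, -, rfl⟩ := mem_b.1 hz
  rw [Submodule.mem_comap, map_add, dd hD, add_zero]
  exact mem_b.2 ⟨0, zero_mem _, x, by simpa using hx, zero_add _⟩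

theorem pow_d (hc : Commute D g) (Q : Submodule k E) (c : ℕ) :
    (Q.map D).map (g ^ c) = (Q.map (g ^ c)).map D := by
  rw [← Submodule.map_comp, ← Submodule.map_comp, ← Module.End.mul_eq_comp,
    ← Module.End.mul_eq_comp, (hc.pow_right c).eq]

theorem add (hD : D * D = 0) (hc : Commute D g) (c L : ℕ) (hX : Cx D g X) (hX' : Cx D g X')
    (hX'' : Cx D g X'') (h1 : X'' ≤ X') (h2 : X' ≤ X) (hL : ∀ n, (L : ℤ) < |n| → X n = ⊥)
    (t2 : Tame D g c τ X X'') (t1 : Tame D g c τ X' X'') (t3 : Tame D g c τ X X') :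
    |chi D g c L X X'' - chi D g c L X' X'' - chi D g c L X X'| ≤ 3 * (2 * L + 1) * c * τ := by
  rw [tame_iff] at t1 t2 t3
  set a : ℤ → ℤ := fun n =>
    (rl (Bc D X' X'' (n - 1)) (((Zc D X X' n).map D).map (g ^ c))).toNat with ha
  have key : ∀ n, ∃ e : ℤ, |e| ≤ 3 * c * τ ∧ ((hh D g c X X'' n).toNat : ℤ) -
      (hh D g c X' X'' n).toNat - (hh D g c X X' n).toNat = e - (a (n + 1) + a n) := by
    intro n
    obtain ⟨e1, p1, q1, r1⟩ := term (K := Bc D X X'' n) (I := (Zc D X X' (n + 1)).map D) (t1 n)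
      (b_st hc hX' hX'' n) (z_st hc hX' hX'' n) (b_st hc hX hX'' n)
      (sup_le_sup_left (Submodule.map_mono (h2 _)) _)
      (by
        rintro _ ⟨w, hw, rfl⟩
        refine ⟨by simpa using hw.2, ?_⟩
        rw [SetLike.mem_coe, Submodule.mem_comap, dd hD]; exact zero_mem _)
      ((Submodule.map_mono inf_le_left).trans le_sup_right)
      (by
        rintro z ⟨hz, hb⟩
        obtain ⟨x, hx, w, hw, rfl⟩ := mem_b.1 hb
        refine Submodule.add_mem_sup (Submodule.mem_sup_left hx) ⟨w, ⟨hw, ?_⟩, rfl⟩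
        have := sub_mem hz.1 (h1 n hx)
        simpa using this)
    obtain ⟨e2, p2, q2, r2⟩ := term (K := Bc D X X' n) (I := Zc D X' X'' n) (t2 n)
      (b_st hc hX hX'' n) (z_st hc hX hX'' n) (b_st hc hX hX' n)
      (sup_le_sup_right (h1 n) _) (inf_le_inf_right _ (h2 n))
      (inf_le_left.trans le_sup_left) (ex2 hD n)
    obtain ⟨e3, p3, q3, r3⟩ := term (K := (Bc D X' X'' (n - 1)).comap D) (I := Zc D X X'' n) (t3 n)
      (b_st hc hX hX' n) (z_st hc hX hX' n) (dc_st hc (b_st hc hX' hX'' _)) (bc_le hD n)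
      (inf_le_inf_left _ (Submodule.comap_mono (h1 _)))
      (inf_le_right.trans (Submodule.comap_mono le_sup_left))
      (by
        rintro z ⟨hz, hb⟩
        obtain ⟨x, hx, w, hw, h⟩ := mem_b.1 hb
        have hw' : w ∈ X' n := by simpa using hw
        rw [← add_sub_cancel w z]
        refine Submodule.add_mem_sup (Submodule.mem_sup_left hw') ⟨sub_mem hz.1 (h2 n hw'), ?_⟩
        rw [SetLike.mem_coe, Submodule.mem_comap, map_sub, ← h, add_sub_cancel_right]
        exact hx)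
    rw [← rl_map, ← pow_d hc] at r3
    refine ⟨e2 - e1 - e3, abs_le.2 ⟨by linarith, by linarith⟩, ?_⟩
    simp only [ha, hh, add_sub_cancel_right]
    linarith
  choose e he hk using key
  have z1 : a (-L) = 0 := by
    have : (Zc D X X' (-L)).map D = ⊥ := by
      rw [eq_bot_iff, ← hL (-L - 1) (by rw [lt_abs]; omega)]
      rintro _ ⟨w, hw, rfl⟩; exact h2 _ hw.2
    simp [ha, this, rl_zero.2 bot_le]
  have z2 : a (L + 1) = 0 := by
    have : Zc D X X' (L + 1) = ⊥ := by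
      rw [eq_bot_iff, ← hL (L + 1) (by rw [lt_abs]; omega)]; exact inf_le_left
    simp [ha, this, rl_zero.2 bot_le]
  have : chi D g c L X X'' - chi D g c L X' X'' - chi D g c L X X' =
      ∑ n ∈ Icc (-L : ℤ) L, (n.negOnePow : ℤ) * e n := by
    rw [← sub_zero (∑ n ∈ Icc (-L : ℤ) L, (n.negOnePow : ℤ) * e n), ← tele L a z1 z2]
    simp only [chi, ← sum_sub_distrib, ← mul_sub, hk]
  rw [this]
  exact (alt L e _ he).trans (le_of_eq (by ring))

theorem fn_T (hX : Cx D g X) (h : Fn g τ X X') (n : ℤ) : T g τ (X' n) (X n) :=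
  ⟨(h n).1, (T_cok (x_st hX n) (h n).1).2 (h n).2⟩

theorem fin (hD : D * D = 0) (hc : Commute D g) (c L : ℕ) (hX : Cx D g X) (hX' : Cx D g X')
    (hL : ∀ n, (L : ℤ) < |n| → X n = ⊥) (h : Fn g τ X X') : Tame D g c τ X X' ∧
      |chi D g c L X X' - ∑ n ∈ Icc (-L : ℤ) L, (n.negOnePow : ℤ) * (rl (X' n) (X n)).toNat| ≤
        (2 * L + 1) * c * τ := by
  have st : ∀ n, X' n ≤ (X' n).comap g := fun n => Submodule.map_le_iff_le_comap.1 (x_st hX' n)
  have tm : ∀ c n, T g τ (Bc D X X' n) ((Zc D X X' n).map (g ^ c)) := fun c n =>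
    ((fn_T hX h n).sub (st n) ((map_pow_le (z_st hc hX hX' n) c).trans inf_le_left)).quo
      (map_pow_st (z_st hc hX hX' n) c) (inf_le_left.trans le_sup_left)
  refine ⟨tame_iff.2 (tm c), ?_⟩
  set a : ℤ → ℤ := fun n => (rl (X' (n - 1)) ((X n).map D)).toNat with ha
  have key : ∀ n, ∃ e : ℤ, |e| ≤ c * τ ∧ ((hh D g c X X' n).toNat : ℤ) -
      (rl (X' n) (X n)).toNat = e - (a (n + 1) + a n) := by
    intro n
    have t0 := tm 0 n
    rw [pow_zero, Module.End.one_eq_id, Submodule.map_id] at t0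
    have r0 := t0.nil (Submodule.map_le_iff_le_comap.1 (b_st hc hX hX' n)) (z_st hc hX hX' n) c
    have r0' : rl (Bc D X X' n) ((Zc D X X' n).map (g ^ c)) ≤ rl (Bc D X X' n) (Zc D X X' n) :=
      rl_mono ((map_pow_le (z_st hc hX hX' n) c).trans le_sup_right)
    have r1 := rl_add (P := X' n) (P' := (X' (n - 1)).comap D) (hX'.d n) (X n)
    rw [← rl_map] at r1
    have r2 := rl_add (P := X' n) (P' := Bc D X X' n) le_sup_left (Zc D X X' n)
    have hb : (X (n + 1)).map D ≤ Zc D X X' n := by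
      rintro _ ⟨w, hw, rfl⟩
      refine ⟨hX.d.up hw, ?_⟩
      rw [SetLike.mem_coe, Submodule.mem_comap, dd hD]; exact zero_mem _
    rw [rl_congr (Q := Zc D X X' n ⊓ Bc D X X' n) (Q' := (X (n + 1)).map D) inf_le_right
      ((le_inf hb le_sup_right).trans le_sup_right)] at r2
    change _ = rl (X' n) (Zc D X X' n) + _ at r1
    rw [r2] at r1
    simp only [ha, hh, add_sub_cancel_right]
    have f1 := (h n).1
    have f2 : rl (X' n) ((X (n + 1)).map D) ≠ ⊤ := fun e => f1 (by rw [r1, e, top_add, top_add])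
    have f3 : rl (X' (n - 1)) ((X n).map D) ≠ ⊤ := fun e => f1 (by rw [r1, e, add_top])
    have f4 := t0.1
    have f5 := (tm c n).1
    clear r2 t0
    lift rl (X' n) (X n) to ℕ using f1 with b1
    lift rl (X' n) ((X (n + 1)).map D) to ℕ using f2 with b2
    lift rl (X' (n - 1)) ((X n).map D) to ℕ using f3 with b3
    lift rl (Bc D X X' n) (Zc D X X' n) to ℕ using f4 with b4
    lift rl (Bc D X X' n) ((Zc D X X' n).map (g ^ c)) to ℕ using f5 with b5
    simp only [ENat.toNat_natCast]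
    norm_cast at r0 r0' r1
    have : (b4 : ℤ) ≤ b5 + c * τ := by exact_mod_cast r0
    exact ⟨(b5 : ℤ) - b4, abs_le.2 ⟨by linarith, by omega⟩, by omega⟩
  choose e he hk using key
  have z1 : a (-L) = 0 := by
    have : (X (-L)).map D = ⊥ := by
      rw [eq_bot_iff, ← hL (-L - 1) (by rw [lt_abs]; omega)]
      rintro _ ⟨w, hw, rfl⟩; exact hX.d _ _ hw
    simp [ha, this, rl_zero.2 bot_le]
  have z2 : a (L + 1) = 0 := by
    simp [ha, hL (L + 1) (by rw [lt_abs]; omega), rl_zero.2 bot_le]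
  have : chi D g c L X X' - ∑ n ∈ Icc (-L : ℤ) L, (n.negOnePow : ℤ) * (rl (X' n) (X n)).toNat =
      ∑ n ∈ Icc (-L : ℤ) L, (n.negOnePow : ℤ) * e n := by
    rw [← sub_zero (∑ n ∈ Icc (-L : ℤ) L, (n.negOnePow : ℤ) * e n), ← tele L a z1 z2]
    simp only [chi, ← sum_sub_distrib, ← mul_sub, hk]
  rw [this]
  exact (alt L e _ he).trans (le_of_eq (by ring))

theorem up (hD : D * D = 0) (hc : Commute D g) (c : ℕ) (hX : Cx D g X) (hX' : Cx D g X')
    (h : Fn g τ X X') (hg : ∀ n, ∀ z ∈ X' n, D z = 0 → ∃ w ∈ X (n + 1), D w = (g ^ c) z) :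
    Tame D g c τ X (fun _ => ⊥) ∧ ∀ n, hh D g c X (fun _ => ⊥) n ≤ hh D g 0 X X' n := by
  have h0 : Cx D g (fun _ : ℤ => (⊥ : Submodule k E)) :=
    ⟨fun n x hx => by rw [(Submodule.mem_bot k).1 hx, map_zero]; exact zero_mem _,
      fun n x hx => by rw [(Submodule.mem_bot k).1 hx, map_zero]; exact zero_mem _⟩
  have key : ∀ n, Bc D X X' n ⊓ Zc D X (fun _ => ⊥) n ≤
      (Bc D X (fun _ => ⊥) n).comap (g ^ c) := by
    rintro n z ⟨hb, hz⟩
    obtain ⟨x, hx, w, hw, rfl⟩ := mem_b.1 hb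
    have := hz.2
    rw [SetLike.mem_coe, Submodule.mem_comap, map_add, dd hD, add_zero, Submodule.mem_bot] at this
    obtain ⟨w', hw', e⟩ := hg n x hx this
    rw [Submodule.mem_comap, map_add, ← e]
    refine add_mem (Submodule.mem_sup_right ⟨w', hw', rfl⟩) ?_
    exact map_pow_le (b_st hc hX h0 n) c ⟨_, Submodule.mem_sup_right ⟨w, hw, rfl⟩, rfl⟩
  refine ⟨tame_iff.2 fun n => ?_, fun n => ?_⟩
  · have := ((fn_T hX h n).sub (Submodule.map_le_iff_le_comap.1 (x_st hX' n))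
      (Q' := Zc D X (fun _ => ⊥) n) inf_le_left).quo (z_st hc hX h0 n)
      ((inf_le_inf_right _ le_sup_left).trans (key n))
    rw [T, ← rl_map, ← rl_map, ← Submodule.map_comp, ← Module.End.mul_eq_comp, ← pow_succ,
      map_pow_succ] at this
    exact this
  · rw [hh0, hh, rl_map]
    exact (rl_anti (key n)).trans (rl_mono
      ((inf_le_inf_left _ (Submodule.comap_mono bot_le)).trans le_sup_right))

end cx

end Lt

open Lt in
theorem latStmt : LatStmt.{u} := by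
  intro k E _ _ _ D g hD hc
  refine ⟨?_, ?_, ?_, ?_, ?_, ?_, ?_, ?_⟩
  · intro X X' X'' _ _ _ h1 h2 n
    rw [hh0, hh0, hh0,
      rl_add (P := Bc D X X'' n) (P' := Bc D X X' n) (sup_le_sup_right (h1 n) _)]
    refine add_le_add ((rl_mono (ex2 hD n)).trans (rl_anti ?_)) (rl_mono ?_)
    · exact inf_le_left.trans (sup_le_sup_left (Submodule.map_mono (h2 _)) _)
    · exact (inf_le_inf_left _ (Submodule.comap_mono (h1 _))).trans le_sup_right
  · intro c X X' hX hX' n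
    rw [hh0]
    exact rl_mono ((map_pow_le (z_st hc hX hX' n) c).trans le_sup_right)
  · intro c τ L X X' X'' hX hX' hX'' h1 h2 hL t2 t1 t3
    exact Lt.add hD hc c L hX hX' hX'' h1 h2 hL t2 t1 t3
  · intro c τ L X X' hX hX' _ hL h
    exact Lt.fin hD hc c L hX hX' hL h
  · intro c τ X X' hX hX' _ h hg
    exact Lt.up hD hc c hX hX' h hg
  · intro c X X₂ n hX _ h hg
    rw [hh0]
    have h1 := bc_le (X := X₂) (X' := X) (X'' := fun _ => ⊥) hD (n + 1)
    rw [add_sub_cancel_right] at h1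
    refine le_trans ?_ (rl_anti (inf_le_left.trans h1))
    rw [← rl_map]
    refine rl_mono (le_trans ?_ le_sup_right)
    rintro _ ⟨z, hz, rfl⟩
    obtain ⟨w, hw, e⟩ := hg z hz.1 hz.2
    refine ⟨w, ⟨hw, ?_⟩, e⟩
    rw [SetLike.mem_coe, Submodule.mem_comap, add_sub_cancel_right, e]
    exact map_pow_le (x_st hX n) c ⟨z, hz.1, rfl⟩
  · intro X X' n h w hw hw'
    rw [hh0, rl_zero] at h
    obtain ⟨x, hx, v, -, rfl⟩ := mem_b.1 (h ⟨hw, by simpa using hw'⟩)
    exact ⟨x, hx, by rw [map_add, dd hD, add_zero]⟩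
  · intro E' _ _ D' g' X X' Y Y' P Q c j n hX hX' hQ hP hB hz
    have hQ' : ∀ y, (g ^ c) (Q y) = Q ((g' ^ c) y) := by
      induction c with
      | zero => simp
      | succ c ih => intro y; rw [pow_succ, pow_succ, Module.End.mul_apply, hQ, ih]; rfl
    refine le_trans ?_ (rl_anti (P' := (Bc D X X' n).comap Q) (inf_le_left.trans hB))
    rw [← rl_map]
    refine rl_mono ?_
    rintro _ ⟨z, hz', rfl⟩
    have e : (g ^ (c + j)) z = -(g ^ c) (Q (P z) - (g ^ j) z) + Q ((g' ^ c) (P z)) := by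
      rw [map_sub, hQ', pow_add, Module.End.mul_apply]; abel
    rw [e]
    exact Submodule.add_mem_sup (neg_mem (map_pow_le (b_st hc hX hX' n) c ⟨_, hz z hz', rfl⟩))
      ⟨_, ⟨_, hP z hz', rfl⟩, rfl⟩

end Vale.Agent.P202
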