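import Vale.Agent.P202.Spec

open Finset IsLocalRing

namespace Vale.Agent.P202

universe u

namespace LcM

theorem mem_pi {A : Type*} [CommRing A] {l : ℕ} (J : Ideal A) (x : Fin l → A) :
    x ∈ (J • ⊤ : Submodule A (Fin l → A)) ↔ ∀ i, x i ∈ J := by
  constructor
  · intro h i
    refine Submodule.smul_induction_on h (fun a ha y _ => J.mul_mem_right _ ha) ?_
    exact fun y z hy hz => J.add_mem hy hz
  · intro h
    rw [pi_eq_sum_univ x]
    exact Submodule.sum_mem _ fun i _ => Submodule.smul_mem_smul (h i) trivial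

end LcM

open LcM in
theorem lcStmt : LcStmt.{u} := by
  intro R T B _ _ _ _ _ _ _ _ I j hI h1 h2
  set F := j.comp (algebraMap R T) with hF
  letI := F.toAlgebra
  show Module.Flat R B
  refine Module.Flat.of_forall_isTrivialRelation fun {l f x} hx => ?_
  have hx' : ∑ i, F (f i) * x i = 0 := hx
  let ph : (Fin l → R) →ₗ[R] R := ∑ i, f i • LinearMap.proj i
  have hph : ∀ v, ph v = ∑ i, f i * v i := fun v => by simp [ph]
  let L : (Fin l → R) → Fin l → B := fun v i => F (v i)
  let KB : Submodule B (Fin l → B) := Submodule.span B (L '' {v | ph v = 0})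
  obtain ⟨c, hc⟩ := I.exists_pow_inf_eq_pow_smul (LinearMap.range ph)
  have key : ∀ n, x ∈ KB ⊔ (I.map F) ^ n • ⊤ := fun n => by
    choose t ht using fun i => h1 (n + c) (x i)
    have e1 : ∑ i, algebraMap R T (f i) * t i ∈ (I ^ (n + c)).map (algebraMap R T) := by
      refine h2 _ _ ?_
      have : j (∑ i, algebraMap R T (f i) * t i) = -∑ i, F (f i) * (x i - j (t i)) := by
        simp only [mul_sub, sum_sub_distrib, hx', map_sum, map_mul]; simp [hF]
      rw [this]
      exact neg_mem (Ideal.sum_mem _ fun i _ => Ideal.mul_mem_left _ _ (ht i))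
    obtain ⟨m, s, g, hg⟩ := Submodule.mem_span_set'.1 e1
    choose g' hg' using fun k => (g k).2
    obtain ⟨k, a, y, ha, hr⟩ := Module.Flat.isTrivialRelation_of_sum_smul_eq_zero
      (R := R) (M := T) (f := Sum.elim f fun k => -g' k) (x := Sum.elim t s) (by
        simp only [Fintype.sum_sum_type, Sum.elim_inl, Sum.elim_inr, Algebra.smul_def, map_neg,
          neg_mul, sum_neg_distrib, ← hg, fun k => (hg' k).2, mul_comm (s _)]
        simp [mul_comm])
    have e2 : ∀ q, L (fun i => a (.inl i) q) ∈ KB ⊔ (I.map F) ^ n • ⊤ := fun q => by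
      have h3 : ph (fun i => a (.inl i) q) ∈ I ^ (n + c) • (⊤ : Submodule R R) ⊓
          LinearMap.range ph := by
        refine ⟨?_, _, rfl⟩
        have := hr q
        simp only [Fintype.sum_sum_type, Sum.elim_inl, Sum.elim_inr, neg_mul, sum_neg_distrib,
          add_neg_eq_zero] at this
        rw [hph, this, smul_eq_mul, Ideal.mul_top]
        exact Ideal.sum_mem _ fun k _ => Ideal.mul_mem_right _ _ (hg' k).1
      rw [hc _ (Nat.le_add_left _ _), Nat.add_sub_cancel] at h3
      have h4 := Submodule.smul_mono le_rfl inf_le_right h3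
      rw [LinearMap.range_eq_map, ← Submodule.map_smul''] at h4
      obtain ⟨w, hw, e⟩ := h4
      have : L (fun i => a (.inl i) q) = L ((fun i => a (.inl i) q) - w) + L w := by
        funext i; simp [L]
      rw [this]
      refine Submodule.add_mem_sup (Submodule.subset_span ⟨_, ?_, rfl⟩) ((mem_pi _ _).2 fun i => ?_)
      · show ph _ = 0
        rw [map_sub, e, sub_self]
      · rw [← Ideal.map_pow]
        exact Ideal.mem_map_of_mem _ ((mem_pi _ _).1 hw i)
    have e3 : x = (fun i => x i - j (t i)) + ∑ q, j (y q) • L fun i => a (.inl i) q := by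
      funext i
      have := ha (.inl i)
      simp only [Sum.elim_inl, Algebra.smul_def] at this
      simp [L, this, hF, mul_comm]
    rw [e3]
    refine add_mem (Submodule.mem_sup_right ((mem_pi _ _).2 fun i => ?_))
      (Submodule.sum_mem _ fun q _ => Submodule.smul_mem _ _ (e2 q))
    rw [← Ideal.map_pow]
    exact Ideal.map_mono (Ideal.pow_le_pow_right (Nat.le_add_right _ _)) (ht i)
  have hK : x ∈ KB := by
    rw [← Submodule.Quotient.mk_eq_zero, ← Submodule.mem_bot B,
      ← Ideal.iInf_pow_smul_eq_bot_of_isLocalRing (I := I.map F) hI, Submodule.mem_iInf]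
    intro n
    obtain ⟨y, hy, z, hz, rfl⟩ := Submodule.mem_sup.1 (key n)
    rw [Submodule.Quotient.mk_add, (Submodule.Quotient.mk_eq_zero _).2 hy, zero_add]
    have := Submodule.mem_map_of_mem (f := KB.mkQ) hz
    rw [Submodule.map_smul''] at this
    exact Submodule.smul_mono le_rfl le_top this
  obtain ⟨m, s, g, hg⟩ := Submodule.mem_span_set'.1 hK
  choose a ha using fun k => (g k).2
  refine ⟨m, fun i k => a k i, s, fun i => ?_, fun k => (hph _).symm.trans (ha k).1⟩
  rw [← hg, Finset.sum_apply]
  refine sum_congr rfl fun k _ => ?_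
  rw [← (ha k).2]
  exact mul_comm _ _

end Vale.Agent.P202
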