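import Vale.Agent.P202.Spec

/-! Final assembly from the module statements. -/

open Finset Matrix MvPowerSeries Filter Topology IsLocalRing
open scoped Kronecker Nat

namespace Vale.Agent.P202

universe u

theorem hasPF_of_field (K : Type u) [Field K] : HasPF K := by
  obtain ⟨p, hp⟩ := CharP.exists K
  rcases CharP.char_is_prime_or_zero K p with h | rfl
  · have := Fact.mk h
    exact ⟨ZMod p, inferInstance, inferInstance, ⟨ZMod.castHom dvd_rfl K⟩⟩
  · have := CharP.charP_to_charZero K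
    exact ⟨ℚ, inferInstance, inferInstance, ⟨algebraMap ℚ K⟩⟩

theorem HasPF.map {R S : Type u} [CommRing R] [CommRing S] (f : R →+* S) (h : HasPF R) :
    HasPF S := by
  obtain ⟨F, a, b, ⟨g⟩⟩ := h
  exact ⟨F, a, b, ⟨f.comp g⟩⟩

theorem hasPF_of_subring {R : Type u} [CommRing R] (K : Subring R) (h : IsField K) : HasPF R :=
  letI := h.toField
  (hasPF_of_field K).map K.subtype

theorem Mult.congr {R S : Type u} [CommRing R] [IsLocalRing R] [CommRing S] [IsLocalRing S]
    (h : ∀ N, hs S N = hs R N) {d : ℕ} {e : ℝ} (h' : Mult S d e) : Mult R d e := by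
  simpa only [Mult, h] using h'

theorem pow_le_of_min {R S : Type u} [CommRing R] [CommRing S] [IsNoetherianRing S] (f : R →+* S)
    (m : Ideal R) (P : Ideal S) [P.IsPrime] (hP : P ∈ (m.map f).minimalPrimes) :
    ∃ c, maximalIdeal (Localization.AtPrime P) ^ c ≤
      m.map ((algebraMap S (Localization.AtPrime P)).comp f) := by
  rw [← Ideal.map_map]
  refine Ideal.exists_pow_le_of_le_radical_of_fg ?_ (IsNoetherian.noetherian _)
  rw [IsLocalization.AtPrime.radical_map_of_mem_minimalPrimes (Localization.AtPrime P) P _ hP,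
    Localization.AtPrime.map_eq_maximalIdeal]

theorem main (hU : UnrStmt.{u}) (h1 : Gon1Stmt.{u}) (hg : GrStmt.{u}) (hn : NnStmt.{u})
    (b1 : Ben1Stmt.{u}) (b2 : Ben2Stmt.{u}) (hN : NormStmt.{u}) (R S : Type u) [CommRing R]
    [IsLocalRing R] [IsNoetherianRing R] [CommRing S] [IsLocalRing S] [IsNoetherianRing S]
    (f : R →+* S) [IsLocalHom f] (hf : f.Flat) (hK : HasPF R)
    (hp : PerfectField (ResidueField R)) (d D : ℕ) (hd : ringKrullDim R = d)
    (hD : ringKrullDim S = D) : ∃ eR eS : ℝ, Mult R d eR ∧ Mult S D eS ∧ eR ≤ eS := by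
  obtain ⟨eR, heR⟩ : ∃ e, Mult R d e := by
    obtain ⟨K, R', _, _, _, _, _, a, cl, ua⟩ := h1 R hK
    obtain ⟨C, hC⟩ := hg R d hd
    have e := (hU.2.1 R R' a ua).2.1
    obtain ⟨_, _, c, -, -, h⟩ := hn K R' d C cl fun N => (e N).trans_le (hC N)
    exact ⟨_, h.congr e⟩
  obtain ⟨K, S', _, _, _, _, _, b, cl, ub⟩ := h1 S (hK.map f)
  obtain ⟨C, hC⟩ := hg S D hD
  obtain ⟨lb, e, -⟩ := hU.2.1 S S' b ub
  obtain ⟨_, _, c, fin, -, h⟩ := hn K S' D C cl fun N => (e N).trans_le (hC N)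
  have := cl.noeth
  refine ⟨eR, _, heR, h.congr e, ?_⟩
  obtain ⟨P, hP, ht⟩ := b1 K R S' (b.comp f) d D hd (hD ▸ (hU.1 S S' b ub.flat).2.1)
  have := hP.1.1
  obtain ⟨y, c1, hy, hc1, hl⟩ := b2 K S' d D P (hasPF_of_field K) ht
  obtain ⟨c2, hc2⟩ := pow_le_of_min (b.comp f) _ P hP
  set g := (algebraMap S' (Localization.AtPrime P)).comp (b.comp f) with hgd
  have : IsLocalHom g := by
    refine ((local_hom_TFAE g).out 0 2).2 ?_
    rw [hgd, ← Ideal.map_map, ← Localization.AtPrime.map_eq_maximalIdeal]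
    exact Ideal.map_mono hP.1.2
  have fl : g.Flat := (hf.comp ub.flat).comp (RingHom.flat_algebraMap_iff.2
    (IsLocalization.flat _ P.primeCompl))
  have key := hN R _ g fl hK hp d eR hd heR y (c1 + c2) hy
    ((Ideal.pow_le_pow_right (Nat.le_add_right _ _)).trans hc1)
    ((Ideal.pow_le_pow_right (Nat.le_add_left _ _)).trans hc2)
  refine le_of_forall_pos_le_add fun ε hε => ?_
  obtain ⟨t, ht1, ht2⟩ := ((hl ε hε).and (eventually_gt_atTop 0)).exists
  exact le_of_mul_le_mul_right ((key t).trans ht1) (by positivity)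

end Vale.Agent.P202
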