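import Vale.Agent.P202.Car

/-! Module M: minimal models of finite free complexes. -/

open Finset Matrix

namespace Vale.Agent.P202

universe u

namespace Mnl

variable {R : Type u} [CommRing R] {ι ι' ι'' : Type} [Fintype ι] [DecidableEq ι] [Fintype ι']
  [DecidableEq ι'] [Fintype ι''] [DecidableEq ι'']

structure Ret (deg : ι → ℕ) (D : Matrix ι ι R) (deg' : ι' → ℕ) (D' : Matrix ι' ι' R)
    (P : Matrix ι ι' R) (Q : Matrix ι' ι R) (H : Matrix ι ι R) : Prop where
  gr : Gr deg' deg' (-1) D'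
  dd : D' * D' = 0
  dg : ∀ i', ∃ i, deg' i' = deg i
  sm : ∑ i, (-1 : ℤ) ^ deg' i = ∑ i, (-1 : ℤ) ^ deg i
  gP : Gr deg' deg 0 P
  gQ : Gr deg deg' 0 Q
  gH : Gr deg deg 1 H
  dP : D * P = P * D'
  dQ : D' * Q = Q * D
  qp : Q * P = 1
  pq : P * Q + D * H + H * D = 1

lemma Ret.trans {deg : ι → ℕ} {D : Matrix ι ι R} {deg' : ι' → ℕ} {D' : Matrix ι' ι' R}
    {deg'' : ι'' → ℕ} {D'' : Matrix ι'' ι'' R} {P Q H P' Q' H'} (h : Ret deg D deg' D' P Q H)
    (h' : Ret deg' D' deg'' D'' P' Q' H') :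
    Ret deg D deg'' D'' (P * P') (Q' * Q) (H + P * H' * Q) where
  gr := h'.gr
  dd := h'.dd
  dg i := by
    obtain ⟨j, hj⟩ := h'.dg i
    obtain ⟨l, hl⟩ := h.dg j
    exact ⟨l, hj.trans hl⟩
  sm := h'.sm.trans h.sm
  gP := h.gP.mul h'.gP rfl
  gQ := h'.gQ.mul h.gQ rfl
  gH := h.gH.add ((h.gP.mul h'.gH rfl).mul h.gQ rfl)
  dP := by rw [← Matrix.mul_assoc, h.dP, Matrix.mul_assoc, h'.dP, Matrix.mul_assoc]
  dQ := by rw [← Matrix.mul_assoc, h'.dQ, Matrix.mul_assoc, h.dQ, Matrix.mul_assoc]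
  qp := by rw [Matrix.mul_assoc, ← Matrix.mul_assoc Q, h.qp, Matrix.one_mul, h'.qp]
  pq := by
    have e1 : D * (P * H' * Q) = P * (D' * H') * Q := by
      rw [← Matrix.mul_assoc, ← Matrix.mul_assoc, h.dP, Matrix.mul_assoc P]
    have e2 : P * H' * Q * D = P * (H' * D') * Q := by
      rw [Matrix.mul_assoc _ Q, ← h.dQ]; simp only [Matrix.mul_assoc]
    have e3 : P * P' * (Q' * Q) = P * (P' * Q') * Q := by simp only [Matrix.mul_assoc]
    have e4 : P * (P' * Q') * Q + P * (D' * H') * Q + P * (H' * D') * Q = P * Q := by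
      rw [← Matrix.add_mul, ← Matrix.add_mul, ← Matrix.mul_add, ← Matrix.mul_add, h'.pq,
        Matrix.mul_one]
    rw [Matrix.mul_add, Matrix.add_mul, e1, e2, e3, ← h.pq, ← e4]; abel

lemma step {deg : ι → ℕ} {D : Matrix ι ι R} (hg : Gr deg deg (-1) D) (hd : D * D = 0) {i j : ι}
    (h0 : D i j ≠ 0) (hu : IsUnit (D i j)) :
    ∃ (D' : Matrix {x // x ≠ i ∧ x ≠ j} {x // x ≠ i ∧ x ≠ j} R) (P : Matrix ι _ R)
      (Q : Matrix _ ι R) (H : Matrix ι ι R), Ret deg D (fun x => deg x.1) D' P Q H := by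
  obtain ⟨v, hv⟩ := hu.exists_left_inv
  have hdeg : deg j = deg i + 1 := by have := hg _ _ h0; omega
  have hij : i ≠ j := by rintro rfl; omega
  set h : Matrix ι ι R := single j i v with hh
  have gh : Gr deg deg 1 h := by
    intro x y hne
    by_cases e : j = x ∧ i = y
    · obtain ⟨rfl, rfl⟩ := e; omega
    · exact absurd (single_apply_of_ne _ _ _ _ _ e) hne
  have a1 : h * D * h = h := by rw [hh, single_mul_mul_single, hv, one_mul]
  have a2 : h * h = 0 := single_mul_single_of_ne _ _ _ _ hij _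
  set π : Matrix ι ι R := 1 - D * h - h * D with hπ
  have gπ : Gr deg deg 0 π := by
    rw [hπ, sub_eq_add_neg, sub_eq_add_neg]
    exact (Gr.one.add (hg.mul gh (by norm_num)).neg).add (gh.mul hg (by norm_num)).neg
  have b1 : π * h = 0 := by
    rw [hπ, sub_mul, sub_mul, one_mul, a1, mul_assoc, a2]; simp
  have b2 : h * π = 0 := by
    rw [hπ, mul_sub, mul_sub, mul_one, ← mul_assoc, a1, ← mul_assoc, a2]; simp
  have b3 : π * D = D * π := by
    rw [hπ, mul_sub, mul_sub, sub_mul, sub_mul, mul_assoc h, ← mul_assoc D D, hd, mul_assoc]; simp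
  have b4 : π * π = π := by
    nth_rewrite 2 [hπ]
    rw [mul_sub, mul_sub, mul_one, ← mul_assoc, b3, mul_assoc, b1, ← mul_assoc, b1]; simp
  have c1 : ∀ x, π x j = 0 := fun x => by
    have := congrFun (congrFun b1 x) i
    rw [hh, mul_single_apply_same, Matrix.zero_apply] at this
    rw [← mul_one (π x j), ← hv, ← mul_assoc, this, zero_mul]
  have c2 : ∀ y, π i y = 0 := fun y => by
    have := congrFun (congrFun b2 j) y
    rw [hh, single_mul_apply_same, Matrix.zero_apply] at this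
    rw [← one_mul (π i y), ← hv, mul_right_comm, this, zero_mul]
  set P : Matrix ι {x // x ≠ i ∧ x ≠ j} R := π.submatrix id Subtype.val with hP
  set Q : Matrix {x // x ≠ i ∧ x ≠ j} ι R := π.submatrix Subtype.val id with hQ
  have d1 : P * Q = π := by
    ext x y
    rw [← congrFun (congrFun b4 x) y, mul_apply, mul_apply]
    simp only [hP, hQ, submatrix_apply, id]
    rw [← sum_subtype (univ.filter fun x => x ≠ i ∧ x ≠ j) (by simp) fun z => π x z * π z y]
    refine sum_filter_of_ne fun z _ hz => ⟨?_, ?_⟩ <;> rintro rfl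
    · exact hz (by rw [c2, mul_zero])
    · exact hz (by rw [c1, zero_mul])
  have d2 : π * P = P := by ext x y; exact congrFun (congrFun b4 x) y.1
  have d3 : Q * π = Q := by ext x y; exact congrFun (congrFun b4 x.1) y
  have d4 : Q * P = 1 := by
    ext x y
    refine (congrFun (congrFun b4 x.1) y.1).trans ?_
    rw [hπ, Matrix.sub_apply, Matrix.sub_apply, hh, mul_single_apply_of_ne _ _ _ _ _ y.2.1,
      single_mul_apply_of_ne _ _ _ _ _ x.2.2, sub_zero, sub_zero, one_apply, one_apply]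
    simp [Subtype.ext_iff]
  have gP : Gr (fun x : {x // x ≠ i ∧ x ≠ j} => deg x.1) deg 0 P := fun x y hne => gπ x y.1 hne
  have gQ : Gr deg (fun x : {x // x ≠ i ∧ x ≠ j} => deg x.1) 0 Q := fun x y hne => gπ x.1 y hne
  have e1 : Q * D * P * Q = Q * D := by
    rw [Matrix.mul_assoc, d1, Matrix.mul_assoc, ← b3, ← Matrix.mul_assoc, d3]
  refine ⟨Q * D * P, P, Q, h, (gQ.mul hg rfl).mul gP rfl, ?_, fun x => ⟨x.1, rfl⟩, ?_, gP, gQ, gh,
    ?_, e1, d4, by rw [d1, hπ]; abel⟩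
  · rw [← Matrix.mul_assoc, ← Matrix.mul_assoc, e1, Matrix.mul_assoc Q, hd]; simp
  · rw [← sum_subtype (univ.filter fun x => x ≠ i ∧ x ≠ j) (by simp) fun z => (-1 : ℤ) ^ deg z,
      ← sum_filter_add_sum_filter_not univ fun x => x ≠ i ∧ x ≠ j,
      show (univ.filter fun x => ¬(x ≠ i ∧ x ≠ j)) = {i, j} by ext; simp; tauto, sum_pair hij, hdeg]
    ring
  · rw [← Matrix.mul_assoc, ← Matrix.mul_assoc, d1, b3, Matrix.mul_assoc, d2]

end Mnl

open Mnl in
theorem minStmt : MinStmt.{u} := by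
  intro R _ m hm
  have key : ∀ (n : ℕ) (ι : Type) [Fintype ι] [DecidableEq ι] (deg : ι → ℕ) (D : Matrix ι ι R),
      Fintype.card ι < n → Gr deg deg (-1) D → D * D = 0 →
      ∃ (ι' : Type) (_ : Fintype ι') (_ : DecidableEq ι') (deg' : ι' → ℕ) (D' : Matrix ι' ι' R)
        (P : Matrix ι ι' R) (Q : Matrix ι' ι R) (H : Matrix ι ι R),
        (∀ i j, D' i j ∈ m) ∧ Ret deg D deg' D' P Q H := by
    intro n
    induction n with
    | zero => intro ι _ _ _ _ h; omega
    | succ n ih =>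
      intro ι _ _ deg D hc hg hd
      by_cases h : ∀ i j, D i j ∈ m
      · exact ⟨ι, _, _, deg, D, 1, 1, 0, h, hg, hd, fun i => ⟨i, rfl⟩, rfl, Gr.one, Gr.one, Gr.zero,
          by simp, by simp, by simp, by simp⟩
      · push Not at h
        obtain ⟨i, j, h⟩ := h
        obtain ⟨D1, P1, Q1, H1, r1⟩ := step hg hd (fun e => h (e ▸ m.zero_mem)) (hm _ h)
        have : Fintype.card {x // x ≠ i ∧ x ≠ j} < Fintype.card ι :=
          Fintype.card_subtype_lt (x := i) (by simp)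
        obtain ⟨ι', _, _, deg', D', P, Q, H, hm', r2⟩ := ih _ _ D1 (by omega) r1.gr r1.dd
        exact ⟨ι', _, _, deg', D', _, _, _, hm', r1.trans r2⟩
  intro ι _ _ deg D hg hd
  obtain ⟨ι', _, _, deg', D', P, Q, H, hm', r⟩ := key _ ι deg D (Nat.lt_succ_self _) hg hd
  exact ⟨ι', _, _, deg', D', P, Q, H, r.gr, r.dd, hm', r.dg, r.sm, r.gP, r.gQ, r.gH, r.dP, r.dQ,
    r.qp, r.pq⟩

end Vale.Agent.P202
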