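import Vale.Agent.P202.Spec

/-! Module W: Newton's lemma. -/

open Finset Matrix MvPowerSeries Filter Topology IsLocalRing
open scoped Kronecker Nat

namespace Vale.Agent.P202

universe u

theorem newt_fix {A : Type u} [CommRing A] (I : Ideal A) (hI : IsAdicComplete I A) (F : A → A)
    (hF : ∀ x y, ∃ z ∈ I, F x - F y = z * (x - y)) : ∃ x, F x = x := by
  have h1 : ∀ n, F^[n + 1] 0 - F^[n] 0 ∈ I ^ n := fun n => by
    induction n with
    | zero => simp
    | succ n ih =>
      obtain ⟨z, hz, e⟩ := hF (F^[n + 1] 0) (F^[n] 0)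
      rw [Function.iterate_succ_apply' F (n + 1), Function.iterate_succ_apply' F n] at *
      rw [e, pow_succ']
      exact Ideal.mul_mem_mul hz ih
  have h2 : ∀ {m n}, m ≤ n → F^[m] 0 ≡ F^[n] 0 [SMOD (I ^ m • ⊤ : Submodule A A)] := by
    intro m n hmn
    induction n, hmn using Nat.le_induction with
    | base => rfl
    | succ n hn ih =>
      refine ih.trans (SModEq.symm ?_)
      rw [SModEq.sub_mem, smul_eq_mul, Ideal.mul_top]
      exact Ideal.pow_le_pow_right hn (h1 n)
  obtain ⟨L, hL⟩ := hI.toIsPrecomplete.prec h2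
  refine ⟨L, sub_eq_zero.1 (hI.toIsHausdorff.haus _ fun n => ?_)⟩
  simp only [SModEq.sub_mem, smul_eq_mul, Ideal.mul_top, sub_zero] at hL ⊢
  obtain ⟨z, -, e⟩ := hF (F^[n] 0) L
  have : F L - L = (F^[n + 1] 0 - L) - z * (F^[n] 0 - L) := by
    rw [← e, Function.iterate_succ_apply' F n]; ring
  rw [this]
  exact sub_mem (Ideal.pow_le_pow_right n.le_succ (hL _)) (Ideal.mul_mem_left _ _ (hL _))

theorem newtStmt : NewtStmt.{u} := by
  intro A _ I hI f a ε hε h
  obtain ⟨k, hk⟩ := (f.map Polynomial.C).binomExpansion (Polynomial.C a)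
    (Polynomial.C (f.derivative.eval a * ε) * Polynomial.X)
  obtain ⟨η, hη⟩ := newt_fix I hI (fun x => -1 - ε * (Polynomial.X ^ 2 * k).eval x) fun x y => by
    obtain ⟨z, hz⟩ := (Polynomial.X ^ 2 * k).evalSubFactor x y
    exact ⟨-ε * z, I.mul_mem_right _ (neg_mem hε), by linear_combination -ε * hz⟩
  refine ⟨η, ?_⟩
  have e : ∀ (g : Polynomial A) (y : Polynomial A),
      ((g.map Polynomial.C).eval y).eval η = g.eval (y.eval η) := fun g y => by
    rw [Polynomial.eval_map, ← Polynomial.coe_evalRingHom, Polynomial.hom_eval₂]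
    have : (Polynomial.evalRingHom η).comp Polynomial.C = RingHom.id A := by ext; simp
    rw [this]; rfl
  have := congrArg (Polynomial.eval η) hk
  simp only [Polynomial.eval_add, Polynomial.eval_mul, Polynomial.derivative_map, e,
    Polynomial.eval_C, Polynomial.eval_X, Polynomial.eval_pow] at this hη
  rw [this, h]
  linear_combination (-(f.derivative.eval a ^ 2 * ε)) * hη

end Vale.Agent.P202
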