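import Vale.Agent.P202.Spec

/-! Module NF: normal form of a finitely generated extension (transcendence basis and
primitive element). -/

open Polynomial

namespace Vale.Agent.P202

universe u

namespace Nf

/-- Extend an algebraically independent family so that finitely many elements become
algebraic. -/
lemma ext {B ι : Type*} [CommRing B] [IsDomain B] (x : ι → B) (hx : AlgebraicIndependent ℤ x)
    (G : Finset B) : ∃ (s : ℕ) (v : Fin s → B), AlgebraicIndependent ℤ (Sum.elim x v) ∧
      ∀ b ∈ G, IsAlgebraic (Algebra.adjoin ℤ (Set.range (Sum.elim x v))) b := by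
  classical
  induction G using Finset.induction_on with
  | empty =>
    refine ⟨0, Fin.elim0, ?_, by simp⟩
    have h := hx.comp (Equiv.sumEmpty ι (Fin 0)) (Equiv.injective _)
    have e : x ∘ (Equiv.sumEmpty ι (Fin 0)) = Sum.elim x Fin.elim0 := by
      funext i
      rcases i with i | i
      · simp
      · exact i.elim0
    rwa [e] at h
  | insert a G _ ih =>
    obtain ⟨s, v, hv, hG⟩ := ih
    by_cases ha : IsAlgebraic (Algebra.adjoin ℤ (Set.range (Sum.elim x v))) a
    · refine ⟨s, v, hv, fun b hb => ?_⟩
      rcases Finset.mem_insert.1 hb with rfl | hb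
      · exact ha
      · exact hG b hb
    · have h := (hv.option_iff_transcendental a).2 ha
      let e : ι ⊕ Fin (s + 1) → Option (ι ⊕ Fin s) :=
        Sum.elim (fun i => some (.inl i)) (Fin.cases none fun j => some (.inr j))
      have he : Function.Injective e := by
        rintro (i | i) (j | j) hij
        · simpa [e] using hij
        · induction j using Fin.cases <;> simp [e] at hij
        · induction i using Fin.cases <;> simp [e] at hij
        · induction i using Fin.cases <;> induction j using Fin.cases <;> simp_all [e]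
      have h2 := h.comp e he
      have e2 : (fun o : Option (ι ⊕ Fin s) => o.elim a (Sum.elim x v)) ∘ e
          = Sum.elim x (Fin.cons a v : Fin (s + 1) → B) := by
        funext i
        rcases i with i | i
        · simp [e]
        · induction i using Fin.cases <;> simp [e]
      rw [e2] at h2
      refine ⟨s + 1, Fin.cons a v, h2, fun b hb => ?_⟩
      rcases Finset.mem_insert.1 hb with rfl | hb
      · exact isAlgebraic_algebraMap
          (⟨b, Algebra.subset_adjoin ⟨.inr 0, by simp⟩⟩ :
            Algebra.adjoin ℤ (Set.range (Sum.elim x (Fin.cons b v : Fin (s + 1) → B))))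
      · refine (hG b hb).tower_top_of_subalgebra_le (Algebra.adjoin_mono ?_)
        rintro _ ⟨i | i, rfl⟩
        · exact ⟨.inl i, rfl⟩
        · exact ⟨.inr i.succ, by simp⟩

/-- A primitive element inside `B`. -/
lemma prim {P B : Type*} [CommRing P] [IsDomain P] [CharZero P] [CommRing B] [IsDomain B]
    [Algebra P B] [FaithfulSMul P B] (G : Finset B) (hG : ∀ b ∈ G, IsAlgebraic P b) :
    ∃ θ : B, IsIntegral P θ ∧ ∃ g : P, g ≠ 0 ∧
      ∀ b ∈ G, ∃ h : P[X], algebraMap P B g * b = aeval θ h := by
  classical
  let F := FractionRing P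
  let L := FractionRing B
  let _ : Algebra F L := FractionRing.liftAlgebra P L
  have : IsScalarTower P F L := FractionRing.isScalarTower_liftAlgebra P L
  have iL : Function.Injective (algebraMap B L) := IsFractionRing.injective B L
  let S : Set L := algebraMap B L '' (G : Set B)
  have : Finite S := (G.finite_toSet.image _).to_subtype
  have hS : ∀ y ∈ S, IsAlgebraic F y := by
    rintro _ ⟨b, hb, rfl⟩
    exact (IsFractionRing.isAlgebraic_iff P F L).1 ((hG b hb).algebraMap)
  let E := IntermediateField.adjoin F S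
  have : FiniteDimensional F E :=
    IntermediateField.finiteDimensional_adjoin fun y hy => (hS y hy).isIntegral
  have : CharZero F := inferInstance
  obtain ⟨α, hα⟩ := Field.exists_primitive_element F E
  have hαa : IsAlgebraic F (α : L) :=
    IntermediateField.isAlgebraic_iff.1 (IsAlgebraic.of_finite F α)
  have hE : IntermediateField.adjoin F {(α : L)} = E := by
    simpa only [IntermediateField.lift_adjoin_simple, IntermediateField.lift_top]
      using congr_arg IntermediateField.lift hα
  have h1 : (α : L) ∈ Algebra.adjoin F S := by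
    rw [← IntermediateField.adjoin_toSubalgebra_of_isAlgebraic hS]
    exact α.2
  obtain ⟨c, hc⟩ := multiple_mem_adjoin_of_mem_localization_adjoin (nonZeroDivisors P) F S _ h1
  have hle : Algebra.adjoin P S ≤ (IsScalarTower.toAlgHom P B L).range := by
    refine Algebra.adjoin_le ?_
    rintro _ ⟨b, _, rfl⟩
    exact ⟨b, rfl⟩
  obtain ⟨θ₀, hθ₀⟩ := hle hc
  have hθ₀' : algebraMap B L θ₀ = (c : P) • (α : L) := hθ₀
  have ha0 : IsAlgebraic P θ₀ := by
    rw [← isAlgebraic_algebraMap_iff iL, hθ₀']
    exact ((IsFractionRing.isAlgebraic_iff P F L).2 hαa).smul _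
  obtain ⟨e, he, hint⟩ := ha0.exists_integral_multiple
  refine ⟨e • θ₀, hint, ?_⟩
  have hc0 : (c : P) ≠ 0 := nonZeroDivisors.ne_zero c.2
  have hθ : algebraMap B L (e • θ₀) = algebraMap P F (e * c) • (α : L) := by
    rw [algebraMap_smul, mul_smul, ← hθ₀', Algebra.smul_def, Algebra.smul_def, map_mul,
      ← IsScalarTower.algebraMap_apply]
  have hec : algebraMap P F (e * c) ≠ 0 := by
    rw [Ne, IsFractionRing.to_map_eq_zero_iff]
    exact mul_ne_zero he hc0
  have hαm : (α : L) ∈ Algebra.adjoin F {algebraMap B L (e • θ₀)} := by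
    have h := (Algebra.adjoin F {algebraMap B L (e • θ₀)}).smul_mem
      (Algebra.self_mem_adjoin_singleton F _) (algebraMap P F (e * c))⁻¹
    have h' : (algebraMap P F (e * c))⁻¹ • algebraMap B L (e • θ₀) = (α : L) := by
      rw [hθ, smul_smul, inv_mul_cancel₀ hec, one_smul]
    rwa [h'] at h
  have key : ∀ b ∈ G, ∃ g : P, g ≠ 0 ∧ ∃ h : P[X], algebraMap P B g * b = aeval (e • θ₀) h := by
    intro b hb
    have h2 : algebraMap B L b ∈ Algebra.adjoin F {(α : L)} := by
      rw [← IntermediateField.adjoin_simple_toSubalgebra_of_isAlgebraic hαa, hE]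
      exact IntermediateField.subset_adjoin F S ⟨b, hb, rfl⟩
    have h3 : algebraMap B L b ∈ Algebra.adjoin F {algebraMap B L (e • θ₀)} :=
      Algebra.adjoin_le (Set.singleton_subset_iff.2 hαm) h2
    obtain ⟨g, hg⟩ := multiple_mem_adjoin_of_mem_localization_adjoin (nonZeroDivisors P) F _ _ h3
    rw [Algebra.adjoin_singleton_eq_range_aeval] at hg
    obtain ⟨h, hh⟩ := hg
    refine ⟨g, nonZeroDivisors.ne_zero g.2, h, iL ?_⟩
    have hh' : aeval (algebraMap B L (e • θ₀)) h = (g : P) • algebraMap B L b := hh
    rw [← aeval_algebraMap_apply, hh', map_mul, Algebra.smul_def,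
      ← IsScalarTower.algebraMap_apply]
  choose! g hg h hh using key
  refine ⟨∏ b ∈ G, g b, Finset.prod_ne_zero_iff.2 hg, fun b hb => ?_⟩
  refine ⟨C (∏ b' ∈ G.erase b, g b') * h b, ?_⟩
  rw [← Finset.prod_erase_mul G g hb, map_mul, mul_assoc, hh b hb, map_mul, aeval_C]

end Nf

theorem nfStmt : NfStmt.{u} := by
  intro B _ _ _ d ξ hξ G
  obtain ⟨s, v, hv, hG⟩ := Nf.ext ξ hξ G
  let P := MvPolynomial (Fin d ⊕ Fin s) ℤ
  let w : P →+* B := (MvPolynomial.aeval (Sum.elim ξ v) : P →ₐ[ℤ] B).toRingHom
  have hw : Function.Injective w := hv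
  let _ : Algebra P B := w.toAlgebra
  have : FaithfulSMul P B := (faithfulSMul_iff_algebraMap_injective P B).2 hw
  have hG' : ∀ b ∈ G, IsAlgebraic P b := by
    intro b hb
    refine (hG b hb).ringHom_of_comp_eq (hv.aevalEquiv.symm : _ →+* P) (RingHom.id B)
      hv.aevalEquiv.symm.injective ?_
    refine RingHom.ext fun y => ?_
    obtain ⟨q, rfl⟩ := hv.aevalEquiv.surjective y
    change w (hv.aevalEquiv.symm (hv.aevalEquiv q)) = _
    rw [AlgEquiv.symm_apply_apply]
    exact (hv.algebraMap_aevalEquiv q).symm
  obtain ⟨θ, hθ, g, hg, hb⟩ := Nf.prim G hG'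
  refine ⟨s, w, θ, minpoly P θ, g, fun i => by simp [w], fun h => ?_, ?_, ?_, hb⟩
  · exact minpoly.isIntegrallyClosed_dvd_iff hθ h
  · intro h0
    have h1 := (minpoly.isIntegrallyClosed_dvd_iff hθ (minpoly P θ).derivative).1 h0
    have hp := minpoly.natDegree_pos hθ
    have hne : (minpoly P θ).derivative ≠ 0 := fun h => by
      have := derivative_eq_zero.1 h
      omega
    have h2 := natDegree_le_of_dvd h1 hne
    have h3 := natDegree_derivative_lt hp.ne'
    omega
  · exact fun h => hg (hw (h.trans (map_zero w).symm))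

end Vale.Agent.P202
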