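import Vale.Agent.P202.Red

/-! Module NN: Noether normalisation along a minimal reduction. -/

open Finset Matrix MvPowerSeries Filter Topology IsLocalRing
open scoped Kronecker Nat

namespace Vale.Agent.P202

universe u

namespace Nn

theorem squeeze {a b : ℕ → ℕ} {c d : ℕ} {e : ℝ} (h1 : ∀ N, b N ≤ a N) (h2 : ∀ N, a N ≤ b (N + c))
    (h : Tendsto (fun N : ℕ => (d ! : ℝ) * a N / (N : ℝ) ^ d) atTop (𝓝 e)) :
    Tendsto (fun N : ℕ => (d ! : ℝ) * b N / (N : ℝ) ^ d) atTop (𝓝 e) := by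
  refine (tendsto_add_atTop_iff_nat c).1 ?_
  have h3 := h.mul ((tendsto_natCast_div_add_atTop (c : ℝ)).pow d)
  rw [one_pow, mul_one] at h3
  refine tendsto_of_tendsto_of_tendsto_of_le_of_le' h3 ((tendsto_add_atTop_iff_nat c).2 h) ?_
    (Eventually.of_forall fun N => by have := h1 (N + c); gcongr)
  filter_upwards [eventually_gt_atTop 0] with N hN
  have := h2 N
  rw [div_pow, div_mul_div_cancel₀ (by positivity)]
  push_cast
  gcongr

end Nn

theorem nnStmt (hd : RedStmt.{u}) (hR : RkStmt.{u}) (hV : EvStmt.{u}) (hU : UnrStmt.{u}) :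
    NnStmt.{u} := by
  intro K R _ _ _ _ _ d C hC h
  have := hC.noeth
  obtain ⟨x, c, hx, hr⟩ := hd K R d C hC h
  obtain ⟨f, hf⟩ := (hV K d).ev R _ hC.cpl x fun i => Ideal.le_radical (hx i)
  let _ : Algebra (PS K d) R := f.toRingHom.toAlgebra
  have hT : IsScalarTower K (PS K d) R := .of_algebraMap_eq fun a => (f.commutes a).symm
  have hJ : (mx K d).map (algebraMap (PS K d) R) = Ideal.span (Set.range x) := by
    rw [Ideal.map_span, ← Set.range_comp]
    exact congrArg _ (congrArg _ (funext hf))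
  have hm : ∀ N (y : R), y ∈ (mx K d ^ N • ⊤ : Submodule (PS K d) R) ↔
      y ∈ Ideal.span (Set.range x) ^ N := fun N y => by
    rw [Ideal.smul_top_eq_map, Ideal.map_pow, hJ, Submodule.restrictScalars_mem]
  have h1 : ∀ N, Ideal.span (Set.range x) ^ N ≤ maximalIdeal R ^ N := fun N =>
    Ideal.pow_right_mono (Ideal.span_le.2 (Set.range_subset_iff.2 hx)) N
  have h2 : ∀ N, maximalIdeal R ^ (N + c) ≤ Ideal.span (Set.range x) ^ N := fun N =>
    (Rd.red_pow hr N).trans Ideal.mul_le_left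
  have h3 : ∀ N, cl K (maximalIdeal R ^ N) = hs R N := fun N => by
    rw [hs, ENat.natCast_toNat (Rd.finlen R N)]
    exact (hU.2.2 K R _ hC.res).symm
  have h4 : ∀ N, cl K (mx K d ^ N • ⊤ : Submodule (PS K d) R) ≤ hs R (N + c) := fun N => by
    rw [← h3, cl_eq, cl_eq]
    exact rl_mono (fun y hy => (hm N y).2 (h2 N hy)) le_sup_right
  have h5 : ∀ N, (hs R N : ℕ∞) ≤ cl K (mx K d ^ N • ⊤ : Submodule (PS K d) R) := fun N => by
    rw [← h3, cl_eq, cl_eq]
    exact rl_mono (fun y hy => h1 N ((hm N y).1 hy)) le_sup_right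
  have := hC.cpl
  have hF : Module.Finite (PS K d) R := (hV K d).fin R
    ⟨fun y hy => IsHausdorff.haus (I := maximalIdeal R) inferInstance y fun N => by
      rw [SModEq.zero, smul_eq_mul, Ideal.mul_top]
      exact h1 N ((hm N y).1 (SModEq.zero.1 (hy N)))⟩
    (ne_top_of_le_ne_top (ENat.natCast_ne_top _) (by simpa using h4 1))
  refine ⟨_, hT, c, hF, ⟨hC.res, (maximalIdeal.isMaximal R).ne_top, fun b hb => ?_,
    fun j => (hf j).symm.subst (motive := (· ∈ _)) (hx j), hJ ▸ hr⟩, Nn.squeeze (c := c) (fun N => ?_) (fun N => ?_)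
      (hR K d R).2.2.1⟩
  · exact notMem_maximalIdeal.1 hb
  · simpa using ENat.toNat_le_toNat (h5 N) ((hR K d R).1 N)
  · exact ENat.toNat_le_of_le_natCast (h4 N)

end Vale.Agent.P202
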