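import Vale.Agent.P202.Tr

/-! The normalised inequality for a flat local map with zero-dimensional fibre. -/

open Finset Matrix MvPowerSeries Filter Topology IsLocalRing
open scoped Kronecker Nat

namespace Vale.Agent.P202

universe u

namespace No

theorem finlen {S : Type*} [CommRing S] [IsLocalRing S] [IsNoetherianRing S] {I : Ideal S}
    (h : maximalIdeal S ≤ I.radical) : Module.length S (S ⧸ I) ≠ ⊤ := by
  by_cases hI : I = ⊤
  · have : Subsingleton (S ⧸ I) := Ideal.Quotient.subsingleton_iff.2 hI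
    simp
  have : IsArtinianRing (S ⧸ I) := IsLocalRing.quotient_artinian_of_mem_minimalPrimes_of_isLocalRing
    I ⟨⟨inferInstance, le_maximalIdeal hI⟩, fun J hJ _ => h.trans (hJ.1.radical_le_iff.2 hJ.2)⟩
  have : IsArtinian S (S ⧸ I) :=
    isArtinian_of_surjective_algebraMap (Ideal.Quotient.mk_surjective (I := I))
  exact Module.length_ne_top

theorem le_rad {S : Type*} [CommRing S] {I J : Ideal S} {c : ℕ} (h : J ^ c ≤ I) : J ≤ I.radical :=
  fun _ hx => ⟨c, h (Ideal.pow_mem_pow hx c)⟩

theorem gens (K : Type*) {R M : Type*} [Field K] [CommRing R] [IsLocalRing R] [Algebra K R]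
    [AddCommGroup M] [Module R M] [Module K M] [IsScalarTower K R M] [Module.Finite R M] {n : ℕ}
    (h : cl K (maximalIdeal R • ⊤ : Submodule R M) = n) :
    ∃ s : Fin n → M, Function.Surjective (Fintype.linearCombination R s) := by
  unfold cl at h
  have h1 := (isFiniteLength_iff_isNoetherian_isArtinian.1
    (Module.length_ne_top_iff.1 (h ▸ ENat.natCast_ne_top n))).1
  rw [Module.length_eq_finrank, Nat.cast_inj] at h
  let B := Module.finBasisOfFinrankEq K _ h
  choose s hs using fun i => (maximalIdeal R • ⊤ : Submodule R M).mkQ_surjective (B i)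
  refine ⟨s, LinearMap.surjective_of_surjective_comp_mkQ _ _ (maximalIdeal_le_jacobson _) fun q => ?_⟩
  refine ⟨fun i => algebraMap K R (B.repr q i), ?_⟩
  simp only [LinearMap.comp_apply, Fintype.linearCombination_apply, map_sum, algebraMap_smul,
    LinearMap.map_smul_of_tower, hs]
  exact B.sum_repr q

theorem inj_mod {R M : Type*} [CommRing R] [AddCommGroup M] [Module R M] {n : ℕ} (s : Fin n → M)
    (hs : Function.Surjective (Fintype.linearCombination R s)) (I : Ideal R)
    (hI : Module.length R (R ⧸ I) ≠ ⊤)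
    (h : Module.length R (M ⧸ (I • ⊤ : Submodule R M)) = Module.length R (R ⧸ I) * n)
    (v : Fin n → R) (hv : Fintype.linearCombination R s v = 0) (i : Fin n) : v i ∈ I := by
  let l : Fin n → (R ⧸ I) →ₗ[R] M ⧸ (I • ⊤ : Submodule R M) := fun j =>
    Submodule.liftQ I ((I • ⊤ : Submodule R M).mkQ ∘ₗ LinearMap.toSpanSingleton R M (s j))
      fun x hx => (Submodule.Quotient.mk_eq_zero _).2 (Submodule.smul_mem_smul hx trivial)
  let g : (Fin n → R ⧸ I) →ₗ[R] M ⧸ (I • ⊤ : Submodule R M) := ∑ j, l j ∘ₗ LinearMap.proj j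
  have hg : ∀ w : Fin n → R, g (fun j => Submodule.Quotient.mk (w j)) =
      (I • ⊤ : Submodule R M).mkQ (Fintype.linearCombination R s w) := fun w => by
    simp only [g, LinearMap.sum_apply, Fintype.linearCombination_apply, map_sum]
    rfl
  have hsurj : Function.Surjective g := fun q => by
    obtain ⟨x, rfl⟩ := Submodule.mkQ_surjective _ q
    obtain ⟨w, rfl⟩ := hs x
    exact ⟨_, hg w⟩
  have e := Module.length_eq_add_of_exact (LinearMap.ker g).subtype g
    (Submodule.subtype_injective _) hsurj (LinearMap.exact_subtype_ker_map g)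
  rw [Module.length_pi_of_fintype, Finset.sum_const, card_univ, Fintype.card_fin, nsmul_eq_mul,
    h, mul_comm] at e
  have e0 : Module.length R (LinearMap.ker g) = 0 := by
    refine (ENat.add_left_injective_of_ne_top (n := Module.length R (R ⧸ I) * n)
      (WithTop.mul_ne_top hI (ENat.natCast_ne_top n))) ?_
    simpa using e.symm
  have e1 := Module.length_eq_zero_iff.1 e0
  have e2 : (fun j => (Submodule.Quotient.mk (v j) : R ⧸ I)) ∈ LinearMap.ker g := by
    rw [LinearMap.mem_ker, hg, hv, map_zero]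
  have e3 := congrFun (congrArg Subtype.val (Subsingleton.elim (⟨_, e2⟩ : LinearMap.ker g) 0)) i
  exact (Submodule.Quotient.mk_eq_zero _).1 e3

theorem len_eq (K : Type*) {R S : Type*} [Field K] [CommRing R] [CommRing S] [Algebra R S]
    [Algebra K R] [Algebra K S] [IsScalarTower K R S] (I : Ideal R) :
    cl K (I • ⊤ : Submodule R S) = Module.length K (S ⧸ I.map (algebraMap R S)) := by
  refine le_antisymm (Tr.cl_sub K (N := I.map (algebraMap R S)) fun x hx => ?_)
    (Tr.cl_sub K (N' := I.map (algebraMap R S)) fun x hx => ?_)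
  · rw [Ideal.smul_top_eq_map]; exact hx
  · rw [Ideal.smul_top_eq_map] at hx; exact hx

theorem repr_mem {R M ι : Type*} [CommRing R] [AddCommGroup M] [Module R M]
    (B : Module.Basis ι R M) {I : Ideal R} {x : M} (hx : x ∈ (I • ⊤ : Submodule R M)) (i : ι) :
    B.repr x i ∈ I := by
  refine Submodule.smul_induction_on hx (fun r hr m _ => ?_) fun x y hx hy => ?_
  · rw [map_smul, Finsupp.smul_apply]; exact I.mul_mem_right _ hr
  · rw [map_add, Finsupp.add_apply]; exact I.add_mem hx hy

theorem cl_imY (K : Type*) {R S ι β : Type*} [Field K] [CommRing R] [CommRing S] [Algebra R S]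
    [Algebra K R] [Algebra K S] [IsScalarTower K R S] [Fintype ι] [DecidableEq ι] [Fintype β]
    (B : Module.Basis ι R S) (y : β → S) (t : ℕ) :
    cl K (imY (fun l => Algebra.leftMulMatrix B (y l)) t) ≤
      Module.length K (S ⧸ Ideal.span (Set.range fun l => y l ^ t)) := by
  rw [← (Submodule.Quotient.restrictScalarsEquiv K
    (Ideal.span (Set.range fun l => y l ^ t))).length_eq]
  refine Module.length_le_of_surjective (Submodule.liftQ _
    (((imY (fun l => Algebra.leftMulMatrix B (y l)) t).mkQ ∘ₗ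
      B.equivFun.toLinearMap).restrictScalars K) fun x hx => ?_) fun q => ?_
  · obtain ⟨c, rfl⟩ := Ideal.mem_span_range_iff_exists_fun.1 hx
    refine (Submodule.Quotient.mk_eq_zero _).2 ?_
    rw [map_sum]
    refine Submodule.sum_mem _ fun l _ => Submodule.mem_iSup_of_mem l ⟨B.repr (c l), ?_⟩
    rw [Matrix.mulVecLin_apply, ← map_pow, Algebra.leftMulMatrix_mulVec_repr, mul_comm]
    rfl
  · obtain ⟨v, rfl⟩ := Submodule.mkQ_surjective _ q
    obtain ⟨x, rfl⟩ := B.equivFun.surjective v
    exact ⟨Submodule.Quotient.mk x, rfl⟩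

theorem core (hP : CorePStmt.{u}) (h0 : Core0Stmt.{u}) (K : Type u) [Field K] [IsAlgClosed K] :
    Core K := by
  obtain ⟨p, hp⟩ := CharP.exists K
  rcases CharP.char_is_prime_or_zero K p with h | rfl
  · have : Fact p.Prime := ⟨h⟩
    exact hP K p
  · have := CharP.charP_to_charZero K
    exact h0 K

end No

open No in
theorem normStmt (h2 : Gon2Stmt.{u}) (hg : GrStmt.{u}) (hn : NnStmt.{u}) (hV : EvStmt.{u})
    (hU : UnrStmt.{u}) (hP : CorePStmt.{u}) (h0 : Core0Stmt.{u}) : NormStmt.{u} := by
  intro R S _ _ _ _ _ _ f _ hf hR hk d e hd he y c hy hyc hc t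
  obtain ⟨K, R', S', _, _, _, _, _, _, _, _, a, b, f', hR', hS', ha, hb, hab⟩ := h2 R S f hR hk
  obtain ⟨C, hC⟩ := hg R d hd
  obtain ⟨-, ha1, ha2⟩ := hU.2.1 R R' a ha
  obtain ⟨-, -, hb2⟩ := hU.2.1 S S' b hb
  obtain ⟨_, _, c', hfin, hred, hm⟩ := hn K R' d C hR' fun N => (ha1 N).le.trans (hC N)
  have he' : e = Module.finrank (PS K d) R' := by
    refine tendsto_nhds_unique he ?_
    simpa only [Mult, ha1] using hm
  have := hR'.noeth
  have := hS'.noeth
  let _ : Algebra R' S' := f'.toRingHom.toAlgebra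
  have : IsScalarTower K R' S' := IsScalarTower.of_algebraMap_eq fun x => (f'.commutes x).symm
  let _ : Algebra (PS K d) S' := ((algebraMap R' S').comp (algebraMap (PS K d) R')).toAlgebra
  have : IsScalarTower (PS K d) R' S' := IsScalarTower.of_algebraMap_eq fun _ => rfl
  have : IsScalarTower K (PS K d) S' := IsScalarTower.of_algebraMap_eq fun x => by
    rw [IsScalarTower.algebraMap_apply K R' S', IsScalarTower.algebraMap_apply K (PS K d) R']; rfl
  have hcomp : (algebraMap R' S').comp a = b.comp f := RingHom.ext hab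
  have hmap : ∀ N, (maximalIdeal R' ^ N).map (algebraMap R' S') =
      ((maximalIdeal R ^ N).map f).map b := fun N => by
    rw [← ha.map, ← Ideal.map_pow, Ideal.map_map, Ideal.map_map, hcomp]
  have hmap1 := hmap 1
  rw [pow_one, pow_one] at hmap1
  have hloc : (maximalIdeal R).map f ≤ maximalIdeal S := by
    rw [Ideal.map_le_iff_le_comap]
    exact fun x hx => map_nonunit f x hx
  have hloc' : (maximalIdeal R').map (algebraMap R' S') ≤ maximalIdeal S' := by
    rw [hmap1, ← hb.map]; exact Ideal.map_mono hloc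
  obtain ⟨n, hn'⟩ := ENat.ne_top_iff_exists.1 (finlen (le_rad hc))
  have hlen : ∀ N, cl K (maximalIdeal R' ^ N • ⊤ : Submodule R' S') =
      Module.length R' (R' ⧸ maximalIdeal R' ^ N) * n := fun N => by
    rw [len_eq, ← hU.2.2 K S' _ hS'.res, hmap, hb2, (hU.1 R S f hf).2.2, ← hn', ← ha.map,
      ← Ideal.map_pow, ha2]
  have hfl : ∀ N, Module.length R' (R' ⧸ maximalIdeal R' ^ N) ≠ ⊤ := fun N =>
    finlen (le_rad le_rfl)
  have hmx : (mx K d).map (algebraMap (PS K d) R') ≤ maximalIdeal R' := by
    rw [Ideal.map_span, Ideal.span_le]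
    rintro _ ⟨_, ⟨j, rfl⟩, rfl⟩
    exact hred.x j
  have hmm : (mx K d).map (algebraMap (PS K d) S') =
      ((mx K d).map (algebraMap (PS K d) R')).map (algebraMap R' S') := by
    rw [Ideal.map_map]; rfl
  have hF : Module.Finite (PS K d) S' := by
    refine (hV K d).fin S' ⟨fun x hx => hS'.cpl.toIsHausdorff.haus x fun N => ?_⟩ ?_
    · have := SModEq.zero.1 (hx N)
      rw [Ideal.smul_top_eq_map, Submodule.restrictScalars_mem, Ideal.map_pow] at this
      rw [SModEq.zero, smul_eq_mul, Ideal.mul_top]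
      exact Ideal.pow_right_mono (hmm ▸ (Ideal.map_mono hmx).trans hloc') N this
    · refine ne_top_of_le_ne_top ((hlen (c' + 1)).trans_ne
        (WithTop.mul_ne_top (hfl _) (ENat.natCast_ne_top n))) (Tr.cl_sub K fun x hx => ?_)
      rw [Ideal.smul_top_eq_map, Submodule.restrictScalars_mem] at hx ⊢
      rw [hmm]
      exact Ideal.map_mono (hred.red.trans Ideal.mul_le_left) hx
  have hF' : Module.Finite R' S' := Module.Finite.of_restrictScalars_finite (PS K d) R' S'
  obtain ⟨s, hs⟩ := gens K (R := R') (M := S') (n := n) (by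
    rw [len_eq, ← hU.2.2 K S' _ hS'.res, hmap1, hb2, hn'])
  have hinj : Function.Injective (Fintype.linearCombination R' s) := by
    rw [injective_iff_map_eq_zero]
    intro v hv
    funext i
    refine hR'.cpl.toIsHausdorff.haus (v i) fun N => ?_
    rw [SModEq.zero, smul_eq_mul, Ideal.mul_top]
    exact inj_mod s hs _ (hfl N) ((hU.2.2 K R' _ hR'.res).trans (hlen N)) v hv i
  let B : Module.Basis (Fin n) R' S' :=
    Module.Basis.ofEquivFun (LinearEquiv.ofBijective _ ⟨hinj, hs⟩).symm
  have hn0 : 0 < n := by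
    have : Nontrivial (S ⧸ (maximalIdeal R).map f) := Ideal.Quotient.nontrivial_iff.2
      fun h => (maximalIdeal.isMaximal S).ne_top (top_le_iff.1 (h ▸ hloc))
    have h1 : 0 < Module.length S (S ⧸ (maximalIdeal R).map f) := Module.length_pos
    rw [← hn'] at h1
    exact_mod_cast h1
  have hD : Dat K d (maximalIdeal R') (Algebra.leftMulMatrix B).toRingHom (fun l => b (y l))
      (fun j => algebraMap R' S' (algebraMap (PS K d) R' (X j))) c := by
    refine ⟨⟨⟨0, hn0⟩⟩, fun j => ((Algebra.leftMulMatrix B).commutes _).trans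
      (Algebra.algebraMap_eq_smul_one _), fun j => ?_, fun l i i' => ?_⟩
    · have h1 := Ideal.map_mono (f := b) hyc
      rw [Ideal.map_pow, hb.map, Ideal.map_span, ← Set.range_comp] at h1
      exact h1 (Ideal.pow_mem_pow (hloc' (Ideal.mem_map_of_mem _ (hred.x j))) c)
    · rw [← map_pow]
      change Algebra.leftMulMatrix B _ i i' ∈ _
      rw [Algebra.leftMulMatrix_eq_repr_mul]
      refine repr_mem B ?_ i
      rw [Ideal.smul_top_eq_map, Submodule.restrictScalars_mem, hmap1, ← map_pow]
      exact Ideal.mul_mem_right _ _ (Ideal.mem_map_of_mem _ (hc (Ideal.pow_mem_pow (hy l) c)))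
  obtain ⟨lam, hlam⟩ := ENat.ne_top_iff_exists.1 (finlen (S := S)
    (I := Ideal.span (Set.range fun l => y l ^ t)) (by
      refine (le_rad hyc).trans (Ideal.radical_le_radical_iff.2 (Ideal.span_le.2 ?_))
      rintro _ ⟨l, rfl⟩
      exact ⟨t, Ideal.subset_span ⟨l, rfl⟩⟩))
  have key := core hP h0 K d R' _ c' S' (Fin n) _ _ _ c hred hD t lam
    ((cl_imY K B (fun l => b (y l)) t).trans (le_of_eq (by
      have e1 : (b ∘ fun l => y l ^ t) = fun l => b (y l) ^ t := funext fun l => map_pow b _ _
      rw [hlam, ← hb2, Ideal.map_span, ← Set.range_comp, ← hU.2.2 K S' _ hS'.res, e1])))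
  rw [← hlam, he', ENat.toNat_natCast, mul_comm]
  exact_mod_cast key

end Vale.Agent.P202
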