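import Vale.Agent.P202.Base

/-! Module N: dimension counts. -/

open Finset Matrix MvPowerSeries Filter Topology IsLocalRing
open scoped Kronecker Nat

namespace Vale.Agent.P202

universe u

namespace Nm

section gen
variable {k : Type u} [Field k]

/-- coefficients on a family of finite sets of monomials -/
noncomputable def res {π σ : Type*} (T : π → Finset (σ →₀ ℕ)) :
    (π → MvPowerSeries σ k) →ₗ[k] ((Σ p, T p) → k) :=
  LinearMap.pi fun x => coeff (R := k) x.2.1 ∘ₗ LinearMap.proj x.1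

theorem rl_bot_top {π σ : Type*} [Fintype π] (T : π → Finset (σ →₀ ℕ)) :
    rl (⊥ : Submodule k ((Σ p, T p) → k)) ⊤ = ((∑ p, (T p).card : ℕ) : ℕ∞) := by
  rw [rl_top, (Submodule.quotEquivOfEqBot _ rfl).length_eq, Module.length_eq_finrank,
    Module.finrank_fintype_fun_eq_card, Fintype.card_sigma]
  simp

theorem rl_pi_le {π σ : Type*} [Fintype π] (S S' : π → Set (σ →₀ ℕ)) (T : π → Finset (σ →₀ ℕ))
    (hT : ∀ p e, e ∈ S p → e ∉ S' p → e ∈ T p) :
    rl (Submodule.pi Set.univ fun p => Pv k (S' p)) (Submodule.pi Set.univ fun p => Pv k (S p)) ≤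
      ((∑ p, (T p).card : ℕ) : ℕ∞) := by
  rw [← rl_bot_top (k := k) T]
  refine rl_le_of_comap (res T) (fun x hx h p _ e he => ?_) fun x _ => by simp
  by_contra h'
  exact he (congrFun ((Submodule.mem_bot k).1 h) ⟨p, e, hT p e (hx p trivial e he) h'⟩)

theorem rl_pi {π σ : Type*} [Fintype π] (S S' : π → Set (σ →₀ ℕ)) (T : π → Finset (σ →₀ ℕ))
    (hT : ∀ p e, e ∈ T p ↔ e ∈ S p ∧ e ∉ S' p) :
    rl (Submodule.pi Set.univ fun p => Pv k (S' p)) (Submodule.pi Set.univ fun p => Pv k (S p)) =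
      ((∑ p, (T p).card : ℕ) : ℕ∞) := by
  classical
  refine le_antisymm (rl_pi_le S S' T fun p e h h' => (hT p e).2 ⟨h, h'⟩) ?_
  rw [← rl_bot_top (k := k) T]
  refine rl_le_of_map (res T) (fun x hx => ?_) fun y _ => ?_
  · rw [Submodule.mem_bot]
    ext ⟨p, e, he⟩
    by_contra h
    exact ((hT p e).1 he).2 (hx p trivial e h)
  · refine Submodule.mem_sup_right ⟨fun p e => if h : e ∈ T p then y ⟨p, e, h⟩ else 0,
      fun p _ e he => ?_, ?_⟩
    · by_contra h
      exact he (dif_neg fun h' => h ((hT p e).1 h').1)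
    · ext ⟨p, e, he⟩
      exact dif_pos he

/-- the cokernel of an endomorphism of a finite dimensional subquotient is at most the kernel -/
theorem coker_le {E : Type*} [AddCommGroup E] [Module k E] (g : Module.End k E)
    {P Q R : Submodule k E} (h : P ≤ Q) (hg : ∀ x ∈ Q, g x ∈ Q) (hf : rl P Q ≠ ⊤)
    (hR : ∀ x ∈ Q, g x ∈ P → x ∈ R) : rl (P ⊔ Q.map g) Q ≤ rl P R := by
  have h1 : P ⊔ Q.map g ≤ Q := sup_le h (Submodule.map_le_iff_le_comap.2 hg)
  have h2 := rl_add (le_sup_left : P ≤ P ⊔ Q.map g) h1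
  have h3 : rl R Q ≤ rl P (P ⊔ Q.map g) :=
    rl_le_of_comap g hR fun x hx => Submodule.mem_sup_right
      (Submodule.mem_sup_right (Submodule.mem_map_of_mem hx))
  have h4 := (rl_le_add P R Q).trans (add_le_add le_rfl h3)
  have h5 : rl P (P ⊔ Q.map g) ≠ ⊤ := fun e => hf (by rw [h2, e, top_add])
  rw [h2, add_comm] at h4
  exact (ENat.add_le_add_iff_right h5).1 h4

end gen

variable {r : ℕ}

/-- a monomial from its level and its other exponents -/
noncomputable def mk : (Σ _ : ℕ, Fin r → ℕ) ↪ Mon r where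
  toFun x := Finsupp.equivFunOnFinite.symm fun o => o.elim x.1 x.2
  inj' := by
    rintro ⟨m, f⟩ ⟨m', f'⟩ h
    have h1 := congrFun (Finsupp.equivFunOnFinite.symm.injective h)
    obtain rfl : m = m' := h1 none
    obtain rfl : f = f' := funext fun a => h1 (some a)
    rfl

noncomputable def slab (A : Finset ℕ) (B : ℕ → Fin r → Finset ℕ) : Finset (Mon r) :=
  (A.sigma fun m => Fintype.piFinset (B m)).map mk

theorem mem_slab {A : Finset ℕ} {B : ℕ → Fin r → Finset ℕ} {e : Mon r} :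
    e ∈ slab A B ↔ e none ∈ A ∧ ∀ a, e (some a) ∈ B (e none) a := by
  rw [slab, Finset.mem_map]
  constructor
  · rintro ⟨⟨m, f⟩, h, rfl⟩
    exact ⟨(mem_sigma.1 h).1, Fintype.mem_piFinset.1 (mem_sigma.1 h).2⟩
  · intro h
    refine ⟨⟨e none, fun a => e (some a)⟩, by simpa using h, ?_⟩
    ext o
    cases o <;> rfl

theorem card_slab (A : Finset ℕ) (B : ℕ → Fin r → Finset ℕ) :
    (slab A B).card = ∑ m ∈ A, ∏ a, (B m a).card := by
  simp [slab, card_sigma, Fintype.card_piFinset]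

/-- the exponents allowed in one direction -/
def iv (N0 N : ℕ) (x : ℤ) (s : Finset Bool) : Finset ℕ :=
  Ico (if true ∈ s then N0 - N else N0)
    (if false ∈ s then (x + N + 1).toNat else if true ∈ s then (x + 1).toNat else 0)

theorem sum_iv {N0 N : ℕ} {x : ℤ} (h : N ≤ N0) (h' : (N0 : ℤ) ≤ x + N + 1) :
    ∑ s : Finset Bool, (-1 : ℤ) ^ s.card * (iv N0 N x s).card = -(x - N0 + 1) := by
  have : (univ : Finset (Finset Bool)) = {∅, {true}, {false}, {true, false}} := by decide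
  rw [this, sum_insert (by decide), sum_insert (by decide), sum_pair (by decide),
    card_pair (by decide)]
  simp only [iv, Nat.card_Ico, notMem_empty, mem_singleton, mem_insert, card_singleton]
  simp
  omega

/-- subsets of `Fin r × Bool` as families of subsets of `Bool` -/
def eqJ (r : ℕ) : FJ r ≃ (Fin r → Finset Bool) where
  toFun J a := univ.filter fun b => (a, b) ∈ J
  invFun s := univ.filter fun p => p.2 ∈ s p.1
  left_inv J := by ext ⟨a, b⟩; simp
  right_inv s := by ext a b; simp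

theorem card_eqJ (J : FJ r) : J.card = ∑ a, (eqJ r J a).card := by
  have : J = univ.filter fun p => p ∈ J := by simp
  conv_lhs => rw [this, card_filter, Fintype.sum_prod_type]
  simp only [eqJ, Equiv.coe_fn_mk, card_filter]

theorem sum_J {N0 N : ℕ} {x : Fin r → ℤ} (h : N ≤ N0) (h' : ∀ a, (N0 : ℤ) ≤ x a + N + 1) :
    ∑ J : FJ r, (-1 : ℤ) ^ J.card * ∏ a, ((iv N0 N (x a) (eqJ r J a)).card : ℤ) =
      (-1) ^ r * ∏ a, (x a - N0 + 1) := by
  simp only [card_eqJ, ← prod_pow_eq_pow_sum, ← prod_mul_distrib]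
  rw [(eqJ r).sum_comp fun s => ∏ a, (-1 : ℤ) ^ (s a).card * (iv N0 N (x a) (s a)).card,
    ← Fintype.prod_sum fun a (s : Finset Bool) => (-1 : ℤ) ^ s.card * (iv N0 N (x a) s).card]
  simp only [sum_iv h (h' _), prod_neg, card_univ, Fintype.card_fin]

/-- the monomials of a component between two levels -/
noncomputable def TT (N0 : ℕ) (ν : Fin r → ℤ) (N l l' : ℕ) (J : FJ r) : Finset (Mon r) :=
  slab (Ico l l') fun m a => iv N0 N (ν a + m) (eqJ r J a)

theorem mem_TT {N0 : ℕ} {ν : Fin r → ℤ} {N l l' : ℕ} {J : FJ r} {e : Mon r} :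
    e ∈ TT N0 ν N l l' J ↔
      e ∈ Om N0 ν N l ∩ cond N0 ν J ∧ e ∉ Om N0 ν N l' ∩ cond N0 ν J := by
  have key : (∀ a, e (some a) ∈ iv N0 N (ν a + e none) (eqJ r J a)) ↔
      (∀ a, N0 ≤ e (some a) + N ∧ (e (some a) : ℤ) ≤ ν a + e none + N) ∧ e ∈ cond N0 ν J := by
    simp only [cond, Set.mem_ofPred_eq, ← forall_and]
    refine forall_congr' fun a => ?_
    by_cases h0 : (a, false) ∈ J <;> by_cases h1 : (a, true) ∈ J <;>
      simp [iv, eqJ, h0, h1] <;> omega
  rw [TT, mem_slab, key, mem_Ico]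
  simp only [Om, Set.mem_inter_iff, Set.mem_ofPred_eq]
  constructor
  · rintro ⟨⟨h1, h2⟩, h3, h4⟩
    exact ⟨⟨⟨h1, h3⟩, h4⟩, fun h => absurd h.1.1 (not_le.2 h2)⟩
  · rintro ⟨⟨⟨h1, h3⟩, h4⟩, h⟩
    exact ⟨⟨h1, not_le.1 fun h2 => h ⟨⟨h2, h3⟩, h4⟩⟩, h3, h4⟩

theorem rl_XF (k : Type u) [Field k] {ι : Type} [Fintype ι] (deg : ι → ℕ) (N0 : ℕ)
    (ν : Fin r → ℤ) (N : ℕ) (l l' : ℕ → ℕ) (n : ℤ) :
    rl (XF k N0 ν N l' deg n) (XF k N0 ν N l deg n) = ((∑ p : ι × FJ r,
      if (deg p.1 : ℤ) + r - p.2.card = n then (TT N0 ν N (l (deg p.1)) (l' (deg p.1)) p.2).card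
      else 0 : ℕ) : ℕ∞) := by
  have := rl_pi (k := k)
    (fun p : ι × FJ r => {e | (deg p.1 : ℤ) + r - p.2.card = n ∧
      e ∈ Om N0 ν N (l (deg p.1)) ∩ cond N0 ν p.2})
    (fun p : ι × FJ r => {e | (deg p.1 : ℤ) + r - p.2.card = n ∧
      e ∈ Om N0 ν N (l' (deg p.1)) ∩ cond N0 ν p.2})
    (fun p => if (deg p.1 : ℤ) + r - p.2.card = n then
      TT N0 ν N (l (deg p.1)) (l' (deg p.1)) p.2 else ∅) fun p e => by
      split_ifs with h
      · simp only [mem_TT, Set.mem_ofPred_eq, h, true_and]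
      · simp [h]
  simp only [apply_ite Finset.card, card_empty] at this
  exact this

theorem level_mul {k : Type u} [Field k] {f g : LL k r} {a b : Mon r} (ha : coeff a f ≠ 0)
    (hb : coeff b g ≠ 0) : ∃ e : Mon r, e none ≤ a none + b none ∧ coeff e (f * g) ≠ 0 := by
  let w : Option (Fin r) → ℕ := fun o => o.elim 1 fun _ => 0
  have hw : ∀ e : Mon r, Finsupp.weight w e = e none := fun e => by
    rw [Finsupp.weight_apply, Finsupp.sum_fintype _ _ (by simp), Fintype.sum_option]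
    simp [w]
  have h1 := weightedOrder_le w ha
  have h2 := weightedOrder_le w hb
  have h3 : (f * g).weightedOrder w ≤ ((a none + b none : ℕ) : ℕ∞) := by
    rw [weightedOrder_mul, Nat.cast_add, ← hw a, ← hw b]
    exact add_le_add h1 h2
  have h4 : (f * g).weightedOrder w ≠ ⊤ := ne_top_of_le_ne_top (ENat.natCast_ne_top _) h3
  obtain ⟨e, he, he'⟩ := exists_coeff_ne_zero_and_weightedOrder w
    (ENat.natCast_toNat h4)
  refine ⟨e, ?_, he⟩
  rw [← he', hw] at h3
  exact_mod_cast h3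

end Nm

open Nm

theorem numStmt : NumStmt.{u} := by
  intro k _ r ι _ _ deg N0 ν N l l' hd hN _ hν
  simp only [rl_XF, ENat.toNat_natCast]
  simp only [Nat.cast_sum, mul_sum (univ : Finset (ι × FJ r))]
  rw [sum_comm, Fintype.sum_prod_type]
  refine sum_congr rfl fun i _ => ?_
  have h1 : ∀ J : FJ r, ∑ n ∈ Icc (-(r + 1 : ℕ) : ℤ) (r + 1 : ℕ), (n.negOnePow : ℤ) *
      ((if (deg i : ℤ) + r - J.card = n then (TT N0 ν N (l (deg i)) (l' (deg i)) J).card
        else 0 : ℕ) : ℤ) = (-1) ^ deg i * (-1) ^ r *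
        ((-1) ^ J.card * (TT N0 ν N (l (deg i)) (l' (deg i)) J).card) := fun J => by
    simp only [Nat.cast_ite, Nat.cast_zero, mul_ite, mul_zero, sum_ite_eq]
    split_ifs with h
    · rw [Int.negOnePow_sub, Int.negOnePow_add]
      simp only [Units.val_mul, Int.coe_negOnePow_natCast]
      ring
    · rcases (TT N0 ν N (l (deg i)) (l' (deg i)) J).eq_empty_or_nonempty with e | ⟨e, he⟩
      · simp [e]
      · have h2 := cond_card (mem_TT.1 he).1.2
        have h3 := FJ_card J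
        have h4 := hd i
        exact absurd (mem_Icc.2 ⟨by omega, by omega⟩) h
  rw [sum_congr rfl fun J _ => h1 J]
  simp only [TT, card_slab, Nat.cast_sum, Nat.cast_prod, mul_sum]
  rw [sum_comm]
  refine sum_congr rfl fun m hm => ?_
  rw [← mul_sum, sum_J hN fun a => by have := hν (deg i) a; have := (mem_Ico.1 hm).1; omega,
    mul_assoc, ← mul_assoc ((-1) ^ r), ← mul_pow]
  simp

theorem tauStmt : TauStmt.{u} := by
  intro k _ r θ hθ γ o ho ι _ _ deg N0 ν N l l' w hl hw n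
  have hf : rl (XF k N0 ν N l' deg n) (XF k N0 ν N l deg n) ≠ ⊤ := by
    rw [rl_XF]; exact ENat.natCast_ne_top _
  refine ⟨hf, ?_⟩
  obtain ⟨a, ha, ha'⟩ := hθ.low γ o ho
  refine (coker_le (gg θ γ ι) (R := Submodule.pi Set.univ fun p : ι × FJ r => Pv k
    {e | ((deg p.1 : ℤ) + r - p.2.card = n ∧ e ∈ Om N0 ν N (l (deg p.1)) ∩ cond N0 ν p.2) ∧
      l' (deg p.1) ≤ e none + o}) (XF_mono le_rfl hl n)
    (fun x hx => smul_mem_XF (hθ.ord γ 0 (by simp)) hx) hf fun x hx hg p _ e he => ?_).trans ?_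
  · refine ⟨hx p trivial e he, ?_⟩
    obtain ⟨e', h1, h2⟩ := level_mul ha' he
    have := (hg p trivial e' h2).2.1.1
    omega
  · refine (rl_pi_le _ _ (fun p => slab (Ico (l' (deg p.1) - o) (l' (deg p.1)))
      fun _ _ => Ico (N0 - N) (N0 - N + w)) fun p e h h' => ?_).trans ?_
    · obtain ⟨⟨h1, ⟨h2, h3⟩, h4⟩, h5⟩ := h
      have h6 : e none < l' (deg p.1) := not_le.1 fun h6 => h' ⟨h1, ⟨h6, h3⟩, h4⟩
      refine mem_slab.2 ⟨mem_Ico.2 ⟨by omega, h6⟩, fun b => mem_Ico.2 ?_⟩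
      have := h3 b
      have := hw (deg p.1) b
      omega
    · refine Nat.cast_le.2 ((sum_le_card_nsmul _ _ (o * w ^ r) fun p _ => ?_).trans_eq ?_)
      · simp only [card_slab, Nat.card_Ico, add_tsub_cancel_left, prod_const, card_univ,
          Fintype.card_fin, sum_const, smul_eq_mul]
        exact Nat.mul_le_mul_right _ (by omega)
      · simp only [card_univ, Fintype.card_prod, Fintype.card_finset, Fintype.card_fin,
          Fintype.card_bool, smul_eq_mul]
        rw [mul_comm r 2, pow_mul]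
        ring

end Vale.Agent.P202
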