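import Vale.Agent.P202.Base

/-! Module RD: existence of minimal reductions. -/

open Finset Matrix MvPowerSeries Filter Topology IsLocalRing
open scoped Kronecker Nat

namespace Vale.Agent.P202

universe u

namespace Rd

theorem finlen (R : Type*) [CommRing R] [IsLocalRing R] [IsNoetherianRing R] (N : ℕ) :
    Module.length R (R ⧸ maximalIdeal R ^ N) ≠ ⊤ := by
  by_cases hI : maximalIdeal R ^ N = ⊤
  · have := Ideal.Quotient.subsingleton_iff.2 hI
    simp
  have : IsArtinianRing (R ⧸ maximalIdeal R ^ N) :=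
    IsLocalRing.quotient_artinian_of_mem_minimalPrimes_of_isLocalRing _
      ⟨⟨inferInstance, le_maximalIdeal hI⟩, fun J hJ _ _ hx =>
        hJ.1.mem_of_pow_mem N (hJ.2 (Ideal.pow_mem_pow hx N))⟩
  have : IsArtinian R (R ⧸ maximalIdeal R ^ N) :=
    isArtinian_of_surjective_algebraMap (Ideal.Quotient.mk_surjective (I := maximalIdeal R ^ N))
  exact Module.length_ne_top

section G
variable {R : Type*} [CommRing R] (J m : Ideal R)

/-- negligible elements of degree `j` -/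
def G (j : ℕ) : Ideal R := (J * m ^ j ⊔ m ^ (j + 2)).colon m

variable {J m}

theorem G_mul {j k : ℕ} {u v : R} (hu : u ∈ G J m j) (hv : v ∈ m ^ k) : u * v ∈ G J m (j + k) := by
  refine Submodule.mem_colon.2 fun w hw => ?_
  have := Ideal.mul_mem_mul (Submodule.mem_colon.1 hu w hw) hv
  rw [Ideal.sup_mul, mul_assoc, ← pow_add, ← pow_add, add_right_comm] at this
  rwa [smul_eq_mul, mul_right_comm]

theorem le_G (j : ℕ) : m ^ (j + 1) ≤ G J m j := fun _ hu =>
  Submodule.mem_colon.2 fun _ hw => Ideal.mem_sup_right (Ideal.mul_mem_mul hu hw)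

theorem le_G_one : J ≤ G J m 1 := fun _ hu =>
  Submodule.mem_colon.2 fun _ hw => Ideal.mem_sup_left (Ideal.mul_mem_mul hu (by simpa using hw))

/-- congruence in degree `j` -/
def Cg (J m : Ideal R) (j : ℕ) (u v : R) : Prop := u ∈ m ^ j ∧ v ∈ m ^ j ∧ u - v ∈ G J m j

theorem Cg.mul {j k : ℕ} {u v u' v' : R} (h : Cg J m j u v) (h' : Cg J m k u' v') :
    Cg J m (j + k) (u * u') (v * v') := by
  refine ⟨pow_add m j k ▸ Ideal.mul_mem_mul h.1 h'.1, pow_add m j k ▸ Ideal.mul_mem_mul h.2.1 h'.2.1,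
    ?_⟩
  have := add_mem (G_mul h.2.2 h'.1) (add_comm k j ▸ G_mul h'.2.2 h.2.1)
  rwa [show (u - v) * u' + (u' - v') * v = u * u' - v * v' by ring] at this

theorem Cg.one : Cg J m 0 1 1 := ⟨by simp, by simp, by simp⟩

theorem Cg.pow {u v : R} (h : Cg J m 1 u v) (k : ℕ) : Cg J m k (u ^ k) (v ^ k) := by
  induction k with
  | zero => simpa using Cg.one
  | succ k ih => simpa only [pow_succ] using ih.mul h

theorem Cg.prod {ι : Type*} (s : Finset ι) {u v : ι → R} (h : ∀ i, Cg J m 1 (u i) (v i))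
    (e : ι → ℕ) : Cg J m (∑ i ∈ s, e i) (∏ i ∈ s, u i ^ e i) (∏ i ∈ s, v i ^ e i) := by
  classical
  induction s using Finset.induction_on with
  | empty => simpa using Cg.one
  | insert a s ha ih =>
    rw [sum_insert ha, prod_insert ha, prod_insert ha]
    exact ((h a).pow _).mul ih

theorem pow_le {I : Ideal R} {x : R} (hx : x ∈ m) (hI : I ≤ m) (h : I ≤ J ⊔ Ideal.span {x})
    (k : ℕ) : I ^ k ≤ G J m k ⊔ Ideal.span {x ^ k} := by
  induction k with
  | zero => simp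
  | succ k ih =>
    rw [pow_succ]
    refine (Ideal.mul_mono_left ih).trans ?_
    rw [Ideal.sup_mul]
    refine sup_le (le_sup_of_le_left (Ideal.mul_le.2 fun a ha b hb =>
      G_mul ha (by simpa using hI hb))) ((Ideal.mul_mono_right h).trans ?_)
    rw [Ideal.mul_sup, Ideal.span_singleton_mul_span_singleton, ← pow_succ]
    refine sup_le_sup_right (Ideal.mul_le.2 fun a ha b hb => ?_) _
    rw [mul_comm, add_comm]
    exact G_mul (le_G_one hb) ((Ideal.span_singleton_le_iff_mem _).2 (Ideal.pow_mem_pow hx k) ha)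

theorem red_pow {c : ℕ} (h : m ^ (c + 1) ≤ J * m ^ c) (k : ℕ) : m ^ (k + c) ≤ J ^ k * m ^ c := by
  induction k with
  | zero => simp
  | succ k ih =>
    calc m ^ (k + 1 + c) = m ^ (k + c) * m := by ring
      _ ≤ J ^ k * m ^ c * m := Ideal.mul_mono_left ih
      _ = J ^ k * m ^ (c + 1) := by ring
      _ ≤ J ^ k * (J * m ^ c) := Ideal.mul_mono_right h
      _ = _ := by ring

theorem red_of_G {I : Ideal R} {c j : ℕ} (hm : m.FG) (hj : m ≤ Ideal.jacobson ⊥)
    (h : m ^ (c + 1) ≤ I * m ^ c) (hG : I ^ j ≤ G J m j) : m ^ (j + c + 1) ≤ J * m ^ (j + c) := by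
  refine Submodule.le_of_le_smul_of_le_jacobson_bot (Ideal.FG.pow hm) hj ?_
  have h1 : I ^ j * m ≤ J * m ^ j ⊔ m ^ (j + 2) :=
    Ideal.mul_le.2 fun a ha b hb => Submodule.mem_colon.1 (hG ha) b hb
  calc m ^ (j + c + 1) = m ^ (j + c) * m := pow_succ _ _
    _ ≤ I ^ j * m ^ c * m := Ideal.mul_mono_left (red_pow h j)
    _ = I ^ j * m * m ^ c := by ring
    _ ≤ (J * m ^ j ⊔ m ^ (j + 2)) * m ^ c := Ideal.mul_mono_left h1
    _ = _ := by rw [Ideal.sup_mul, smul_eq_mul]; congr 1 <;> ring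

end G

theorem point {K : Type*} [Field K] [Infinite K] {n T : ℕ} (s : Finset (Fin (n + 1) → Fin T))
    (g : (Fin (n + 1) → Fin T) → K) {e0 : Fin (n + 1) → Fin T} (h0 : e0 ∈ s) (h1 : g e0 ≠ 0) :
    ∃ z : Fin (n + 1) → K, z 0 ≠ 0 ∧ ∑ e ∈ s, g e * ∏ i, z i ^ (e i : ℕ) ≠ 0 := by
  let a : (Fin (n + 1) → Fin T) → (Fin (n + 1) →₀ ℕ) := fun e =>
    Finsupp.equivFunOnFinite.symm fun i => (e i : ℕ)
  have ha : Function.Injective a := fun e e' h =>
    funext fun i => Fin.ext (congrFun (Finsupp.equivFunOnFinite.symm.injective h) i)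
  have hp : ∑ e ∈ s, MvPolynomial.monomial (a e) (g e) ≠ 0 := fun h => h1 (by
    simpa [MvPolynomial.coeff_sum, MvPolynomial.coeff_monomial, ha.eq_iff, h0] using
      congrArg (MvPolynomial.coeff (a e0)) h)
  by_contra hc
  refine mul_ne_zero (MvPolynomial.X_ne_zero 0) hp (MvPolynomial.funext fun z => ?_)
  have := not_exists.1 hc z
  rw [← mul_ne_zero_iff, not_not] at this
  simpa [MvPolynomial.eval_monomial, Finsupp.prod_fintype, a] using this

variable {K R : Type*} [Field K] [CommRing R] [Algebra K R]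

theorem form {m : Ideal R} {n T : ℕ} {x : Fin (n + 1) → R} (hx : ∀ i, x i ∈ m)
    (h : Module.length K (R ⧸ m ^ ((n + 1) * T)) < (T ^ (n + 1) : ℕ)) :
    ∃ (j : ℕ) (s : Finset (Fin (n + 1) → Fin T)) (g : (Fin (n + 1) → Fin T) → K),
      (∃ e ∈ s, g e ≠ 0) ∧ (∀ e ∈ s, ∑ i, (e i : ℕ) = j) ∧
      ∑ e ∈ s, g e • ∏ i, x i ^ (e i : ℕ) ∈ m ^ (j + 1) := by
  classical
  have h1 : ¬ LinearIndependent K fun e : Fin (n + 1) → Fin T =>
      Ideal.Quotient.mkₐ K (m ^ ((n + 1) * T)) (∏ i, x i ^ (e i : ℕ)) := fun c => h.not_ge (by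
    simpa using Module.length_le_of_injective _ c.fintypeLinearCombination_injective)
  obtain ⟨g, h2, e1, h3⟩ := Fintype.not_linearIndependent_iff.1 h1
  obtain ⟨e0, h4, h5⟩ := exists_min_image {e | g e ≠ 0} (fun e => ∑ i, (e i : ℕ)) ⟨e1, by simpa⟩
  simp only [← map_smul, ← map_sum] at h2
  rw [Ideal.Quotient.mkₐ_eq_mk, Ideal.Quotient.eq_zero_iff_mem] at h2
  refine ⟨∑ i, (e0 i : ℕ), univ.filter fun e => ∑ i, (e i : ℕ) = ∑ i, (e0 i : ℕ), g,
    ⟨e0, by simp, by simpa using h4⟩, by simp, ?_⟩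
  have h6 : ∑ i, (e0 i : ℕ) + 1 ≤ (n + 1) * T := by
    simpa using sum_lt_sum_of_nonempty univ_nonempty fun i _ => (e0 i).2
  rw [← sum_filter_add_sum_filter_not univ fun e => ∑ i, (e i : ℕ) = ∑ i, (e0 i : ℕ)] at h2
  refine (add_mem_cancel_right (sum_mem fun e he => ?_)).1 (Ideal.pow_le_pow_right h6 h2)
  by_cases c : g e = 0
  · simp [c]
  have h7 := h5 e (by simpa using c)
  have h8 := (mem_filter.1 he).2
  refine Submodule.smul_of_tower_mem _ _ (Ideal.pow_le_pow_right (n := ∑ i, (e i : ℕ)) (by omega) ?_)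
  rw [← prod_pow_eq_pow_sum]
  exact Ideal.prod_mem_prod fun i _ => Ideal.pow_mem_pow (hx i) _

theorem down [Infinite K] {m : Ideal R} (hm : m.FG) (hj : m ≤ Ideal.jacobson ⊥) {n T c : ℕ}
    {x : Fin (n + 1) → R} (hx : ∀ i, x i ∈ m) (hr : m ^ (c + 1) ≤ Ideal.span (Set.range x) * m ^ c)
    (h : Module.length K (R ⧸ m ^ ((n + 1) * T)) < (T ^ (n + 1) : ℕ)) :
    ∃ (x : Fin n → R) (c : ℕ), (∀ i, x i ∈ m) ∧ m ^ (c + 1) ≤ Ideal.span (Set.range x) * m ^ c := by
  obtain ⟨j, s, g, ⟨e0, h0, h1⟩, h2, h3⟩ := form hx h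
  obtain ⟨z, z0, z1⟩ := point s g h0 h1
  have hs : ∀ (a : K) i, a • x i ∈ m := fun a i => Submodule.smul_of_tower_mem _ _ (hx i)
  let J := Ideal.span (Set.range fun i : Fin n => z 0 • x i.succ - z i.succ • x 0)
  have hJ : ∀ i, z 0 • x i - z i • x 0 ∈ J :=
    Fin.cases (by simp) fun i => Ideal.subset_span ⟨i, rfl⟩
  refine ⟨_, j + c, fun i => sub_mem (hs _ _) (hs _ _), red_of_G (J := J) hm hj hr ?_⟩
  have h4 : ∑ e ∈ s, g e • ∏ i, (z 0 • x i) ^ (e i : ℕ) - ∑ e ∈ s, g e • ∏ i, (z i • x 0) ^ (e i : ℕ)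
      ∈ G J m j := by
    rw [← sum_sub_distrib]
    refine sum_mem fun e he => ?_
    rw [← smul_sub, ← h2 e he]
    exact Submodule.smul_of_tower_mem _ _ (Cg.prod univ (fun i =>
      ⟨by simpa using hs _ _, by simpa using hs _ _, le_G_one (hJ i)⟩) _).2.2
  have h5 : ∑ e ∈ s, g e • ∏ i, (z 0 • x i) ^ (e i : ℕ) =
      z 0 ^ j • ∑ e ∈ s, g e • ∏ i, x i ^ (e i : ℕ) := by
    rw [smul_sum]
    refine sum_congr rfl fun e he => ?_
    simp only [smul_pow, prod_smul, prod_pow_eq_pow_sum, h2 e he]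
    exact smul_comm _ _ _
  have h6 : ∑ e ∈ s, g e • ∏ i, (z i • x 0) ^ (e i : ℕ) =
      (∑ e ∈ s, g e * ∏ i, z i ^ (e i : ℕ)) • x 0 ^ j := by
    rw [sum_smul]
    refine sum_congr rfl fun e he => ?_
    simp only [smul_pow, prod_smul, prod_pow_eq_pow_sum, h2 e he, mul_smul]
  rw [h5, h6] at h4
  have h7 := Submodule.smul_of_tower_mem _ (∑ e ∈ s, g e * ∏ i, z i ^ (e i : ℕ))⁻¹
    (sub_mem (Submodule.smul_of_tower_mem _ (z 0 ^ j) (le_G j h3)) h4)
  rw [sub_sub_cancel, inv_smul_smul₀ z1] at h7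
  refine (pow_le (hx 0) (Ideal.span_le.2 (Set.range_subset_iff.2 hx))
    (Ideal.span_le.2 (Set.range_subset_iff.2 fun i => ?_)) j).trans
    (sup_le le_rfl ((Ideal.span_singleton_le_iff_mem _).2 h7))
  have h8 := Submodule.smul_of_tower_mem (J ⊔ Ideal.span {x 0}) (z 0)⁻¹
    (add_mem (Ideal.mem_sup_left (hJ i)) (Ideal.mem_sup_right
      (Submodule.smul_of_tower_mem _ (z i) (Ideal.mem_span_singleton_self _))))
  rwa [sub_add_cancel, inv_smul_smul₀ z0] at h8

theorem ar (C d n : ℕ) (h : d ≤ n) : ∃ T, C * ((n + 1) * T + 1) ^ d < T ^ (n + 1) := by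
  refine ⟨C * (n + 2) ^ d + 1, ?_⟩
  generalize hT : C * (n + 2) ^ d + 1 = T
  have h1 : 1 ≤ T := by omega
  calc C * ((n + 1) * T + 1) ^ d ≤ C * ((n + 2) * T) ^ d := by gcongr; nlinarith
    _ = C * (n + 2) ^ d * T ^ d := by rw [mul_pow, mul_assoc]
    _ < T * T ^ d := by gcongr; omega
    _ ≤ T * T ^ n := by gcongr
    _ = _ := by ring

end Rd

theorem redStmt (hU : UnrStmt.{u}) : RedStmt.{u} := by
  intro K R _ _ _ _ _ d C hC h
  have := hC.noeth
  have hm : (maximalIdeal R).FG := IsNoetherian.noetherian _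
  obtain ⟨k, x, hx⟩ := Submodule.fg_iff_exists_fin_generating_family.1 hm
  have h1 : ∃ (x : Fin (d + k) → R) (c : ℕ), (∀ i, x i ∈ maximalIdeal R) ∧
      maximalIdeal R ^ (c + 1) ≤ Ideal.span (Set.range x) * maximalIdeal R ^ c := by
    refine ⟨Fin.append 0 x, 0, Fin.addCases (by simp) fun i => by
      rw [Fin.append_right, ← hx]; exact Submodule.subset_span ⟨i, rfl⟩, ?_⟩
    rw [zero_add, pow_one, pow_zero, mul_one, ← hx]
    exact Submodule.span_mono (Set.range_subset_iff.2 fun i => ⟨_, Fin.append_right ..⟩)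
  clear hx x
  induction k with
  | zero => exact h1
  | succ k ih =>
    obtain ⟨x, c, h2, h3⟩ := h1
    obtain ⟨T, hT⟩ := Rd.ar C d (d + k) (by omega)
    refine ih (Rd.down (K := K) (T := T) hm (maximalIdeal_le_jacobson _) h2 h3 ?_)
    rw [← hU.2.2 K R _ hC.res, ← ENat.natCast_toNat (Rd.finlen R _), Nat.cast_lt]
    exact (h _).trans_lt hT

end Vale.Agent.P202
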