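import Vale.Agent.P202.Spec

open IsLocalRing

namespace Vale.Agent.P202

universe u

namespace Rg

lemma ht_quot {B : Type*} [CommRing B] [IsNoetherianRing B] [IsDomain B] {I : Ideal B} (hI : I ≠ ⊥)
    (P : Ideal (B ⧸ I)) [P.IsPrime] :
    P.height + 1 ≤ (P.comap (Ideal.Quotient.mk I)).height := by
  obtain ⟨l, hl, hlen⟩ := Ideal.exists_ltSeries_length_eq_height P
  have hm : StrictMono (PrimeSpectrum.comap (Ideal.Quotient.mk I)) :=
    Monotone.strictMono_of_injective (fun _ _ h => Ideal.comap_mono h)
      (PrimeSpectrum.comap_injective_of_surjective _ Ideal.Quotient.mk_surjective)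
  have hb : (⟨⊥, Ideal.isPrime_bot⟩ : PrimeSpectrum B) < (l.map _ hm).head := by
    refine lt_of_le_of_ne (show (⊥ : Ideal B) ≤ _ from bot_le) fun h => hI ?_
    have h1 : I ≤ (l.map _ hm).head.asIdeal := fun x hx => by
      rw [LTSeries.head_map, PrimeSpectrum.comap_asIdeal, Ideal.mem_comap,
        Ideal.Quotient.eq_zero_iff_mem.mpr hx]
      exact zero_mem _
    rw [← h] at h1
    exact le_bot_iff.mp h1
  have h2 := Order.length_le_height_last (p := (l.map _ hm).cons _ hb)
  rw [RelSeries.last_cons, LTSeries.last_map, hl, ← PrimeSpectrum.height_eq_orderHeight] at h2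
  rw [← hlen]
  simpa using h2

lemma key {T B : Type*} [CommRing T] [CommRing B] [IsRegularRing T] [IsNoetherianRing B]
    [IsDomain B] (f : T →+* B) (W : T) (hW : f W ≠ 0)
    (e : (T ⧸ Ideal.span {W}) ≃+* (B ⧸ Ideal.span {f W}))
    (he : ∀ t, e (Ideal.Quotient.mk _ t) = Ideal.Quotient.mk _ (f t)) (p : Ideal B) [p.IsPrime]
    (hp : f W ∈ p) : IsRegularLocalRing (Localization.AtPrime p) := by
  set q := p.comap f with hq
  have hWq : W ∈ q := hp
  have hqp : q.map f = p := by
    refine le_antisymm Ideal.map_comap_le fun b hb => ?_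
    obtain ⟨x, hx⟩ := e.surjective (Ideal.Quotient.mk _ b)
    obtain ⟨t, rfl⟩ := Ideal.Quotient.mk_surjective x
    rw [he, Ideal.Quotient.eq, Ideal.mem_span_singleton'] at hx
    obtain ⟨c, hc⟩ := hx
    have h1 : f t ∈ p := by
      rw [show f t = b + c * f W by linear_combination -hc]
      exact add_mem hb (p.mul_mem_left _ hp)
    rw [show b = f t - c * f W by linear_combination hc]
    exact sub_mem (Ideal.mem_map_of_mem f h1) (Ideal.mul_mem_left _ _ (Ideal.mem_map_of_mem f hWq))
  have hle : Ideal.span {f W} ≤ p := by simpa using hp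
  have hk : RingHom.ker (Ideal.Quotient.mk (Ideal.span {f W})) ≤ p := by simpa using hle
  have hP := Ideal.map_isPrime_of_surjective Ideal.Quotient.mk_surjective hk
  have h1 := ht_quot (I := Ideal.span {f W}) (by simpa using hW)
    (p.map (Ideal.Quotient.mk (Ideal.span {f W})))
  rw [Ideal.comap_map_of_surjective _ Ideal.Quotient.mk_surjective,
    sup_eq_left.mpr (show Ideal.comap _ ⊥ ≤ p from hk)] at h1
  have h2 := Ideal.height_le_height_add_one_of_mem (p := q) hWq
  have h3 : (q.map (Ideal.Quotient.mk (Ideal.span {W}))).map e =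
      p.map (Ideal.Quotient.mk (Ideal.span {f W})) := by
    rw [← hqp, Ideal.map_map, ← Ideal.map_coe e, Ideal.map_map]
    congr 1
    exact RingHom.ext he
  rw [← e.height_map, h3] at h2
  have h4 : q.height ≤ p.height := h2.trans h1
  refine IsRegularLocalRing.of_spanFinrank_maximalIdeal_le _ ?_
  have h5 : maximalIdeal (Localization.AtPrime p) =
      (maximalIdeal (Localization.AtPrime q)).map (Localization.localRingHom q p f rfl) := by
    rw [← Localization.AtPrime.map_eq_maximalIdeal, ← Localization.AtPrime.map_eq_maximalIdeal,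
      Ideal.map_map]
    refine (congrArg (Ideal.map (algebraMap B (Localization.AtPrime p))) hqp.symm).trans ?_
    rw [Ideal.map_map]
    congr 1
    exact RingHom.ext fun t => (Localization.localRingHom_to_map q p f rfl t).symm
  have h6 := Ideal.spanFinrank_map_le_of_fg (Localization.localRingHom q p f rfl)
    (IsNoetherian.noetherian (maximalIdeal (Localization.AtPrime q)))
  have h7 := (isRegularLocalRing_iff (Localization.AtPrime q)).mp inferInstance
  rw [IsLocalization.AtPrime.ringKrullDim_eq_height q] at h7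
  rw [IsLocalization.AtPrime.ringKrullDim_eq_height p, h5]
  refine le_trans (b := ((maximalIdeal (Localization.AtPrime q)).spanFinrank : WithBot ℕ∞))
    (by exact_mod_cast h6) ?_
  rw [h7]
  exact_mod_cast h4

lemma reg {K : Type u} [Field K] {d j : ℕ} {a : PS K (d + 1)}
    (hj : MvPowerSeries.coeff (Finsupp.single 0 j) a ≠ 0) :
    (MvPowerSeries.finSuccEquiv K d a).map (residue (PS K d)) ≠ 0 := by
  intro h0
  have := congrArg (PowerSeries.coeff j) h0
  rw [PowerSeries.coeff_map, map_zero, residue_eq_zero_iff, mem_maximalIdeal, mem_nonunits_iff,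
    MvPowerSeries.isUnit_iff_constantCoeff, isUnit_iff_ne_zero, not_not,
    ← MvPowerSeries.coeff_zero_eq_constantCoeff_apply,
    MvPowerSeries.coeff_coeff_finSuccEquiv] at this
  refine hj (Eq.trans ?_ this)
  congr 2
  ext i
  refine Fin.cases ?_ (fun i => ?_) i <;> simp

lemma of_equiv {B B' : Type*} [CommRing B] [CommRing B'] (e : B ≃+* B') (p : Ideal B) [p.IsPrime]
    (h : IsRegularLocalRing (Localization.AtPrime (p.comap e.symm))) :
    IsRegularLocalRing (Localization.AtPrime p) := by
  refine IsRegularLocalRing.of_ringEquiv (IsLocalization.ringEquivOfRingEquiv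
    (M := (p.comap e.symm).primeCompl) (T := p.primeCompl)
    (Localization.AtPrime (p.comap e.symm)) (Localization.AtPrime p) e.symm ?_)
  ext x
  constructor
  · rintro ⟨y, hy, rfl⟩
    exact hy
  · intro hx
    exact ⟨e x, by simpa [Ideal.primeCompl] using hx, by simp⟩

end Rg

open Rg in
theorem regStmt (hH : ShStmt.{u}) (hV : EvStmt.{u}) : RegStmt.{u} := by
  intro K _ _ d
  induction d with
  | zero => exact IsRegularRing.of_ringEquiv (MvPowerSeries.isEmptyEquiv (Fin 0) K).toRingEquiv.symm
  | succ d ih =>
    have : IsDomain (PS K (d + 1)) := NoZeroDivisors.to_isDomain _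
    have : IsDomain (PS K d) := NoZeroDivisors.to_isDomain _
    have : IsAdicComplete (maximalIdeal (PS K d)) (PS K d) := by
      rw [(hV K d).max]; infer_instance
    refine isRegularRing_iff.mpr fun p _ => ?_
    by_cases hp : p = ⊥
    · refine IsRegularLocalRing.of_spanFinrank_maximalIdeal_le _ ?_
      rw [← Localization.AtPrime.map_eq_maximalIdeal]
      rw [congrArg (Ideal.map (algebraMap _ (Localization.AtPrime p))) hp, Ideal.map_bot,
        Submodule.spanFinrank_bot]
      exact ringKrullDim_nonneg_of_nontrivial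
    obtain ⟨g, hg, g0⟩ := Submodule.exists_mem_ne_zero_of_ne_bot hp
    obtain ⟨c, -, σ, -, j, hj⟩ := (hH K d).2 Set.univ Set.infinite_univ g g0
    let ψ := (σ.trans (MvPowerSeries.finSuccEquiv K d)).toRingEquiv
    obtain ⟨W, U, H⟩ := PowerSeries.exists_isWeierstrassFactorization (reg hj)
    refine of_equiv ψ p (key (Polynomial.coeToPowerSeries.ringHom (R := PS K d)) W ?_
      H.isDistinguishedAt.algEquivQuotient.toRingEquiv (fun _ => rfl) _ ?_)
    · exact fun h => H.isDistinguishedAt.monic.ne_zero (Polynomial.coe_injective _ (by simpa using h))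
    · have h1 : ψ g ∈ p.comap ψ.symm := by simpa using hg
      have h2 : ψ g = W * U := H.eq_mul
      rw [h2] at h1
      exact (Ideal.mul_unit_mem_iff_mem _ H.isUnit).mp h1

end Vale.Agent.P202
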