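import Vale.Agent.P202.Base
import Vale.Agent.P202.Ev

/-! Module R: the rank of a finite module over a power series ring as a limit of codimensions. -/

open Finset Matrix MvPowerSeries Filter Topology IsLocalRing
open scoped Kronecker Nat

namespace Vale.Agent.P202

universe u

namespace RkL

section gen
variable {K A M M' : Type*} [Field K] [CommRing A] [Algebra K A] [AddCommGroup M] [Module A M]
  [Module K M] [IsScalarTower K A M] [AddCommGroup M'] [Module A M'] [Module K M']
  [IsScalarTower K A M']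

theorem cl_of_ker {V : Type*} [AddCommGroup V] [Module K V] (N : Submodule A M) (π : M →ₗ[K] V)
    (h : Function.Surjective π) (hk : ∀ x, π x = 0 ↔ x ∈ N) : cl K N = Module.length K V := by
  have : N.restrictScalars K = LinearMap.ker π := by ext x; simp [hk]
  rw [cl_eq, rl_top, this]
  exact (π.quotKerEquivOfSurjective h).length_eq

theorem cl_anti {N N' : Submodule A M} (h : N ≤ N') : cl K N' ≤ cl K N := by
  rw [cl_eq, cl_eq]
  exact rl_mono h le_sup_right

theorem mem_smul_pi {n : ℕ} (J : Ideal A) (x : Fin n → A) :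
    x ∈ (J • ⊤ : Submodule A (Fin n → A)) ↔ ∀ i, x i ∈ J := by
  constructor
  · intro h i
    exact Submodule.smul_induction_on (p := fun x : Fin n → A => x i ∈ J) h
      (fun r hr y _ => J.mul_mem_right _ hr) fun _ _ a b => add_mem a b
  · intro h
    rw [pi_eq_sum_univ x]
    exact sum_mem fun i _ => Submodule.smul_mem_smul (h i) trivial

theorem cl_pi (n : ℕ) (J : Ideal A) :
    cl K (J • ⊤ : Submodule A (Fin n → A)) = n * cl K (J • ⊤ : Submodule A A) := by
  rw [cl_of_ker (J • ⊤ : Submodule A (Fin n → A))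
    (LinearMap.pi fun i => ((J • ⊤ : Submodule A A).mkQ.restrictScalars K) ∘ₗ LinearMap.proj i)]
  · simp [cl]
  · intro y
    choose x hx using fun i => (J • ⊤ : Submodule A A).mkQ_surjective (y i)
    exact ⟨x, funext hx⟩
  · intro x
    rw [mem_smul_pi]
    simp [funext_iff, Ideal.Quotient.eq_zero_iff_mem]

theorem cl_cmp (f : M' →ₗ[A] M) (g : A) (hg : ∀ m, g • m ∈ LinearMap.range f) {n : ℕ}
    (p : (Fin n → A) →ₗ[A] M) (hp : Function.Surjective p) (J : Ideal A) :
    cl K (J • ⊤ : Submodule A M) ≤ cl K (J • ⊤ : Submodule A M') +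
      n * cl K ((J ⊔ Ideal.span {g}) • ⊤ : Submodule A A) := by
  rw [← cl_pi, cl_eq, cl_eq, cl_eq]
  refine (rl_le_add _ ((J • ⊤ ⊔ LinearMap.range f : Submodule A M).restrictScalars K) _).trans
    (add_le_add (rl_le_of_map (f.restrictScalars K) (fun x hx => ?_) fun x hx => ?_)
      (rl_le_of_map (p.restrictScalars K) (fun x hx => ?_) fun x _ => ?_))
  · exact Submodule.smul_top_le_comap_smul_top J f hx
  · obtain ⟨a, ha, _, ⟨b, rfl⟩, rfl⟩ := Submodule.mem_sup.1 hx
    exact Submodule.add_mem_sup ha ⟨b, trivial, rfl⟩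
  · have h1 : p x ∈ ((J ⊔ Ideal.span {g}) • ⊤ : Submodule A M) :=
      Submodule.smul_top_le_comap_smul_top _ p hx
    rw [Submodule.sup_smul] at h1
    have h2 : (Ideal.span {g} • ⊤ : Submodule A M) ≤ LinearMap.range f := by
      refine Submodule.smul_le.2 fun r hr m _ => ?_
      obtain ⟨c, rfl⟩ := Ideal.mem_span_singleton'.1 hr
      rw [mul_smul]
      exact Submodule.smul_mem _ _ (hg m)
    exact sup_le_sup_left h2 _ h1
  · obtain ⟨y, rfl⟩ := hp x
    exact Submodule.mem_sup_right ⟨y, trivial, rfl⟩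

theorem cl_mul (g : A) (J J' : Ideal A) (h : ∀ x, g * x ∈ J → x ∈ J') :
    cl K (J' • ⊤ : Submodule A A) + cl K ((J ⊔ Ideal.span {g}) • ⊤ : Submodule A A) ≤
      cl K (J • ⊤ : Submodule A A) := by
  simp only [smul_eq_mul, Ideal.mul_top]
  have h1 : J.restrictScalars K ≤ (J ⊔ Ideal.span {g}).restrictScalars K :=
    fun x hx => Ideal.mem_sup_left hx
  rw [cl_eq, cl_eq, cl_eq, rl_add h1 le_top]
  refine add_le_add (rl_le_of_comap (LinearMap.mulLeft K g) (fun x _ hx => h x hx)
    fun x _ => Submodule.mem_sup_right ?_) le_rfl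
  exact Ideal.mem_sup_right (Ideal.mul_mem_right x _ (Ideal.mem_span_singleton_self g))

/-- comparison of a finite module with a free module of the same rank -/
theorem cl_two [IsDomain A] [Module.Finite A M] : ∃ (g : A) (n : ℕ), g ≠ 0 ∧ ∀ J : Ideal A,
    cl K (J • ⊤ : Submodule A M) ≤ Module.finrank A M * cl K (J • ⊤ : Submodule A A) +
      n * cl K ((J ⊔ Ideal.span {g}) • ⊤ : Submodule A A) ∧
    Module.finrank A M * cl K (J • ⊤ : Submodule A A) ≤ cl K (J • ⊤ : Submodule A M) +
      n * cl K ((J ⊔ Ideal.span {g}) • ⊤ : Submodule A A) := by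
  obtain ⟨v, hv⟩ := exists_linearIndependent_of_le_finrank (le_refl (Module.finrank A M))
  let f := Fintype.linearCombination A v
  have hf : Function.Injective f := hv.fintypeLinearCombination_injective
  have h0 : Module.finrank A (M ⧸ LinearMap.range f) = 0 := by
    have h1 := (LinearMap.range f).finrank_quotient_add_finrank
    rw [LinearMap.finrank_range_of_inj hf, Module.finrank_fin_fun] at h1
    omega
  obtain ⟨g, hg, hg0⟩ := Submodule.annihilator_top_inter_nonZeroDivisors
    (Module.finrank_eq_zero_iff_isTorsion.1 h0)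
  have hg' : ∀ m, g • m ∈ LinearMap.range f := fun m => by
    rw [← Submodule.Quotient.mk_eq_zero, Submodule.Quotient.mk_smul]
    exact Submodule.mem_annihilator.1 hg _ trivial
  let f' : M →ₗ[A] (Fin (Module.finrank A M) → A) :=
    (LinearEquiv.ofInjective f hf).symm.toLinearMap ∘ₗ LinearMap.codRestrict _ (g • .id) hg'
  have hf' : ∀ x, g • x ∈ LinearMap.range f' := fun x => ⟨f x, by
    simp only [f', LinearMap.comp_apply, LinearEquiv.coe_coe, LinearEquiv.symm_apply_eq]
    ext; simp⟩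
  obtain ⟨n, p, hp⟩ := Module.Finite.exists_fin' A M
  refine ⟨g, n + Module.finrank A M, nonZeroDivisors.ne_zero hg0, fun J => ⟨?_, ?_⟩⟩
  · refine (cl_cmp f g hg' p hp J).trans ?_
    rw [cl_pi]; push_cast; gcongr; exact le_self_add
  · rw [← cl_pi]
    refine (cl_cmp f' g hf' .id Function.surjective_id J).trans ?_
    push_cast; gcongr; exact le_add_self

end gen

variable {K : Type u} [Field K] {d : ℕ}

theorem cl_mon (J : Ideal (PS K d)) (S : Finset (Fin d →₀ ℕ))
    (h : ∀ f, f ∈ J ↔ ∀ m ∈ S, coeff m f = 0) :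
    cl K (J • ⊤ : Submodule (PS K d) (PS K d)) = S.card := by
  classical
  rw [cl_of_ker _ (LinearMap.pi fun m : S => (coeff m.1 : PS K d →ₗ[K] K))]
  · simp
  · intro y
    refine ⟨fun m => if hm : m ∈ S then y ⟨m, hm⟩ else 0, funext fun m => ?_⟩
    exact dif_pos m.2
  · intro x
    simp [h, funext_iff]

/-- number of monomials of degree `< N` -/
def hm (d N : ℕ) : ℕ := ∑ j ∈ range N, d.multichoose j

theorem cl_mx (N : ℕ) : cl K (mx K d ^ N • ⊤ : Submodule (PS K d) (PS K d)) = hm d N := by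
  have hd : ∀ (m : Fin d →₀ ℕ) j, m ∈ finsuppAntidiag univ j ↔ m.degree = j := fun m j => by
    simp [Finsupp.degree_eq_sum]
  rw [cl_mon _ ((range N).biUnion fun j => finsuppAntidiag univ j), card_biUnion]
  · simp [hm, card_finsuppAntidiag_nat_eq_multichoose]
  · intro i _ j _ hij
    refine disjoint_left.2 fun m h1 h2 => hij ?_
    rw [← (hd _ _).1 h1, (hd _ _).1 h2]
  · intro f
    rw [EvL.ord]
    simp only [mem_biUnion, hd, mem_range, exists_eq_right']
    exact ⟨fun h m hm => coeff_of_lt_order (lt_of_lt_of_le (by exact_mod_cast hm) h), nat_le_order⟩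

theorem mem_br (t : ℕ) (f : PS K d) :
    f ∈ br K d t ↔ ∀ m : Fin d →₀ ℕ, (∀ i, m i < t) → coeff m f = 0 := by
  constructor
  · intro h m hm
    refine Submodule.span_induction (p := fun f _ => ∀ g, coeff m (g * f) = 0) ?_ (by simp)
      (fun x y _ _ hx hy g => by simp [mul_add, hx, hy])
      (fun c x _ hx g => by rw [smul_eq_mul, ← mul_assoc, hx]) h 1 |> fun e => by simpa using e
    rintro _ ⟨i, rfl⟩ g
    exact X_pow_dvd_iff.1 (dvd_mul_left _ g) m (hm i)
  · intro h
    refine EvL.mem_span_mon _ (univ.image fun i => Finsupp.single i t) (fun s hs => ?_) f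
      fun m hm => h m fun i => ?_
    · obtain ⟨i, -, rfl⟩ := mem_image.1 hs
      rw [← X_pow_eq]
      exact Ideal.subset_span ⟨i, rfl⟩
    · simpa [Finsupp.single_le_iff] using hm _ (mem_image_of_mem _ (mem_univ i))

theorem cl_br (t : ℕ) : cl K (br K d t • ⊤ : Submodule (PS K d) (PS K d)) = (t ^ d : ℕ) := by
  rw [cl_mon _ ((Fintype.piFinset fun _ : Fin d => range t).map
    Finsupp.equivFunOnFinite.symm.toEmbedding)]
  · simp
  · intro f
    simp [mem_br]

theorem mx_le_br (t : ℕ) : mx K d ^ (d * t + 1) ≤ br K d t := fun f hf => by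
  rw [EvL.ord] at hf
  refine (mem_br t f).2 fun m hm => coeff_of_lt_order (lt_of_lt_of_le ?_ hf)
  have : m.degree ≤ d * t := by
    rw [Finsupp.degree_eq_sum]
    simpa using sum_le_card_nsmul univ m t fun i _ => (hm i).le
  exact_mod_cast Nat.lt_succ_of_le this

theorem cl_err (g : PS K d) (hg : g ≠ 0) : ∃ o : ℕ, (d = 0 → o = 0) ∧ ∀ N,
    cl K ((mx K d ^ N ⊔ Ideal.span {g}) • ⊤ : Submodule (PS K d) (PS K d)) ≤
      (o * (N + 1) ^ (d - 1) : ℕ) := by
  have ho := ne_zero_iff_order_finite.1 hg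
  obtain ⟨m, -, hm'⟩ := exists_coeff_ne_zero_and_order ho
  generalize g.order.toNat = o at ho
  refine ⟨o, fun h => ?_, fun N => ?_⟩
  · subst h
    rw [Subsingleton.elim m 0, ← ho] at hm'
    exact_mod_cast hm'.symm
  have h1 := cl_mul (K := K) g (mx K d ^ N) (mx K d ^ (N - o)) fun x hx => by
    rw [EvL.ord] at hx ⊢
    rw [order_mul, ← ho] at hx
    rw [ENat.natCast_sub, tsub_le_iff_left]
    exact hx
  rw [cl_mx, cl_mx] at h1
  have h3 : hm d N ≤ hm d (N - o) + o * (N + 1) ^ (d - 1) := by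
    unfold hm
    rw [← sum_range_add_sum_Ico _ (Nat.sub_le N o)]
    refine Nat.add_le_add_left ((sum_le_card_nsmul _ _ ((N + 1) ^ (d - 1)) fun j hj => ?_).trans
      (Nat.mul_le_mul_right _ (by simp only [Nat.card_Ico]; omega))) _
    cases d with
    | zero => cases j <;> simp
    | succ r =>
      have := (mem_Ico.1 hj).2
      rw [Nat.multichoose_eq, show r + 1 + j - 1 = j + r by omega, Nat.choose_symm_add,
        Nat.add_sub_cancel]
      exact (Nat.choose_add_le_add_one_pow j r).trans (Nat.pow_le_pow_left (by omega) _)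
  refine (ENat.add_le_add_iff_left (ENat.natCast_ne_top (hm d (N - o)))).1 ?_
  refine h1.trans ?_
  exact_mod_cast h3

theorem lim_hm (d : ℕ) :
    Tendsto (fun N : ℕ => (d ! : ℝ) * (hm d N : ℕ) / (N : ℝ) ^ d) atTop (𝓝 1) := by
  rw [← tendsto_add_atTop_iff_nat 1]
  have h1 := (tendsto_add_mul_div_add_mul_atTop_nhds (d : ℝ) 1 1 one_ne_zero).pow d
  simp only [div_one, one_pow, one_mul] at h1
  refine tendsto_of_tendsto_of_tendsto_of_le_of_le tendsto_const_nhds h1 (fun N => ?_) fun N => ?_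
  all_goals
    simp only [hm, Nat.sum_range_multichoose]
    rw [← Nat.cast_mul, ← Nat.ascFactorial_eq_factorial_mul_choose]
  · rw [one_le_div (by positivity)]
    exact_mod_cast Nat.pow_succ_le_ascFactorial (N + 1) d
  · rw [div_pow, add_comm (1 : ℝ), add_comm (d : ℝ)]
    push_cast
    gcongr
    exact_mod_cast Nat.ascFactorial_le_pow_add N d

theorem lim_err (d o a b : ℕ) (h : d = 0 → o = 0) :
    Tendsto (fun N : ℕ => ((o * (a * N + b) ^ (d - 1) : ℕ) : ℝ) / (N : ℝ) ^ d) atTop (𝓝 0) := by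
  cases d with
  | zero => simp [h rfl]
  | succ r =>
    have h1 := ((tendsto_add_mul_div_add_mul_atTop_nhds (b : ℝ) 0 a one_ne_zero).pow r).mul
      (tendsto_const_div_atTop_nhds_zero_nat (o : ℝ))
    rw [mul_zero] at h1
    refine h1.congr fun N => ?_
    push_cast
    rw [zero_add, one_mul, div_pow, div_mul_div_comm, pow_succ, add_comm, mul_comm]

theorem lim_gen (d w ρ n : ℕ) (a e : ℕ → ℕ∞) (b e' : ℕ → ℕ)
    (h1 : ∀ N, a N ≤ ρ * b N + n * e N ∧ ρ * b N ≤ a N + n * e N) (he : ∀ N, e N ≤ e' N)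
    (hb : Tendsto (fun N : ℕ => (w : ℝ) * b N / (N : ℝ) ^ d) atTop (𝓝 1))
    (he' : Tendsto (fun N : ℕ => (e' N : ℝ) / (N : ℝ) ^ d) atTop (𝓝 0)) :
    (∀ N, a N ≠ ⊤) ∧ Tendsto (fun N : ℕ => (w : ℝ) * (a N).toNat / (N : ℝ) ^ d) atTop (𝓝 ρ) := by
  have h2 : ∀ N, a N ≤ (ρ * b N + n * e' N : ℕ) := fun N => by
    push_cast; exact (h1 N).1.trans (by gcongr; exact he N)
  have h3 : ∀ N, a N ≠ ⊤ := fun N => ne_top_of_le_ne_top (ENat.natCast_ne_top _) (h2 N)
  refine ⟨h3, ?_⟩
  have h4 := (hb.const_mul (ρ : ℝ)).sub (he'.const_mul ((w : ℝ) * n))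
  have h5 := (hb.const_mul (ρ : ℝ)).add (he'.const_mul ((w : ℝ) * n))
  simp only [mul_one, mul_zero, sub_zero, add_zero] at h4 h5
  refine tendsto_of_tendsto_of_tendsto_of_le_of_le h4 h5 (fun N => ?_) fun N => ?_
  · have h6 : ((ρ * b N : ℕ) : ℕ∞) ≤ ((a N).toNat + n * e' N : ℕ) := by
      push_cast
      rw [ENat.natCast_toNat (h3 N)]
      exact (h1 N).2.trans (by gcongr; exact he N)
    have h7 : (ρ : ℝ) * b N ≤ (a N).toNat + n * e' N := by exact_mod_cast h6
    simp only [← mul_div_assoc, ← sub_div]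
    gcongr
    nlinarith [mul_le_mul_of_nonneg_left h7 (Nat.cast_nonneg (α := ℝ) w)]
  · have h6 := h2 N
    rw [← ENat.natCast_toNat (h3 N)] at h6
    have h7 : ((a N).toNat : ℝ) ≤ ρ * b N + n * e' N := by exact_mod_cast h6
    simp only [← mul_div_assoc, ← add_div]
    gcongr
    nlinarith [mul_le_mul_of_nonneg_left h7 (Nat.cast_nonneg (α := ℝ) w)]

end RkL

open RkL in
theorem rkStmt : RkStmt.{u} := by
  intro K _ d M _ _ _ _ _
  have : IsDomain (PS K d) := NoZeroDivisors.to_isDomain _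
  obtain ⟨g, n, hg, h⟩ := cl_two (K := K) (A := PS K d) (M := M)
  obtain ⟨o, h0, ho⟩ := cl_err g hg
  have h1 := lim_gen d d ! _ n _ _ (hm d) _ (fun N => by simpa only [cl_mx] using h (mx K d ^ N))
    ho (lim_hm d) (by simpa only [one_mul] using lim_err d o 1 1 h0)
  have h2 := lim_gen d 1 _ n _ _ (fun t => t ^ d) (fun t => o * (d * t + 2) ^ (d - 1))
    (fun N => by simpa only [cl_br] using h (br K d N))
    (fun t => (cl_anti (Submodule.smul_mono_left (sup_le_sup_right (mx_le_br t) _))).trans (ho _))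
    (tendsto_const_nhds.congr' (by
      filter_upwards [eventually_gt_atTop 0] with N hN
      push_cast
      rw [one_mul, div_self (by positivity)])) (lim_err d o d 2 h0)
  refine ⟨h1.1, h2.1, h1.2, by simpa using h2.2, fun hM r hr => ⟨n * o, fun N => ?_⟩⟩
  subst hr
  have h3 := (h (mx K (r + 1) ^ N)).1
  rw [hM, Nat.cast_zero, zero_mul, zero_add] at h3
  refine h3.trans ?_
  rw [mul_assoc, Nat.cast_mul]
  gcongr
  exact ho N

end Vale.Agent.P202
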