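import Vale.Agent.P202.Base

/-! Module S1: the map `x_j ↦ v e_j (z)`. -/

open Finset Matrix MvPowerSeries Filter Topology IsLocalRing
open scoped Kronecker Nat

namespace Vale.Agent.P202

universe u

namespace S1

variable {k : Type u} [Field k] {r : ℕ}

/-- the Segre cone in level exactly `s` -/
def SL (r s : ℕ) : Set (Mon r) := {e | e none = s ∧ ∀ a, e (some a) ≤ e none}

theorem SL_add {s t : ℕ} : ∀ a ∈ SL r s, ∀ b ∈ SL r t, a + b ∈ SL r (s + t) :=
  fun a ha b hb => ⟨by rw [Finsupp.add_apply, ha.1, hb.1], fun c => by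
    simp only [Finsupp.add_apply]; exact add_le_add (ha.2 c) (hb.2 c)⟩

theorem SL_SB {s t : ℕ} (h : s ≤ t) : SL r t ⊆ SB r s := fun _ he => ⟨h.trans he.1.ge, he.2⟩

theorem monomial_mem {S : Set (Mon r)} {e : Mon r} (h : e ∈ S) (c : k) :
    monomial e c ∈ Pv k S := by
  classical
  intro e' he'
  rw [coeff_monomial] at he'
  split_ifs at he' with h'
  · rwa [h']
  · exact absurd rfl he'

theorem one_mem : (1 : LL k r) ∈ Pv k (SL r 0) :=
  monomial_mem (S := SL r 0) (e := 0) ⟨rfl, fun _ => le_rfl⟩ 1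

theorem pow_mem {f : LL k r} (hf : f ∈ Pv k (SL r 1)) (n : ℕ) : f ^ n ∈ Pv k (SL r n) := by
  induction n with
  | zero => simpa using one_mem
  | succ n ih => rw [pow_succ]; exact mul_mem_Pv ih hf SL_add

theorem prod_mem {ι : Type*} (s : Finset ι) {f : ι → LL k r} {n : ι → ℕ}
    (hf : ∀ i, f i ∈ Pv k (SL r (n i))) : ∏ i ∈ s, f i ∈ Pv k (SL r (∑ i ∈ s, n i)) := by
  classical
  induction s using Finset.induction_on with
  | empty => simpa using one_mem
  | insert a s ha ih => rw [prod_insert ha, sum_insert ha]; exact mul_mem_Pv (hf a) ih SL_add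

theorem mu_mem (I : Finset (Fin r)) : mu k I ∈ Pv k (SL r 1) := by
  have h : ∏ a ∈ I, (X (some a) : LL k r) = monomial (∑ a ∈ I, Finsupp.single (some a) 1) 1 := by
    induction I using Finset.induction_on with
    | empty => simp
    | insert a s ha ih => rw [prod_insert ha, sum_insert ha, ih, X, monomial_mul_monomial, one_mul]
  rw [mu, h, X, monomial_mul_monomial]
  refine monomial_mem (S := SL r 1) ⟨by simp, fun a => ?_⟩ _
  simp only [Finsupp.add_apply, Finsupp.finsetSum_apply, Finsupp.single_apply]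
  simp
  split_ifs <;> simp

/-- the images of the variables -/
noncomputable def xs (k : Type u) [Field k] (r : ℕ) (j : Fin (r + 1)) : LL k r :=
  ∑ I ∈ powersetCard j univ, mu k I

theorem xs_mem (j : Fin (r + 1)) : xs k r j ∈ Pv k (SL r 1) := sum_mem fun I _ => mu_mem I

theorem xs_sub : HasSubst (xs k r) := hasSubst_of_constantCoeff_zero fun j => by
  by_contra h
  simpa using (xs_mem j 0 h).1

theorem xs_prod_mem (d : Fin (r + 1) →₀ ℕ) :
    (d.prod fun j n => xs k r j ^ n) ∈ Pv k (SL r d.degree) :=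
  prod_mem _ fun j => pow_mem (xs_mem j) _

/-- the Segre map -/
noncomputable def th (k : Type u) [Field k] (r : ℕ) : PS k (r + 1) →ₐ[k] LL k r :=
  substAlgHom xs_sub

theorem th_X (j : Fin (r + 1)) : th k r (X j) = xs k r j := substAlgHom_X _ _

theorem coeff_th (a : PS k (r + 1)) (e : Mon r) : coeff e (th k r a) =
    ∑ d ∈ univ.finsuppAntidiag (e none), coeff d a * coeff e (d.prod fun j n => xs k r j ^ n) := by
  rw [th, substAlgHom_apply, coeff_subst xs_sub]
  refine finsum_eq_sum_of_support_subset _ fun d hd => ?_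
  have := (xs_prod_mem d e (right_ne_zero_of_smul hd)).1
  simp [this, Finsupp.degree_eq_sum]

theorem th_ord (a : PS k (r + 1)) (s : ℕ) (h : (s : ℕ∞) ≤ a.order) :
    th k r a ∈ Pv k (SB r s) := by
  intro e he
  rw [coeff_th] at he
  obtain ⟨d, -, hd⟩ := exists_ne_zero_of_sum_ne_zero he
  have h1 := h.trans (order_le (left_ne_zero_of_mul hd))
  exact SL_SB (by exact_mod_cast h1) (xs_prod_mem d e (right_ne_zero_of_mul hd))

/-- the images of the variables as polynomials -/
noncomputable def xp (k : Type u) [Field k] (r : ℕ) (j : Fin (r + 1)) :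
    MvPolynomial (Option (Fin r)) k :=
  MvPolynomial.X none * MvPolynomial.rename some (MvPolynomial.esymm (Fin r) k j)

theorem coe_xp (j : Fin (r + 1)) :
    MvPolynomial.coeToMvPowerSeries.ringHom (xp k r j) = xs k r j := by
  simp only [xp, xs, mu, MvPolynomial.esymm, map_sum, map_prod, map_mul, mul_sum,
    MvPolynomial.rename_X, MvPolynomial.coeToMvPowerSeries.ringHom_apply, MvPolynomial.coe_X]

theorem form_eq_zero (c : (Fin (r + 1) →₀ ℕ) → k) (o : ℕ)
    (h : ∑ d ∈ univ.finsuppAntidiag o, MvPolynomial.C (c d) * ∏ j, xp k r j ^ d j = 0) :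
    ∀ d ∈ (univ : Finset (Fin (r + 1))).finsuppAntidiag o, c d = 0 := by
  have h2 : ∑ d ∈ univ.finsuppAntidiag o, MvPolynomial.monomial (Finsupp.tail d) (c d) = 0 := by
    refine MvPolynomial.esymmAlgHom_fin_injective k (le_refl r) (Subtype.ext ?_)
    rw [map_zero, MvPolynomial.esymmAlgHom_apply, ZeroMemClass.coe_zero, ← map_zero
      (MvPolynomial.aeval (R := k) fun x : Option (Fin r) =>
        (x.elim 1 MvPolynomial.X : MvPolynomial (Fin r) k)), ← h, map_sum, map_sum]
    refine sum_congr rfl fun d _ => ?_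
    rw [MvPolynomial.aeval_monomial, Finsupp.prod_fintype _ _ (by simp)]
    simp [xp, MvPolynomial.bind₁_rename, Function.comp_def, Fin.prod_univ_succ,
      Finsupp.tail_apply]
  intro d hd
  have h3 := congrArg (MvPolynomial.coeff d.tail) h2
  rw [MvPolynomial.coeff_sum, sum_eq_single d] at h3
  · simpa using h3
  · intro d' hd' hne
    rw [MvPolynomial.coeff_monomial, if_neg]
    intro e
    apply hne
    have e1 := (mem_finsuppAntidiag.1 hd).1
    have e2 := (mem_finsuppAntidiag.1 hd').1
    have e3 : ∀ i : Fin r, d' i.succ = d i.succ := fun i => DFunLike.congr_fun e i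
    rw [Fin.sum_univ_succ] at e1 e2
    simp only [e3] at e2
    ext i
    exact Fin.cases (by omega) e3 i
  · exact fun h' => absurd hd h'

theorem th_low (a : PS k (r + 1)) (o : ℕ) (h : a.order ≤ (o : ℕ∞)) :
    ∃ e : Mon r, e none ≤ o ∧ coeff e (th k r a) ≠ 0 := by
  obtain ⟨d, hd, hd'⟩ := exists_coeff_ne_zero_and_order (f := a)
    (ENat.natCast_toNat (ne_top_of_le_ne_top (ENat.natCast_ne_top _) h))
  have h1 : d.degree ≤ o := by rw [← hd'] at h; exact_mod_cast h
  by_contra hc
  push Not at hc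
  refine hd (form_eq_zero (fun d => coeff d a) d.degree ?_ d (by simp [Finsupp.degree_eq_sum]))
  apply MvPolynomial.coe_injective
  rw [MvPolynomial.coe_zero, ← MvPolynomial.coeToMvPowerSeries.ringHom_apply, map_sum]
  ext e
  have h2 : ∀ d' : Fin (r + 1) →₀ ℕ, coeff e (MvPolynomial.coeToMvPowerSeries.ringHom
      (MvPolynomial.C (coeff d' a) * ∏ j, xp k r j ^ d' j)) =
      coeff d' a * coeff e (d'.prod fun j n => xs k r j ^ n) := fun d' => by
    rw [map_mul, map_prod, Finsupp.prod_fintype _ _ (by simp)]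
    simp only [map_pow, coe_xp]
    simp
  rw [map_sum, map_zero]
  simp only [h2]
  by_cases he : e none = d.degree
  · rw [← he, ← coeff_th]
    exact hc e (he.trans_le h1)
  · refine sum_eq_zero fun d' hd' => mul_eq_zero_of_right _ ?_
    by_contra h3
    have h4 := (xs_prod_mem d' e h3).1
    rw [Finsupp.degree_eq_sum, (mem_finsuppAntidiag.1 hd').1] at h4
    exact he h4

/-- the Segre ring -/
def BB (k : Type u) [Field k] (r : ℕ) : Subring (LL k r) where
  carrier := Pv k (SB r 0)
  mul_mem' ha hb := mul_mem_Pv ha hb fun a ha b hb => ⟨Nat.zero_le _, fun c => by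
    simp only [Finsupp.add_apply]; exact add_le_add (ha.2 c) (hb.2 c)⟩
  one_mem' := Pv_mono (SL_SB le_rfl) one_mem
  add_mem' := add_mem
  zero_mem' := zero_mem _
  neg_mem' := neg_mem

noncomputable def muB (k : Type u) [Field k] (I : Finset (Fin r)) : BB k r :=
  ⟨mu k I, Pv_mono (SL_SB zero_le_one) (mu_mem I)⟩

noncomputable def xsB (k : Type u) [Field k] (r : ℕ) (j : Fin (r + 1)) : BB k r :=
  ⟨xs k r j, Pv_mono (SL_SB zero_le_one) (xs_mem j)⟩

theorem mu_insert (I : Finset (Fin r)) (a : Fin r) :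
    mu k (insert a I) = mu k (I.erase a) * X (some a) := by
  have : insert a I = insert a (I.erase a) := by ext; simp; tauto
  rw [this, mu, mu, prod_insert (notMem_erase a I)]
  ring

theorem mu_prod (I : Finset (Fin r)) :
    mu k I * ∏ a, mu k (I.erase a) = mu k I ^ r * X none := by
  have h1 : ∀ a, mu k (I.erase a) * (if a ∈ I then X (some a) else 1) = mu k I := fun a => by
    split_ifs with h
    · rw [← mu_insert, insert_eq_of_mem h]
    · rw [erase_eq_of_notMem h, mul_one]
  have h2 := prod_congr (s₁ := univ) rfl fun a _ => h1 a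
  rw [prod_mul_distrib, prod_const, card_univ, Fintype.card_fin, prod_ite_mem, univ_inter] at h2
  rw [← h2]
  unfold mu
  ring

theorem poly_id (I : Finset (Fin r)) :
    Polynomial.C (muB k I) ^ r * ∑ j : Fin (r + 1), Polynomial.C (xsB k r j) * Polynomial.X ^ (j : ℕ)
      = Polynomial.C (muB k I) * ∏ a, (Polynomial.C (muB k (I.erase a)) +
        Polynomial.C (muB k (insert a I)) * Polynomial.X) := by
  apply Polynomial.map_injective (BB k r).subtype Subtype.val_injective
  simp only [Polynomial.map_mul, Polynomial.map_pow, Polynomial.map_sum, Polynomial.map_prod,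
    Polynomial.map_add, Polynomial.map_C, Polynomial.map_X, muB, xsB, Subring.coe_subtype,
    mu_insert]
  have h1 : ∀ a, Polynomial.C (mu k (I.erase a)) +
      Polynomial.C (mu k (I.erase a) * MvPowerSeries.X (some a)) * Polynomial.X =
      Polynomial.C (mu k (I.erase a)) *
        (1 + Polynomial.C (MvPowerSeries.X (some a)) * Polynomial.X) := fun a => by
    rw [map_mul]; ring
  simp only [h1]
  rw [prod_mul_distrib, ← mul_assoc, ← map_prod, ← map_mul, mu_prod, map_mul, map_pow, mul_assoc,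
    prod_one_add, sum_powerset, card_univ, Fintype.card_fin, ← Fin.sum_univ_eq_sum_range
      (fun j => ∑ t ∈ powersetCard j univ, ∏ i ∈ t,
        Polynomial.C (MvPowerSeries.X (some i) : LL k r) * Polynomial.X),
    mul_sum _ _ (Polynomial.C (MvPowerSeries.X none))]
  refine congrArg _ (sum_congr rfl fun j _ => ?_)
  rw [xs, map_sum, sum_mul, mul_sum]
  refine sum_congr rfl fun t ht => ?_
  rw [prod_mul_distrib, prod_const, (mem_powersetCard.1 ht).2, mu, map_mul, map_prod, mul_assoc]

theorem dom_aux {B Q : Type*} [CommRing B] [CommRing Q] [IsDomain Q] (π : B →+* Q) {m : B}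
    {x : Fin (r + 1) → B} {f g : Fin r → B} (hx : ∀ j, π (x j) = 0)
    (h : Polynomial.C m ^ r * ∑ j : Fin (r + 1), Polynomial.C (x j) * Polynomial.X ^ (j : ℕ) =
      Polynomial.C m * ∏ a, (Polynomial.C (f a) + Polynomial.C (g a) * Polynomial.X)) :
    π m = 0 ∨ ∃ a, π (f a) = 0 ∧ π (g a) = 0 := by
  have h1 := congrArg (Polynomial.map π) h
  simp only [Polynomial.map_mul, Polynomial.map_pow, Polynomial.map_sum, Polynomial.map_prod,
    Polynomial.map_add, Polynomial.map_C, Polynomial.map_X, hx, map_zero, zero_mul, sum_const_zero,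
    mul_zero] at h1
  refine (mul_eq_zero.1 h1.symm).imp Polynomial.C_eq_zero.1 fun h2 => ?_
  obtain ⟨a, -, ha⟩ := prod_eq_zero_iff.1 h2
  exact ⟨a, by simpa using congrArg (Polynomial.coeff · 0) ha,
    by simpa using congrArg (Polynomial.coeff · 1) ha⟩

theorem mu_rad (I : Finset (Fin r)) : muB k I ∈ (Ideal.span (Set.range (xsB k r))).radical := by
  rw [Ideal.radical_eq_sInf, Ideal.mem_sInf]
  rintro P ⟨hP, hP'⟩
  rw [← Ideal.Quotient.eq_zero_iff_mem]
  rcases dom_aux (Ideal.Quotient.mk P) (fun j => Ideal.Quotient.eq_zero_iff_mem.2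
    (hP (Ideal.subset_span ⟨j, rfl⟩))) (poly_id (k := k) I) with h | ⟨a, h, h'⟩
  · exact h
  · by_cases hI : a ∈ I
    · rwa [insert_eq_of_mem hI] at h'
    · rwa [erase_eq_of_notMem hI] at h

theorem bpf : ∃ c : ℕ, ∀ (M : ℕ) (I : Finset (Fin r)),
    muB k I ^ (c * M) ∈ Ideal.span (Set.range fun j => xsB k r j ^ M) := by
  choose n hn using fun I => Ideal.mem_radical_iff.1 (mu_rad (k := k) (r := r) I)
  refine ⟨(∑ I, n I) * (r + 1), fun M I => ?_⟩
  rcases M with _ | M
  · exact Ideal.subset_span ⟨0, by simp⟩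
  obtain ⟨g, hg⟩ := Ideal.mem_span_range_iff_exists_fun.1 (Ideal.pow_mem_of_pow_mem _ (hn I)
    (single_le_sum (fun _ _ => Nat.zero_le _) (mem_univ I)))
  rw [mul_assoc, pow_mul, ← hg]
  refine Ideal.pow_mem_of_pow_mem _ (Ideal.span_le.2 ?_ (Ideal.sum_pow_mem_span_pow univ _ M)) ?_
  · rintro _ ⟨j, -, rfl⟩
    simp only [mul_pow]
    exact Ideal.mul_mem_left _ _ (Ideal.subset_span ⟨j, rfl⟩)
  · simp only [card_univ, Fintype.card_fin]
    nlinarith

end S1

open S1

theorem seg1Stmt : Seg1Stmt.{u} := by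
  intro k _ r
  refine ⟨th k r, th_ord, th_low, fun j e he => ?_, ?_⟩
  · rw [th_X] at he
    exact (xs_mem j e he).1
  · obtain ⟨c, hc⟩ := bpf (k := k) (r := r)
    refine ⟨c, fun M I => ?_⟩
    obtain ⟨g, hg⟩ := Ideal.mem_span_range_iff_exists_fun.1 (hc M I)
    refine ⟨fun j => g j, fun j => (g j).2, ?_⟩
    simpa [th_X, muB, xsB] using (congrArg Subtype.val hg).symm

end Vale.Agent.P202
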