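import Vale.Agent.P202.Base

open Finset Matrix MvPowerSeries Filter Topology IsLocalRing
open scoped Kronecker Nat

namespace Vale.Agent.P202

universe u

namespace Seg2

variable {k : Type u} [Field k] {r : ℕ}

theorem sb_add {s t : ℕ} : ∀ a ∈ SB r s, ∀ b ∈ SB r t, a + b ∈ SB r (s + t) := fun _ ha _ hb =>
  ⟨Nat.add_le_add ha.1 hb.1, fun i => Nat.add_le_add (ha.2 i) (hb.2 i)⟩

theorem sb_mono {s t : ℕ} (h : s ≤ t) {f : LL k r} (hf : f ∈ Pv k (SB r t)) : f ∈ Pv k (SB r s) :=
  fun e he => ⟨h.trans (hf e he).1, (hf e he).2⟩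

theorem mul_sb {s t u : ℕ} {f g : LL k r} (hf : f ∈ Pv k (SB r s)) (hg : g ∈ Pv k (SB r t))
    (h : s + t = u) : f * g ∈ Pv k (SB r u) := h ▸ mul_mem_Pv hf hg sb_add

noncomputable def dI (I : Finset (Fin r)) : Mon r :=
  Finsupp.single none 1 + ∑ a ∈ I, Finsupp.single (some a) 1

theorem dI_none (I : Finset (Fin r)) : dI I none = 1 := by simp [dI]

theorem dI_some (I : Finset (Fin r)) (a : Fin r) : dI I (some a) = if a ∈ I then 1 else 0 := by
  simp [dI, Finsupp.single_apply]

theorem mu_pow (I : Finset (Fin r)) (c : ℕ) : mu k I ^ c = monomial (c • dI I) (1 : k) := by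
  have : mu k I = monomial (dI I) (1 : k) := by
    rw [mu, dI, ← one_mul (1 : k), ← monomial_mul_monomial]
    congr 1
    induction I using Finset.induction_on with
    | empty => simp
    | insert a s ha ih =>
      rw [prod_insert ha, sum_insert ha, ih, X_def, monomial_mul_monomial, one_mul]
  rw [this, monomial_pow, one_pow]

theorem split (c : ℕ) {f : LL k r} (hf : f ∈ Pv k (SB r (2 * c))) :
    ∃ h : Finset (Fin r) → LL k r, (∀ I, h I ∈ Pv k (SB r 0)) ∧ f = ∑ I, mu k I ^ c * h I := by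
  classical
  let J : Mon r → Finset (Fin r) := fun e => {a | c ≤ e (some a)}
  let h : Finset (Fin r) → LL k r := fun I e =>
    if J (e + c • dI I) = I then coeff (e + c • dI I) f else 0
  have hh : ∀ I e, coeff e (h I) = if J (e + c • dI I) = I then coeff (e + c • dI I) f else 0 :=
    fun _ _ => rfl
  refine ⟨h, fun I e he => ⟨Nat.zero_le _, fun a => ?_⟩, ?_⟩
  · rw [hh] at he
    split_ifs at he with h1
    · obtain ⟨h2, h3⟩ := hf _ he
      have h4 := h3 a
      have h5 : a ∈ J (e + c • dI I) ↔ a ∈ I := by rw [h1]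
      simp only [J, mem_filter, mem_univ, true_and, Finsupp.add_apply, Finsupp.smul_apply, dI_none,
        dI_some, smul_eq_mul] at h2 h4 h5
      split_ifs at h4 h5 with h6
      · omega
      · simp only [h6, iff_false] at h5
        omega
    · exact absurd rfl he
  · ext e
    simp only [map_sum, mu_pow, coeff_monomial_mul, hh, one_mul]
    rw [sum_eq_single (J e) (fun I _ hI => ?_) (by simp)]
    · by_cases h0 : coeff e f = 0
      · split_ifs with h1 h2
        · rw [tsub_add_cancel_of_le h1]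
        all_goals exact h0
      have h1 : c • dI (J e) ≤ e := fun o => by
        have := (hf e h0).1
        cases o with
        | none => simp only [Finsupp.smul_apply, dI_none, smul_eq_mul]; omega
        | some a =>
          simp only [Finsupp.smul_apply, dI_some, smul_eq_mul, J, mem_filter, mem_univ, true_and]
          split_ifs <;> omega
      rw [if_pos h1, tsub_add_cancel_of_le h1, if_pos rfl]
    · split_ifs with h1 h2
      · rw [tsub_add_cancel_of_le h1] at h2
        exact absurd h2.symm hI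
      all_goals rfl

variable {θ : PS k (r + 1) →ₐ[k] LL k r}

theorem ord1 (hθ : Th0 θ) (j : Fin (r + 1)) : θ (X j) ∈ Pv k (SB r 1) := fun e he =>
  ⟨(hθ.hom j e he).ge, (hθ.ord (X j) 0 (by simp) e he).2⟩

theorem step (hθ : Th0 θ) : ∃ c : ℕ, ∀ m, c ≤ m → ∀ f ∈ Pv k (SB r (m + 1)),
    ∃ g : Fin (r + 1) → LL k r, (∀ j, g j ∈ Pv k (SB r m)) ∧ f = ∑ j, θ (X j) * g j := by
  classical
  obtain ⟨c, hc⟩ := hθ.bpf
  choose g g1 g2 using hc 1
  refine ⟨2 * c, fun m hm f hf => ?_⟩
  obtain ⟨h, h1, h2⟩ := split c (sb_mono (by omega) hf)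
  let G : Fin (r + 1) → LL k r := fun j => ∑ I, g I j * h I
  have G0 : ∀ j, G j ∈ Pv k (SB r 0) := fun j => Submodule.sum_mem _ fun I _ =>
    mul_sb (g1 I j) (h1 I) rfl
  have e1 : f = ∑ j, θ (X j) * G j := by
    simp only [mul_one, pow_one] at g2
    simp only [h2, g2, G, mul_sum, sum_mul]
    rw [sum_comm]
    exact sum_congr rfl fun _ _ => sum_congr rfl fun _ _ => by ring
  let G' : Fin (r + 1) → LL k r := fun j e => if m ≤ e none then coeff e (G j) else 0
  have c1 : ∀ j e, coeff e (G' j) = if m ≤ e none then coeff e (G j) else 0 := fun _ _ => rfl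
  have G1 : ∀ j, G' j ∈ Pv k (SB r m) := fun j e he => by
    rw [c1] at he
    split_ifs at he with h3
    · exact ⟨h3, (G0 j e he).2⟩
    · exact absurd rfl he
  refine ⟨G', G1, ?_⟩
  have a1 : f - ∑ j, θ (X j) * G' j ∈ Pv k (SB r (m + 1)) := Submodule.sub_mem _ hf
    (Submodule.sum_mem _ fun j _ => mul_sb (ord1 hθ j) (G1 j) (add_comm _ _))
  have a2 : f - ∑ j, θ (X j) * G' j ∈ Pv k {e : Mon r | e none < m + 1} := by
    rw [e1, ← sum_sub_distrib]
    refine Submodule.sum_mem _ fun j _ => ?_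
    rw [← mul_sub]
    refine mul_mem_Pv (S := {e | e none = 1}) (T := {e | e none < m}) (hθ.hom j) (fun e he => ?_)
      fun a ha b hb => ?_
    · by_contra h3
      rw [map_sub, c1, if_pos (not_lt.1 h3), sub_self] at he
      exact he rfl
    · simp only [Set.mem_ofPred_eq, Finsupp.add_apply] at ha hb ⊢
      omega
  rw [← sub_eq_zero]
  ext e
  by_contra h3
  exact absurd (a2 e h3) (not_lt.2 (a1 e h3).1)

variable (k r) in
/-- the Segre ring -/
def BB : Subalgebra k (LL k r) where
  carrier := Pv k (SB r 0)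
  mul_mem' ha hb := mul_sb ha hb rfl
  add_mem' := Submodule.add_mem _
  algebraMap_mem' a e he := by
    classical
    have : e = 0 := by
      by_contra h
      exact he (by rw [MvPowerSeries.algebraMap_apply, coeff_C, if_neg h])
    simp [this, SB]

theorem count (M : ℕ) (N : Submodule k (BB k r)) (h : ∀ f : BB k r, f.1 ∈ Pv k (SB r M) → f ∈ N) :
    rl N ⊤ ≤ (∑ m ∈ range M, (m + 1) ^ r : ℕ) := by
  let mk : (Σ m : Fin M, Fin r → Fin (m + 1)) → Mon r := fun p =>
    Finsupp.equivFunOnFinite.symm fun o => o.elim p.1 fun a => p.2 a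
  let F : BB k r →ₗ[k] (Σ m : Fin M, Fin r → Fin (m + 1)) → k :=
    LinearMap.pi fun p => coeff (mk p) ∘ₗ (BB k r).val.toLinearMap
  refine (rl_le_of_comap F (P' := ⊥) (Q' := ⊤) (fun f _ hf => h f fun e he => ?_) (by simp)).trans ?_
  · refine ⟨not_lt.1 fun h1 => he ?_, (f.2 e he).2⟩
    have := congrFun (show F f = 0 from hf) ⟨⟨e none, h1⟩, fun a => ⟨e (some a),
      Nat.lt_succ_of_le ((f.2 e he).2 a)⟩⟩
    refine Eq.trans (congrArg (fun e => coeff e f.1) ?_) this
    ext o
    cases o <;> rfl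
  · rw [rl_top, (Submodule.quotEquivOfEqBot _ rfl).length_eq, Module.length_eq_finrank,
      Module.finrank_fintype_fun_eq_card, Fintype.card_sigma, sum_range]
    simp

theorem sum_le (M : ℕ) : (r + 1) * ∑ m ∈ range M, (m + 1) ^ r ≤ (M + 1) ^ (r + 1) := by
  induction M with
  | zero => simp
  | succ M ih =>
    have := pow_add_mul_le_add_pow (a := M + 1) (b := 1) (by omega) (by omega) (r + 1)
    rw [sum_range_succ, mul_add]
    simp only [Nat.cast_id, Nat.add_sub_cancel, mul_one] at this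
    omega

end Seg2

open Seg2 in
theorem seg2Stmt (hR : RkStmt.{u}) (hV : EvStmt.{u}) : Seg2Stmt.{u} := by
  intro k _ r θ hθ
  refine ⟨hθ, ?_⟩
  let θ' : PS k (r + 1) →ₐ[k] BB k r := θ.codRestrict _ fun a => hθ.ord a 0 (by simp)
  let _ : Algebra (PS k (r + 1)) (BB k r) := θ'.toRingHom.toAlgebra
  have : IsScalarTower k (PS k (r + 1)) (BB k r) :=
    IsScalarTower.of_algebraMap_eq fun a => (θ'.commutes a).symm
  have sm : ∀ (a : PS k (r + 1)) (b : BB k r), ((a • b : BB k r) : LL k r) = θ a * b :=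
    fun _ _ => rfl
  obtain ⟨c, hc⟩ := step hθ
  have up : ∀ N, ∀ f ∈ (mx k (r + 1) ^ N • ⊤ : Submodule (PS k (r + 1)) (BB k r)),
      f.1 ∈ Pv k (SB r N) := fun N f hf => by
    refine Submodule.smul_induction_on hf (fun a ha b _ => ?_) fun a b => Submodule.add_mem _
    exact mul_sb (hθ.ord a N (((hV k _).ord a N).1 ha)) b.2 rfl
  have lo : ∀ N, ∀ f : BB k r, f.1 ∈ Pv k (SB r (N + c)) →
      f ∈ (mx k (r + 1) ^ N • ⊤ : Submodule (PS k (r + 1)) (BB k r)) := fun N => by
    induction N with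
    | zero => intro f _; rw [pow_zero, Ideal.one_eq_top, Submodule.top_smul]; trivial
    | succ N ih =>
      intro f hf
      obtain ⟨g, g1, g2⟩ := hc (N + c) (by omega) f (by rwa [add_right_comm] at hf)
      let g' : Fin (r + 1) → BB k r := fun j =>
        ⟨g j, sb_mono (Nat.zero_le _) (g1 j)⟩
      have : f = ∑ j, (X j : PS k (r + 1)) • g' j := Subtype.ext (by
        rw [g2, AddSubmonoidClass.coe_finsetSum]
        rfl)
      rw [this, pow_succ', Submodule.mul_smul]
      exact Submodule.sum_mem _ fun j _ =>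
        Submodule.smul_mem_smul (Ideal.subset_span ⟨j, rfl⟩) (ih _ (g1 j))
  have cb : ∀ N, cl k (mx k (r + 1) ^ N • ⊤ : Submodule (PS k (r + 1)) (BB k r)) ≤
      (∑ m ∈ range (N + c), (m + 1) ^ r : ℕ) := fun N => by
    rw [cl_eq]
    exact count _ _ (lo N)
  have : Module.Finite (PS k (r + 1)) (BB k r) := (hV k _).fin _
    ⟨fun x hx => Subtype.ext (MvPowerSeries.ext fun e => by
      by_contra h
      exact absurd (up _ _ (SModEq.zero.1 (hx (e none + 1))) e h).1 (by omega))⟩
    (ne_top_of_le_ne_top (ENat.natCast_ne_top _) (by simpa only [pow_one] using cb 1))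
  have rk : Module.finrank (PS k (r + 1)) (BB k r) ≤ r ! := by
    have t1 : Tendsto (fun N : ℕ => (r ! : ℝ) * (1 + (c + 1 : ℝ) / N) ^ (r + 1)) atTop
        (𝓝 (r ! * (1 + 0) ^ (r + 1))) :=
      (((tendsto_const_div_atTop_nhds_zero_nat _).const_add 1).pow _).const_mul _
    have := le_of_tendsto_of_tendsto (hR k (r + 1) (BB k r)).2.2.1 t1 (by
      filter_upwards [eventually_gt_atTop 0] with N hN
      have h0 : (0 : ℝ) < N := by exact_mod_cast hN
      have h1 : (r + 1)! * (cl k (mx k (r + 1) ^ N • ⊤ :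
          Submodule (PS k (r + 1)) (BB k r))).toNat ≤ r ! * (N + c + 1) ^ (r + 1) := by
        rw [Nat.factorial_succ, mul_comm (r + 1), mul_assoc]
        exact Nat.mul_le_mul_left _ ((Nat.mul_le_mul_left _
          (ENat.toNat_le_of_le_natCast (cb N))).trans (sum_le _))
      rw [show (1 : ℝ) + (c + 1) / N = (N + c + 1) / N by field_simp; ring, div_pow,
        ← mul_div_assoc]
      exact div_le_div_of_nonneg_right (by exact_mod_cast h1) (by positivity))
    simpa using this
  have : IsDomain (PS k (r + 1)) := NoZeroDivisors.to_isDomain _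
  obtain ⟨v, hv⟩ := exists_linearIndependent_of_le_finrank (R := PS k (r + 1)) (M := BB k r) le_rfl
  have z := (Submodule.span (PS k (r + 1)) (Set.range v)).finrank_quotient_add_finrank
  rw [finrank_span_eq_card hv, Fintype.card_fin, add_eq_right] at z
  obtain ⟨C, hC⟩ := (hR k (r + 1) _).2.2.2.2 z r rfl
  refine ⟨C, fun j => if h : j.1 < _ then (v ⟨j, h⟩).1 else 0, fun j => ?_, fun b => ?_⟩
  · dsimp only
    split_ifs
    · exact (v _).2
    · exact Submodule.zero_mem _
  refine le_trans ?_ (hC b)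
  rw [cl_eq]
  refine le_trans (rl_le_of_map (BB k r).val.toLinearMap (Q := ⊤)
    (P := (Submodule.span (PS k (r + 1)) (Set.range v) ⊔ mx k (r + 1) ^ b • ⊤).restrictScalars k)
    (fun x hx => ?_) fun x hx => Submodule.mem_sup_right ⟨⟨x, hx⟩, trivial, rfl⟩)
    (rl_le_of_comap ((Submodule.span (PS k (r + 1)) (Set.range v)).mkQ.restrictScalars k)
      (fun x _ hx => ?_) (by simp))
  · obtain ⟨y, hy, z, hz, rfl⟩ := Submodule.mem_sup.1 (show x ∈ _ ⊔ _ from hx)
    rw [map_add]
    refine Submodule.add_mem_sup ?_ (up b z hz)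
    obtain ⟨a, rfl⟩ := (Submodule.mem_span_range_iff_exists_fun _).1 hy
    rw [map_sum]
    refine Submodule.sum_mem _ fun i _ => Submodule.mem_iSup_of_mem ⟨i, i.2.trans_le rk⟩ ⟨a i, ?_⟩
    simp [sm]
  · rw [Submodule.restrictScalars_mem, ← Submodule.comap_map_mkQ, Submodule.map_smul'',
      Submodule.map_top, Submodule.range_mkQ]
    exact hx

end Vale.Agent.P202
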