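import Vale.Agent.P202.Spec

/-! Module H: shears of power series rings. -/

open Finset MvPowerSeries

namespace Vale.Agent.P202

universe u

namespace Sh

variable {K : Type u} [Field K] {d : ℕ}

noncomputable def sa (c : Fin d → K) : Fin (d + 1) → PS K (d + 1) :=
  Fin.cons (X 0) fun i => X i.succ + C (c i) * X 0

lemma hs (c : Fin d → K) : HasSubst (sa c) :=
  hasSubst_of_constantCoeff_zero fun s => by cases s using Fin.cases <;> simp [sa]

lemma sub_sa {b : Fin (d + 1) → PS K (d + 1)} (hb : HasSubst b) (c : Fin d → K) :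
    (fun s => subst b (sa c s)) = Fin.cons (b 0) fun i => b i.succ + C (c i) * b 0 := by
  funext s
  cases s using Fin.cases with
  | zero => simp [sa, subst_X hb]
  | succ i =>
    simp only [sa, Fin.cons_succ]
    rw [subst_add hb, subst_mul hb, subst_X hb, subst_X hb, subst_C]

lemma inv (c c' : Fin d → K) (h : ∀ i, c i + c' i = 0) :
    (substAlgHom (R := K) (hs c)).comp (substAlgHom (R := K) (hs c')) = AlgHom.id K _ := by
  ext1 f
  have : (fun s => subst (sa c) (sa c' s)) = X := by
    rw [sub_sa (hs c)]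
    funext s
    cases s using Fin.cases with
    | zero => simp [sa]
    | succ i =>
      simp only [sa, Fin.cons_succ, Fin.cons_zero]
      rw [add_assoc, ← add_mul, ← map_add, h, map_zero, zero_mul, add_zero]
  simp only [AlgHom.comp_apply, substAlgHom_apply, AlgHom.id_apply]
  rw [subst_comp_subst_apply (hs c') (hs c), this, subst_self, id]

noncomputable def sh (c : Fin d → K) : PS K (d + 1) ≃ₐ[K] PS K (d + 1) :=
  AlgEquiv.ofAlgHom (substAlgHom (hs c)) (substAlgHom (hs (-c))) (inv c (-c) (by simp))
    (inv (-c) c (by simp))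

lemma sh_apply (c : Fin d → K) (f : PS K (d + 1)) : sh c f = subst (sa c) f :=
  substAlgHom_apply (hs c) f

lemma shear (c : Fin d → K) : Shear c (sh c) :=
  ⟨by rw [sh_apply, subst_X (hs c)]; rfl, fun i => by rw [sh_apply, subst_X (hs c)]; rfl⟩

lemma cf (c : Fin (d + 1) → K) (g : PS K (d + 1)) (j : ℕ) :
    coeff (Finsupp.single 0 j) (subst (fun s => C (c s) * X 0 : _ → PS K (d + 1)) g) =
      ∑ e ∈ finsuppAntidiag univ j, coeff e g * ∏ s, c s ^ e s := by
  have h : HasSubst (fun s => C (c s) * X 0 : _ → PS K (d + 1)) :=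
    hasSubst_of_constantCoeff_zero fun s => by simp
  have e1 : ∀ e : Fin (d + 1) →₀ ℕ, coeff (Finsupp.single 0 j)
      (e.prod fun s n => (C (c s) * X 0 : PS K (d + 1)) ^ n) =
        if e ∈ finsuppAntidiag univ j then ∏ s, c s ^ e s else 0 := by
    intro e
    rw [Finsupp.prod_fintype _ _ (by simp)]
    simp only [mul_pow, prod_mul_distrib, prod_pow_eq_pow_sum, ← map_pow, ← map_prod, coeff_C_mul,
      coeff_X_pow, mem_finsuppAntidiag, subset_univ, and_true]
    by_cases hj : j = ∑ i, e i
    · rw [if_pos (congrArg _ hj), if_pos hj.symm, mul_one]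
    · rw [if_neg fun h => hj (Finsupp.single_injective _ h), if_neg fun h => hj h.symm, mul_zero]
  rw [coeff_subst h, finsum_eq_sum_of_support_subset (s := finsuppAntidiag univ j)]
  · exact sum_congr rfl fun e he => by rw [e1, if_pos he, smul_eq_mul]
  · intro e he
    by_contra hn
    exact he (by simp only; rw [e1, if_neg (fun h => hn (mem_coe.2 h)), smul_zero])

lemma cf2 (c : Fin d → K) (g : PS K (d + 1)) (j : ℕ) :
    coeff (Finsupp.single 0 j) (sh c g) =
      ∑ e ∈ finsuppAntidiag univ j, coeff e g * ∏ i, c i ^ e i.succ := by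
  set a : Fin (d + 1) → K := Fin.cons 1 0 with ha
  have h1 : coeff (Finsupp.single 0 j) (rescale a (sh c g)) =
      coeff (Finsupp.single 0 j) (sh c g) := by
    rw [coeff_rescale, Finsupp.prod_single_index (by simp)]; simp [ha]
  have h2 : (fun s => subst (a • X : _ → PS K (d + 1)) (sa c s)) =
      fun s => C ((Fin.cons 1 c : Fin (d + 1) → K) s) * X 0 := by
    rw [sub_sa (HasSubst.smul_X a)]
    funext s
    cases s using Fin.cases <;> simp [ha]
  rw [← h1, rescale_eq_subst, sh_apply, subst_comp_subst_apply (hs c) (HasSubst.smul_X a), h2, cf]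
  simp [Fin.prod_univ_succ]

end Sh

open Sh in
theorem shStmt : ShStmt.{u} := by
  intro K _ d
  refine ⟨fun c => ⟨sh c, shear c⟩, fun T hT g hg => ?_⟩
  obtain ⟨e0, h0⟩ : ∃ e, coeff e g ≠ 0 := by
    by_contra h
    push Not at h
    exact hg (MvPowerSeries.ext h)
  set j := ∑ s, e0 s with hj
  set G : MvPolynomial (Fin d) K :=
    ∑ e ∈ finsuppAntidiag univ j, MvPolynomial.monomial (Finsupp.tail e) (coeff e g) with hG
  have h1 : G.coeff (Finsupp.tail e0) = coeff e0 g := by
    rw [hG, MvPolynomial.coeff_sum, sum_eq_single e0, MvPolynomial.coeff_monomial, if_pos rfl]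
    · intro e he hne
      rw [MvPolynomial.coeff_monomial, if_neg]
      intro h
      have h2 := (mem_finsuppAntidiag.1 he).1
      have h3 : ∀ i : Fin d, e i.succ = e0 i.succ := fun i => DFunLike.congr_fun h i
      rw [hj, Fin.sum_univ_succ, Fin.sum_univ_succ] at h2
      simp only [h3, add_left_inj] at h2
      exact hne (Finsupp.ext fun s => by cases s using Fin.cases; exacts [h2, h3 _])
    · intro h; exact absurd (mem_finsuppAntidiag.2 ⟨rfl, subset_univ _⟩) h
  by_contra hn
  push Not at hn
  have : G = 0 := MvPolynomial.funext_set (fun _ => T) (fun _ => hT) fun c hc => by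
    rw [map_zero, ← hn c (fun i => hc i trivial) (sh c) (shear c) j, cf2, hG, map_sum]
    refine sum_congr rfl fun e _ => ?_
    rw [MvPolynomial.eval_monomial, Finsupp.prod_fintype _ _ (by simp)]
    rfl
  rw [this, MvPolynomial.coeff_zero] at h1
  exact h0 h1.symm

end Vale.Agent.P202
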