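import Vale.Agent.P202.Base

/-! Tameness of the strands. -/

open Finset Matrix MvPowerSeries Filter Topology IsLocalRing
open scoped Kronecker Nat

namespace Vale.Agent.P202

universe u

theorem hh_zero_of_cb (hC : CbStmt.{u}) {k : Type u} [Field k] {r : ℕ}
    {θ : PS k (r + 1) →ₐ[k] LL k r} {ι : Type} [Fintype ι] [DecidableEq ι] {deg : ι → ℕ}
    {D : Matrix ι ι (PS k (r + 1))} (g : Module.End k (ι × FJ r → LL k r)) {N0 : ℕ}
    {ν : Fin r → ℤ} {Ω Ω' : ℕ → Set (Mon r)} (h1 : Gr deg deg (-1) D) (h2 : D * D = 0)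
    (h3 : ∀ p, Ω' p ⊆ Ω p) (h4 : CxD (DD θ D) (XS k N0 ν deg Ω))
    (h5 : CxD (DD θ D) (XS k N0 ν deg Ω')) (n : ℤ)
    (h : ∀ i, ∀ e ∈ Ω (deg i), e ∉ Ω' (deg i) → ¬ typ N0 ν e (deg i - n)) :
    hh (DD θ D) g 0 (XS k N0 ν deg Ω) (XS k N0 ν deg Ω') n = 0 := by
  refine nonpos_iff_eq_zero.1 (((hC k r θ ι deg D g N0 ν Ω Ω' h1 h2 h3 h4 h5).1 n).trans ?_)
  refine (sum_eq_zero fun i _ => ?_).le
  rw [Set.encard_eq_zero, Set.eq_empty_iff_forall_notMem]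
  exact fun e he => h i e he.1 he.2.1 he.2.2

theorem tamStmt (hL : LatStmt.{u}) (hC : CbStmt.{u}) (hT : TauStmt.{u}) : TamStmt.{u} := by
  intro k _ r θ hθ γ o s L κ ι _ _ deg D ho hs g
  have lat : Lat (DD θ D) (gg θ γ ι) := hL _ _ _ _ (DD_sq θ g.dd) (DD_comm θ D γ)
  have gh : ∀ l, Slope D l → (∀ p, L ≤ l p) → ∀ n, ∀ z ∈ XE k s L κ l deg n, DD θ D z = 0 →
      ∃ w ∈ XE k s L κ (fun p => l p - L) deg (n + 1), DD θ D w = (gg θ γ ι ^ (r + 1)) z := by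
    intro l hl hL' n z hz h0
    obtain ⟨w, hw, e⟩ := g.gho _ _ _ l hl.1 hL' (by omega) n z hz h0
    rw [← e]
    refine lat.red _ _ n ?_ w hw ?_
    · refine hh_zero_of_cb hC _ g.gr g.dd (fun p => Om_mono (Nat.le_add_right _ _) le_rfl)
        (XF_cx hθ g.gr γ _ (hl.sub L)).d (XF_cx hθ g.gr γ _ (hl.sub L)).d _ fun i e h1 h2 h3 => ?_
      refine h2 ⟨h1.1, fun a => ?_⟩
      have := h3.1 a
      have := nu_bd s L hs κ a
      omega
    · rw [e]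
      refine XF_mono le_rfl (fun p => Nat.sub_le _ _) n ?_
      rw [show (gg θ γ ι ^ (r + 1)) z = θ (γ ^ (r + 1)) • z from funext fun p => by
        rw [gg_pow_apply, map_pow]; rfl]
      exact smul_mem_XF (hθ.ord _ 0 (by simp)) hz
  have fn : ∀ l l' : ℕ → ℕ, (∀ p, l p ≤ l' p) → (∀ p, l' p ≤ 2 * L + s * (r + 1)) →
      Fn (gg θ γ ι) (tau r o s L (Fintype.card ι)) (XE k s L κ l deg) (XE k s L κ l' deg) := by
    intro l l' h1 h2
    refine hT k r θ hθ γ o ho ι deg _ _ _ l l' _ h1 fun p a => ?_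
    have := (nu_bd s L hs κ a).2
    have h3 : (l' p : ℤ) ≤ 2 * L + s * (r + 1) := by exact_mod_cast h2 p
    push_cast
    nlinarith [(by positivity : (0 : ℤ) ≤ L * r), (by positivity : (0 : ℤ) ≤ s * r)]
  refine ⟨lat, fun l hl => XF_cx hθ g.gr γ _ hl, fun l n hn => by
    unfold XE XF; exact XS_bd g.le _ hn, gh, fn,
    fun l hl h => ?_⟩
  refine lat.up _ _ _ _ (XF_cx hθ g.gr γ _ hl) (XF_cx hθ g.gr γ _ (hl.add L))
    (XF_mono le_rfl fun p => Nat.le_add_right _ _)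
    (fn _ _ (fun p => Nat.le_add_right _ _) fun p => by have := h p; omega) fun n z hz h0 => ?_
  simpa using gh _ (hl.add L) (fun p => Nat.le_add_left _ _) n z hz h0

end Vale.Agent.P202
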