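import Vale.Agent.P202.Tr2

/-! Reduction of the core inequality to positive characteristic. -/

open Finset Matrix MvPowerSeries Filter Topology IsLocalRing
open scoped Kronecker Nat

namespace Vale.Agent.P202

universe u

namespace Tr

theorem mkRed {k : Type u} [Field k] {d : ℕ} (hm : maximalIdeal (PS k d) = mx k d) {R : Type u}
    [CommRing R] [Algebra (PS k d) R] [Algebra k R] [IsScalarTower k (PS k d) R]
    [Module.Finite (PS k d) R] [Nontrivial R] (m : Ideal R) (c : ℕ) (g : Set R)
    (hg : Submodule.span (PS k d) g = ⊤) (hres : ∀ x ∈ g, ∃ a, x - algebraMap (PS k d) R a ∈ m)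
    (hx : ∀ j, algebraMap (PS k d) R (X j) ∈ m)
    (hred : m ^ (c + 1) ≤ (mx k d).map (algebraMap (PS k d) R) * m ^ c) : Red k d m c := by
  have h1 : (mx k d).map (algebraMap (PS k d) R) ≤ m := by
    rw [Ideal.map_span, Ideal.span_le]
    rintro _ ⟨_, ⟨j, rfl⟩, rfl⟩
    exact hx j
  have h2 : ∀ P : Ideal R, P.IsMaximal → m ≤ P := fun P hP => by
    have h3 := IsLocalRing.eq_maximalIdeal
      (Ideal.isMaximal_comap_of_isIntegral_of_isMaximal (R := PS k d) P)
    refine hP.isPrime.le_of_pow_le (n := c + 1) (hred.trans (Ideal.mul_le_left.trans ?_))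
    rw [Ideal.map_le_iff_le_comap, ← hm, ← h3]
  have h4 : ∀ b : R, ∃ a : k, b - algebraMap k R a ∈ m := fun b => by
    have h5 : ∃ a, b - algebraMap (PS k d) R a ∈ m := by
      have hb : b ∈ Submodule.span (PS k d) g := hg ▸ Submodule.mem_top
      induction hb using Submodule.span_induction with
      | mem x hx => exact hres x hx
      | zero => exact ⟨0, by simp⟩
      | add x y _ _ hx hy =>
        obtain ⟨a, ha⟩ := hx
        obtain ⟨a', ha'⟩ := hy
        exact ⟨a + a', by rw [map_add, add_sub_add_comm]; exact m.add_mem ha ha'⟩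
      | smul a x _ hx =>
        obtain ⟨a', ha'⟩ := hx
        exact ⟨a * a', by rw [map_mul, Algebra.smul_def, ← mul_sub]; exact m.mul_mem_left _ ha'⟩
    obtain ⟨a, ha⟩ := h5
    refine ⟨constantCoeff a, ?_⟩
    have h6 := h1 (Ideal.mem_map_of_mem _ (ps_res hm a))
    rw [map_sub, ← IsScalarTower.algebraMap_apply] at h6
    simpa using m.add_mem ha h6
  refine ⟨h4, fun h => ?_, fun b hb => ?_, hx, hred⟩
  · obtain ⟨P, hP⟩ := Ideal.exists_maximal R
    exact hP.ne_top (top_le_iff.1 (h ▸ h2 P hP))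
  · by_contra hu
    obtain ⟨P, hP, hbP⟩ := exists_max_ideal_of_mem_nonunits (mem_nonunits_iff.2 hu)
    obtain ⟨a, ha⟩ := h4 b
    have ha0 : a ≠ 0 := by
      rintro rfl
      exact hb (by simpa using ha)
    refine hP.ne_top (P.eq_top_of_isUnit_mem ?_ ((IsUnit.mk0 a ha0).map (algebraMap k R)))
    simpa using P.sub_mem hbP (h2 P hP ha)

theorem cl_sub (k : Type*) {A B M : Type*} [Field k] [CommRing A] [Algebra k A] [CommRing B]
    [Algebra k B] [AddCommGroup M] [Module A M] [Module B M] [Module k M] [IsScalarTower k A M]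
    [IsScalarTower k B M] {N : Submodule A M} {N' : Submodule B M} (h : ∀ x ∈ N, x ∈ N') :
    cl k N' ≤ cl k N := by
  unfold cl
  rw [← (Submodule.Quotient.restrictScalarsEquiv k N).length_eq,
    ← (Submodule.Quotient.restrictScalarsEquiv k N').length_eq, Module.length_quotient,
    Module.length_quotient]
  exact Order.coheight_anti h

theorem pi_span {A M ι : Type*} (n : Type*) [CommRing A] [AddCommGroup M] [Module A M] [Fintype n]
    [DecidableEq n] (b : ι → M) (hb : Submodule.span A (Set.range b) = ⊤) :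
    Submodule.span A (Set.range fun p : n × ι => (Pi.single p.1 (b p.2) : n → M)) = ⊤ := by
  rw [eq_top_iff]
  intro v _
  rw [← Finset.univ_sum_single v]
  refine Submodule.sum_mem _ fun a _ => ?_
  have h := Submodule.apply_mem_span_image_of_mem_span (LinearMap.single A (fun _ : n => M) a)
    (hb ▸ Submodule.mem_top : v a ∈ Submodule.span A (Set.range b))
  refine Submodule.span_mono ?_ h
  rintro _ ⟨_, ⟨j, rfl⟩, rfl⟩
  exact ⟨(a, j), rfl⟩

theorem imY_sub {A R n β ι : Type*} [CommRing A] [CommRing R] [Algebra A R] [Fintype n]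
    [DecidableEq n] (Y : β → Matrix n n R) (t : ℕ) (g : ι → n → R)
    (hg : Submodule.span A (Set.range g) = ⊤) : ∀ x ∈ imY Y t,
      x ∈ Submodule.span A (Set.range fun p : β × ι => Y p.1 ^ t *ᵥ g p.2) := by
  intro x hx
  induction hx using Submodule.iSup_induction' with
  | mem l x hx =>
    obtain ⟨v, rfl⟩ := hx
    have h := Submodule.apply_mem_span_image_of_mem_span ((Y l ^ t).mulVecLin.restrictScalars A)
      (hg ▸ Submodule.mem_top : v ∈ Submodule.span A (Set.range g))
    refine Submodule.span_mono ?_ h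
    rintro _ ⟨_, ⟨j, rfl⟩, rfl⟩
    exact ⟨(l, j), rfl⟩
  | zero => exact Submodule.zero_mem _
  | add x y _ _ hx hy => exact Submodule.add_mem _ hx hy

open scoped IsMulCommutative in
theorem fin_step (hP : CorePStmt.{0}) {k : Type} [Field k] [Finite k] {d : ℕ} {R : Type}
    [CommRing R] [Algebra (PS k d) R] [Algebra k R] [IsScalarTower k (PS k d) R]
    [Module.Finite (PS k d) R] {m : Ideal R} {c : ℕ} (hR : Red k d m c) {n : Type} [Fintype n]
    [DecidableEq n] (hn : Nonempty n) (U : Fin d ⊕ Fin d × Fin d → Matrix n n R)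
    (hU : ∀ p q, U p * U q = U q * U p) (N : ℕ)
    (hpw : ∀ j, ∑ l, U (.inr (j, l)) * U (.inl l) =
      (algebraMap (PS k d) R (X j) • (1 : Matrix n n R)) ^ N)
    (hnil : ∀ l a a', (U (.inl l) ^ N) a a' ∈ m) (t lam : ℕ)
    (hl : cl k (imY (fun l => U (.inl l)) t) ≤ lam) : t ^ d * Module.finrank (PS k d) R ≤ lam := by
  obtain ⟨p, hp⟩ := CharP.exists k
  have : Fact p.Prime := ⟨CharP.char_is_prime k p⟩
  have := Algebra.isMulCommutative_adjoin R (s := Set.range U) (by
    rintro _ ⟨p, rfl⟩ _ ⟨q, rfl⟩; exact hU p q)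
  have hs : ∀ j, ((algebraMap R (Algebra.adjoin R (Set.range U)) (algebraMap (PS k d) R (X j)) :
      Algebra.adjoin R (Set.range U)) : Matrix n n R) =
      algebraMap (PS k d) R (X j) • (1 : Matrix n n R) := fun j =>
    Algebra.algebraMap_eq_smul_one _
  refine hP k p d R m c (Algebra.adjoin R (Set.range U)) n
    (Algebra.adjoin R (Set.range U)).val.toRingHom
    (fun l => ⟨U (.inl l), Algebra.subset_adjoin ⟨_, rfl⟩⟩)
    (fun j => algebraMap R _ (algebraMap (PS k d) R (X j))) N hR ⟨hn, hs, fun j => ?_, hnil⟩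
    t lam hl
  refine Ideal.mem_span_range_iff_exists_fun.2
    ⟨fun l => ⟨U (.inr (j, l)), Algebra.subset_adjoin ⟨_, rfl⟩⟩, Subtype.ext ?_⟩
  rw [SubmonoidClass.coe_pow, hs, ← hpw, AddSubmonoidClass.coe_finsetSum]
  rfl

end Tr

open Tr in
theorem core0Stmt (hA : AtStmt.{u}) (hP : CorePStmt.{0}) (hV : EvStmt.{u}) (hV0 : EvStmt.{0}) :
    Core0Stmt.{u} := by
  intro K _ _ d R _ _ _ _ _ m c S _ n _ _ ρ y ξ N hR hD t lam hl
  have hne : (atTop : Filter (Finset (PS K d) × Finset R)).NeBot := by
    classical exact atTop_neBot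
  rcases Nat.eq_zero_or_pos (Module.finrank (PS K d) R) with h0 | h0
  · simp [h0]
  obtain ⟨s, b, hb⟩ := Module.Finite.exists_fin (R := PS K d) (M := R)
  choose k fk fin R' cr alg τ ψ h1 h2 h3 h4 h5 h6 using key2 hA K d R b hb
  letI ak : ∀ i, Algebra (k i) (R' i) := fun i =>
    ((algebraMap (PS (k i) d) (R' i)).comp (algebraMap (k i) (PS (k i) d))).toAlgebra
  have tw : ∀ i, IsScalarTower (k i) (PS (k i) d) (R' i) := fun i =>
    IsScalarTower.of_algebraMap_eq fun _ => rfl
  have hi : ∀ r : R, ∀ᶠ i : Finset (PS K d) × Finset R in atTop, r ∈ i.2 := fun r => by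
    filter_upwards [eventually_ge_atTop ((∅, {r}) : Finset (PS K d) × Finset R)] with i hi
    exact hi.2 (mem_singleton_self r)
  have hψ : EH atTop ψ :=
    { es :=
      { add := fun x y => by
          filter_upwards [hi x, hi y] with i hx hy using (h1 i x hx y hy).1
        smul := fun x y => by
          filter_upwards [hi x, hi y] with i hx hy using (h1 i x hx y hy).2 }
      one := Eventually.of_forall h2 }
  have hτ : ∀ a, ∀ᶠ i in atTop, ψ i (algebraMap (PS K d) R a) =
      algebraMap (PS (k i) d) (R' i) (τ i a) := fun a => by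
    filter_upwards [eventually_ge_atTop (({a}, ∅) : Finset (PS K d) × Finset R)] with i hi
    exact h3 i a (hi.1 (mem_singleton_self a))
  have hes : ES atTop τ ψ :=
    { add := hψ.es.add
      smul := fun a x => by
        filter_upwards [hτ a, hψ.mul (algebraMap (PS K d) R a) x] with i e1 e2
        rw [Algebra.smul_def, Algebra.smul_def, e2, e1] }
  have hX : ∀ᶠ i in atTop, ∀ j, ψ i (algebraMap (PS K d) R (X j)) =
      algebraMap (PS (k i) d) (R' i) (X j) := by
    filter_upwards [eventually_all.2 fun j => hτ (X j)] with i e j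
    rw [e j, h4]
  have hN : IsNoetherianRing R := IsNoetherianRing.of_finite (PS K d) R
  obtain ⟨gm, rfl⟩ : m.FG := IsNoetherian.noetherian m
  choose z hz using fun j => Ideal.mem_span_range_iff_exists_fun.1 (hD.pw j)
  choose a ha using hR.res
  let U : Fin d ⊕ Fin d × Fin d → S := Sum.elim y fun p => z p.1 p.2
  have hM := hψ.mat n
  let g : n × Fin s → n → R := fun p => Pi.single p.1 (b p.2)
  have hg' : ∀ᶠ i in atTop, Submodule.span (PS (k i) d)
      ((fun (v : n → R) a => ψ i (v a)) '' Set.range g) = ⊤ := by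
    filter_upwards [hψ.es.zero] with i e
    rw [← pi_span n (ψ i ∘ b) (by rw [Set.range_comp]; exact h5 i), ← Set.range_comp]
    refine congrArg _ (congrArg _ (funext fun p => funext fun a' => ?_))
    exact Pi.apply_single (fun _ => ψ i) (fun _ => e) p.1 (b p.2) a'
  have e1 := (hes.pi n).flag (hV K d).max (fun i => (hV0 (k i) d).max) h4 (Set.finite_range g) hg'
    lam _ ((len_le_cl K _).trans ((cl_sub K (imY_sub _ t g (pi_span n b hb))).trans hl))
  have e2 := hψ.red (t := algebraMap (PS K d) R '' Set.range X) gm.finite_toSet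
    ((Set.finite_range _).image _) c (by rw [← Ideal.map_span]; exact hR.red)
  have e3 := eventually_all.2 fun j => hψ.es.span (ha (b j))
  have e4 := eventually_all.2 fun j => hψ.es.sub (b j) (algebraMap K R (a (b j)))
  have e5 := eventually_all.2 fun j => hτ (algebraMap K (PS K d) (a (b j)))
  have e6 := eventually_all.2 fun j => hψ.es.span (hR.x j)
  have e7 := eventually_all.2 fun p => eventually_all.2 fun q => hM.mul (ρ (U p)) (ρ (U q))
  have e8 := eventually_all.2 fun j => hM.es.sum univ fun l => ρ (z j l) * ρ (y l)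
  have e9 := eventually_all.2 fun j => hM.pow (ρ (ξ j)) N
  have e10 := eventually_all.2 fun l => hM.pow (ρ (y l)) N
  have e11 := eventually_all.2 fun l => hM.pow (ρ (y l)) t
  have e12 := eventually_all.2 fun l => eventually_all.2 fun p => eventually_all.2 fun q =>
    hψ.es.span (hD.nil l p q)
  have e13 := eventually_all.2 fun l => eventually_all.2 fun p => hψ.mulVec (ρ (y l) ^ t) (g p)
  obtain ⟨i, e0, hX, e1, e2, e3, e4, e5, e6, e7, e8, e9, e10, e11, e12, e13⟩ := (hψ.es.zero.and
    (hX.and (e1.and (e2.and (e3.and (e4.and (e5.and (e6.and (e7.and (e8.and (e9.and (e10.and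
    (e11.and (e12.and e13)))))))))))))).exists
  have := fin i
  have hf : Module.Finite (PS (k i) d) (R' i) :=
    ⟨Submodule.fg_def.2 ⟨_, (Set.finite_range b).image _, h5 i⟩⟩
  have hnt : Nontrivial (R' i) := Module.nontrivial_of_finrank_pos (h0.trans_le (h6 i))
  have hR' : Red (k i) d (Ideal.span (ψ i '' gm)) c := by
    refine mkRed (hV0 (k i) d).max _ c _ (h5 i) ?_ (fun j => hX j ▸ e6 j) ?_
    · rintro _ ⟨_, ⟨j, rfl⟩, rfl⟩
      refine ⟨τ i (algebraMap K (PS K d) (a (b j))), ?_⟩
      rw [← e5 j, ← IsScalarTower.algebraMap_apply, ← e4 j]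
      exact e3 j
    · rw [Ideal.map_span, ← Set.range_comp]
      rw [← Set.range_comp, ← Set.range_comp] at e2
      have e : (ψ i ∘ algebraMap (PS K d) R ∘ X) = algebraMap (PS (k i) d) (R' i) ∘ X := funext hX
      rw [e] at e2
      exact e2
  refine (Nat.mul_le_mul_left _ (h6 i)).trans (fin_step hP hR' hD.ne
    (fun p => (ρ (U p)).map (ψ i)) (fun p q => ?_) N (fun j => ?_) (fun l p q => ?_) t lam
    (le_trans (cl_sub (k i) ?_) e1))
  · rw [← e7, ← e7, ← map_mul, ← map_mul, mul_comm]
  · have e : (ρ (ξ j)).map (ψ i) = algebraMap (PS (k i) d) (R' i) (X j) • (1 : Matrix n n _) := by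
      rw [hD.sc]
      ext p q
      by_cases h : p = q
      · rw [h, Matrix.map_apply, Matrix.smul_apply, Matrix.smul_apply, Matrix.one_apply_eq,
          Matrix.one_apply_eq, smul_eq_mul, smul_eq_mul, mul_one, mul_one, hX]
      · simp [h, e0]
    rw [← e, ← e9, ← map_pow, ← hz, map_sum]
    simp only [map_mul]
    rw [e8]
    exact Finset.sum_congr rfl fun l _ => (e7 (.inr (j, l)) (.inl l)).symm
  · have e := e12 l p q
    change ((ρ (y l)).map (ψ i) ^ N) p q ∈ _
    rw [← e10]
    exact e
  · intro x hx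
    refine (Submodule.span_le (p := (imY (fun l => (ρ (y l)).map (ψ i)) t).restrictScalars
      (PS (k i) d))).2 ?_ hx
    rintro _ ⟨_, ⟨p, rfl⟩, rfl⟩
    refine Submodule.mem_iSup_of_mem p.1 ⟨fun a => ψ i (g p.2 a), ?_⟩
    rw [Matrix.mulVecLin_apply, ← e11, ← e13]

end Vale.Agent.P202
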