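import Vale.Agent.P202.Spec

/-! Module UN: lengths under flat local maps. -/

open Finset Matrix MvPowerSeries Filter Topology IsLocalRing
open scoped Kronecker Nat TensorProduct

namespace Vale.Agent.P202

universe u

theorem unr_len {R S : Type u} [CommRing R] [IsLocalRing R] [CommRing S] [IsLocalRing S]
    (f : R →+* S) [IsLocalHom f] (hf : f.Flat) (I : Ideal R) :
    Module.length S (S ⧸ I.map f) =
      Module.length R (R ⧸ I) * Module.length S (S ⧸ (maximalIdeal R).map f) := by
  algebraize [f]
  have : IsLocalHom (algebraMap R S) := ‹IsLocalHom f›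
  rw [← show algebraMap R S = f from rfl, ← IsLocalRing.length_baseChange R S (R ⧸ I),
    (Algebra.TensorProduct.quotIdealMapEquivTensorQuot S I).toLinearEquiv.length_eq]

theorem unr_loc {R S : Type u} [CommRing R] [IsLocalRing R] [CommRing S] [IsLocalRing S]
    {f : R →+* S} (hf : Unr f) : IsLocalHom f := by
  refine ⟨fun a ha => ?_⟩
  by_contra h
  have : f a ∈ maximalIdeal S := hf.map ▸ Ideal.mem_map_of_mem f h
  exact this ha

theorem unr_len' {R S : Type u} [CommRing R] [IsLocalRing R] [CommRing S] [IsLocalRing S]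
    {f : R →+* S} (hf : Unr f) (I : Ideal R) :
    Module.length S (S ⧸ I.map f) = Module.length R (R ⧸ I) := by
  have := unr_loc hf
  have h1 : Module.length S (S ⧸ maximalIdeal S) = 1 := by
    rw [Module.length_eq_one_iff, isSimpleModule_iff_quot_maximal]
    exact ⟨_, inferInstance, ⟨LinearEquiv.refl _ _⟩⟩
  rw [unr_len f hf.flat, hf.map, h1, mul_one]

theorem unr_dim {R S : Type u} [CommRing R] [IsLocalRing R] [IsNoetherianRing R] [CommRing S]
    [IsLocalRing S] [IsNoetherianRing S] (f : R →+* S) [IsLocalHom f] (hf : f.Flat) :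
    Function.Injective f ∧ ringKrullDim R ≤ ringKrullDim S := by
  algebraize [f]
  have : IsLocalHom (algebraMap R S) := ‹IsLocalHom f›
  have : Module.FaithfullyFlat R S := Module.FaithfullyFlat.of_flat_of_isLocalHom
  refine ⟨FaithfulSMul.algebraMap_injective R S, ?_⟩
  rw [← maximalIdeal_height_eq_ringKrullDim, ← maximalIdeal_height_eq_ringKrullDim,
    Ideal.height_eq_height_add_of_liesOver_of_hasGoingDown (maximalIdeal R) (maximalIdeal S)]
  exact WithBot.coe_le_coe.2 le_self_add

theorem unrStmt : UnrStmt.{u} := by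
  refine ⟨fun R S _ _ _ _ _ _ f _ hf => ⟨(unr_dim f hf).1, (unr_dim f hf).2, unr_len f hf⟩,
    fun R S _ _ _ _ f hf => ⟨unr_loc hf, fun N => ?_, unr_len' hf⟩, ?_⟩
  · rw [hs, hs, ← hf.map, ← Ideal.map_pow, unr_len' hf]
  · intro K R M _ _ _ _ _ _ _ _ h
    have : IsLocalHom (algebraMap K R) := inferInstance
    rw [IsLocalRing.length_restrictScalars K R M]
    have hs : Function.Surjective (algebraMap (ResidueField K) (ResidueField R)) := by
      intro x
      obtain ⟨b, rfl⟩ := residue_surjective x
      obtain ⟨a, ha⟩ := h b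
      refine ⟨residue K a, ?_⟩
      rw [ResidueField.algebraMap_residue, eq_comm]
      exact Ideal.Quotient.eq.2 ha
    rw [Module.length_eq_of_surjective hs]
    simp

end Vale.Agent.P202
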