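import Vale.Agent.P202.At
import Vale.Agent.P202.Bc
import Vale.Agent.P202.Ben1
import Vale.Agent.P202.Ben2
import Vale.Agent.P202.Cb
import Vale.Agent.P202.CoreA
import Vale.Agent.P202.Dev
import Vale.Agent.P202.E1
import Vale.Agent.P202.E3
import Vale.Agent.P202.E4
import Vale.Agent.P202.Eu
import Vale.Agent.P202.Ev
import Vale.Agent.P202.Fr1
import Vale.Agent.P202.Fr2
import Vale.Agent.P202.Fs
import Vale.Agent.P202.Gh
import Vale.Agent.P202.Gon
import Vale.Agent.P202.Gr
import Vale.Agent.P202.Kos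
import Vale.Agent.P202.Lat
import Vale.Agent.P202.Lc
import Vale.Agent.P202.Main
import Vale.Agent.P202.Min
import Vale.Agent.P202.Newt
import Vale.Agent.P202.Nf
import Vale.Agent.P202.Nn
import Vale.Agent.P202.Norm
import Vale.Agent.P202.Num
import Vale.Agent.P202.Red
import Vale.Agent.P202.Reg
import Vale.Agent.P202.Rk
import Vale.Agent.P202.Seg1
import Vale.Agent.P202.Seg2
import Vale.Agent.P202.Sh
import Vale.Agent.P202.Tam
import Vale.Agent.P202.Tr
import Vale.Agent.P202.Unr

/-! All modules together. -/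

namespace Vale.Agent.P202

universe u

theorem cb' : CbStmt.{u} := cbStmt latStmt

theorem tam' : TamStmt.{u} := tamStmt latStmt cb' tauStmt

theorem eu' : EuStmt.{u} := euStmt seg1Stmt (seg2Stmt rkStmt evStmt) ghStmt tam' e1Stmt e2Stmt
  (e3Stmt cb' tauStmt) (e4Stmt cb' numStmt)

theorem coreP' : CorePStmt.{u} :=
  corePStmt (domStmt minStmt fr1Stmt (coreAStmt eu' kosStmt) evStmt) rkStmt evStmt

theorem core0' : Core0Stmt.{u} :=
  core0Stmt (atStmt newtStmt shStmt shStmt evStmt evStmt nfStmt) coreP' evStmt evStmt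

theorem bc' : BcStmt.{u} := bcStmt lcStmt evStmt

theorem gon1' : Gon1Stmt.{u} := gon1Stmt fsStmt bc'

theorem nn' : NnStmt.{u} := nnStmt (redStmt unrStmt) rkStmt evStmt unrStmt

theorem ben2' : Ben2Stmt.{u} := ben2Stmt (regStmt shStmt evStmt) gon1' rkStmt evStmt unrStmt

theorem norm' : NormStmt.{u} :=
  normStmt (gon2Stmt fsStmt fsStmt' bc') grStmt nn' evStmt unrStmt coreP' core0'

end Vale.Agent.P202
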