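import Vale.Agent.P202.Ev
import Vale.Agent.P202.Lc

/-! Module CO, part one: power series over a general coefficient ring. -/

open Finset MvPowerSeries IsLocalRing
open scoped TensorProduct

namespace Vale.Agent.P202.CoL

universe u

section xi
variable (σ τ K : Type*) [CommRing K]

/-- regrouping of coefficients -/
def xf (f : MvPowerSeries (σ ⊕ τ) K) : MvPowerSeries σ (MvPowerSeries τ K) :=
  fun a b => f (Finsupp.sumElim a b)

/-- power series in two groups of variables -/
noncomputable def xi : MvPowerSeries (σ ⊕ τ) K ≃+* MvPowerSeries σ (MvPowerSeries τ K) where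
  toFun := xf σ τ K
  invFun g := fun e => g (Finsupp.sumFinsuppAddEquivProdFinsupp e).1
    (Finsupp.sumFinsuppAddEquivProdFinsupp e).2
  left_inv f := by
    funext e
    exact congrArg f (Finsupp.sumFinsuppAddEquivProdFinsupp.symm_apply_apply e)
  right_inv g := by
    funext a b
    have := Finsupp.sumFinsuppAddEquivProdFinsupp.apply_symm_apply (a, b)
    exact congrArg (fun p : (σ →₀ ℕ) × (τ →₀ ℕ) => g p.1 p.2) this
  map_add' f g := rfl
  map_mul' f g := by
    classical
    refine MvPowerSeries.ext fun a => MvPowerSeries.ext fun b => ?_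
    change coeff (Finsupp.sumElim a b) (f * g) = _
    rw [coeff_mul, coeff_mul, map_sum]
    simp only [coeff_mul]
    rw [← Finset.sum_product']
    let E := Finsupp.sumFinsuppAddEquivProdFinsupp (M := ℕ) (α := σ) (β := τ)
    refine Finset.sum_nbij' (fun p => (((E p.1).1, (E p.2).1), ((E p.1).2, (E p.2).2)))
      (fun q => (E.symm (q.1.1, q.2.1), E.symm (q.1.2, q.2.2))) (fun p hp => ?_) (fun q hq => ?_)
      (fun p _ => by simp) (fun q _ => by simp) (fun p _ => ?_)
    · have h1 := congrArg E (HasAntidiagonal.mem_antidiagonal.1 hp)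
      rw [map_add, show E (Finsupp.sumElim a b) = (a, b) from E.apply_symm_apply (a, b)] at h1
      exact mem_product.2 ⟨HasAntidiagonal.mem_antidiagonal.2 (congrArg Prod.fst h1),
        HasAntidiagonal.mem_antidiagonal.2 (congrArg Prod.snd h1)⟩
    · obtain ⟨h1, h2⟩ := mem_product.1 hq
      rw [HasAntidiagonal.mem_antidiagonal] at h1 h2 ⊢
      rw [← map_add, Prod.mk_add_mk, h1, h2]
      rfl
    · change f p.1 * g p.2 = f (E.symm (E p.1)) * g (E.symm (E p.2))
      simp

theorem coeff_xi (f : MvPowerSeries (σ ⊕ τ) K) (a : σ →₀ ℕ) (b : τ →₀ ℕ) :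
    coeff b (coeff a (xi σ τ K f)) = coeff (Finsupp.sumElim a b) f := rfl

theorem xi_mon (a : σ →₀ ℕ) (b : τ →₀ ℕ) (c : K) :
    xi σ τ K (monomial (Finsupp.sumElim a b) c) = monomial a (monomial b c) := by
  classical
  refine MvPowerSeries.ext fun a' => MvPowerSeries.ext fun b' => ?_
  rw [coeff_xi, coeff_monomial, coeff_monomial]
  let E := Finsupp.sumFinsuppAddEquivProdFinsupp (M := ℕ) (α := σ) (β := τ)
  have h : Finsupp.sumElim a' b' = Finsupp.sumElim a b ↔ a' = a ∧ b' = b :=
    (E.symm.injective.eq_iff (a := (a', b')) (b := (a, b))).trans Prod.mk_inj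
  by_cases h1 : a' = a
  · simp only [h, if_pos h1, coeff_monomial]
    simp [h1]
  · simp [h, h1]

theorem xi_X (i : σ) : xi σ τ K (X (.inl i)) = X i := by
  have := xi_mon σ τ K (Finsupp.single i 1) 0 1
  rwa [Finsupp.sumElim_single_zero, monomial_zero_one] at this

theorem xi_C (c : K) : xi σ τ K (C c) = C (C c) := by
  have := xi_mon σ τ K 0 0 c
  rwa [Finsupp.sumElim_zero_zero] at this

end xi

/-- splitting the variables of a power series ring -/
theorem split (K : Type u) [CommRing K] (d c : ℕ) :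
    ∃ Ξ : PS K (d + 1 + c + 1) ≃+* MvPowerSeries (Fin (d + 1)) (PS K (c + 1)),
      Ξ (X 0) = X 0 ∧ ∀ a, Ξ (C a) = C (C a) := by
  let e : Fin (d + 1 + c + 1) ≃ Fin (d + 1) ⊕ Fin (c + 1) := (finSumFinEquiv (n := c + 1)).symm
  refine ⟨(renameEquiv K e).toRingEquiv.trans (xi _ _ K), ?_, fun a => ?_⟩
  · change xi _ _ K (rename e (X 0)) = _
    rw [rename_X, show e 0 = .inl 0 from finSumFinEquiv_symm_apply_castAdd (0 : Fin (d + 1)), xi_X]
  · change xi _ _ K (rename e (C a)) = _
    rw [rename_C, xi_C]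

section ord
variable {K : Type*} [CommRing K] {n : ℕ}

/-- the ideal of the variables -/
noncomputable abbrev vx (K : Type*) [CommRing K] (n : ℕ) : Ideal (MvPowerSeries (Fin n) K) :=
  Ideal.span (Set.range X)

theorem mon_mem (t : Fin n →₀ ℕ) : monomial t (1 : K) ∈ vx K n ^ t.degree := by
  induction t using Finsupp.induction_linear with
  | zero => simp
  | add f g hf hg =>
    rw [map_add, pow_add, ← one_mul (1 : K), ← monomial_mul_monomial]
    exact Ideal.mul_mem_mul hf hg
  | single a b =>
    rw [← X_pow_eq, Finsupp.degree_single]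
    exact Ideal.pow_mem_pow (Ideal.subset_span (Set.mem_range_self a)) _

theorem ord (a : MvPowerSeries (Fin n) K) (s : ℕ) :
    a ∈ vx K n ^ s ↔ ∀ e : Fin n →₀ ℕ, e.degree < s → coeff e a = 0 := by
  constructor
  · intro h
    suffices (s : ℕ∞) ≤ a.order from fun e he =>
      coeff_of_lt_order (lt_of_lt_of_le (by exact_mod_cast he) this)
    induction s generalizing a with
    | zero => simp
    | succ s ih =>
      rw [pow_succ] at h
      refine Submodule.mul_induction_on h (fun x hx y hy => ?_) fun x y hx hy =>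
        (le_min hx hy).trans min_order_le_add
      refine le_trans ?_ le_order_mul
      push_cast
      refine add_le_add (ih x hx) ?_
      refine Submodule.span_induction (p := fun y _ => (1 : ℕ∞) ≤ order y) ?_ (by simp)
        (fun x y _ _ hx hy => (le_min hx hy).trans min_order_le_add)
        (fun c x _ hx => hx.trans (le_add_self.trans le_order_mul)) hy
      rintro _ ⟨i, rfl⟩
      simp [one_le_order_iff_constCoeff_eq_zero]
  · intro h
    refine EvL.mem_span_mon _ (Finsupp.finite_of_degree_eq (σ := Fin n) s).toFinset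
      (fun t ht => ?_) a fun m hm => h m ?_
    · have : t.degree = s := by simpa using ht
      exact this ▸ mon_mem t
    · by_contra hc
      obtain ⟨g, h1, h2⟩ := Finsupp.exists_le_degree_eq m s (not_lt.1 hc)
      exact hm g (by simpa using h2) h1

/-- exponents of small degree -/
noncomputable def lo (n N : ℕ) : Finset (Fin n →₀ ℕ) :=
  (Finsupp.finite_of_degree_lt (σ := Fin n) N).toFinset

theorem mem_lo {N : ℕ} {e : Fin n →₀ ℕ} : e ∈ lo n N ↔ e.degree < N := by simp [lo]

theorem trunc_mem (a : MvPowerSeries (Fin n) K) (N : ℕ) :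
    a - ∑ e ∈ lo n N, monomial e (coeff e a) ∈ vx K n ^ N := by
  classical
  refine (ord _ _).2 fun e he => ?_
  simp [coeff_monomial, mem_lo, he]

theorem mem_vx (a : MvPowerSeries (Fin n) K) : a ∈ vx K n ↔ constantCoeff a = 0 := by
  rw [← pow_one (vx K n), ord]
  refine ⟨fun h => by simpa using h 0 (by simp), fun h e he => ?_⟩
  have : e = 0 := (Finsupp.degree_eq_zero_iff e).1 (by omega)
  simpa [this] using h

/-- maps out of a power series ring are determined by the constants and the variables -/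
theorem hom_ext {S : Type*} [CommRing S] (J : Ideal S) [IsHausdorff J S]
    (g g' : MvPowerSeries (Fin n) K →+* S) (hC : ∀ a, g (C a) = g' (C a))
    (hX : ∀ i, g (X i) = g' (X i)) (hJ : ∀ i, g (X i) ∈ J) : g = g' := by
  have hm : ∀ (e : Fin n →₀ ℕ) (c : K), g (monomial e c) = g' (monomial e c) := fun e c => by
    simp only [monomial_eq', map_mul, map_finsuppProd, map_pow, hC, hX]
  have h1 : ∀ (g : MvPowerSeries (Fin n) K →+* S), (∀ i, g (X i) ∈ J) → ∀ N,
      ∀ a ∈ vx K n ^ N, g a ∈ J ^ N := fun g hg N a ha => by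
    have : vx K n ≤ J.comap g := Ideal.span_le.2 (by rintro _ ⟨i, rfl⟩; exact hg i)
    exact (Ideal.pow_right_mono this N).trans (Ideal.le_comap_pow g N) ha
  ext a
  rw [← sub_eq_zero]
  refine IsHausdorff.haus (I := J) inferInstance _ fun N => ?_
  rw [SModEq.zero, smul_eq_mul, Ideal.mul_top]
  have h2 := sub_mem (h1 g hJ N _ (trunc_mem a N)) (h1 g' (fun i => hX i ▸ hJ i) N _ (trunc_mem a N))
  simpa [map_sum, hm] using h2

/-- evaluation -/
theorem ev (Λ : Type*) [CommRing Λ] [Algebra K Λ] (I : Ideal Λ)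
    (h : IsAdicComplete I Λ) (y : Fin n → Λ) (hy : ∀ i, y i ∈ I) :
    ∃ f : MvPowerSeries (Fin n) K →ₐ[K] Λ, ∀ i, f (X i) = y i := by
  let : WithIdeal Λ := ⟨I⟩
  obtain ⟨h1, h2⟩ := (IsAdic.isAdicComplete_iff (I := I) rfl).1 h
  let : UniformSpace K := ⊥
  have : DiscreteUniformity K := ⟨rfl⟩
  have : ContinuousSMul K Λ := continuousSMul_of_algebraMap K Λ continuous_of_discreteTopology
  have hy' : HasEval y := ⟨fun i => by
    suffices ∀ m : ℕ, ∃ n₀, ∀ n, n₀ ≤ n → y i ^ n ∈ I ^ m by
      simpa [IsTopologicallyNilpotent, I.hasBasis_nhds_zero_adic.tendsto_right_iff]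
    exact fun m => ⟨m, fun n hn =>
      Ideal.pow_le_pow_right hn (Ideal.pow_mem_pow (hy i) _)⟩, by simp⟩
  exact ⟨aeval hy', fun i => by rw [coe_aeval, eval₂_X]⟩

/-- the quotient by the variables -/
theorem quo : Nonempty (K ≃+* MvPowerSeries (Fin n) K ⧸ vx K n) := by
  have hs : Function.Surjective (constantCoeff (σ := Fin n) (R := K)) := fun a => ⟨C a, rfl⟩
  exact ⟨(RingHom.quotientKerEquivOfSurjective hs).symm.trans
    (Ideal.quotEquivOfEq (Ideal.ext fun a => (mem_vx a).symm))⟩

theorem map_vx {B : Type*} [CommRing B] (σ : K →+* B) :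
    (vx K n).map (MvPowerSeries.map σ) = vx B n := by
  rw [Ideal.map_span, ← Set.range_comp]
  congr 2
  funext i
  exact map_X σ i

end ord

/-- change of coefficients from a field is flat -/
theorem flat {κ B : Type u} [Field κ] [CommRing B] [IsNoetherianRing B] [IsLocalRing B] (n : ℕ)
    (σ : κ →+* B) : (MvPowerSeries.map (σ := Fin n) σ).Flat := by
  classical
  let := σ.toAlgebra
  let g2 : B →ₐ[κ] MvPowerSeries (Fin n) B := 
    { C with commutes' := fun _ => (MvPowerSeries.algebraMap_apply).symm }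
  let j : PS κ n ⊗[κ] B →ₐ[κ] MvPowerSeries (Fin n) B :=
    Algebra.TensorProduct.lift (mapAlgHom (Algebra.ofId κ B)) g2 fun _ _ => Commute.all _ _
  have hj : ∀ a b, j (a ⊗ₜ b) = MvPowerSeries.map σ a * C b := fun a b =>
    Algebra.TensorProduct.lift_tmul _ _ _ a b
  have e : j.toRingHom.comp (algebraMap (PS κ n) (PS κ n ⊗[κ] B)) = MvPowerSeries.map σ := by
    ext1 a
    change j (a ⊗ₜ 1) = _
    rw [hj, map_one, mul_one]
  have hm : ∀ (e : Fin n →₀ ℕ) (b : B), j (monomial e 1 ⊗ₜ b) = monomial e b := fun e b => by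
    rw [hj, map_monomial, map_one, mul_comm, ← smul_eq_C_mul, ← map_smul, smul_eq_mul, mul_one]
  rw [← e]
  refine lcStmt (PS κ n) (PS κ n ⊗[κ] B) _ (vx κ n) j.toRingHom ?_ (fun N b => ?_) fun N t ht => ?_
  · rw [e, map_vx, Ideal.ne_top_iff_one, mem_vx]
    simp
  · refine ⟨∑ e ∈ lo n N, monomial e 1 ⊗ₜ coeff e b, ?_⟩
    rw [e, Ideal.map_pow, map_vx]
    change b - j _ ∈ _
    simpa only [map_sum, hm] using trunc_mem b N
  · rw [e, Ideal.map_pow, map_vx, ord] at ht
    have key : ∀ t : PS κ n ⊗[κ] B, t - ∑ e ∈ lo n N, monomial e 1 ⊗ₜ coeff e (j t) ∈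
        (vx κ n ^ N).map (algebraMap (PS κ n) (PS κ n ⊗[κ] B)) := fun t => by
      induction t using TensorProduct.induction_on with
      | zero => simp
      | add x y hx hy =>
        simpa only [map_add, TensorProduct.tmul_add, sum_add_distrib, add_sub_add_comm] using
          add_mem hx hy
      | tmul a b =>
        have h1 := Ideal.mul_mem_right ((1 : PS κ n) ⊗ₜ[κ] b) _
          (Ideal.mem_map_of_mem (algebraMap (PS κ n) (PS κ n ⊗[κ] B)) (trunc_mem a N))
        rw [Algebra.TensorProduct.algebraMap_apply, Algebra.TensorProduct.tmul_mul_tmul, mul_one,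
          one_mul, Algebra.algebraMap_self_apply, TensorProduct.sub_tmul,
          TensorProduct.sum_tmul] at h1
        convert h1 using 3 with e
        rw [hj, coeff_mul_C, coeff_map, show σ (coeff e a) * b = coeff e a • b from rfl,
          ← TensorProduct.smul_tmul, ← map_smul, smul_eq_mul, mul_one]
    have h2 := key t
    rwa [sum_eq_zero fun e he => by
      rw [show coeff e (j t) = 0 from ht e (mem_lo.1 he), TensorProduct.tmul_zero], sub_zero] at h2

/-- a complete Noetherian local ring is complete for every proper ideal -/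
theorem cplLe {B : Type*} [CommRing B] [IsNoetherianRing B] [IsLocalRing B]
    (h : IsAdicComplete (maximalIdeal B) B) (I : Ideal B) (hI : I ≠ ⊤) : IsAdicComplete I B := by
  have hle : I ≤ maximalIdeal B := le_maximalIdeal hI
  have hp : ∀ n, (I ^ n • ⊤ : Submodule B B) ≤ maximalIdeal B ^ n • ⊤ := fun n =>
    Submodule.smul_mono_left (Ideal.pow_right_mono hle n)
  have h1 : IsHausdorff I B := ⟨fun x hx => h.haus x fun n => (hx n).mono (hp n)⟩
  have h2 : IsPrecomplete I B := ⟨fun f hf => by
    obtain ⟨b, hb⟩ := h.prec (f := f) fun {m n} hmn => (hf hmn).mono (hp m)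
    refine ⟨b, fun n => ?_⟩
    rw [SModEq.sub_mem, ← Submodule.Quotient.mk_eq_zero, ← Submodule.mem_bot B,
      ← Ideal.iInf_pow_smul_eq_bot_of_isLocalRing (I := maximalIdeal B)
        (maximalIdeal.isMaximal B).ne_top, Submodule.mem_iInf]
    intro k
    have e1 := (Submodule.Quotient.mk_eq_zero _).2 (SModEq.sub_mem.1 (hf (Nat.le_add_right n k)))
    have e2 := Submodule.mem_map_of_mem (f := (I ^ n • ⊤ : Submodule B B).mkQ)
      (SModEq.sub_mem.1 (hb (n + k)))
    rw [Submodule.map_smul''] at e2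
    rw [← sub_add_sub_cancel _ (f (n + k)), Submodule.Quotient.mk_add, e1, zero_add]
    exact Submodule.smul_mono (Ideal.pow_le_pow_right (Nat.le_add_left k n)) le_top e2⟩
  exact {}

/-- a common prime field -/
theorem prime {κ L S : Type u} [Field κ] [Field L] [CommRing S] [Nontrivial S] (g : κ →+* S)
    (g' : L →+* S) : ∃ (F : Type) (_ : Field F) (_ : PerfectField F),
      (∀ (Y : Type u) [CommRing Y], Subsingleton (F →+* Y)) ∧ Nonempty (F →+* κ) ∧
        Nonempty (F →+* L) := by
  obtain ⟨p, hp⟩ := CharP.exists κ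
  have h1 : CharP S p := charP_of_injective_ringHom g.injective p
  have h2 : CharP L p := g'.charP g'.injective p
  rcases CharP.char_is_prime_or_zero κ p with h | rfl
  · have : Fact p.Prime := ⟨h⟩
    exact ⟨ZMod p, inferInstance, inferInstance, fun _ _ => inferInstance,
      ⟨ZMod.castHom (dvd_refl p) κ⟩, ⟨ZMod.castHom (dvd_refl p) L⟩⟩
  · have := CharP.charP_to_charZero κ
    have := CharP.charP_to_charZero L
    exact ⟨ℚ, inferInstance, inferInstance, fun _ _ => inferInstance, ⟨algebraMap ℚ κ⟩,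
      ⟨algebraMap ℚ L⟩⟩

end Vale.Agent.P202.CoL
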