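import Vale.Agent.P202.Spec2
import Vale.Agent.P202.Co1
import Vale.Agent.P202.Fs
import Vale.Agent.P202.Tr

/-! Module CO: the twisted Cohen factorisation. -/

open Finset MvPowerSeries IsLocalRing
open scoped TensorProduct

namespace Vale.Agent.P202

universe u

namespace CoL

theorem pres {L S : Type u} [Field L] [CommRing S] [IsLocalRing S] [Algebra L S] (h : CL L S) :
    ∃ (c : ℕ) (p : PS L (c + 1) →ₐ[L] S), Function.Surjective p := by
  have := h.noeth
  have := h.cpl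
  obtain ⟨n, y, hy⟩ := Submodule.fg_iff_exists_fin_generating_family.1
    (maximalIdeal S).fg_of_isNoetherianRing
  have hy1 : ∀ i, (Fin.cons 0 y : Fin (n + 1) → S) i ∈ maximalIdeal S := fun i => by
    refine Fin.cases (zero_mem _) (fun i => ?_) i
    exact hy ▸ Submodule.subset_span ⟨i, rfl⟩
  obtain ⟨p, hp⟩ := ev (K := L) S (maximalIdeal S) h.cpl _ hy1
  have hmap : (mx L (n + 1)).map (p : PS L (n + 1) →+* S) = maximalIdeal S := by
    refine le_antisymm (Ideal.map_le_iff_le_comap.2 (Ideal.span_le.2 ?_)) ?_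
    · rintro _ ⟨i, rfl⟩
      change p (X i) ∈ maximalIdeal S
      rw [hp]; exact hy1 i
    · rw [← hy, Submodule.span_le]
      rintro _ ⟨i, rfl⟩
      have e : y i = p (X i.succ) := by rw [hp]; rfl
      rw [e]
      exact Ideal.mem_map_of_mem (p : PS L (n + 1) →+* S) (Ideal.subset_span ⟨_, rfl⟩)
  have h2 : IsHausdorff ((mx L (n + 1)).map (p : PS L (n + 1) →+* S)) S := by
    rw [hmap]; infer_instance
  refine ⟨n, p, surjective_of_mk_map_comp_surjective (I := mx L (n + 1))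
    (p : PS L (n + 1) →+* S) fun q => ?_⟩
  obtain ⟨b, rfl⟩ := Ideal.Quotient.mk_surjective q
  obtain ⟨a, ha⟩ := h.res b
  refine ⟨algebraMap L _ a, ?_⟩
  rw [RingHom.comp_apply, eq_comm, Ideal.Quotient.eq, hmap]
  simpa using ha

theorem lift {κ L S : Type u} [Field κ] [Field L] [CommRing S] [Nontrivial S] [Algebra L S]
    {c : ℕ} (p : PS L c →ₐ[L] S) (hp : Function.Surjective p) (g : κ →+* S) :
    ∃ σ : κ →+* PS L c, ∀ a, p (σ a) = g a := by
  obtain ⟨F, _, _, hF, ⟨a⟩, ⟨b⟩⟩ := prime g (algebraMap L S)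
  let := a.toAlgebra
  let : Algebra F (PS L c) := ((algebraMap L (PS L c)).comp b).toAlgebra
  have := fsStmt F κ
  have hc : IsAdicComplete (RingHom.ker (p : PS L c →+* S)) (PS L c) :=
    cplLe (by rw [EvL.max]; infer_instance) _ (RingHom.ker_ne_top _)
  let e := RingHom.quotientKerEquivOfSurjective (f := (p : PS L c →+* S)) hp
  let g' : κ →ₐ[F] PS L c ⧸ RingHom.ker (p : PS L c →+* S) :=
    { e.symm.toRingHom.comp g with
      commutes' := fun x => DFunLike.congr_fun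
        ((hF _).elim ((e.symm.toRingHom.comp g).comp a) (algebraMap F _)) x }
  obtain ⟨σ, hσ⟩ := Algebra.FormallySmooth.exists_mkₐ_comp_eq_of_isAdicComplete g'
  refine ⟨σ.toRingHom, fun x => ?_⟩
  have h1 : Ideal.Quotient.mk _ (σ x) = e.symm (g x) := DFunLike.congr_fun hσ x
  exact (congrArg e h1).trans (e.apply_symm_apply _)

theorem mid {κ L S : Type u} [Field κ] [Field L] [CommRing S] [IsLocalRing S] [Algebra L S]
    (h : CL L S) {d : ℕ} (g : PS κ (d + 1) →+* S) (hg : ∀ i, g (X i) ∈ maximalIdeal S) :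
    ∃ (c : ℕ) (φ : PS κ (d + 1) →+* PS L (d + 1 + c + 1)) (π : PS L (d + 1 + c + 1) →ₐ[L] S),
      φ.Flat ∧ φ (X 0) = X 0 ∧ (∀ i, φ (X i) ∈ mx L _) ∧ (∀ a, π (φ a) = g a) ∧
      Function.Surjective π ∧ (∀ i, π (X i) ∈ maximalIdeal S) ∧
      Nonempty (PS L (c + 1) ≃+* PS L (d + 1 + c + 1) ⧸ (mx κ (d + 1)).map φ) := by
  have := h.cpl
  obtain ⟨c, p, hp⟩ := pres h
  obtain ⟨σ, hσ⟩ := lift p hp (g.comp C)
  obtain ⟨Ξ, h1, h2⟩ := split L d c
  let : Algebra (PS L (c + 1)) S := (p : PS L (c + 1) →+* S).toAlgebra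
  obtain ⟨π', hπ⟩ := ev (K := PS L (c + 1)) S (maximalIdeal S) h.cpl _ hg
  have hC : ∀ b, π' (C b) = p b := π'.commutes
  let π : PS L (d + 1 + c + 1) →ₐ[L] S :=
    { π'.toRingHom.comp Ξ.toRingHom with
      commutes' := fun a => by
        change π' (Ξ (C a)) = _
        rw [h2, hC]
        exact p.commutes a }
  have hs : Function.Surjective π := fun s => by
    obtain ⟨b, rfl⟩ := hp s
    exact ⟨Ξ.symm (C b), by
      change π' (Ξ (Ξ.symm _)) = _
      rw [Ξ.apply_symm_apply, hC]⟩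
  have e : π'.toRingHom.comp (MvPowerSeries.map σ) = g := by
    refine hom_ext (maximalIdeal S) _ _ (fun a => ?_) (fun i => ?_) fun i => ?_
    · change π' (MvPowerSeries.map σ (C a)) = _
      rw [map_C, hC, hσ]; rfl
    · change π' (MvPowerSeries.map σ (X i)) = _
      rw [map_X, hπ]
    · change π' (MvPowerSeries.map σ (X i)) ∈ _
      rw [map_X, hπ]; exact hg i
  refine ⟨c, Ξ.symm.toRingHom.comp (MvPowerSeries.map σ), π,
    (flat _ σ).comp (RingHom.Flat.of_bijective Ξ.symm.bijective), ?_, fun i => ?_, fun a => ?_, hs,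
    fun i => ?_, ?_⟩
  · change Ξ.symm (MvPowerSeries.map σ (X 0)) = _
    rw [map_X, ← h1, Ξ.symm_apply_apply]
  · change Ξ.symm (MvPowerSeries.map σ (X i)) ∈ _
    rw [map_X, ← EvL.max, mem_maximalIdeal, mem_nonunits_iff]
    intro hu
    simpa [isUnit_iff_constantCoeff] using hu.map Ξ
  · change π' (Ξ (Ξ.symm _)) = _
    rw [Ξ.apply_symm_apply, ← e]; rfl
  · have := IsLocalHom.of_surjective (π : PS L (d + 1 + c + 1) →+* S) hs
    exact map_nonunit (π : PS L (d + 1 + c + 1) →+* S) _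
      (by rw [EvL.max]; exact Ideal.subset_span ⟨i, rfl⟩)
  · obtain ⟨q⟩ := quo (K := PS L (c + 1)) (n := d + 1)
    exact ⟨q.trans (Ideal.quotientEquiv _ _ Ξ.symm (by rw [← map_vx σ, Ideal.map_map]; rfl))⟩

theorem pow_le {T : Type*} [CommRing T] (I J : Ideal T) (c : ℕ) :
    (I ⊔ J) ^ (c + 1) ≤ I * (I ⊔ J) ^ c ⊔ J ^ (c + 1) := by
  induction c with
  | zero => simp
  | succ c ih =>
    rw [pow_succ]
    refine (Ideal.mul_mono_left ih).trans ?_
    rw [Ideal.sup_mul, mul_assoc, ← pow_succ, Ideal.mul_sup, ← pow_succ, mul_comm _ I]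
    exact sup_le le_sup_left (sup_le (le_sup_of_le_left
      (Ideal.mul_mono_right (Ideal.pow_right_mono le_sup_right _))) le_sup_right)

/-- the closed fibre of a base change -/
theorem fib {κ A' R : Type u} [Field κ] {d : ℕ} [CommRing A'] [CommRing R] [Algebra (PS κ d) A']
    [Algebra (PS κ d) R] [Algebra κ R] [IsScalarTower κ (PS κ d) R] {m : Ideal R} {c0 : ℕ}
    (h : Red κ d m c0) :
    (∀ t : A' ⊗[PS κ d] R, ∃ a : A', t - a ⊗ₜ 1 ∈
      m.map (Algebra.TensorProduct.includeRight (R := PS κ d) (A := A')).toRingHom) ∧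
    Nonempty ((A' ⧸ (mx κ d).map (algebraMap (PS κ d) A')) ≃+* (A' ⊗[PS κ d] R) ⧸
      m.map (Algebra.TensorProduct.includeRight (R := PS κ d) (A := A')).toRingHom) := by
  set J := m.map (Algebra.TensorProduct.includeRight (R := PS κ d) (A := A')).toRingHom
  have hJ : ∀ (a : A') b, b ∈ m → a ⊗ₜ[PS κ d] b ∈ J := fun a b hb => by
    have := Ideal.mul_mem_left J (a ⊗ₜ 1) (Ideal.mem_map_of_mem _ hb)
    simpa using this
  have h1 : ∀ t : A' ⊗[PS κ d] R, ∃ a : A', t - a ⊗ₜ 1 ∈ J := fun t => by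
    induction t using TensorProduct.induction_on with
    | zero => exact ⟨0, by simp⟩
    | add x y hx hy =>
      obtain ⟨a, ha⟩ := hx
      obtain ⟨b, hb⟩ := hy
      exact ⟨a + b, by rw [TensorProduct.add_tmul, add_sub_add_comm]; exact add_mem ha hb⟩
    | tmul a b =>
      obtain ⟨k, hk⟩ := h.res b
      refine ⟨algebraMap κ (PS κ d) k • a, ?_⟩
      rw [TensorProduct.smul_tmul, ← Algebra.algebraMap_eq_smul_one,
        ← IsScalarTower.algebraMap_apply, ← TensorProduct.tmul_sub]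
      exact hJ _ _ hk
  have hm : ∀ a ∈ mx κ d, algebraMap (PS κ d) R a ∈ m := fun a ha =>
    (Ideal.span_le (I := m.comap (algebraMap (PS κ d) R))).2
      (by rintro _ ⟨i, rfl⟩; exact h.x i) ha
  have : Nontrivial (R ⧸ m) := Ideal.Quotient.nontrivial_iff.2 h.ne
  let e : κ ≃+* R ⧸ m := RingEquiv.ofBijective (algebraMap κ (R ⧸ m))
    ⟨RingHom.injective _, fun q => by
      obtain ⟨b, rfl⟩ := Ideal.Quotient.mk_surjective q
      obtain ⟨k, hk⟩ := h.res b
      exact ⟨k, (Ideal.Quotient.eq.2 hk).symm⟩⟩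
  set I := (mx κ d).map (algebraMap (PS κ d) A')
  let ν2 : R →ₐ[PS κ d] A' ⧸ I :=
    { (algebraMap (PS κ d) (A' ⧸ I)).comp ((algebraMap κ (PS κ d)).comp
        (e.symm.toRingHom.comp (Ideal.Quotient.mk m))) with
      commutes' := fun a => by
        have e1 := Tr.ps_res (EvL.max κ d) a
        have e2 : Ideal.Quotient.mk m (algebraMap _ R a) = e (constantCoeff a) := by
          have := hm _ e1
          rw [map_sub, ← IsScalarTower.algebraMap_apply] at this
          exact Ideal.Quotient.eq.2 this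
        change algebraMap (PS κ d) (A' ⧸ I) (algebraMap κ _
          (e.symm (Ideal.Quotient.mk m (algebraMap _ R a)))) = _
        rw [e2, e.symm_apply_apply]
        have := Ideal.mem_map_of_mem (algebraMap (PS κ d) A') e1
        rw [map_sub] at this
        exact (Ideal.Quotient.eq.2 this).symm }
  let ν : A' ⊗[PS κ d] R →ₐ[PS κ d] A' ⧸ I :=
    Algebra.TensorProduct.lift (Ideal.Quotient.mkₐ _ I) ν2 fun _ _ => Commute.all _ _
  have hν : ∀ t ∈ J, ν t = 0 := fun t ht => by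
    refine (Ideal.map_le_iff_le_comap (K := RingHom.ker ν.toRingHom)).2 (fun b hb => ?_) ht
    change ν (1 ⊗ₜ b) = 0
    rw [Algebra.TensorProduct.lift_tmul, map_one, one_mul]
    change algebraMap (PS κ d) (A' ⧸ I) (algebraMap κ _ (e.symm (Ideal.Quotient.mk m b))) = 0
    rw [Ideal.Quotient.eq_zero_iff_mem.2 hb, map_zero, map_zero, map_zero]
  let ψ : A' →+* (A' ⊗[PS κ d] R) ⧸ J := (Ideal.Quotient.mk J).comp (algebraMap _ _)
  have hψ : Function.Surjective ψ := fun q => by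
    obtain ⟨t, rfl⟩ := Ideal.Quotient.mk_surjective q
    obtain ⟨a, ha⟩ := h1 t
    exact ⟨a, (Ideal.Quotient.eq.2 ha).symm⟩
  refine ⟨h1, ⟨(Ideal.quotEquivOfEq (le_antisymm ?_ fun a ha => ?_)).trans
    (RingHom.quotientKerEquivOfSurjective hψ)⟩⟩
  · refine Ideal.map_le_iff_le_comap.2 fun a ha => Ideal.Quotient.eq_zero_iff_mem.2 ?_
    change algebraMap (PS κ d) A' a ⊗ₜ[PS κ d] (1 : R) ∈ J
    rw [Algebra.algebraMap_eq_smul_one, TensorProduct.smul_tmul, ← Algebra.algebraMap_eq_smul_one]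
    exact hJ _ _ (hm a ha)
  · have := hν (a ⊗ₜ 1) (Ideal.Quotient.eq_zero_iff_mem.1 ha)
    rw [Algebra.TensorProduct.lift_tmul, map_one, mul_one] at this
    exact Ideal.Quotient.eq_zero_iff_mem.1 this

end CoL

open CoL

theorem coStmt : CoStmt.{u} := by
  intro κ L R S _ _ d _ _ _ _ _ m c0 _ _ _ f _ hR hS hf
  obtain ⟨c, φ, π, h1, h2, h3, h4, h5, h6, ⟨q⟩⟩ :=
    mid hS (f.comp (algebraMap (PS κ (d + 1)) R)) fun i => hf _ (hR.x i)
  let := φ.toAlgebra
  obtain ⟨k1, ⟨q'⟩⟩ := fib (A' := PS L (d + 1 + c + 1)) hR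
  let : Algebra R (PS L (d + 1 + c + 1) ⊗[PS κ (d + 1)] R) := Algebra.TensorProduct.rightAlgebra
  let : Algebra (PS κ (d + 1)) S := (f.comp (algebraMap (PS κ (d + 1)) R)).toAlgebra
  let π' : PS L (d + 1 + c + 1) →ₐ[PS κ (d + 1)] S := { π.toRingHom with commutes' := h4 }
  let f' : R →ₐ[PS κ (d + 1)] S := { f with commutes' := fun _ => rfl }
  let μ' := Algebra.TensorProduct.lift π' f' fun _ _ => Commute.all _ _
  have hμ : ∀ a b, μ' (a ⊗ₜ b) = π a * f b := fun a b => Algebra.TensorProduct.lift_tmul _ _ _ a b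
  let μ : PS L (d + 1 + c + 1) ⊗[PS κ (d + 1)] R →ₐ[L] S :=
    { μ'.toRingHom with
      commutes' := fun a => by
        change μ' (algebraMap L _ a ⊗ₜ 1) = _
        rw [hμ, map_one, mul_one, π.commutes] }
  have m1 : ∀ a, μ (algebraMap (PS L (d + 1 + c + 1)) _ a) = π a := fun a => by
    change μ' (a ⊗ₜ 1) = _
    rw [hμ, map_one, mul_one]
  have m2 : ∀ b, μ (algebraMap R _ b) = f b := fun b => by
    change μ' (1 ⊗ₜ b) = _
    rw [hμ, map_one, one_mul]
  refine ⟨c, d + 1 + c, PS L (d + 1 + c + 1) ⊗[PS κ (d + 1)] R, inferInstance, _, inferInstance,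
    inferInstance, _, inferInstance, inferInstance, Algebra.TensorProduct.right_isScalarTower,
    inferInstance, μ, rfl, TensorProduct.isPushout, h1, h2, ?_, m2,
    fun s => (h5 s).imp fun a ha => (m1 a).trans ha, ⟨q.trans q'⟩⟩
  have : Nontrivial (PS L (d + 1 + c + 1) ⊗[PS κ (d + 1)] R) := μ.toRingHom.domain_nontrivial
  set I := (mx L (d + 1 + c + 1)).map (algebraMap _ (PS L (d + 1 + c + 1) ⊗[PS κ (d + 1)] R))
  set J := m.map (algebraMap R (PS L (d + 1 + c + 1) ⊗[PS κ (d + 1)] R))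
  have hI : I ≤ (maximalIdeal S).comap μ := by
    refine Ideal.map_le_iff_le_comap.2 (Ideal.span_le.2 ?_)
    rintro _ ⟨i, rfl⟩
    change μ _ ∈ maximalIdeal S
    rw [m1]; exact h6 i
  have hJ : J ≤ (maximalIdeal S).comap μ := Ideal.map_le_iff_le_comap.2 fun b hb => by
    change μ _ ∈ maximalIdeal S
    rw [m2]; exact hf b hb
  have hn : (maximalIdeal S).comap μ = I ⊔ J := by
    refine le_antisymm (fun t ht => ?_) (sup_le hI hJ)
    obtain ⟨a, ha⟩ := k1 t
    have e1 : μ (algebraMap (PS L (d + 1 + c + 1)) _ a) ∈ maximalIdeal S := by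
      have := sub_mem ht (hJ ha)
      rwa [sub_sub_cancel] at this
    have e2 : a ∈ mx L (d + 1 + c + 1) := by
      rw [← EvL.max]
      exact fun hu => e1 ((hu.map _).map μ)
    have := add_mem (Ideal.mem_sup_right (S := I) ha)
      (Ideal.mem_sup_left (T := J) (Ideal.mem_map_of_mem _ e2))
    rwa [show algebraMap _ _ a = a ⊗ₜ[PS κ (d + 1)] (1 : R) from rfl, sub_add_cancel] at this
  refine Tr.mkRed (EvL.max L _) _ c0 Set.univ Submodule.span_univ
    (fun t _ => (k1 t).imp fun a ha => hJ ha)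
    (fun j => hI (Ideal.mem_map_of_mem _ (Ideal.subset_span ⟨j, rfl⟩))) ?_
  rw [hn]
  refine (pow_le I J c0).trans (sup_le le_rfl ?_)
  rw [← Ideal.map_pow]
  refine (Ideal.map_mono hR.red).trans ?_
  rw [Ideal.map_mul, Ideal.map_pow, Ideal.map_map, ← IsScalarTower.algebraMap_eq,
    IsScalarTower.algebraMap_eq _ (PS L (d + 1 + c + 1)), ← Ideal.map_map]
  refine Ideal.mul_mono (Ideal.map_mono (Ideal.map_le_iff_le_comap.2 (Ideal.span_le.2 ?_)))
    (Ideal.pow_right_mono le_sup_right _)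
  rintro _ ⟨i, rfl⟩
  exact h3 i

end Vale.Agent.P202
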