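import Vale.Agent.P202.DomB1
import Vale.Agent.P202.Min

/-! The inequality for a quotient of finite projective dimension. -/

open Finset Matrix MvPowerSeries Filter Topology IsLocalRing
open scoped Kronecker Nat

namespace Vale.Agent.P202

universe u

namespace Db

variable {L : Type u} [Field L] {r d c : ℕ} {T : Type u} [CommRing T] [Algebra (PS L (r + 1)) T]
  {J : Ideal T} {ι : Type} [Fintype ι] [DecidableEq ι] {deg : ι → ℕ} {dF : Matrix ι ι T} {i0 : ι}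
  (R : Rs J c deg dF i0) (y : Fin d → T) {t E : ℕ} {κ : Type} [Fintype κ] [DecidableEq κ]
  {Φ : T →+ Matrix κ κ (PS L (r + 1))} {δ : PS L (r + 1)} {q : ℕ} (h : Ph δ q Φ)

/-- the transported Koszul matrices -/
noncomputable abbrev Yt (Φ : T →+ Matrix κ κ (PS L (r + 1))) (ι : Type) [DecidableEq ι] (y : Fin d → T)
    (l : Fin d) : Matrix (ι × κ) (ι × κ) (PS L (r + 1)) :=
  bl Φ (Equiv.refl _) (Equiv.refl _) (y l • 1)

include R h

theorem key {b : T} (hb : b ∈ J ⊔ Ideal.span (Set.range fun l => y l ^ (t + 1))) :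
    ∃ (a : Fin d → T) (H : Matrix ι ι T), Gr deg deg 1 H ∧
      ∑ l, bl Φ (Equiv.refl _) (Equiv.refl _) (a l • 1) * Yt Φ ι y l ^ (t + 1) +
        (bl Φ (Equiv.refl _) (Equiv.refl _) dF * δ ^ t • bl Φ (Equiv.refl _) (Equiv.refl _) H +
        δ ^ t • bl Φ (Equiv.refl _) (Equiv.refl _) H * bl Φ (Equiv.refl _) (Equiv.refl _) dF) =
      δ ^ (t + 1) • bl Φ (Equiv.refl _) (Equiv.refl _) (b • 1) := by
  obtain ⟨a, H, h1, h2⟩ := dec R _ hb
  refine ⟨a, H, h1, ?_⟩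
  rw [← h2, bl_add, bl_add, bl_sum, smul_add, smul_add, smul_sum, Matrix.mul_smul,
    Matrix.smul_mul, bl_mul _ _ _ h, bl_mul _ _ _ h, smul_smul, smul_smul, ← pow_succ]
  congr 1
  refine sum_congr rfl fun l _ => ?_
  rw [bl_pow _ h, Matrix.mul_smul, bl_mul _ _ _ h, smul_smul, ← pow_succ, smul_pow, one_pow]

theorem com (hd : d + c ≤ r + 1) (hX : ∀ j, algebraMap (PS L (r + 1)) T (X j ^ E) ∈
    J ⊔ Ideal.span (Set.range fun l => y l ^ (t + 1))) {o : κ → ℕ} (hb : ∀ b, Bt o (Φ b)) :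
    ComC (δ ^ (t + 3)) (E * q) (t + 1) (fun x : ι × κ => o x.2) (fun x => deg x.1) (Yt Φ ι y)
      (bl Φ (Equiv.refl _) (Equiv.refl _) dF) := by
  have g0 : ∀ a : T, Gr (fun x : ι × κ => deg x.1) (fun x : ι × κ => deg x.1) 0
      (bl Φ (Equiv.refl _) (Equiv.refl _) (a • 1)) := fun a => bl_gr _ _ _ (Gr.one.smul a)
  refine ⟨fun a => by have := R.le a.1; omega, fun l => g0 _, bl_gr _ _ _ R.gr,
    fun l => bl_bt _ _ hb _, bl_bt _ _ hb _, by rw [bl_mul _ _ _ h, R.dd, bl_zero, smul_zero],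
    fun i j => bl_comm _ h (sc_comm _ _), fun i => bl_comm _ h (sc_comm _ _), fun j => ?_⟩
  obtain ⟨a, H, h1, h2⟩ := key R y h (hX j)
  refine ⟨fun l => δ • bl Φ (Equiv.refl _) (Equiv.refl _) (a l • 1),
    δ • δ ^ t • bl Φ (Equiv.refl _) (Equiv.refl _) H, fun l => (g0 _).smul _,
    ((bl_gr _ _ _ h1).smul _).smul _, fun l => (bl_bt _ _ hb _).smul _,
    ((bl_bt _ _ hb _).smul _).smul _, fun l l' => (bl_comm _ h (sc_comm _ _)).smul_left _,
    fun l => (bl_comm _ h (sc_comm _ _)).smul_left _,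
    fun l => ((bl_comm _ h (sc_comm _ _).symm).smul_left _).smul_left _, ?_⟩
  rw [pow_mul, ← bl_nul (Equiv.refl (ι × κ)) h, pow_succ' δ (t + 1), ← smul_smul, ← h2]
  simp only [Matrix.smul_mul, Matrix.mul_smul, smul_add, smul_sum]

theorem gd (hd : d + c ≤ r + 1) (hX : ∀ j, algebraMap (PS L (r + 1)) T (X j ^ E) ∈
    J ⊔ Ideal.span (Set.range fun l => y l ^ (t + 1))) {ι' : Type} [Fintype ι'] [DecidableEq ι']
    {deg' : ι' → ℕ} {D : Matrix ι' ι' T} {P : Matrix (Finset (Fin d) × ι) ι' T}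
    {Q : Matrix ι' (Finset (Fin d) × ι) T} (h1 : Gr deg' deg' (-1) D) (h2 : D * D = 0)
    (h3 : ∀ i', ∃ i : Finset (Fin d) × ι, deg' i' = kc deg i) (hP : Gr deg' (kc deg) 0 P)
    (hQ : Gr (kc deg) deg' 0 Q) (h4 : KosC (fun l => y l • 1) dF * P = P * D)
    (h5 : D * Q = Q * KosC (fun l => y l • 1) dF) (h6 : Q * P = 1) :
    Gd (δ ^ (t + 3)) (E * q) (fun x : ι' × κ => deg' x.1)
      (bl Φ (Equiv.refl _) (Equiv.refl _) D) := by
  refine ⟨bl_gr _ _ _ h1, by rw [bl_mul _ _ _ h, h2, bl_zero, smul_zero], fun x => ?_, fun j => ?_⟩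
  · obtain ⟨i, hi⟩ := h3 x.1
    have := R.le i.2
    have := card_le_univ i.1
    simp only [kc, Fintype.card_fin] at *
    omega
  obtain ⟨a, H, g1, g2⟩ := dec R _ (hX j)
  have g3 := kosC_nul (fun l => y l • (1 : Matrix ι ι T)) (fun l => (a l * y l ^ t) • 1) dF H
    (fun _ _ => sc_comm _ _) (fun _ => sc_comm _ _) fun _ => (sc_comm _ _).symm
  have g4 : Gr (kc deg) (kc deg) 1 (∑ l, ep T l ⊗ₖ ((a l * y l ^ t) • (1 : Matrix ι ι T)) +
      sgn T (Fin d) ⊗ₖ H) := (Gr.sum univ fun l _ => (gr_ep' l).kron (Gr.one.smul _) (by simp)).add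
    (gr_sgn.kron g1 (by simp))
  rw [show ∑ l, (a l * y l ^ t) • (1 : Matrix ι ι T) * y l • 1 = ∑ l, a l • 1 * y l ^ (t + 1) • 1 by
    simp [smul_smul, pow_succ, mul_comm, mul_left_comm], g2, kronecker_smul, one_kronecker_one] at g3
  generalize ∑ l, ep T l ⊗ₖ ((a l * y l ^ t) • (1 : Matrix ι ι T)) + sgn T (Fin d) ⊗ₖ H = H' at *
  refine ⟨δ ^ (t + 1) • bl Φ (Equiv.refl _) (Equiv.refl _) (Q * H' * P),
    (bl_gr _ _ _ ((hQ.mul g4 (c := 1) (by simp)).mul hP (by simp))).smul _, ?_⟩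
  have : D * (Q * H' * P) + Q * H' * P * D = algebraMap (PS L (r + 1)) T (X j ^ E) • 1 := by
    rw [← h6, ← Matrix.smul_mul, ← Matrix.mul_one Q, ← Matrix.mul_smul, ← g3, Matrix.mul_one,
      Matrix.mul_add, Matrix.add_mul, ← Matrix.mul_assoc, ← Matrix.mul_assoc, h5]
    simp only [Matrix.mul_assoc, h4]
  rw [Matrix.mul_smul, Matrix.smul_mul, bl_mul _ _ _ h, bl_mul _ _ _ h, ← smul_add, ← smul_add,
    ← bl_add, this, smul_smul, ← pow_succ, bl_nul _ h, pow_mul]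

omit R h in
/-- boundaries in degree zero -/
noncomputable def VV (K : Matrix (Finset (Fin d) × ι × κ) (Finset (Fin d) × ι × κ) (PS L (r + 1)))
    (i0 : ι) : Submodule (PS L (r + 1)) (κ → PS L (r + 1)) :=
  (LinearMap.range K.mulVecLin).map (LinearMap.funLeft _ _ fun a => (∅, i0, a))

omit R h in
theorem vv_mem {Y : Fin d → Matrix (ι × κ) (ι × κ) (PS L (r + 1))}
    {D : Matrix (ι × κ) (ι × κ) (PS L (r + 1))} (u : Fin d → ι × κ → PS L (r + 1))
    (w : ι × κ → PS L (r + 1)) {v : κ → PS L (r + 1)}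
    (hv : ∀ x, ∑ l, (Y l *ᵥ u l) (i0, x) + (D *ᵥ w) (i0, x) = v x) : v ∈ VV (KosC Y D) i0 :=
  ⟨_, ⟨_, rfl⟩, funext fun x => (kosC_zero Y D u w (i0, x)).trans (hv x)⟩

omit h in
theorem toBd {K : Matrix (Finset (Fin d) × ι × κ) (Finset (Fin d) × ι × κ) (PS L (r + 1))}
    {v : κ → PS L (r + 1)} (hv : v ∈ VV K i0) :
    ∃ w, ∀ i, kc (fun x : ι × κ => deg x.1) i = 0 → i = (∅, i0, i.2.2) ∧ v i.2.2 = (K *ᵥ w) i := by
  obtain ⟨_, ⟨w, rfl⟩, rfl⟩ := hv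
  refine ⟨w, fun ⟨I, i, a⟩ hi => ?_⟩
  simp only [kc, Nat.add_eq_zero_iff, card_eq_zero, R.zero] at hi
  obtain ⟨rfl, rfl⟩ := hi
  exact ⟨rfl, rfl⟩

theorem bnd {b : T} (hb : b ∈ J ⊔ Ideal.span (Set.range fun l => y l ^ (t + 1)))
    (w : κ → PS L (r + 1)) : δ ^ (t + 1) • Φ b *ᵥ w ∈
      VV (KosC (fun l => Yt Φ ι y l ^ (t + 1)) (bl Φ (Equiv.refl _) (Equiv.refl _) dF)) i0 := by
  obtain ⟨a, H, h1, h2⟩ := key R y h hb
  let w' : ι × κ → PS L (r + 1) := fun x => if x.1 = i0 then w x.2 else 0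
  have hw : ∀ (M : Matrix ι ι T) x, (bl Φ (Equiv.refl _) (Equiv.refl _) M *ᵥ w') (i0, x) =
      (Φ (M i0 i0) *ᵥ w) x := fun M x => by
    simp [mulVec, dotProduct, Fintype.sum_prod_type, bl, w']
  have h0 : (H * dF) i0 i0 = 0 := sum_eq_zero fun i _ => by
    by_cases e : H i0 i = 0
    · simp [e]
    · have := h1 _ _ e
      rw [(R.zero i0).2 rfl] at this
      omega
  refine vv_mem (fun l => bl Φ (Equiv.refl _) (Equiv.refl _) (a l • 1) *ᵥ w')
    ((δ ^ t • bl Φ (Equiv.refl _) (Equiv.refl _) H) *ᵥ w') fun x => ?_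
  have e : ∀ l, Yt Φ ι y l ^ (t + 1) * bl Φ (Equiv.refl _) (Equiv.refl _) (a l • 1) =
      bl Φ (Equiv.refl _) (Equiv.refl _) (a l • 1) * Yt Φ ι y l ^ (t + 1) := fun l =>
    ((bl_comm _ h (sc_comm (a l) (y l • 1))).pow_right _).eq.symm
  have := congrFun (congrArg (· *ᵥ w') h2) (i0, x)
  rw [add_mulVec, add_mulVec, Matrix.smul_mul, bl_mul _ _ _ h H, Matrix.sum_mulVec, smul_mulVec,
    smul_mulVec, smul_mulVec] at this
  simp only [Pi.add_apply, Finset.sum_apply, Pi.smul_apply, hw, h0, map_zero, zero_mulVec,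
    Pi.zero_apply, add_zero, mul_zero, Matrix.smul_apply, one_apply_eq, smul_eq_mul, mul_one] at this
  simp only [mulVec_mulVec, Pi.smul_apply, smul_eq_mul, ← this, e]

theorem bd1 {N1 : Submodule (PS L (r + 1)) (κ → PS L (r + 1))} (n2 : ∀ v ∈ N1, δ ^ 2 • v ∈
    ⨆ b ∈ J ⊔ Ideal.span (Set.range fun l => y l ^ (t + 1)), LinearMap.range (Φ b).mulVecLin) :
    Bd (δ ^ (t + 3)) (kc fun x : ι × κ => deg x.1)
      (KosC (fun l => Yt Φ ι y l ^ (t + 1)) (bl Φ (Equiv.refl _) (Equiv.refl _) dF))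
      (N1.comap (LinearMap.funLeft _ _ fun a => (∅, i0, a))) := fun v hv => by
  have : δ ^ (t + 1) • δ ^ 2 • (fun a => v (∅, i0, a)) ∈ VV (KosC (fun l => Yt Φ ι y l ^ (t + 1))
      (bl Φ (Equiv.refl _) (Equiv.refl _) dF)) i0 := by
    refine Submodule.mem_comap.1 ((show (⨆ b ∈ J ⊔ Ideal.span (Set.range fun l => y l ^ (t + 1)),
      LinearMap.range (Φ b).mulVecLin) ≤ Submodule.comap (δ ^ (t + 1) • LinearMap.id) _ from
      iSup₂_le fun b hb => ?_) (n2 _ hv))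
    rintro _ ⟨w, rfl⟩
    exact bnd R y h hb w
  obtain ⟨w, hw⟩ := toBd R this
  refine ⟨w, fun i hi => ?_⟩
  rw [← (hw i hi).2, (hw i hi).1]
  simp only [Pi.smul_apply, smul_eq_mul]; ring

theorem bd2 {a : PS L (r + 1)} (ha : a ∈ Submodule.span L ((· ^ q) ''
    ((J ⊔ Ideal.span (Set.range fun l => y l ^ (t + 1))).comap (algebraMap (PS L (r + 1)) T))))
    (i1 : Finset (Fin d) × ι × κ) (h1 : kc (fun x : ι × κ => deg x.1) i1 = 0) :
    ∃ w, ∀ i, kc (fun x : ι × κ => deg x.1) i = 0 → (if i = i1 then δ ^ (t + 3) * a else 0) =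
      (KosC (fun l => Yt Φ ι y l ^ (t + 1)) (bl Φ (Equiv.refl _) (Equiv.refl _) dF) *ᵥ w) i := by
  have : (δ ^ (t + 3) * a) • Pi.single i1.2.2 (1 : PS L (r + 1)) ∈
      VV (KosC (fun l => Yt Φ ι y l ^ (t + 1)) (bl Φ (Equiv.refl _) (Equiv.refl _) dF)) i0 := by
    induction ha using Submodule.span_induction with
    | mem _ g =>
      obtain ⟨a, ha, rfl⟩ := g
      have := bnd R y h (show algebraMap _ T a * 1 ∈ _ by rw [mul_one]; exact ha)
        (δ • Pi.single i1.2.2 1)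
      rw [h.sc, h.one, smul_smul, smul_mulVec, one_mulVec, smul_smul, smul_smul] at this
      rwa [show δ ^ (t + 3) * a ^ q = δ ^ (t + 1) * (a ^ q * δ) * δ by ring]
    | zero => simp
    | add a b _ _ ha hb => rw [mul_add, add_smul]; exact add_mem ha hb
    | smul z a _ ha =>
      rw [Algebra.smul_def z, mul_left_comm, mul_smul]; exact Submodule.smul_mem _ _ ha
  obtain ⟨w, hw⟩ := toBd R this
  refine ⟨w, fun i hi => ?_⟩
  rw [← (hw i hi).2, (hw i hi).1, (hw i1 h1).1]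
  simp [Pi.single_apply]

omit h in
theorem exz {m : Ideal T} (hm : m ≠ ⊤) (hJ : J ≤ m) (hy : ∀ l, y l ∈ m) {ι' : Type} [Fintype ι']
    {deg' : ι' → ℕ} {P : Matrix (Finset (Fin d) × ι) ι' T} {Q : Matrix ι' (Finset (Fin d) × ι) T}
    {H : Matrix (Finset (Fin d) × ι) (Finset (Fin d) × ι) T} (m6 : Gr deg' (kc deg) 0 P)
    (m8 : Gr (kc deg) (kc deg) 1 H) (m12 : P * Q + (KosC (fun l => y l • 1) dF * H +
      H * KosC (fun l => y l • 1) dF) = 1) : ∃ j0, deg' j0 = 0 := by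
  by_contra hne
  have k0 : kc deg ((∅, i0) : Finset (Fin d) × ι) = 0 := by simp [kc, R.zero]
  have e := congrFun (congrFun m12 (∅, i0)) (∅, i0)
  have e1 : (P * Q) (∅, i0) (∅, i0) = 0 := sum_eq_zero fun j _ => by
    by_cases z : P (∅, i0) j = 0
    · simp [z]
    · exact absurd ⟨j, by have := m6 _ _ z; omega⟩ hne
  have e2 : (H * KosC (fun l => y l • 1) dF) (∅, i0) (∅, i0) = 0 := sum_eq_zero fun j _ => by
    by_cases z : H (∅, i0) j = 0
    · simp [z]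
    · have := m8 _ _ z; omega
  rw [Matrix.add_apply, Matrix.add_apply, e1, e2, zero_add, add_zero, one_apply_eq] at e
  refine hm ((Ideal.eq_top_iff_one m).2 (e ▸ m.sum_mem fun j _ => m.mul_mem_right _ ?_))
  simp only [KosC, Kos, Matrix.add_apply, Matrix.sum_apply, kroneckerMap_apply, Matrix.smul_apply,
    smul_eq_mul]
  exact m.add_mem (m.sum_mem fun l _ => m.mul_mem_left _ (m.mul_mem_right _ (hy l)))
    (m.mul_mem_left _ (hJ (R.ent _)))

omit R h in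
theorem powX {x : T} {N : ℕ} (hN : x ^ N ∈ J ⊔ Ideal.span (Set.range y)) :
    x ^ (N * (d * t + 1)) ∈ J ⊔ Ideal.span (Set.range fun l => y l ^ (t + 1)) := by
  obtain ⟨z, hz, w, hw, e⟩ := Submodule.mem_sup.1 hN
  obtain ⟨a, ha⟩ := F2.gen_pow y hw t
  rw [Fintype.card_fin] at ha
  obtain ⟨b, hb⟩ := sub_dvd_pow_sub_pow (z + w) w (d * t + 1)
  rw [pow_mul, ← e, sub_eq_iff_eq_add.1 hb, add_sub_cancel_right, ← ha]
  exact Submodule.add_mem_sup (J.mul_mem_right _ hz)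
    (Ideal.mem_span_range_iff_exists_fun.2 ⟨a, rfl⟩)

omit R h in
theorem clc [Algebra L T] [IsScalarTower L (PS L (r + 1)) T] {I : Ideal T} (hI : J ≤ I)
    (hs : ∀ b, ∃ a, b - algebraMap (PS L (r + 1)) T a ∈ J) (g : PS L (r + 1)) :
    cl L (I.comap (algebraMap (PS L (r + 1)) T) ⊔ Ideal.span {g}) ≤
      cl L (I ⊔ Ideal.span {algebraMap (PS L (r + 1)) T g}) := by
  rw [cl_eq, cl_eq]
  refine rl_le_of_comap (IsScalarTower.toAlgHom L (PS L (r + 1)) T).toLinearMap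
    (fun a _ ha => ?_) fun _ _ => Submodule.mem_sup_right trivial
  obtain ⟨b, hb, _, hw, e⟩ := Submodule.mem_sup.1 ha
  obtain ⟨w, rfl⟩ := Ideal.mem_span_singleton'.1 hw
  obtain ⟨a', ha'⟩ := hs w
  refine Submodule.mem_sup.2 ⟨a - a' * g, ?_, _, Ideal.mem_span_singleton'.2 ⟨a', rfl⟩, by simp⟩
  change algebraMap _ T _ ∈ I
  have e' : algebraMap (PS L (r + 1)) T a = _ := e.symm
  rw [map_sub, map_mul, e', add_sub_assoc, ← sub_mul]
  exact I.add_mem hb (I.mul_mem_right _ (hI ha'))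

omit R h in
theorem arith {p e h s c0 t d ρ z r lam lam' C1 C2 n o N : ℕ} (hp : 0 < p) (he : s + c0 = p ^ e)
    (h5 : ρ ≤ z) (main : (p ^ e) ^ h * (t + 1) ^ d * z * s ^ (r + 1) ≤
      (p ^ e) ^ (r + 1 + h) * (lam + C1 * lam') + C2 * (p ^ e) ^ h * n *
      ((o + 1) * ((t + 1) ^ d + Nat.clog 2 ((p ^ e) ^ h)) * (N * p ^ e + s + 1) ^ r +
        (s + p ^ e) ^ (r + 1) * (lam' + 1))) :
    (t + 1) ^ d * ρ * s ^ (r + 1) ≤ (lam + C1 * lam' + C2 * n * 2 ^ (r + 1) * (lam' + 1)) *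
      (s + c0) ^ (r + 1) + C2 * n * (o + 1) * ((t + 1) ^ d + h * p) * (N + 2) ^ r * (e + 1) *
      (s + c0) ^ r := by
  have hq : 0 < p ^ e := pow_pos hp e
  have cg : Nat.clog 2 ((p ^ e) ^ h) ≤ h * p * (e + 1) := by
    refine (Nat.clog_le_iff_le_pow one_lt_two).2 ?_
    calc (p ^ e) ^ h ≤ ((2 ^ p) ^ e) ^ h := by gcongr; exact Nat.lt_two_pow_self.le
      _ ≤ _ := by
        rw [← pow_mul, ← pow_mul]
        exact Nat.pow_le_pow_right two_pos (by nlinarith [Nat.zero_le (h * p)])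
  rw [← he] at main cg hq
  have a1 : (N * (s + c0) + s + 1) ^ r ≤ (N + 2) ^ r * (s + c0) ^ r := by
    rw [← mul_pow]; exact Nat.pow_le_pow_left (by nlinarith) _
  have a2 : (s + (s + c0)) ^ (r + 1) ≤ 2 ^ (r + 1) * (s + c0) ^ (r + 1) := by
    rw [← mul_pow]; exact Nat.pow_le_pow_left (by omega) _
  have a3 : (t + 1) ^ d + Nat.clog 2 ((s + c0) ^ h) ≤ ((t + 1) ^ d + h * p) * (e + 1) := by
    nlinarith [Nat.zero_le ((t + 1) ^ d * e)]
  refine Nat.le_of_mul_le_mul_left ?_ (pow_pos hq h)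
  calc _ = (s + c0) ^ h * (t + 1) ^ d * ρ * s ^ (r + 1) := by ring
    _ ≤ _ := by gcongr
    _ ≤ _ := main
    _ ≤ (s + c0) ^ (r + 1 + h) * (lam + C1 * lam') + C2 * (s + c0) ^ h * n *
        ((o + 1) * (((t + 1) ^ d + h * p) * (e + 1)) * ((N + 2) ^ r * (s + c0) ^ r) +
          2 ^ (r + 1) * (s + c0) ^ (r + 1) * (lam' + 1)) := by gcongr
    _ = _ := by ring

end Db

open Db in
theorem domBStmt (hP : PhStmt.{u}) (hC : CoreBStmt.{u}) : DomBStmt.{u} := by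
  intro L _ _ p hp _ r d c T _ _ _ _ m c0 ρ δ J ι _ _ deg dF i0 y N hd hdc hR hδ hT R hJ hy hN hs
  obtain ⟨h, C1, hΦ⟩ := hP L p (r + 1) T m c0 ρ δ hR hδ hT
  obtain ⟨C2, hC2⟩ := hC L r
  have : Nonempty (Fin d) := ⟨⟨0, hd⟩⟩
  have gk : Gr (kc deg) (kc deg) (-1) (KosC (fun l => y l • 1) dF) :=
    kosC_gr (fun l => Gr.one.smul _) R.gr
  obtain ⟨ι', _, _, deg', D, P, Q, H, m1, m2, m3, m4, m5, m6, m7, m8, m9, m10, m11, m12⟩ :=
    minStmt T m hR.unit _ _ _ gk (kosC_sq (fun _ _ => sc_comm _ _) (fun _ => sc_comm _ _) R.dd)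
  obtain ⟨j0, hj⟩ := exz R y hR.ne hJ hy m6 m8 ((add_assoc _ _ _).symm.trans m12)
  obtain ⟨c1, hc1⟩ : ∃ c1, c1 = C2 * (Fintype.card (ι' × Fin ρ) + 2 ^ d * Fintype.card (ι × Fin ρ)) :=
    ⟨_, rfl⟩
  refine ⟨C1 + c1 * 2 ^ (r + 1) + (r + 1), fun t lam lam' ht h1 h2 => ?_⟩
  obtain ⟨t, rfl⟩ : ∃ t', t = t' + 1 := ⟨t - 1, by omega⟩
  have hX := fun j => (map_pow (algebraMap (PS L (r + 1)) T) _ _).symm ▸ powX y (t := t) (hN j)
  have cle : ∀ g : PS L (r + 1), g ∣ (δ * X 0) ^ (C1 + c1 * 2 ^ (r + 1) + (r + 1)) →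
      cl L (J ⊔ Ideal.span (Set.range fun l => y l ^ (t + 1)) ⊔
        Ideal.span {algebraMap (PS L (r + 1)) T g}) ≤ lam' := fun g hg => by
    refine le_trans ?_ h2
    rw [cl_eq, cl_eq]
    refine rl_mono (Submodule.restrictScalars_mono _ (sup_le_sup_left ?_ _)) le_sup_right
    exact Ideal.span_singleton_le_span_singleton.2 (map_dvd _ hg)
  have h3 := (clc le_sup_left hs _).trans (cle (X 0 ^ (r + 1)) (by
    rw [mul_pow]; exact (pow_dvd_pow _ (by omega)).mul_left _))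
  obtain ⟨o, ho⟩ : ∃ o : ℕ, (δ ^ (t + 3)).order ≤ o :=
    ⟨_, (ne_zero_iff_order_finite.1 (pow_ne_zero _ hδ)).ge⟩
  refine le_trans (lim2 (b := lam + C1 * lam' + c1 * 2 ^ (r + 1) * (lam' + 1)) (c := c0) (r := r)
    (g := c1 * (o + 1) * ((t + 1) ^ d + h * p) * (N * (d * t + 1) + 2) ^ r) hp.out.one_lt
    fun e s hs1 he => ?_) (by nlinarith [Nat.zero_le (r * lam')])
  obtain ⟨Φ, Φ0, p1, p0, p2, p3, p4, p5⟩ := hΦ e
  obtain ⟨N1, n1, n2⟩ := p5 _ lam lam' h1 (by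
    rw [← map_pow]
    exact cle _ (by rw [mul_pow]; exact (pow_dvd_pow _ (by omega)).mul_right _))
  have hq : 0 < p ^ e := pow_pos hp.out.pos e
  have d1 := bl_dom (Equiv.refl _) (Equiv.prodAssoc _ _ _).symm p0
    (⟨Q, P, H, m7, m6, m8, m10, m9, by rw [m12, one_smul]⟩ : Dom 1 (kc deg) _ deg' D) (t + 1)
  have d2 := bl_dom (Equiv.prodAssoc _ _ _).symm (Equiv.refl _) p0
    (⟨P, Q, 0, m6, m7, Gr.zero, m9, m10, by simp [m11]⟩ : Dom 1 deg' D (kc deg) _) (t + 1)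
  rw [bl_kos] at d1 d2
  have h5 : ρ ≤ #{i : ι' × Fin ρ | deg' i.1 = 0} := by
    simpa using card_le_card_of_injOn (s := univ) (t := {i : ι' × Fin ρ | deg' i.1 = 0})
      (fun a => (j0, a)) (fun a _ => by simpa using hj) fun a _ b _ h => congrArg Prod.snd h
  rw [hc1]
  exact arith hp.out.pos he h5 <| hC2 _ o s _ (t + 1) (p ^ e) d ((p ^ e) ^ h) ho hs1 ht hq
    (pow_pos hq h) _ _ _ _ _ _
    _ _ (com R y p0 hdc hX fun b => Bt.const 0 _) (gd R y p0 hdc hX m1 m2 m4 m6 m7 m9 m10 m11)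
    (fun i j => by
      rw [show s = p ^ e - c0 by omega]; exact p4 _ (m3 _ _) _ _)
    (by rw [Fintype.sum_prod_type, sum_comm]; simp [m5, kc_sum]) d2 d1
    ((Equiv.prodCongr (Equiv.refl _) (Equiv.prodAssoc _ _ _).symm).trans
      (Equiv.prodAssoc _ _ _).symm) _ _
    ((com R y p1 hdc hX p2).gdT (fun _ => t + 1) fun _ => le_rfl) (fun _ => rfl)
    (fun ⟨I1, i, x, a⟩ ⟨I2, j, x', a'⟩ e => by
      obtain rfl : a = a' := e
      simp only [KosC, Kos, Yt, bl_pow _ p1, bl_pow _ p0, Matrix.add_apply, Matrix.sum_apply,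
        kroneckerMap_apply, Matrix.smul_apply, bl, Equiv.refl_apply, p3 _ (x, a) (x', a) rfl]
      rfl) _ _ (bd1 R y p1 n2)
    (le_trans (by
      rw [cl_eq, cl_eq]
      exact rl_le_of_comap ((LinearMap.funLeft (PS L (r + 1)) _ fun a => (∅, i0, a)).restrictScalars
        L) (fun x _ h => h) fun _ _ => Submodule.mem_sup_right trivial) n1) _ lam'
    ⟨fun a ha => bd2 R y p1 ha, semi p _ h3 _ fun a ha => by
      obtain ⟨b, hb, _, hw, rfl⟩ := Submodule.mem_sup.1 ha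
      obtain ⟨w, rfl⟩ := Ideal.mem_span_singleton'.1 hw
      have : CharP (PS L (r + 1)) p := charP_of_injective_algebraMap (algebraMap L _).injective p
      rw [add_pow_char_pow]
      refine Submodule.add_mem_sup (Submodule.subset_span ⟨b, hb, rfl⟩)
        (Ideal.mem_span_singleton.2 ?_)
      rw [mul_pow, ← pow_mul]
      exact (pow_dvd_pow _ (by rw [mul_comm]; gcongr; omega)).mul_left _⟩

end Vale.Agent.P202
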