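import Vale.Agent.P202.Spec2
import Vale.Agent.P202.Dev
import Vale.Agent.P202.Rk
import Vale.Agent.P202.Main

/-! Module DI: the rank inequality for a domain with an arbitrary coefficient field. -/

open Finset Matrix MvPowerSeries Filter Topology IsLocalRing
open scoped Kronecker Nat

namespace Vale.Agent.P202

universe u

namespace DI

/-- passing to the limit along the ideals of powers -/
theorem lim {L S T : Type u} [Field L] {d : ℕ} [CommRing S] [Algebra L S]
    [Algebra (PS L (d + 1)) S] [IsScalarTower L (PS L (d + 1)) S]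
    [Module.Finite (PS L (d + 1)) S] [CommRing T] [Algebra L T] (μ : T →ₐ[L] S)
    (hμ : Function.Surjective μ) (y : Fin (d + 1) → T)
    (hy : ∀ l, μ (y l) = algebraMap (PS L (d + 1)) S (X l)) (g : T) (hg : IsSMulRegular S (μ g))
    (ρ C : ℕ) (h : ∀ t lam lam' : ℕ, 1 ≤ t →
      cl L (RingHom.ker μ ⊔ Ideal.span (Set.range fun l => y l ^ t)) ≤ lam →
      cl L (RingHom.ker μ ⊔ Ideal.span (Set.range fun l => y l ^ t) ⊔ Ideal.span {g}) ≤ lam' →
      t ^ (d + 1) * ρ ≤ lam + C * lam' + C) : ρ ≤ Module.finrank (PS L (d + 1)) S := by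
  have := Dv.dom L (d + 1)
  have hbr : ∀ t v, μ v ∈ (br L (d + 1) t • ⊤ : Submodule (PS L (d + 1)) S) →
      v ∈ RingHom.ker μ ⊔ Ideal.span (Set.range fun l => y l ^ t) := fun t v hv => by
    rw [Ideal.smul_top_eq_map, Submodule.restrictScalars_mem] at hv
    have e : (br L (d + 1) t).map (algebraMap (PS L (d + 1)) S) =
        (Ideal.span (Set.range fun l => y l ^ t)).map μ := by
      rw [Ideal.map_span, Ideal.map_span, ← Set.range_comp, ← Set.range_comp]
      congr 2
      funext l
      simp [hy]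
    rw [e, ← Ideal.mem_comap, Ideal.comap_map_of_surjective _ hμ, ← RingHom.ker_eq_comap_bot,
      sup_comm] at hv
    exact hv
  let G : S →ₗ[PS L (d + 1)] S := LinearMap.mulLeft _ (μ g)
  have hG : Function.Injective G := hg
  have hz : Module.finrank (PS L (d + 1)) (S ⧸ LinearMap.range G) = 0 := by
    have := Dv.fr_add G (LinearMap.range G).mkQ hG (Submodule.mkQ_surjective _)
      (LinearMap.exact_iff.2 (Submodule.ker_mkQ _))
    omega
  obtain ⟨-, a2, -, a4, -⟩ := rkStmt L (d + 1) S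
  obtain ⟨-, b2, -, b4, -⟩ := rkStmt L (d + 1) (S ⧸ LinearMap.range G)
  rw [hz, Nat.cast_zero] at b4
  have := Dv.lim_le (ρ := ρ) (C := C) a4 b4 fun t ht => by
    have := h t _ _ ht (le_trans ?_ (ENat.natCast_toNat (a2 t)).ge)
      (le_trans ?_ (ENat.natCast_toNat (b2 t)).ge)
    · have h1 : C ≤ C * (t + 1) ^ d := Nat.le_mul_of_pos_right _ (by positivity)
      exact_mod_cast this.trans (Nat.add_le_add_left h1 _)
    · exact Dv.cl_le _ _ μ.toLinearMap fun v hv => hbr t v hv
    · refine Dv.cl_le _ _ (((LinearMap.range G).mkQ.restrictScalars L).comp μ.toLinearMap)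
        fun v hv => ?_
      have e0 : (br L (d + 1) t • ⊤ : Submodule (PS L (d + 1)) (S ⧸ LinearMap.range G)) =
          (br L (d + 1) t • ⊤ : Submodule _ _).map (LinearMap.range G).mkQ := by
        rw [Submodule.map_smul'', Submodule.map_top, Submodule.range_mkQ]
      rw [e0] at hv
      obtain ⟨w, hw, e⟩ := hv
      obtain ⟨z, hz⟩ := (Submodule.Quotient.eq _).1 e.symm
      obtain ⟨z, rfl⟩ := hμ z
      have e2 : μ (v - g * z) = w := by
        rw [map_sub, map_mul, sub_eq_iff_eq_add]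
        exact (eq_sub_iff_add_eq'.1 hz).symm
      have e3 := hbr t _ (e2 ▸ hw)
      rw [← sub_add_cancel v (g * z)]
      exact Submodule.add_mem_sup e3 (Ideal.mul_mem_right _ _ (Ideal.mem_span_singleton_self _))
  exact_mod_cast this

theorem reg {R : Type*} [CommRing R] [IsDomain R] {a : R} (h : a ≠ 0) : IsSMulRegular R a :=
  fun _ _ e => mul_left_cancel₀ h e

end DI

open DI in
theorem domIStmt (hC : CoStmt.{u}) (hT : TwStmt.{u}) (hB : BtStmt.{u}) (hR : RsStmt.{u})
    (hD : DomBStmt.{u}) : DomIStmt.{u} := by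
  intro κ L R S _ _ _ p _ _ d _ _ _ _ _ _ m c0 c _ _ _ _ _ _ f h1 h2 h3 h4 h5 h6
  have := Dv.dom κ (d + 1)
  by_cases hinj : Function.Injective (algebraMap (PS κ (d + 1)) R)
  swap
  · rw [injective_iff_map_eq_zero] at hinj
    push Not at hinj
    obtain ⟨a, ha, ha'⟩ := hinj
    rw [Module.finrank_eq_zero_iff.2 fun x => ⟨a, ha', by rw [Algebra.smul_def, ha, zero_mul]⟩]
    exact Nat.zero_le _
  obtain ⟨δ, hδ, tw⟩ := hT _ R hinj
  obtain ⟨c', r, T, _, _, _, _, _, _, _, _, _, μ, e1, po, fl, x0, red, hf, hs, iso⟩ :=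
    hC κ L R S d m c0 f (hasPF_of_field κ) h1 h2 h3
  have tw' := hB _ (PS L (r + 1)) R T _ δ tw
  have hδ' : algebraMap (PS κ (d + 1)) (PS L (r + 1)) δ ≠ 0 := fun e =>
    IsSMulRegular.not_zero (R := PS L (r + 1)) (M := PS L (r + 1))
      (e ▸ (reg hδ).of_flat (S := PS L (r + 1)))
  have hμ : Function.Surjective μ := fun s => ⟨_, (hs s).choose_spec⟩
  have : Module.Flat R T := Module.Flat.isBaseChange _ R _ T po.symm.out
  have : Module.Finite (PS L (r + 1)) T := Module.Finite.equiv po.out.equiv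
  have : IsNoetherianRing T := IsNoetherianRing.of_finite (PS L (r + 1)) T
  let : Algebra R S := f.toAlgebra
  have : Module.Flat R S := h4
  let μ' : T →ₐ[R] S := { μ.toRingHom with commutes' := hf }
  have flq : Module.Flat R (T ⧸ RingHom.ker μ) :=
    Module.Flat.of_linearEquiv (Ideal.quotientKerAlgEquivOfSurjective (f := μ') hμ).toLinearEquiv
  have hm : m.map (algebraMap R T) ≤ (maximalIdeal S).comap μ :=
    Ideal.map_le_iff_le_comap.2 fun x hx => by
      rw [Ideal.mem_comap, Ideal.mem_comap, hf]; exact h3 x hx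
  have hj : (maximalIdeal S).comap μ ≤ Ideal.jacobson ⊥ := fun z hz =>
    Ideal.mem_jacobson_bot.2 fun w => red.unit _ fun hw => red.ne ((Ideal.eq_top_iff_one _).2
      ((Ideal.add_mem_iff_right _ (Ideal.mul_mem_right w _ hz)).1 hw))
  obtain ⟨ι, _, _, deg, dF, i0, rs⟩ := hR L R T m (RingHom.ker μ) c' flq (hm.trans hj) iso
  choose y hy using fun l => hμ (algebraMap (PS L (d + 1)) S (X l))
  obtain ⟨C, h⟩ := hD L p r (d + 1) (c' + 1) T _ c0 _ _ (RingHom.ker μ) ι deg dF i0 y c
    (Nat.le_add_left _ _) e1.le red hδ' tw' rs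
    (fun z hz => by rw [Ideal.mem_comap, (RingHom.mem_ker).1 hz]; exact zero_mem _)
    (fun l => by rw [Ideal.mem_comap, hy]; exact h5 l)
    (fun j => by
      have e := h6 (Ideal.pow_mem_pow (Ideal.mem_comap.1 (red.x j)) c)
      have e' : (mx L (d + 1)).map (algebraMap (PS L (d + 1)) S) =
          (Ideal.span (Set.range y)).map μ := by
        rw [Ideal.map_span, Ideal.map_span, ← Set.range_comp, ← Set.range_comp]
        congr 2
        funext l
        simp [hy]
      rw [e', ← map_pow, ← Ideal.mem_comap, Ideal.comap_map_of_surjective _ hμ,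
        ← RingHom.ker_eq_comap_bot, sup_comm] at e
      exact e)
    (fun b => ⟨(hs (μ b)).choose, by
      rw [RingHom.mem_ker, map_sub, (hs (μ b)).choose_spec, sub_self]⟩)
  refine lim μ hμ y hy _ ?_ _ C h
  rw [← x0, ← map_mul, ← map_pow, ← IsScalarTower.algebraMap_apply,
    IsScalarTower.algebraMap_apply _ R T, hf]
  refine (reg ?_).of_flat (S := S)
  rw [ne_eq, map_eq_zero_iff _ hinj]
  refine pow_ne_zero _ (mul_ne_zero hδ fun e => ?_)
  simpa [coeff_X] using congrArg (coeff (Finsupp.single 0 1)) e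

end Vale.Agent.P202
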