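import Vale.Agent.P202.Base

/-! Statements for the case of an imperfect residue field. See `notes/P202b.md`. -/

open Finset Matrix MvPowerSeries Filter Topology IsLocalRing
open scoped Kronecker Nat

namespace Vale.Agent.P202

universe u

section kc
variable {β : Type*} [Fintype β] [DecidableEq β] {A : Type*} [CommRing A] {n : Type*} [Fintype n]
  [DecidableEq n]

noncomputable def sgn (A : Type*) [CommRing A] (β : Type*) [DecidableEq β] :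
    Matrix (Finset β) (Finset β) A := diagonal fun I => (-1) ^ I.card

/-- the Koszul complex on a complex -/
noncomputable def KosC (Y : β → Matrix n n A) (d : Matrix n n A) :
    Matrix (Finset β × n) (Finset β × n) A := Kos Y + sgn A β ⊗ₖ d

def kc (dn : n → ℕ) (p : Finset β × n) : ℕ := p.1.card + dn p.2

/-- block lower triangular -/
def Bt (o : n → ℕ) (M : Matrix n n A) : Prop := ∀ i j, M i j ≠ 0 → o j ≤ o i

end kc

section short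
variable {k : Type u} [Field k] {r : ℕ} {ι : Type} [Fintype ι] [DecidableEq ι]

structure GdT (γ : PS k (r + 1)) (M : ℕ) (o deg : ι → ℕ) (D : Matrix ι ι (PS k (r + 1))) :
    Prop where
  gr : Gr deg deg (-1) D
  dd : D * D = 0
  le : ∀ i, deg i ≤ r + 1
  bt : Bt o D
  nul : ∀ j, ∃ h, Gr deg deg 1 h ∧ Bt o h ∧ D * h + h * D = (γ * X j ^ M) • (1 : Matrix ι ι _)

structure ComC (γ : PS k (r + 1)) (M t : ℕ) {d : ℕ} (o dn : ι → ℕ)
    (Y : Fin d → Matrix ι ι (PS k (r + 1))) (d0 : Matrix ι ι (PS k (r + 1))) : Prop where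
  le : ∀ a, d + dn a ≤ r + 1
  g0 : ∀ l, Gr dn dn 0 (Y l)
  g1 : Gr dn dn (-1) d0
  b0 : ∀ l, Bt o (Y l)
  b1 : Bt o d0
  dd : d0 * d0 = 0
  com : ∀ i j, Commute (Y i) (Y j)
  cd : ∀ i, Commute (Y i) d0
  gen : ∀ j, ∃ (Z : Fin d → Matrix ι ι (PS k (r + 1))) (h : Matrix ι ι (PS k (r + 1))),
    (∀ l, Gr dn dn 0 (Z l)) ∧ Gr dn dn 1 h ∧ (∀ l, Bt o (Z l)) ∧ Bt o h ∧
    (∀ l l', Commute (Z l) (Y l')) ∧ (∀ l, Commute (Z l) d0) ∧ (∀ l, Commute h (Y l)) ∧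
    ∑ l, Z l * Y l ^ t + (d0 * h + h * d0) = (γ * X j ^ M) • (1 : Matrix ι ι _)

/-- `γ N` consists of boundaries in degree zero -/
def Bd (γ : PS k (r + 1)) (deg : ι → ℕ) (D : Matrix ι ι (PS k (r + 1)))
    (N : Submodule (PS k (r + 1)) (ι → PS k (r + 1))) : Prop :=
  ∀ v ∈ N, ∃ w, ∀ i, deg i = 0 → γ * v i = (D *ᵥ w) i

/-- `γ N'` kills the homology in degree zero, and `N'` is large among series in `x ^ q` -/
def Bd' (γ : PS k (r + 1)) (deg : ι → ℕ) (D : Matrix ι ι (PS k (r + 1))) (s q : ℕ)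
    (N' : Submodule k (PS k (r + 1))) (lam' : ℕ) : Prop :=
  (∀ a ∈ N', ∀ i0, deg i0 = 0 → ∃ w, ∀ i, deg i = 0 →
    (if i = i0 then γ * a else 0) = (D *ᵥ w) i) ∧
  rl (N' ⊔ (Ideal.span {(X 0 : PS k (r + 1)) ^ (s * (r + 1))}).restrictScalars k)
    (Pv k {e | ∀ j, q ∣ e j}) ≤ lam'

end short

/-! ### Modules E5, FI, KC, U2, CB -/

def E5Stmt : Prop := ∀ (k : Type u) [Field k] (r : ℕ) (θ : PS k (r + 1) →ₐ[k] LL k r), Th θ →
  θ (X 0) = X none → ∃ C : ℕ, ∀ (γ : PS k (r + 1)) (o s L : ℕ) (κ : Fin (r + 1)) (ι : Type)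
  [Fintype ι] [DecidableEq ι] (deg : ι → ℕ) (D : Matrix ι ι (PS k (r + 1))),
  γ.order ≤ (o : ℕ∞) → 1 ≤ s → Good θ γ L deg D → Tm θ γ o s L κ deg D →
  ∀ (N : Submodule (PS k (r + 1)) (ι → PS k (r + 1))) (lam : ℕ), Bd γ deg D N → cl k N ≤ lam →
  ∀ (q : ℕ) (N' : Submodule k (PS k (r + 1))) (lam' : ℕ), 1 ≤ q → Bd' γ deg D s q N' lam' →
  eu θ γ s L κ deg D ≤ r ! * lam + Fintype.card ι *
    (C * ((o + 1) * (L + s + 1) ^ r + (s + q) ^ (r + 1) * (lam' + 1)))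

def FilStmt : Prop := ∀ (k : Type u) [Field k] (r : ℕ) (γ : PS k (r + 1)) (M s η η' : ℕ) f,
  Eu γ M s f η η' → ∀ (ι ι0 : Type) [Fintype ι] [DecidableEq ι] [Fintype ι0] [DecidableEq ι0]
  (n : ℕ) (e : ι ≃ ι0 × Fin n) (deg : ι → ℕ) (D : Matrix ι ι (PS k (r + 1))) (deg0 : ι0 → ℕ)
  (D0 : Matrix ι0 ι0 (PS k (r + 1))), 0 < n → GdT γ M (fun i => (e i).2) deg D →
  (∀ i, deg i = deg0 (e i).1) → (∀ i j, (e i).2 = (e j).2 → D i j = D0 (e i).1 (e j).1) →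
  |f ι deg D - n * f ι0 deg0 D0| ≤ (Nat.clog 2 n + 4) * n * Fintype.card ι0 * η

def KcStmt : Prop := ∀ (k : Type u) [Field k] (r : ℕ) (γ : PS k (r + 1)) (M s η η' : ℕ) f,
  Eu γ M s f η η' → ∀ (t d : ℕ) (n : Type) [Fintype n] [DecidableEq n] (dn : n → ℕ)
  (Y : Fin d → Matrix n n (PS k (r + 1))) (d0 : Matrix n n (PS k (r + 1))), 1 ≤ t →
  ComC γ M t (fun _ => 0) dn Y d0 →
  |f _ (kc dn) (KosC (fun l => Y l ^ t) d0) - t ^ d * f _ (kc dn) (KosC Y d0)| ≤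
    5 * t ^ d * (2 ^ d * Fintype.card n) * η

def E5 {k : Type u} [Field k] {r : ℕ} (γ : PS k (r + 1)) (M s : ℕ)
    (f : ∀ (ι : Type) [Fintype ι] [DecidableEq ι], (ι → ℕ) → Matrix ι ι (PS k (r + 1)) → ℤ)
    (η C : ℕ) : Prop :=
  ∀ (ι : Type) [Fintype ι] [DecidableEq ι] deg D, Gd γ M deg D →
    ∀ (N : Submodule (PS k (r + 1)) (ι → PS k (r + 1))) (lam : ℕ), Bd γ deg D N → cl k N ≤ lam →
    ∀ (q : ℕ) (N' : Submodule k (PS k (r + 1))) (lam' : ℕ), 1 ≤ q → Bd' γ deg D s q N' lam' →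
    f ι deg D ≤ (r + 1)! * lam + Fintype.card ι * (η + C * (s + q) ^ (r + 1) * (lam' + 1))

def Eu2Stmt : Prop := ∀ (k : Type u) [Field k] (r : ℕ), ∃ C : ℕ, ∀ (γ : PS k (r + 1)) (o s M : ℕ),
  γ.order ≤ (o : ℕ∞) → 1 ≤ s → ∃ f η', Eu γ M s f (C * o * (M + s + 1) ^ r) η' ∧
    E5 γ M s f (C * (o + 1) * (M + s + 1) ^ r) C

def CoreBStmt : Prop := ∀ (k : Type u) [Field k] (r : ℕ), ∃ C : ℕ, ∀ (γ : PS k (r + 1))
  (o s M t q d nn : ℕ), γ.order ≤ (o : ℕ∞) → 1 ≤ s → 1 ≤ t → 1 ≤ q → 0 < nn →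
  ∀ (n ι ιb : Type) [Fintype n] [DecidableEq n] [Fintype ι] [DecidableEq ι] [Fintype ιb]
  [DecidableEq ιb] (dn : n → ℕ) (Y : Fin d → Matrix n n (PS k (r + 1)))
  (d0 : Matrix n n (PS k (r + 1))) (deg : ι → ℕ) (D : Matrix ι ι (PS k (r + 1))),
  ComC γ M t (fun _ => 0) dn Y d0 → Gd γ M deg D → (∀ i j, (s : ℕ∞) ≤ (D i j).order) →
  ∑ i, (-1 : ℤ) ^ deg i = 0 → Dom γ deg D (kc dn) (KosC Y d0) → Dom γ (kc dn) (KosC Y d0) deg D →
  ∀ (e : ιb ≃ (Finset (Fin d) × n) × Fin nn) (degb : ιb → ℕ) (Db : Matrix ιb ιb (PS k (r + 1))),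
  GdT γ M (fun i => (e i).2) degb Db → (∀ i, degb i = kc dn (e i).1) →
  (∀ i j, (e i).2 = (e j).2 → Db i j = KosC (fun l => Y l ^ t) d0 (e i).1 (e j).1) →
  ∀ (N : Submodule (PS k (r + 1)) (ιb → PS k (r + 1))) (lam : ℕ), Bd γ degb Db N → cl k N ≤ lam →
  ∀ (N' : Submodule k (PS k (r + 1))) (lam' : ℕ), Bd' γ degb Db s q N' lam' →
  nn * t ^ d * #{i | deg i = 0} * s ^ (r + 1) ≤ lam + C * nn *
    (Fintype.card ι + 2 ^ d * Fintype.card n) *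
    ((o + 1) * (t ^ d + Nat.clog 2 nn) * (M + s + 1) ^ r + (s + q) ^ (r + 1) * (lam' + 1))

/-! ### Modules RS, TW, BT, PH, CO, DB, DI, NI -/

/-- a finite free resolution of `T ⧸ J` of length at most `c` -/
structure Rs {T : Type*} [CommRing T] (J : Ideal T) (c : ℕ) {ι : Type} [Fintype ι] [DecidableEq ι]
    (deg : ι → ℕ) (d : Matrix ι ι T) (i0 : ι) : Prop where
  gr : Gr deg deg (-1) d
  dd : d * d = 0
  le : ∀ i, deg i ≤ c
  zero : ∀ i, deg i = 0 ↔ i = i0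
  ent : ∀ i, d i0 i ∈ J
  nul : ∀ z ∈ J, ∃ h, Gr deg deg 1 h ∧ d * h + h * d = z • (1 : Matrix ι ι T)

def RsStmt : Prop := ∀ (L R T : Type u) [Field L] [CommRing R] [CommRing T] [IsNoetherianRing T]
  [Algebra R T] [Module.Flat R T] (m : Ideal R) (J : Ideal T) (c : ℕ), Module.Flat R (T ⧸ J) →
  m.map (algebraMap R T) ≤ Ideal.jacobson ⊥ →
  Nonempty (PS L (c + 1) ≃+* T ⧸ m.map (algebraMap R T)) →
  ∃ (ι : Type) (_ : Fintype ι) (_ : DecidableEq ι) (deg : ι → ℕ) (d : Matrix ι ι T) (i0 : ι),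
    Rs J (c + 1) deg d i0

/-- a dilated complete intersection model of `T` -/
structure Tw (A T : Type u) [CommRing A] [CommRing T] [Algebra A T] (ρ h k : ℕ) (δ : A)
    (T' : Type u) [CommRing T'] [Algebra A T'] [Algebra (MvPolynomial (Fin h) A) T']
    (ϖ : T' →ₐ[A] T) (α : (Fin ρ → MvPolynomial (Fin h) A) →ₗ[MvPolynomial (Fin h) A] T')
    (β : T' →ₗ[MvPolynomial (Fin h) A] (Fin ρ → MvPolynomial (Fin h) A)) (Θ : Fin h → T') :
    Prop where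
  tow : IsScalarTower A (MvPolynomial (Fin h) A) T'
  fin : Module.Finite (MvPolynomial (Fin h) A) T'
  sur : Function.Surjective ϖ
  u0 : ∀ i, ϖ (algebraMap (MvPolynomial (Fin h) A) T' (MvPolynomial.X i)) = 0
  ba : ∀ v, β (α v) = δ • v
  ab : ∀ z, α (β z) = δ • z
  ker : ∀ z, ϖ z = 0 → δ • z ∈ Ideal.span
    (Set.range fun i => algebraMap (MvPolynomial (Fin h) A) T' (MvPolynomial.X i))
  th : ∀ i, δ ^ k • algebraMap (MvPolynomial (Fin h) A) T' (MvPolynomial.X i) ∈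
    Algebra.adjoin A (Set.range Θ)
  gen : ∀ z, δ • z ∈ Submodule.span (MvPolynomial (Fin h) A)
    (Algebra.adjoin A (Set.range Θ) : Set T')

def HasTw (A T : Type u) [CommRing A] [CommRing T] [Algebra A T] (ρ : ℕ) (δ : A) : Prop :=
  ∃ (h k : ℕ) (T' : Type u) (_ : CommRing T') (_ : Algebra A T')
    (_ : Algebra (MvPolynomial (Fin h) A) T') (ϖ : _) (α : _) (β : _) (Θ : _),
    Tw A T ρ h k δ T' ϖ α β Θ

def TwStmt : Prop := ∀ (A R : Type u) [CommRing A] [IsDomain A] [CommRing R] [IsDomain R]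
  [Algebra A R] [Module.Finite A R], Function.Injective (algebraMap A R) →
  ∃ δ, δ ≠ 0 ∧ HasTw A R (Module.finrank A R) δ

def BtStmt : Prop := ∀ (A A' R T : Type u) [CommRing A] [CommRing A'] [CommRing R] [CommRing T]
  [Algebra A A'] [Algebra A R] [Algebra A T] [Algebra A' T] [Algebra R T] [IsScalarTower A A' T]
  [IsScalarTower A R T] [Algebra.IsPushout A A' R T] (ρ : ℕ) (δ : A),
  HasTw A R ρ δ → HasTw A' T ρ (algebraMap A A' δ)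

structure Ph {A T : Type u} [CommRing A] [CommRing T] [Algebra A T] (δ : A) (q : ℕ) {n : Type}
    [Fintype n] [DecidableEq n] (Φ : T →+ Matrix n n A) : Prop where
  mul : ∀ b b', Φ b * Φ b' = δ • Φ (b * b')
  one : Φ 1 = δ • (1 : Matrix n n A)
  sc : ∀ a b, Φ (algebraMap A T a * b) = a ^ q • Φ b

def PhStmt : Prop := ∀ (L : Type u) [Field L] [PerfectField L] (p : ℕ) [Fact p.Prime] [CharP L p]
  (D : ℕ) (T : Type u) [CommRing T] [Algebra (PS L D) T] [Algebra L T]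
  [IsScalarTower L (PS L D) T] (m : Ideal T) (c0 ρ : ℕ) (δ : PS L D), Red L D m c0 → δ ≠ 0 →
  HasTw (PS L D) T ρ δ → ∃ h C : ℕ, ∀ e : ℕ,
  ∃ (Φ : T →+ Matrix (Fin ρ × Fin ((p ^ e) ^ h)) (Fin ρ × Fin ((p ^ e) ^ h)) (PS L D))
    (Φ0 : T →+ Matrix (Fin ρ) (Fin ρ) (PS L D)), Ph δ (p ^ e) Φ ∧ Ph δ (p ^ e) Φ0 ∧
    (∀ b, Bt (fun x => x.2) (Φ b)) ∧ (∀ b x y, x.2 = y.2 → Φ b x y = Φ0 b x.1 y.1) ∧
    (∀ b ∈ m, ∀ i j, ((p ^ e - c0 : ℕ) : ℕ∞) ≤ (Φ0 b i j).order) ∧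
    ∀ (I : Ideal T) (lam lam' : ℕ), cl L I ≤ lam →
      cl L (I ⊔ Ideal.span {algebraMap (PS L D) T δ ^ C}) ≤ lam' →
      ∃ N : Submodule (PS L D) (Fin ρ × Fin ((p ^ e) ^ h) → PS L D),
        cl L N ≤ ((p ^ e) ^ (D + h) * (lam + C * lam') : ℕ) ∧
        ∀ v ∈ N, δ ^ 2 • v ∈ ⨆ b ∈ I, LinearMap.range (Φ b).mulVecLin

def DomBStmt : Prop := ∀ (L : Type u) [Field L] [PerfectField L] (p : ℕ) [Fact p.Prime]
  [CharP L p] (r d c : ℕ) (T : Type u) [CommRing T] [Algebra (PS L (r + 1)) T] [Algebra L T]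
  [IsScalarTower L (PS L (r + 1)) T] (m : Ideal T) (c0 ρ : ℕ) (δ : PS L (r + 1)) (J : Ideal T)
  (ι : Type) [Fintype ι] [DecidableEq ι] (deg : ι → ℕ) (dF : Matrix ι ι T) (i0 : ι)
  (y : Fin d → T) (N : ℕ), 1 ≤ d → d + c ≤ r + 1 → Red L (r + 1) m c0 → δ ≠ 0 →
  HasTw (PS L (r + 1)) T ρ δ → Rs J c deg dF i0 → J ≤ m → (∀ l, y l ∈ m) →
  (∀ j, algebraMap (PS L (r + 1)) T (X j) ^ N ∈ J ⊔ Ideal.span (Set.range y)) →
  (∀ b, ∃ a, b - algebraMap (PS L (r + 1)) T a ∈ J) →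
  ∃ C : ℕ, ∀ t lam lam' : ℕ, 1 ≤ t → cl L (J ⊔ Ideal.span (Set.range fun l => y l ^ t)) ≤ lam →
    cl L (J ⊔ Ideal.span (Set.range fun l => y l ^ t) ⊔
      Ideal.span {algebraMap (PS L (r + 1)) T ((δ * X 0) ^ C)}) ≤ lam' →
    t ^ d * ρ ≤ lam + C * lam' + C

/-- the twisted Cohen factorisation -/
def CoStmt : Prop := ∀ (κ L R S : Type u) [Field κ] [Field L] (d : ℕ) [CommRing R]
  [Algebra (PS κ (d + 1)) R] [Algebra κ R] [IsScalarTower κ (PS κ (d + 1)) R]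
  [Module.Finite (PS κ (d + 1)) R] (m : Ideal R) (c0 : ℕ) [CommRing S] [IsLocalRing S]
  [Algebra L S] (f : R →+* S), HasPF κ → Red κ (d + 1) m c0 → CL L S →
  (∀ x ∈ m, f x ∈ maximalIdeal S) →
  ∃ (c r : ℕ) (T : Type u) (_ : CommRing T) (_ : Algebra (PS κ (d + 1)) (PS L (r + 1)))
    (_ : Algebra (PS κ (d + 1)) T) (_ : Algebra (PS L (r + 1)) T) (_ : Algebra R T)
    (_ : Algebra L T) (_ : IsScalarTower (PS κ (d + 1)) (PS L (r + 1)) T)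
    (_ : IsScalarTower (PS κ (d + 1)) R T) (_ : IsScalarTower L (PS L (r + 1)) T)
    (μ : T →ₐ[L] S), d + 1 + (c + 1) = r + 1 ∧
    Algebra.IsPushout (PS κ (d + 1)) (PS L (r + 1)) R T ∧
    Module.Flat (PS κ (d + 1)) (PS L (r + 1)) ∧
    algebraMap (PS κ (d + 1)) (PS L (r + 1)) (X 0) = X 0 ∧
    Red L (r + 1) ((maximalIdeal S).comap μ) c0 ∧ (∀ b, μ (algebraMap R T b) = f b) ∧
    (∀ s, ∃ a, μ (algebraMap (PS L (r + 1)) T a) = s) ∧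
    Nonempty (PS L (c + 1) ≃+* T ⧸ m.map (algebraMap R T))

def DomIStmt : Prop := ∀ (κ L R S : Type u) [Field κ] [Field L] [PerfectField L] (p : ℕ)
  [Fact p.Prime] [CharP L p] (d : ℕ) [CommRing R] [IsDomain R] [Algebra (PS κ (d + 1)) R]
  [Algebra κ R] [IsScalarTower κ (PS κ (d + 1)) R] [Module.Finite (PS κ (d + 1)) R] (m : Ideal R)
  (c0 c : ℕ) [CommRing S] [IsLocalRing S] [Algebra L S] [Algebra (PS L (d + 1)) S]
  [IsScalarTower L (PS L (d + 1)) S] [Module.Finite (PS L (d + 1)) S] (f : R →+* S),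
  Red κ (d + 1) m c0 → CL L S → (∀ x ∈ m, f x ∈ maximalIdeal S) → f.Flat →
  (∀ l, algebraMap (PS L (d + 1)) S (X l) ∈ maximalIdeal S) →
  maximalIdeal S ^ c ≤ (mx L (d + 1)).map (algebraMap (PS L (d + 1)) S) →
  Module.finrank (PS κ (d + 1)) R ≤ Module.finrank (PS L (d + 1)) S

def NormIStmt : Prop := ∀ (R S : Type u) [CommRing R] [IsLocalRing R] [IsNoetherianRing R]
  [CommRing S] [IsLocalRing S] [IsNoetherianRing S] (f : R →+* S) [IsLocalHom f], f.Flat →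
  HasPF R → ¬ PerfectField (ResidueField R) → ∀ (d : ℕ) (e : ℝ), ringKrullDim R = d →
  Mult R d e → ∀ (y : Fin d → S) (c : ℕ), (∀ l, y l ∈ maximalIdeal S) →
  maximalIdeal S ^ c ≤ Ideal.span (Set.range y) → ∀ t : ℕ, e * (t : ℝ) ^ d ≤
    (Module.length S (S ⧸ Ideal.span (Set.range fun l => y l ^ t))).toNat

end Vale.Agent.P202
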