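import Vale.Agent.P202.E3
import Vale.Agent.P202.Gh
import Vale.Agent.P202.Spec2

open Finset Matrix MvPowerSeries Filter Topology IsLocalRing
open scoped Kronecker Nat

namespace Vale.Agent.P202

universe u

namespace E5m

open Cbm E3m

variable {k : Type u} [Field k] {r : ℕ} {θ : PS k (r + 1) →ₐ[k] LL k r} {ι : Type} [Fintype ι]
  [DecidableEq ι] {deg : ι → ℕ} {D : Matrix ι ι (PS k (r + 1))} {N0 O L u : ℕ} {ν : Fin r → ℤ}

/-- placing a vector in the chart set `JT` -/
noncomputable def pm (deg : ι → ℕ) (q : ℕ) : (ι → LL k r) →ₗ[k] (ι × FJ r → LL k r) where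
  toFun F p := if deg p.1 = q ∧ p.2 = JT r then F p.1 else 0
  map_add' F G := by
    ext1 p
    simp only [Pi.add_apply]
    split_ifs <;> simp
  map_smul' c F := by
    ext1 p
    simp only [Pi.smul_apply, RingHom.id_apply]
    split_ifs <;> simp

omit [Fintype ι] [DecidableEq ι] in
theorem pm_apply (q : ℕ) (F : ι → LL k r) (i : ι) (J : FJ r) : pm deg q F (i, J) =
    if deg i = q ∧ J = JT r then F i else 0 := rfl

omit [Fintype ι] [DecidableEq ι] in
theorem pm_mem (q b : ℕ) {F : ι → LL k r} (hF : ∀ i, F i ∈ Pv k (Om N0 ν 0 b)) :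
    pm deg q F ∈ XF k N0 ν 0 (fun _ => b) deg q := by
  refine mem_XX.2 fun i J e he => ?_
  rw [pm_apply] at he
  split_ifs at he with c
  · have h1 := hF i e he
    refine ⟨by rw [c.1, c.2, JT_card]; ring, h1, fun a => ⟨Or.inr (c.2 ▸ mem_JT.2 rfl),
      fun _ => ?_, fun _ => ?_⟩⟩
    · simpa using (h1.2 a).1
    · simpa using (h1.2 a).2
  · simp at he

omit [Fintype ι] in
theorem single_mem {S : Set (Mon r)} {f : LL k r} (hf : f ∈ Pv k S) (i i' : ι) :
    (Pi.single i f : ι → LL k r) i' ∈ Pv k S := by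
  by_cases c : i' = i
  · subst c
    simpa using hf
  · simp [c]

theorem part1 (hθ : Th0 θ) (hD : Gr deg deg (-1) D)
    {γ : PS k (r + 1)} {c : LL k r} (hc : c ∈ Pv k (Om N0 ν 0 O)) {v w : ι → PS k (r + 1)}
    (h : ∀ i, deg i = 0 → γ * v i = (D *ᵥ w) i) :
    gg θ γ ι (pm deg 0 fun i => θ (v i) * c) ∈
      Bc (DD θ D) (XS k N0 ν deg (O2 N0 O L ν)) (Xb k deg N0 O L ν) 0 := by
  set w' := pm deg 1 fun i => θ ((-1) ^ r * w i) * c with hw'
  have h1 : w' ∈ XS k N0 ν deg (O2 N0 O L ν) (0 + 1) :=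
    XS_mono (fun _ => Set.subset_union_right) _ (pm_mem 1 O fun i =>
      mul_mem_Pv (hθ.ord _ 0 (by simp)) hc fun a ha b hb => add_mem_Om ha hb le_rfl)
  have h2 : LM θ 1 (cb k r) w' ∈ Xb k deg N0 O L ν 0 := by
    refine mem_XX.2 fun i J e he => ?_
    obtain ⟨a1, a2, a3⟩ := mem_XX.1 (LM_cb_mem (θ := θ) h1) i J e he
    refine ⟨by simpa using a1, Or.inr ⟨a2, ?_⟩, a3⟩
    by_contra d
    rw [coeff_cb] at he
    obtain ⟨J', b1, -, b3⟩ := pd_ne he
    have b4 : J' = JT r := by
      by_contra d'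
      rw [hw', pm_apply, if_neg (fun d'' => d' d''.2), map_zero] at b1
      exact b1 rfl
    have b5 := card_le_card (sub_JT d)
    rw [b4] at b3
    omega
  have h3 : LM θ D (sg k r) w' = gg θ γ ι (pm deg 0 fun i => θ (v i) * c) := by
    ext1 ⟨i, J⟩
    rw [LM_sg_apply, gg_apply, pm_apply]
    by_cases hJ : J = JT r
    · have key : ∀ j, θ (D i j) * w' (j, J) = if deg i = 0 then
          (-1) ^ r * (θ (D i j * w j) * c) else 0 := by
        intro j
        by_cases h0 : D i j = 0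
        · simp [h0]
        · have := hD _ _ h0
          rw [hw', pm_apply]
          by_cases hi : deg i = 0
          · rw [if_pos hi, if_pos ⟨by omega, hJ⟩]
            simp only [map_mul, map_pow, map_neg, map_one]
            ring
          · rw [if_neg hi, if_neg (fun d => by omega), mul_zero]
      rw [sum_congr rfl fun j _ => key j]
      by_cases hi : deg i = 0
      · simp only [hi, hJ, if_true, and_self, JT_card]
        rw [← mul_sum, ← mul_assoc, ← mul_pow, ← sum_mul, ← map_sum]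
        have : ∑ j, D i j * w j = γ * v i := (h i hi).symm
        rw [this, map_mul]
        simp only [mul_neg, mul_one, neg_neg, one_pow, one_mul]
        ring
      · simp [hi]
    · simp [hw', pm_apply, hJ]
  refine Submodule.mem_sup.2 ⟨-LM θ 1 (cb k r) w', neg_mem h2, _, ⟨w', h1, rfl⟩, ?_⟩
  rw [DD_eq, h3]
  abel

/-- monomials of low level -/
def UU (N0 O n : ℕ) (ν : Fin r → ℤ) : Set (Mon r) := {e | e ∈ Om N0 ν 0 O ∧ e none < O + 2 * n}

theorem UU_le (hN : N0 = O + L) (hO : O = L + u) (hν : ∀ a, ν a ≤ O) (n : ℕ) :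
    (UU N0 O n ν).encard ≤ (2 * n * (u + 2 * n) ^ r : ℕ) := by
  refine cnt_le _ _ _ (fun e => e none - O) (fun e a => e (some a) - N0) ?_ ?_
  · rintro e ⟨⟨h1, h2⟩, h3⟩
    refine ⟨by omega, fun a => ?_⟩
    have := h2 a
    have := hν a
    omega
  · rintro e ⟨⟨h1, h2⟩, h3⟩ e' ⟨⟨h1', h2'⟩, h3'⟩ c c'
    refine mon_ext (by omega) fun a => ?_
    have := h2 a
    have := h2' a
    have := c' a
    omega

/-- truncation to a set of monomials -/
noncomputable def tr (S : Set (Mon r)) [DecidablePred (· ∈ S)] (f : LL k r) : LL k r :=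
  fun e => if e ∈ S then coeff e f else 0

theorem coeff_tr (S : Set (Mon r)) [DecidablePred (· ∈ S)] (f : LL k r) (e : Mon r) :
    coeff e (tr S f) = if e ∈ S then coeff e f else 0 := rfl

theorem tr_ne {S : Set (Mon r)} [DecidablePred (· ∈ S)] {f : LL k r} {e : Mon r}
    (h : coeff e (tr S f) ≠ 0) : e ∈ S ∧ coeff e f ≠ 0 := by
  rw [coeff_tr] at h
  split_ifs at h with c
  exacts [⟨c, h⟩, absurd rfl h]

theorem decomp (hθ : Th0 θ) (hN : N0 = O + L) (hν : ∀ a, (L : ℤ) ≤ ν a) {n q : ℕ} (hq : 1 ≤ q)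
    (hg : ∀ I : Finset (Fin r), ∃ g : Fin (r + 1) → LL k r,
      (∀ j, g j ∈ Pv k (SB r 0)) ∧ mu k I ^ n = ∑ j, g j * θ (X j) ^ q)
    (Z : Submodule k (LL k r)) (hU : Pv k (UU N0 O n ν) ≤ Z)
    (hZ : ∀ j, ∀ z ∈ Z, θ (X j) ^ q * z ∈ Z) (t : ℕ) :
    Pv k (Om N0 ν 0 O) ≤ Z ⊔ Pv k (Om N0 ν 0 (O + t)) := by
  classical
  induction t with
  | zero => exact le_sup_right
  | succ t ih =>
    intro f hf
    let A : Finset (Fin r) → Set (Mon r) := fun I =>
      {e | O + 2 * n ≤ e none ∧ univ.filter (fun a => N0 + n ≤ e (some a)) = I}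
    have e1 : f = tr (UU N0 O n ν) f + ∑ I, tr (A I) f := by
      ext e
      rw [map_add, map_sum, coeff_tr]
      simp only [coeff_tr, A, Set.mem_ofPred_eq]
      by_cases h0 : coeff e f = 0
      · simp [h0]
      · by_cases c : e none < O + 2 * n
        · rw [if_pos ⟨hf e h0, c⟩]
          simp [Nat.not_le.2 c]
        · rw [if_neg fun d => c d.2]
          simp [Nat.not_lt.1 c]
    rw [e1]
    refine add_mem (Submodule.mem_sup_left (hU fun e he => (tr_ne he).1)) (sum_mem fun I _ => ?_)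
    obtain ⟨g, hg1, hg2⟩ := hg I
    have hle : ∀ e, coeff e (tr (A I) f) ≠ 0 → n • Gh.mI I ≤ e := by
      intro e he b
      obtain ⟨⟨a1, a2⟩, -⟩ := tr_ne he
      cases b with
      | none =>
        simp only [Finsupp.smul_apply, Gh.mI_none, smul_eq_mul]
        omega
      | some b =>
        simp only [Finsupp.smul_apply, Gh.mI_some, smul_eq_mul]
        split_ifs with c
        · have : N0 + n ≤ e (some b) := by simpa [← a2] using c
          omega
        · omega
    have hdv : Gh.dv (n • Gh.mI I) (tr (A I) f) ∈ Pv k (Om N0 ν 0 O) := by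
      intro e he
      obtain ⟨⟨a1, a2⟩, a3⟩ := tr_ne (S := A I) (f := f) (e := e + n • Gh.mI I) he
      have a4 := hf _ a3
      simp only [Finsupp.add_apply, Finsupp.smul_apply, Gh.mI_none, smul_eq_mul] at a1
      refine ⟨by omega, fun a => ?_⟩
      have a5 := a4.2 a
      have a6 : a ∈ I ↔ N0 + n ≤ (e + n • Gh.mI I) (some a) := by
        conv_lhs => rw [← a2]
        simp
      have a7 := hν a
      simp only [Finsupp.add_apply, Finsupp.smul_apply, Gh.mI_none, Gh.mI_some, smul_eq_mul]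
        at a5 a6
      by_cases c : a ∈ I
      · simp only [c, if_true, true_iff] at a5 a6
        omega
      · simp only [c, if_false, false_iff] at a5 a6
        omega
    rw [← Gh.mul_dv _ _ hle, ← Gh.mu_pow, hg2, sum_mul]
    refine sum_mem fun j _ => ?_
    obtain ⟨z, hz, w, hw, e2⟩ := Submodule.mem_sup.1 (ih (mul_mem_Pv (hg1 j) hdv
      fun a ha b hb => add_mem_Om ha hb le_rfl))
    rw [mul_comm (g j), mul_assoc, ← e2, mul_add]
    refine Submodule.add_mem_sup (hZ j z hz) (mul_mem_Pv (S := SB r 1) ?_ hw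
      fun a ha b hb => add_mem_Om ha hb le_rfl)
    rw [← map_pow]
    refine hθ.ord _ 1 (one_le_order_iff_constCoeff_eq_zero.2 ?_)
    rw [map_pow, constantCoeff_X, zero_pow (by omega)]

theorem part3 (hθ : Th0 θ) (hX : θ (X 0) = X none) (hN : N0 = O + L) (hO : O = L + u)
    (hν : ∀ a, (L : ℤ) ≤ ν a ∧ ν a ≤ O) {n q : ℕ} (hq : 1 ≤ q)
    (hg : ∀ I : Finset (Fin r), ∃ g : Fin (r + 1) → LL k r,
      (∀ j, g j ∈ Pv k (SB r 0)) ∧ mu k I ^ n = ∑ j, g j * θ (X j) ^ q)
    (N' : Submodule k (PS k (r + 1))) (lam' : ℕ)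
    (hl : rl (N' ⊔ (Ideal.span {(X 0 : PS k (r + 1)) ^ u}).restrictScalars k)
      (Pv k {e | ∀ j, q ∣ e j}) ≤ lam')
    (P : Submodule k (ι × FJ r → LL k r)) (h1 : Xb k deg N0 O L ν 0 ≤ P)
    (h2 : ∀ i, ∀ f ∈ Pv k (SB r 0), pl deg N0 O 0 (Pi.single i f) ∈ P)
    (h3 : ∀ i, ∀ a ∈ N', ∀ c ∈ Pv k (Om N0 ν 0 O), pm deg 0 (Pi.single i (θ a * c)) ∈ P) :
    rl P (XS k N0 ν deg (O2 N0 O L ν) 0) ≤
      (Fintype.card ι * (2 * n * (u + 2 * n) ^ r * lam') : ℕ) := by
  classical
  have hUc := UU_le hN hO (fun a => (hν a).2) n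
  have hUf := Set.finite_of_encard_le_coe hUc
  let U := hUf.toFinset
  have hUn : U.card ≤ 2 * n * (u + 2 * n) ^ r := by
    rw [hUf.encard_eq_coe_toFinset_card] at hUc
    exact_mod_cast hUc
  let m : U → PS k (r + 1) →ₗ[k] LL k r := fun e =>
    LinearMap.mulRight k (monomial e.1 1) ∘ₗ θ.toLinearMap
  let S : ι → LL k r →ₗ[k] (ι × FJ r → LL k r) := fun i =>
    pm deg 0 ∘ₗ LinearMap.single k (fun _ => LL k r) i
  let Q : Submodule k (PS k (r + 1)) := Pv k {e | ∀ j, q ∣ e j}
  let Z : Submodule k (LL k r) := ⨆ e, Q.map (m e)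
  have hU : Pv k (UU N0 O n ν) ≤ Z := by
    intro f hf
    have e1 : f = ∑ e : U, coeff e.1 f • m e 1 := by
      ext e'
      simp only [m, LinearMap.comp_apply, AlgHom.toLinearMap_apply, map_one,
        LinearMap.mulRight_apply, one_mul, map_sum, map_smul, smul_eq_mul]
      by_cases c : e' ∈ U
      · rw [sum_eq_single ⟨e', c⟩]
        · simp
        · intro b _ hb
          rw [coeff_monomial_ne (fun d => hb (Subtype.ext d.symm)), mul_zero]
        · simp
      · rw [sum_eq_zero]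
        · by_contra d
          exact c (hUf.mem_toFinset.2 (hf e' d))
        · intro b _
          rw [coeff_monomial_ne (fun d : e' = b.1 => c (d ▸ b.2)), mul_zero]
    rw [e1]
    refine sum_mem fun e _ => Submodule.smul_mem _ _ (Submodule.mem_iSup_of_mem e ⟨1, ?_, rfl⟩)
    intro e' he' j
    rw [coeff_one] at he'
    split_ifs at he' with c
    · simp [c]
    · exact absurd rfl he'
  have hZ : ∀ j, ∀ z ∈ Z, θ (X j) ^ q * z ∈ Z := by
    intro j z hz
    refine (?_ : Z ≤ Z.comap (LinearMap.mulLeft k (θ (X j) ^ q))) hz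
    refine iSup_le fun e => ?_
    rintro _ ⟨a, ha, rfl⟩
    refine Submodule.mem_iSup_of_mem e ⟨X j ^ q * a, ?_, ?_⟩
    · refine mul_mem_Pv (S := {e | ∀ j, q ∣ e j}) ?_ ha fun a ha b hb j => dvd_add (ha j) (hb j)
      intro e' he' j'
      rw [X_pow_eq] at he'
      obtain rfl : e' = Finsupp.single j q := by
        by_contra d
        exact he' (coeff_monomial_ne d _)
      rw [Finsupp.single_apply]
      split_ifs <;> simp
    · simp [m, mul_assoc]
  have hW := decomp hθ hN (fun a => (hν a).1) hq hg Z hU hZ L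
  have l1 : XF k N0 ν 0 (fun _ => O + L) deg 0 ≤ P :=
    ((XF_mono (Nat.zero_le O) (fun _ => le_rfl) 0).trans
      (XX_mono (fun p J e he => Set.mem_inter (Or.inl he.1) he.2) 0)).trans h1
  refine (rl_mono le_rfl (Q := ⨆ p : ι × U, Q.map (S p.1 ∘ₗ m p.2)) ?_).trans
    ((rl_iSup_le _ _).trans ?_)
  · intro x hx
    let F : ι → LL k r := fun i => tr (Om N0 ν 0 O) (x (i, JT r))
    have h4 : x - pm deg 0 F ∈ Xb k deg N0 O L ν 0 := by
      refine mem_XX.2 fun i J e he => ?_
      rw [Pi.sub_apply, map_sub, pm_apply] at he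
      split_ifs at he with c
      · obtain ⟨c1, rfl⟩ := c
        rw [coeff_tr] at he
        split_ifs at he with d
        · simp at he
        · rw [sub_zero] at he
          obtain ⟨a1, a2, a3⟩ := mem_XX.1 hx i _ e he
          exact ⟨a1, Or.inl (a2.resolve_right d), a3⟩
      · rw [map_zero, sub_zero] at he
        obtain ⟨a1, a2, a3⟩ := mem_XX.1 hx i J e he
        refine ⟨a1, Or.inr ⟨a2, ?_⟩, a3⟩
        by_contra d
        have a4 : J = JT r := eq_of_subset_of_card_le (sub_JT d) (JT_card.le.trans (cond_card a3))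
        refine c ⟨?_, a4⟩
        rw [a4, JT_card] at a1
        omega
    have h5 : pm deg 0 F ∈ P ⊔ ⨆ p : ι × U, Q.map (S p.1 ∘ₗ m p.2) := by
      rw [← univ_sum_single F, map_sum]
      refine sum_mem fun i _ => ?_
      obtain ⟨z, hz, w, hw, e2⟩ := Submodule.mem_sup.1 (hW (x := F i) fun e he => (tr_ne he).1)
      rw [← e2, add_comm z, Pi.single_add, map_add]
      refine Submodule.add_mem_sup (l1 (pm_mem 0 _ (single_mem hw i))) ?_
      refine (?_ : Z ≤ Submodule.comap (S i) (⨆ p : ι × U, Q.map (S p.1 ∘ₗ m p.2))) hz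
      refine iSup_le fun e => ?_
      rintro _ ⟨a, ha, rfl⟩
      exact Submodule.mem_iSup_of_mem (i, e) ⟨a, ha, rfl⟩
    simpa using add_mem (Submodule.mem_sup_left (h1 h4)) h5
  · refine (sum_le_sum (g := fun _ => (lam' : ℕ∞)) fun p _ => ?_).trans ?_
    · refine le_trans (rl_le_of_map (S p.1 ∘ₗ m p.2) (fun x hx => ?_) le_sup_right) hl
      obtain ⟨i, e, he⟩ := p
      obtain ⟨he1, he2⟩ := hUf.mem_toFinset.1 he
      obtain ⟨a, ha, b, hb, rfl⟩ := Submodule.mem_sup.1 hx
      rw [map_add]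
      refine add_mem (h3 i a ha _ fun e' he' => ?_) ?_
      · obtain rfl : e' = e := by
          by_contra d
          exact he' (coeff_monomial_ne d _)
        exact he1
      · obtain ⟨b, rfl⟩ := Ideal.mem_span_singleton'.1 hb
        let e0 : Mon r := Finsupp.equivFunOnFinite.symm fun a =>
          a.elim (u + e none - O) fun a => e (some a) - N0
        have e1 : e0 + sgm r N0 O = Finsupp.single none u + e := by
          refine mon_ext ?_ fun a => ?_
          · have := he1.1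
            simp [e0]
            omega
          · have := (he1.2 a).1
            simp [e0]
            omega
        have e2 : θ b * monomial e0 1 ∈ Pv k (SB r 0) := by
          refine mul_mem_Pv (hθ.ord b 0 (by simp)) (T := SB r 0) (fun e' he' => ?_) fun a ha b hb =>
            ⟨Nat.zero_le _, fun j => add_le_add (ha.2 j) (hb.2 j)⟩
          obtain rfl : e' = e0 := by
            by_contra d
            exact he' (coeff_monomial_ne d _)
          refine ⟨Nat.zero_le _, fun a => ?_⟩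
          have := he1.2 a
          have := hν a
          have := he1.1
          simp [e0]
          omega
        have e3 : (S i ∘ₗ m ⟨e, he⟩) (b * X 0 ^ u) =
            pl deg N0 O 0 (Pi.single i (θ b * monomial e0 1)) := by
          ext1 ⟨i', J⟩
          simp only [S, m, LinearMap.comp_apply, LinearMap.single_apply, pm_apply, pl_apply,
            LinearMap.mulRight_apply, AlgHom.toLinearMap_apply, map_mul, map_pow, hX]
          split_ifs
          · by_cases c : i' = i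
            · subst c
              simp only [Pi.single_eq_same, mul_assoc, X_pow_eq, monomial_mul_monomial, e1]
            · simp [c]
          · rfl
        rw [e3]
        exact h2 i _ e2
    · rw [sum_const, card_univ, Fintype.card_prod, Fintype.card_coe, nsmul_eq_mul, ← Nat.cast_mul,
        mul_assoc]
      exact Nat.cast_le.2 (Nat.mul_le_mul_left _ (Nat.mul_le_mul_right _ hUn))

theorem zero (hC : CbStmt.{u}) (hT : TauStmt.{u}) (hθ : Th0 θ) {C : ℕ} {w : Fin r ! → LL k r}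
    (hw : ∀ j, w j ∈ Pv k (SB r 0))
    (hs : rl ((⨆ j, LinearMap.range (LinearMap.mulRight k (w j) ∘ₗ θ.toLinearMap)) ⊔
      Pv k (SB r L)) (Pv k (SB r 0)) ≤ (C * (L + 1) ^ r : ℕ))
    (hD : Gr deg deg (-1) D) (hDD : D * D = 0) (hN : N0 = O + L)
    (hν : ∀ a, (L : ℤ) ≤ ν a ∧ ν a ≤ O) {γ : PS k (r + 1)} {o : ℕ} (ho : γ.order ≤ (o : ℕ∞))
    (hl : Lat (DD θ D) (gg θ γ ι)) (N : Submodule (PS k (r + 1)) (ι → PS k (r + 1))) (lam : ℕ)
    (hv : ∀ v ∈ N, ∃ w, ∀ i, deg i = 0 → γ * v i = (D *ᵥ w) i) (hlam : cl k N ≤ lam) (K : ℕ)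
    (hK : ∀ P : Submodule k (ι × FJ r → LL k r), Xb k deg N0 O L ν 0 ≤ P →
      (∀ i, ∀ f ∈ Pv k (SB r 0), pl deg N0 O 0 (Pi.single i f) ∈ P) →
      (Bc (DD θ D) (XS k N0 ν deg (O2 N0 O L ν)) (Xb k deg N0 O L ν) 0).comap (gg θ γ ι) ≤ P →
      rl P (XS k N0 ν deg (O2 N0 O L ν) 0) ≤ K) :
    hh (DD θ D) (gg θ γ ι) 0 (XF k N0 ν O (fun _ => O) deg) (XF k N0 ν O (fun _ => O + L) deg) 0 ≤
      (r ! * lam + Fintype.card ι * (C * (L + 1) ^ r) + K +
        Fintype.card ι * 4 ^ r * o * (O + 1) ^ r : ℕ) := by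
  have cX := (XF_cx (N0 := N0) (ν := ν) hθ hD 0 O (slope_const D O)).d
  have cX1 := (XF_cx (N0 := N0) (ν := ν) hθ hD 0 O (slope_const D (O + L))).d
  have cX2 := O2_cx (N0 := N0) (O := O) (L := L) (ν := ν) hθ hD
  have s1 : ∀ p, Om N0 ν O (O + L) ⊆ O2 N0 O L ν p := fun _ => Set.subset_union_left
  have s2 : ∀ p, O2 N0 O L ν p ⊆ Om N0 ν O O := fun _ =>
    Set.union_subset (Om_mono le_rfl (by omega)) (Om_mono (by omega) le_rfl)
  have cXb : CxD (DD θ D) (Xb k deg N0 O L ν) := flat_cx s1 cX2 cX1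
  have l1 : XF k N0 ν O (fun _ => O + L) deg ≤ Xb k deg N0 O L ν :=
    XX_mono fun p J e he => Set.mem_inter (Or.inl he.1) he.2
  have l2 : Xb k deg N0 O L ν ≤ XS k N0 ν deg (O2 N0 O L ν) :=
    XX_mono fun p J e he => Set.mem_inter (he.1.elim (@s1 p e) fun c => c.1) he.2
  have e1 : hh (DD θ D) (gg θ γ ι) 0 (XF k N0 ν O (fun _ => O) deg)
      (XS k N0 ν deg (O2 N0 O L ν)) 0 = 0 := by
    refine le_antisymm (((hC k r θ ι deg D _ N0 ν _ _ hD hDD s2 cX cX2).1 0).trans ?_) zero_le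
    refine (sum_eq_zero fun i _ => Set.encard_eq_zero.2 ?_).le
    exact Set.eq_empty_of_forall_notMem fun e he =>
      he.2.1 (Or.inr (typ_high hN (fun a => (hν a).1) he.2.2 he.1.1).2)
  have e2 : hh (DD θ D) (gg θ γ ι) 0 (Xb k deg N0 O L ν) (XF k N0 ν O (fun _ => O + L) deg) 0 = 0 := by
    refine (hC k r θ ι deg D _ N0 ν _ _ hD hDD s1 cX2 cX1).2 (fun p e h1 h2 => ?_) 0
    have h3 : e ∈ Om N0 ν 0 O := h1.resolve_left h2
    refine ⟨fun a => by have := h3.2 a; omega, ?_⟩
    simpa using fun a => (h3.2 a).1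
  refine (hl.sub _ _ _ cX cX2 cX1 (l1.trans l2) (XS_mono s2) 0).trans ?_
  rw [e1, add_zero]
  refine (hl.sub _ _ _ cX2 cXb cX1 l1 l2 0).trans ?_
  rw [e2, zero_add, hh0]
  set B := Bc (DD θ D) (XS k N0 ν deg (O2 N0 O L ν)) (Xb k deg N0 O L ν) 0 with hB
  set Q := XS k N0 ν deg (O2 N0 O L ν) 0 with hQ
  have hXB : Xb k deg N0 O L ν 0 ≤ B := le_sup_left
  refine (rl_mono le_rfl (Q := Q) (inf_le_left.trans le_sup_right)).trans ?_
  refine (rl_le_add B (B ⊔ Q.map (gg θ γ ι)) Q).trans ?_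
  rw [Nat.cast_add]
  refine add_le_add ?_ ?_
  · set P := B.comap (gg θ γ ι) with hP
    have hXP : Xb k deg N0 O L ν 0 ≤ P := fun x hx => hXB (Xb_g hθ γ hx)
    refine (rl_le_of_map (gg θ γ ι) (P := P) (Q := Q) (fun x hx => hx) le_rfl).trans ?_
    let T : Fin r ! → (ι → PS k (r + 1)) →ₗ[k] (ι × FJ r → LL k r) := fun j =>
      pl deg N0 O 0 ∘ₗ LinearMap.pi fun i =>
        (LinearMap.mulRight k (w j) ∘ₗ θ.toLinearMap) ∘ₗ LinearMap.proj i
    let S : ι → LL k r →ₗ[k] (ι × FJ r → LL k r) := fun i =>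
      pl deg N0 O 0 ∘ₗ LinearMap.single k (fun _ => LL k r) i
    set P1 := P ⊔ ⨆ j, LinearMap.range (T j) with hP1
    set P2 := P1 ⊔ ⨆ i, (Pv k (SB r 0)).map (S i) with hP2
    refine (rl_le_add P P2 Q).trans ?_
    rw [Nat.cast_add]
    refine add_le_add ((rl_le_add P P1 P2).trans ?_) ?_
    · rw [Nat.cast_add]
      refine add_le_add ?_ ?_
      · refine (rl_mono le_rfl le_rfl).trans ((rl_iSup_le P _).trans ?_)
        refine (sum_le_sum (g := fun _ => (lam : ℕ∞)) fun j _ => ?_).trans (by simp)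
        refine le_trans (rl_le_of_map (T j) (P := N.restrictScalars k) (Q := ⊤) (fun v hv' => ?_)
          (by simp)) ((cl_eq (k := k) N).symm.le.trans hlam)
        obtain ⟨w', hw'⟩ := hv v hv'
        exact E3m.part1 hθ hD hN (fun a => (hν a).1) (hw j) hw'
      · refine (rl_mono le_rfl le_rfl).trans ((rl_iSup_le P1 _).trans ?_)
        refine (sum_le_sum (g := fun _ => ((C * (L + 1) ^ r : ℕ) : ℕ∞)) fun i _ => ?_).trans
          (by simp)
        refine le_trans (rl_le_of_map (S i) (fun x hx => ?_) le_sup_right) hs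
        refine (?_ : Submodule.map (S i) _ ≤ P1) (Submodule.mem_map_of_mem hx)
        rw [Submodule.map_sup, Submodule.map_iSup]
        refine sup_le (iSup_le fun j => ?_) ?_
        · rintro _ ⟨_, ⟨a, rfl⟩, rfl⟩
          refine Submodule.mem_sup_right (Submodule.mem_iSup_of_mem j ⟨Pi.single i a, ?_⟩)
          simp only [T, S, LinearMap.comp_apply]
          congr 1
          ext1 i'
          by_cases c : i' = i
          · subst c
            simp
          · simp [c]
        · rintro _ ⟨f, hf, rfl⟩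
          refine Submodule.mem_sup_left (hXP (l1 0 ?_))
          exact XF_mono (Nat.zero_le O) (fun _ => le_rfl) 0 (pl_mem hN (fun a => (hν a).1) 0 L
            (single_mem hf i))
    · exact hK P2 (hXP.trans (le_sup_left.trans le_sup_left))
        (fun i f hf => Submodule.mem_sup_right (Submodule.mem_iSup_of_mem i ⟨f, hf, rfl⟩))
        (le_sup_left.trans le_sup_left)
  · have h1 := (hT k r θ hθ γ o ho ι deg N0 ν 0 (fun _ => O) (fun _ => O + L) (O + 1)
      (fun _ => Nat.le_add_right _ _) (fun _ a => by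
        have := hν a
        push_cast
        omega) 0).2
    refine le_trans (rl_mono ?_ ?_) h1
    · refine sup_le_sup ((XF_mono (Nat.zero_le O) (fun _ => le_rfl) 0).trans ((l1 0).trans hXB))
        (Submodule.map_mono (XS_mono (fun _ => Set.subset_union_right) 0))
    · exact (XS_union 0).trans (sup_le_sup_right (((l1 0).trans hXB).trans le_sup_left) _)

theorem num0 (r C c o s L q lam : ℕ) : C * (L + 1) ^ r +
    2 * (c * q) * (s * (r + 1) + 2 * (c * q)) ^ r * lam + 4 ^ r * o * (L + s * (r + 1) + 1) ^ r ≤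
      (C + 2 * c * (r + 1 + 2 * c) ^ r + 4 ^ r * (r + 1) ^ r) *
        ((o + 1) * (L + s + 1) ^ r + (s + q) ^ (r + 1) * (lam + 1)) := by
  have h1 : (L + 1) ^ r ≤ (L + s + 1) ^ r := Nat.pow_le_pow_left (by omega) _
  have h2 : (L + s * (r + 1) + 1) ^ r ≤ (r + 1) ^ r * (L + s + 1) ^ r := by
    rw [← mul_pow]
    exact Nat.pow_le_pow_left (by nlinarith) _
  have h3 : (s * (r + 1) + 2 * (c * q)) ^ r ≤ (r + 1 + 2 * c) ^ r * (s + q) ^ r := by
    rw [← mul_pow]
    exact Nat.pow_le_pow_left (by nlinarith) _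
  set A := (o + 1) * (L + s + 1) ^ r + (s + q) ^ (r + 1) * (lam + 1) with hA
  have a1 : (L + 1) ^ r ≤ A :=
    (h1.trans (Nat.le_mul_of_pos_left _ (by omega))).trans (Nat.le_add_right _ _)
  have a2 : o * (L + s + 1) ^ r ≤ A :=
    (Nat.mul_le_mul_right _ (by omega)).trans (Nat.le_add_right _ _)
  have a3 : q * (s + q) ^ r * lam ≤ A := by
    refine le_trans ?_ (Nat.le_add_left _ _)
    rw [pow_succ']
    gcongr <;> omega
  calc _ ≤ C * (L + 1) ^ r + 2 * (c * q) * ((r + 1 + 2 * c) ^ r * (s + q) ^ r) * lam +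
        4 ^ r * o * ((r + 1) ^ r * (L + s + 1) ^ r) := by gcongr
    _ = C * (L + 1) ^ r + 2 * c * (r + 1 + 2 * c) ^ r * (q * (s + q) ^ r * lam) +
        4 ^ r * (r + 1) ^ r * (o * (L + s + 1) ^ r) := by ring
    _ ≤ C * A + 2 * c * (r + 1 + 2 * c) ^ r * A + 4 ^ r * (r + 1) ^ r * A := by gcongr
    _ = _ := by ring

theorem num1 (r o s L q lam : ℕ) : s * (r + 1) * (2 * (s * (r + 1))) ^ r ≤
    (r + 1) * (2 * (r + 1)) ^ r *
      ((o + 1) * (L + s + 1) ^ r + (s + q) ^ (r + 1) * (lam + 1)) := by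
  calc _ = (r + 1) * (2 * (r + 1)) ^ r * (s ^ (r + 1) * 1) := by
        rw [show 2 * (s * (r + 1)) = 2 * (r + 1) * s by ring, mul_pow]
        ring
    _ ≤ (r + 1) * (2 * (r + 1)) ^ r * ((s + q) ^ (r + 1) * (lam + 1)) := by
        gcongr <;> omega
    _ ≤ _ := Nat.mul_le_mul_left _ (Nat.le_add_left _ _)

end E5m

open E3m E5m

theorem e5Stmt (hC : CbStmt.{u}) (hT : TauStmt.{u}) : E5Stmt.{u} := by
  intro k _ r θ hθ hX
  obtain ⟨C, w, hw, hs⟩ := hθ.span
  obtain ⟨c, hc⟩ := hθ.bpf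
  refine ⟨C + 2 * c * (r + 1 + 2 * c) ^ r + 4 ^ r * (r + 1) ^ r +
    (2 * (r + 1) + 1) * ((r + 1) * (2 * (r + 1)) ^ r), ?_⟩
  intro γ o s L κ ι _ _ deg D ho hs1 hG hM N lam hv hlam q N' lam' hq hv'
  have hν : ∀ a, (L : ℤ) ≤ nu s L κ a ∧ nu s L κ a ≤ (L + s * (r + 1) : ℕ) := fun a => by
    have := nu_bd s L hs1 κ a
    push_cast
    omega
  have hN : 2 * L + s * (r + 1) = L + s * (r + 1) + L := by ring
  have ht := (hM.tame _ (slope_const D (L + s * (r + 1))) fun _ => le_rfl).2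
  have cX := hM.cx _ (slope_const D (L + s * (r + 1)))
  refine (chi_le _ _ _ _ _ _ (r ! * lam + Fintype.card ι *
    ((C + 2 * c * (r + 1 + 2 * c) ^ r + 4 ^ r * (r + 1) ^ r) *
      ((o + 1) * (L + s + 1) ^ r + (s + q) ^ (r + 1) * (lam' + 1))))
    (Fintype.card ι * ((r + 1) * (2 * (r + 1)) ^ r *
      ((o + 1) * (L + s + 1) ^ r + (s + q) ^ (r + 1) * (lam' + 1)))) ?_ ?_).trans ?_
  · refine (ht 0).trans ((E5m.zero hC hT hθ.toTh0 hw (hs L) hG.gr hG.dd hN hν ho hM.lat N lam hv
      hlam _ fun P h1 h2 h3 => E5m.part3 hθ.toTh0 hX hN rfl hν hq (hc q) N' lam' hv'.2 P h1 h2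
        fun i a ha c' hc' => h3 ?_).trans ?_)
    · by_cases hi : deg i = 0
      · obtain ⟨w', hw'⟩ := hv'.1 a ha i hi
        have h4 := E5m.part1 (L := L) hθ.toTh0 hG.gr hc' (v := Pi.single i a) (w := w')
          (γ := γ) fun j hj => by
            rw [← hw' j hj, Pi.single_apply]
            split_ifs <;> simp
        have h5 : (fun j => θ ((Pi.single i a : ι → _) j) * c') = Pi.single i (θ a * c') := by
          ext1 j
          by_cases e : j = i
          · subst e
            simp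
          · simp [e]
        rwa [h5] at h4
      · have h5 : pm deg 0 (Pi.single i (θ a * c')) = 0 := by
          ext1 ⟨j, J⟩
          rw [pm_apply]
          split_ifs with e
          · rw [Pi.single_eq_of_ne fun d : j = i => hi (d ▸ e.1)]
            rfl
          · rfl
        rw [h5]
        exact zero_mem _
    · refine Nat.cast_le.2 ?_
      have := Nat.mul_le_mul_left (Fintype.card ι) (E5m.num0 r C c o s L q lam')
      nlinarith
  · intro n hn
    rcases lt_or_gt_of_ne hn with h | h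
    · refine (ht n).trans (((hC k r θ ι deg D _ _ _ _ _ hG.gr hG.dd
        (fun _ => Om_mono le_rfl (Nat.le_add_right _ _)) cX.d
        (hM.cx _ ((slope_const D (L + s * (r + 1))).add L)).d).1 n).trans ?_)
      refine (sum_eq_zero fun i _ => Set.encard_eq_zero.2 ?_).le.trans zero_le
      refine Set.eq_empty_of_forall_notMem fun e he => ?_
      have := (typ_high hN (fun a => (hν a).1) he.2.2 he.1.1).1
      omega
    · have cX2 := hM.cx _ ((slope_const D (L + s * (r + 1))).sub L)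
      refine (hM.lat.down _ _ _ n cX cX2 (XF_mono le_rfl fun _ => Nat.sub_le _ _)
        (hM.gh _ (slope_const D _) (fun _ => Nat.le_add_right _ _) n)).trans ?_
      refine ((hC k r θ ι deg D _ _ _ _ _ hG.gr hG.dd
        (fun _ => Om_mono le_rfl (Nat.sub_le _ _)) cX2.d cX.d).1 (n + 1)).trans ?_
      refine (sum_le_sum (g := fun _ => ((s * (r + 1) * (2 * (s * (r + 1))) ^ r : ℕ) : ℕ∞))
        fun i _ => ?_).trans ?_
      · refine le_trans (Set.encard_le_encard fun e he => ?_)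
          (typ_low hN rfl hν (j := deg i - (n + 1)) (by have := hG.le i; omega))
        refine ⟨?_, he.2.2⟩
        by_contra c
        exact he.2.1 ⟨not_lt.1 c, he.1.2⟩
      · rw [sum_const, card_univ, nsmul_eq_mul, ← Nat.cast_mul]
        exact Nat.cast_le.2 (Nat.mul_le_mul_left _ (E5m.num1 r o s L q lam'))
  · push_cast
    exact le_of_eq (by ring)

end Vale.Agent.P202
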