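import Vale.Agent.P202.Car2
import Vale.Agent.P202.Eu
import Vale.Agent.P202.Seg1

/-! The refined approximate Euler characteristic and the inequality over the power series ring. -/

open Finset Matrix MvPowerSeries Filter Topology IsLocalRing
open scoped Kronecker Nat

namespace Vale.Agent.P202

universe u

theorem seg1' (k : Type u) [Field k] (r : ℕ) :
    ∃ θ : PS k (r + 1) →ₐ[k] LL k r, Th0 θ ∧ θ (X 0) = X none := by
  refine ⟨S1.th k r, ⟨S1.th_ord, S1.th_low, fun j e he => ?_, ?_⟩, ?_⟩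
  · rw [S1.th_X] at he
    exact (S1.xs_mem j e he).1
  · obtain ⟨c, hc⟩ := S1.bpf (k := k) (r := r)
    refine ⟨c, fun M I => ?_⟩
    obtain ⟨g, hg⟩ := Ideal.mem_span_range_iff_exists_fun.1 (hc M I)
    refine ⟨fun j => g j, fun j => (g j).2, ?_⟩
    simpa [S1.th_X, S1.muB, S1.xsB] using (congrArg Subtype.val hg).symm
  · simp [S1.th_X, S1.xs, mu]

theorem eu2Stmt (h2 : Seg2Stmt.{u}) (hG : GhStmt.{u}) (hT : TamStmt.{u}) (e1 : E1Stmt.{u})
    (e2 : E2Stmt.{u}) (e3 : E3Stmt.{u}) (e4 : E4Stmt.{u}) (e5 : E5Stmt.{u}) : Eu2Stmt.{u} := by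
  intro k _ r
  obtain ⟨θ, h0, hx⟩ := seg1' k r
  obtain ⟨c, hc⟩ := hG k r θ h0
  obtain ⟨C3, hC3⟩ := e3 k r θ (h2 k r θ h0)
  obtain ⟨C5, hC5⟩ := e5 k r θ (h2 k r θ h0) hx
  set B := 4 ^ r * (4 * (r + 1) * (c + 1)) ^ r with hB
  refine ⟨4 * (2 * r + 3) * (r + 1) ^ 2 * B + (r + 1) * C5 * (c + 1) ^ r, fun γ o s M ho hs => ?_⟩
  set C := 4 * (2 * r + 3) * (r + 1) ^ 2 * B + (r + 1) * C5 * (c + 1) ^ r with hC
  have good : ∀ (ι : Type) [Fintype ι] [DecidableEq ι] (deg : ι → ℕ) D, Gd γ M deg D →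
      Good θ γ (c * M) deg D := fun ι _ _ deg D h => ⟨h.gr, h.dd, h.le, hc γ M ι deg D h⟩
  have tm : ∀ (ι : Type) [Fintype ι] [DecidableEq ι] (deg : ι → ℕ) D, Gd γ M deg D → ∀ κ,
      Tm θ γ o s (c * M) κ deg D := fun ι _ _ deg D h κ =>
    hT k r θ h0 γ o s _ κ ι deg D ho hs (good ι deg D h)
  have key : ∀ a n : ℕ, a ≤ 4 * (2 * r + 3) * (r + 1) ^ 2 →
      (a : ℤ) * tau r o s (c * M) n ≤ n * (C * o * (M + s + 1) ^ r : ℕ) := fun a n ha => by
    have : a * B ≤ C := (Nat.mul_le_mul_right _ ha).trans (Nat.le_add_right _ _)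
    have := (tau_le r o s c M n a).trans (Nat.mul_le_mul_left n
      (Nat.mul_le_mul_right _ (Nat.mul_le_mul_right o this)))
    exact_mod_cast this
  refine ⟨fun ι _ _ deg D => ∑ κ, eu θ γ s (c * M) κ deg D,
    (r + 1) * (C3 * (o + s + 1) * (c * M + s + 1) ^ r), ⟨?_, ?_, ?_, ?_⟩, ?_⟩
  · intro ι ι' _ _ _ _ deg D deg' D' g g' d d'
    rw [← sum_sub_distrib]
    refine (abs_sum_le _ _ fun κ => e1 k r θ h0 γ o s _ κ ι ι' deg D deg' D' (tm _ _ _ g κ)
      (tm _ _ _ g' κ) d d').trans ?_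
    have := key ((r + 1) * (2 * r + 3)) (Fintype.card ι + Fintype.card ι') (by nlinarith)
    push_cast at this ⊢
    linarith
  · intro ι ι₁ ι₂ _ _ _ _ _ _ e deg D deg₁ D₁ deg₂ D₂ t g g₁ g₂
    rw [← sum_sub_distrib, ← sum_sub_distrib]
    refine (abs_sum_le _ _ fun κ => e2 k r θ h0 γ o s _ κ ι ι₁ ι₂ e deg D deg₁ D₁ deg₂ D₂ t
      (tm _ _ _ g κ) (tm _ _ _ g₁ κ) (tm _ _ _ g₂ κ)).trans ?_
    have := key (3 * (2 * r + 3) * (r + 1) ^ 2) (Fintype.card ι) (by nlinarith)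
    push_cast at this ⊢
    linarith
  · intro ι _ _ deg D g N lam hN hl
    refine (sum_le_sum fun κ _ => hC3 γ o s _ κ ι deg D ho hs (good _ _ _ g) (tm _ _ _ g κ) N lam
      hN hl).trans ?_
    simp only [sum_const, card_univ, Fintype.card_fin, nsmul_eq_mul, Nat.factorial_succ]
    push_cast
    linarith
  · intro ι _ _ deg D g ho' hz
    refine (e4 k r θ h0 γ o s _ ι deg D hs (good _ _ _ g) (tm _ _ _ g) ho' hz).trans ?_
    have := key _ (Fintype.card ι) le_rfl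
    push_cast at this ⊢
    linarith
  · intro ι _ _ deg D g N lam hN hl q N' lam' hq hN'
    refine (sum_le_sum fun κ _ => hC5 γ o s _ κ ι deg D ho hs (good _ _ _ g) (tm _ _ _ g κ) N lam
      hN hl q N' lam' hq hN').trans ?_
    have h : c * M + s + 1 ≤ (c + 1) * (M + s + 1) := by nlinarith [Nat.zero_le (c * s)]
    have h' := Nat.pow_le_pow_left h r
    rw [mul_pow] at h'
    have h1 : (r + 1) * C5 * (c + 1) ^ r ≤ C := Nat.le_add_left _ _
    have h2 : (r + 1) * C5 ≤ C := (Nat.le_mul_of_pos_right _ (by positivity)).trans h1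
    have : (r + 1) * (C5 * ((o + 1) * (c * M + s + 1) ^ r + (s + q) ^ (r + 1) * (lam' + 1))) ≤
        C * (o + 1) * (M + s + 1) ^ r + C * (s + q) ^ (r + 1) * (lam' + 1) :=
      calc _ ≤ (r + 1) * (C5 * ((o + 1) * ((c + 1) ^ r * (M + s + 1) ^ r) +
            (s + q) ^ (r + 1) * (lam' + 1))) := by gcongr
        _ = (r + 1) * C5 * (c + 1) ^ r * (o + 1) * (M + s + 1) ^ r +
            (r + 1) * C5 * (s + q) ^ (r + 1) * (lam' + 1) := by ring
        _ ≤ _ := by gcongr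
    have := Nat.mul_le_mul_left (Fintype.card ι) this
    zify at this
    simp only [sum_const, card_univ, Fintype.card_fin, nsmul_eq_mul, Nat.factorial_succ]
    push_cast at this ⊢
    linarith

theorem coreB_ar {F x T c nn ci cn η η1 W lam f0 f1 ft fb : ℤ} (hF : 1 ≤ F) (hT : 1 ≤ T)
    (hc : 0 ≤ c) (hn : 0 ≤ nn) (hci : 0 ≤ ci) (hcn : 0 ≤ cn) (h0 : 0 ≤ η) (h1 : η ≤ η1)
    (hW : 0 ≤ W) (a4 : F * x ≤ f0 + ci * η) (a1 : |f0 - f1| ≤ (ci + cn) * η)
    (ak : |ft - T * f1| ≤ 5 * T * cn * η) (af : |fb - nn * ft| ≤ (c + 4) * nn * cn * η)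
    (a5 : fb ≤ F * lam + cn * nn * (η1 + W)) :
    nn * T * x ≤ lam + 12 * nn * (ci + cn) * ((T + c) * η1 + W) := by
  have b1 : F * x ≤ f1 + 2 * (ci + cn) * η1 := by
    have := (abs_le.1 a1).2
    nlinarith [mul_nonneg hcn h0, mul_le_mul_of_nonneg_left h1 (add_nonneg hci hcn)]
  have e0 : 0 ≤ η1 := h0.trans h1
  have b2 : T * (F * x) ≤ ft + 7 * T * (ci + cn) * η1 := by
    have h2 := (abs_le.1 ak).1
    have h3 := mul_le_mul_of_nonneg_left b1 (zero_le_one.trans hT)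
    have h4 : T * cn * η ≤ T * (ci + cn) * η1 := by gcongr; linarith
    linarith
  have b3 : nn * ft ≤ fb + (c + 4 * T) * nn * (ci + cn) * η1 := by
    have h2 := (abs_le.1 af).1
    have h4 : (c + 4) * nn * cn * η ≤ (c + 4 * T) * nn * (ci + cn) * η1 := by
      gcongr <;> linarith
    linarith
  have t0 := zero_le_one.trans hT
  have b4 : cn * nn * (η1 + W) ≤ (ci + cn) * nn * (T * η1 + W) := by
    gcongr
    · linarith
    · exact le_mul_of_one_le_left e0 hT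
  set Z := 12 * nn * (ci + cn) * ((T + c) * η1 + W) with hZ
  have hZ0 : 0 ≤ Z := by positivity
  have b5 : F * (nn * T * x) ≤ F * (lam + Z) := by
    have h2 := mul_le_mul_of_nonneg_left b2 hn
    have h3 := le_mul_of_one_le_left hZ0 hF
    have h4 : 0 ≤ nn * (ci + cn) * (c * η1) := by positivity
    have h5 : 0 ≤ nn * (ci + cn) * W := by positivity
    rw [mul_add F]
    linarith
  exact le_of_mul_le_mul_left b5 (zero_lt_one.trans_le hF)

theorem coreBStmt (hE : Eu2Stmt.{u}) (hK : KcStmt.{u}) (hF : FilStmt.{u}) : CoreBStmt.{u} := by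
  intro k _ r
  obtain ⟨C, hC⟩ := hE k r
  refine ⟨12 * C, ?_⟩
  intro γ o s M t q d nn ho hs ht hq hn n ι ιb _ _ _ _ _ _ dn Y d0 deg D hY g hD hz d1 d2 e degb Db
    gb hdeg hdia N lam hN hl N' lam' hN'
  obtain ⟨f, η', hf, h5⟩ := hC γ o s M ho hs
  have g1 : Gd γ M (kc dn) (KosC Y d0) := by simpa using (hY.gdT (fun _ => 1) fun _ => ht).gd
  have a4 := hf.e4 ι deg D g hD hz
  have a1 := hf.e1 ι _ deg D _ _ g g1 d1 d2
  have ak := hK k r γ M s _ _ f hf t d n dn Y d0 ht hY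
  have af := hF k r γ M s _ _ f hf ιb _ nn e degb Db _ _ hn gb hdeg hdia
  have a5 := h5 ιb degb Db gb.gd N lam hN hl q N' lam' hq hN'
  have hc : (Fintype.card (Finset (Fin d) × n) : ℤ) = 2 ^ d * Fintype.card n := by simp
  have hb : (Fintype.card ιb : ℤ) = 2 ^ d * Fintype.card n * nn := by
    rw [Fintype.card_congr e]; simp
  rw [hc] at a1 af
  rw [hb] at a5
  have := coreB_ar (F := ((r + 1)! : ℕ)) (x := #{i | deg i = 0} * s ^ (r + 1)) (T := t ^ d)
    (W := C * (s + q) ^ (r + 1) * (lam' + 1)) (by exact_mod_cast Nat.factorial_pos _)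
    (one_le_pow₀ (by exact_mod_cast ht)) (by positivity) (by positivity) (by positivity)
    (by positivity) (by positivity) (Nat.cast_le.2 (by gcongr; exact Nat.le_succ o))
    (by positivity) (by linarith) a1 ak af a5
  zify
  simp only [Nat.cast_eq_zero]
  push_cast at this
  linarith

end Vale.Agent.P202
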