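import Vale.Agent.P202.Spec2

/-! Module FI: additivity along a block triangular filtration. -/

open Finset Matrix MvPowerSeries

namespace Vale.Agent.P202

universe u

namespace Fi

variable {k : Type u} [Field k] {r : ℕ} {ι ι' : Type} [Fintype ι] [DecidableEq ι] [Fintype ι']
  [DecidableEq ι'] {γ : PS k (r + 1)} {M : ℕ}

abbrev Iv (o : ι → ℕ) (a b : ℕ) : Type := {i // a ≤ o i ∧ o i < b}

omit [DecidableEq ι] in
theorem sub_mul {A : Type*} [CommRing A] {o : ι → ℕ} {P Q : Matrix ι ι A} (hP : Bt o P)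
    (hQ : Bt o Q) (a b : ℕ) :
    (P.submatrix Subtype.val Subtype.val : Matrix (Iv o a b) (Iv o a b) A) *
      (Q.submatrix Subtype.val Subtype.val : Matrix (Iv o a b) (Iv o a b) A) =
      (P * Q).submatrix Subtype.val Subtype.val := by
  ext i j
  simp only [mul_apply, submatrix_apply]
  rw [← Finset.sum_subtype (univ.filter fun x => a ≤ o x ∧ o x < b) (by simp)
    fun x => P i x * Q x j]
  refine sum_filter_of_ne fun x _ hx => ?_
  have h1 := hP _ _ (left_ne_zero_of_mul hx)
  have h2 := hQ _ _ (right_ne_zero_of_mul hx)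
  exact ⟨j.2.1.trans h2, h1.trans_lt i.2.2⟩

theorem gd_sub {o deg : ι → ℕ} {D : Matrix ι ι (PS k (r + 1))} (h : GdT γ M o deg D) (a b : ℕ) :
    Gd γ M (fun i : Iv o a b => deg i) (D.submatrix Subtype.val Subtype.val) where
  gr i j hij := h.gr _ _ hij
  dd := by rw [sub_mul h.bt h.bt, h.dd]; rfl
  le i := h.le i
  nul j := by
    obtain ⟨H, h1, h2, h3⟩ := h.nul j
    refine ⟨H.submatrix Subtype.val Subtype.val, fun i j hij => h1 _ _ hij, ?_⟩
    rw [sub_mul h.bt h2, sub_mul h2 h.bt]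
    ext1 x y
    have := congrFun (congrFun h3 x) y
    simpa [one_apply, Subtype.ext_iff] using this

theorem gd_equiv (g : ι' ≃ ι) {deg : ι → ℕ} {D : Matrix ι ι (PS k (r + 1))} (h : Gd γ M deg D) :
    Gd γ M (fun i => deg (g i)) (D.submatrix g g) where
  gr i j hij := h.gr _ _ hij
  dd := by rw [submatrix_mul_equiv, h.dd]; rfl
  le i := h.le _
  nul j := by
    obtain ⟨H, h1, h3⟩ := h.nul j
    refine ⟨H.submatrix g g, fun i j hij => h1 _ _ hij, ?_⟩
    rw [submatrix_mul_equiv, submatrix_mul_equiv]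
    ext1 x y
    have := congrFun (congrFun h3 (g x)) (g y)
    simpa [one_apply] using this

theorem dom_equiv {A : Type*} [CommRing A] (γ : A) (g : ι' ≃ ι) {deg : ι → ℕ} {D : Matrix ι ι A}
    {deg' : ι' → ℕ} {D' : Matrix ι' ι' A} (h1 : ∀ i, deg' i = deg (g i))
    (h2 : ∀ i j, D' i j = D (g i) (g j)) : Dom γ deg D deg' D' := by
  refine ⟨of fun i' i => if i' = g.symm i then γ else 0, of fun i i' => if i = g i' then 1 else 0,
    0, fun i' i h => ?_, fun i i' h => ?_, fun i j h => (h rfl).elim, ?_, ?_, ?_⟩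
  · have : i' = g.symm i := by by_contra c; simp [c] at h
    simp [this, h1]
  · have : i = g i' := by by_contra c; simp [c] at h
    simp [this, h1]
  · ext i' i
    simp only [mul_apply, of_apply, mul_ite, ite_mul, mul_zero, zero_mul, sum_ite_eq', mem_univ,
      if_true, Equiv.eq_symm_apply, sum_ite_eq]
    simp only [← Equiv.eq_symm_apply, sum_ite_eq', mem_univ, if_true, h2, Equiv.apply_symm_apply,
      mul_comm]
  · ext i i'
    simp only [mul_apply, of_apply, mul_ite, ite_mul, mul_zero, zero_mul, sum_ite_eq', mem_univ,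
      if_true, mul_one, one_mul]
    simp only [← Equiv.symm_apply_eq, sum_ite_eq, mem_univ, if_true, h2, Equiv.apply_symm_apply]
  · ext i j
    simp [mul_apply, one_apply]

theorem f_equiv {s η η' : ℕ} {f} (hf : Eu γ M s f η η') (g : ι' ≃ ι) {deg : ι → ℕ}
    {D : Matrix ι ι (PS k (r + 1))} (h : Gd γ M deg D) {deg' : ι' → ℕ}
    {D' : Matrix ι' ι' (PS k (r + 1))} (h1 : ∀ i, deg' i = deg (g i))
    (h2 : ∀ i j, D' i j = D (g i) (g j)) :
    |f ι deg D - f ι' deg' D'| ≤ 2 * Fintype.card ι' * η := by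
  have e1 : deg' = fun i => deg (g i) := funext h1
  have e2 : D' = D.submatrix g g := by ext1 i j; exact h2 i j
  have := hf.e1 ι ι' deg D deg' D' h (e1 ▸ e2 ▸ gd_equiv g h) (dom_equiv γ g h1 h2)
    (dom_equiv γ g.symm (fun i => by simp [h1]) fun i j => by simp [h2])
  rw [← Fintype.card_congr g] at this
  linarith

omit [Fintype ι] [DecidableEq ι] in
theorem exists_split (o : ι → ℕ) {a c b : ℕ} (h1 : a ≤ c) (h2 : c ≤ b) :
    ∃ e : Iv o c b ⊕ Iv o a c ≃ Iv o a b, (∀ i, (e (.inl i)).1 = i.1) ∧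
      ∀ i, (e (.inr i)).1 = i.1 := by
  refine ⟨Equiv.ofBijective (Sum.elim (fun i => ⟨i.1, h1.trans i.2.1, i.2.2⟩)
    fun i => ⟨i.1, i.2.1, i.2.2.trans_le h2⟩) ⟨?_, ?_⟩, fun _ => rfl, fun _ => rfl⟩
  · rintro (⟨i, hi⟩ | ⟨i, hi⟩) (⟨j, hj⟩ | ⟨j, hj⟩) h <;>
      simp only [Sum.elim_inl, Sum.elim_inr, Subtype.mk.injEq] at h <;> subst h <;>
      first | rfl | omega
  · rintro ⟨i, hi⟩
    by_cases hc : c ≤ o i
    · exact ⟨.inl ⟨i, hc, hi.2⟩, rfl⟩
    · exact ⟨.inr ⟨i, hi.1, not_le.1 hc⟩, rfl⟩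

end Fi

open Fi in
theorem filStmt : FilStmt.{u} := by
  intro k _ r γ M s η η' f hf ι ι0 _ _ _ _ n e deg D deg0 D0 hn hG h1 h2
  set o : ι → ℕ := fun i => (e i).2 with ho
  set c := Fintype.card ι0
  have key : ∀ m, 1 ≤ m → ∀ a, a + m ≤ n → Fintype.card (Iv o a (a + m)) = m * c ∧
      |f (Iv o a (a + m)) (fun i => deg i) (D.submatrix Subtype.val Subtype.val) -
        m * f ι0 deg0 D0| ≤ (Nat.clog 2 m + 2) * m * c * η := by
    intro m
    induction m using Nat.strong_induction_on with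
    | _ m ih =>
    intro hm a ha
    rcases hm.eq_or_lt with rfl | hm
    · let g : ι0 ≃ Iv o a (a + 1) := Equiv.ofBijective
        (fun x => ⟨e.symm (x, ⟨a, by omega⟩), by simp [ho]⟩) ⟨fun x y h => by
          simpa using h, fun ⟨i, hi⟩ => ⟨(e i).1, Subtype.ext (by
            simp only [ho] at hi
            rw [Equiv.symm_apply_eq]
            exact Prod.ext rfl (Fin.ext (by simp only; omega)))⟩⟩
      refine ⟨by rw [← Fintype.card_congr g, one_mul], ?_⟩
      have hg : ∀ x, e (g x).1 = (x, ⟨a, by omega⟩) := fun x => e.apply_symm_apply _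
      have := f_equiv hf g (gd_sub hG a (a + 1)) (deg' := deg0) (D' := D0)
        (fun i => by simp [hg, h1]) fun i j => by
          simp only [submatrix_apply]
          rw [h2] <;> simp [hg]
      simpa using this
    · obtain ⟨c1, b1⟩ := ih (m / 2) (by omega) (by omega) a (by omega)
      obtain ⟨c2, b2⟩ := ih ((m + 1) / 2) (by omega) (by omega) (a + m / 2) (by omega)
      have e3 : a + m / 2 + (m + 1) / 2 = a + m := by omega
      rw [e3] at c2 b2
      obtain ⟨g, g1, g2⟩ := exists_split o (a := a) (c := a + m / 2) (b := a + m) (by omega)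
        (by omega)
      have hc : Fintype.card (Iv o a (a + m)) = m * c := by
        rw [← Fintype.card_congr g, Fintype.card_sum, c1, c2, ← add_mul]
        congr 1; omega
      refine ⟨hc, ?_⟩
      have b3 := hf.e2 _ _ _ g _ _ _ _ _ _ ⟨fun i => by rw [g1], fun i => by rw [g2],
        fun i j => by simp only [submatrix_apply, g1], fun i j => by simp only [submatrix_apply, g2],
        fun i j => by
          simp only [submatrix_apply, g1, g2]
          by_contra hne
          have := hG.bt _ _ hne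
          have := i.2.2
          have := j.2.1
          omega⟩ (gd_sub hG a (a + m)) (gd_sub hG (a + m / 2) (a + m)) (gd_sub hG a (a + m / 2))
      rw [hc] at b3
      have l1 : Nat.clog 2 m = Nat.clog 2 ((m + 1) / 2) + 1 := by
        rw [Nat.clog_of_two_le one_lt_two hm]; rfl
      have l2 : ((Nat.clog 2 (m / 2) : ℕ) : ℤ) ≤ Nat.clog 2 ((m + 1) / 2) := by
        exact_mod_cast Nat.clog_mono_right 2 (by omega)
      have l3 : (m : ℤ) = (m / 2 : ℕ) + ((m + 1) / 2 : ℕ) := by
        exact_mod_cast (by omega : m = m / 2 + (m + 1) / 2)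
      rw [l1]
      have hx : (0 : ℤ) ≤ (m / 2 : ℕ) := Int.natCast_nonneg _
      have hw : (0 : ℤ) ≤ c * η := by positivity
      have l4 := mul_le_mul_of_nonneg_right l2 (mul_nonneg hx hw)
      rw [Nat.cast_mul] at b3
      rw [Nat.cast_add (Nat.clog _ _)]
      generalize ((m / 2 : ℕ) : ℤ) = x, (((m + 1) / 2 : ℕ) : ℤ) = y at *
      rw [abs_le] at b1 b2 b3 ⊢
      rw [l3] at b3 ⊢
      push_cast
      constructor <;> linarith [b1.1, b1.2, b2.1, b2.2, b3.1, b3.2]
  obtain ⟨c1, b1⟩ := key n hn 0 (by omega)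
  let g : ι ≃ Iv o 0 (0 + n) := Equiv.ofBijective (fun i => ⟨i, by simp [ho]⟩)
    ⟨fun x y h => by simpa using h, fun i => ⟨i.1, rfl⟩⟩
  have b2 := f_equiv hf g (gd_sub hG 0 (0 + n)) (deg' := deg) (D' := D) (fun i => rfl)
    fun i j => rfl
  rw [Fintype.card_congr g, c1, Nat.cast_mul] at b2
  rw [abs_le] at b1 b2 ⊢
  constructor <;> linarith [b1.1, b1.2, b2.1, b2.2]

end Vale.Agent.P202
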