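import Vale.Agent.P202.Base

/-! Multiplicativity of the approximate Euler characteristic on Koszul complexes. -/

open Finset Matrix MvPowerSeries Filter Topology IsLocalRing
open scoped Kronecker Nat

namespace Vale.Agent.P202

universe u

namespace Ko

variable {β : Type} [Fintype β] [DecidableEq β] {A : Type*} [CommRing A] {n n' : Type}
  [Fintype n] [DecidableEq n] [Fintype n'] [DecidableEq n']

theorem car (i : β) : io A i * ep A i + ep A i * io A i = 1 := by simpa using io_ep A i i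

theorem car' {l i : β} (h : l ≠ i) : io A l * ep A i = -(ep A i * io A l) := by
  have := io_ep A l i
  rw [if_neg h] at this
  exact eq_neg_of_add_eq_zero_left this

theorem anti (l i : β) : io A l * io A i = -(io A i * io A l) :=
  eq_neg_of_add_eq_zero_left (io_anti A l i)

theorem iei (i : β) : io A i * ep A i * io A i = io A i := by
  have := congrArg (· * io A i) (car (A := A) i)
  simpa [add_mul, mul_assoc, io_sq] using this

theorem eie (i : β) : ep A i * io A i * ep A i = ep A i := by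
  have := congrArg (· * ep A i) (car (A := A) i)
  simpa [add_mul, mul_assoc, ep_sq] using this

/-- the map given by `a` on the part containing `i` and by `b` on the rest -/
noncomputable def sp (i : β) (a b : Matrix n' n A) : Matrix (Finset β × n') (Finset β × n) A :=
  (ep A i * io A i) ⊗ₖ a + (io A i * ep A i) ⊗ₖ b

omit [Fintype n] [DecidableEq n] [Fintype n'] [DecidableEq n'] in
theorem sp_gr (i : β) (a b : Matrix n' n A) : Gr kd kd 0 (sp i a b) := by
  have h : ∀ (M N : Matrix (Finset β) (Finset β) A) (x y : ℤ), Gr card card x M → Gr card card y N →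
      0 = x + y → ∀ c : Matrix n' n A, Gr kd kd 0 ((M * N) ⊗ₖ c) := fun M N x y h1 h2 e c p q h =>
    h1.mul h2 e p.1 q.1 (left_ne_zero_of_mul h)
  have h1 : Gr card card (-1) (io A i) := fun I J h => by
    have := ct_card (j := i) (I' := I) (I := J) fun e => h (by simp [e]); omega
  have h2 : Gr card card 1 (ep A i) := fun I J h => by
    have := ct_card (j := i) (I' := J) (I := I) fun e => h (by simp [e]); omega
  exact (h _ _ _ _ h2 h1 (by simp) a).add (h _ _ _ _ h1 h2 (by simp) b)

omit [DecidableEq n] [DecidableEq n'] in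
theorem sp_chain (i : β) (a b : Matrix n' n A) (W : β → Matrix n n A) (W' : β → Matrix n' n' A)
    (h : W' i * a = b * W i) (ha : ∀ l ≠ i, W' l * a = a * W l)
    (hb : ∀ l ≠ i, W' l * b = b * W l) : Kos W' * sp i a b = sp i a b * Kos W := by
  unfold Kos sp
  rw [Matrix.sum_mul, Matrix.mul_sum]
  refine sum_congr rfl fun l _ => ?_
  simp only [Matrix.mul_add, Matrix.add_mul, ← mul_kronecker_mul]
  by_cases e : l = i
  · subst e
    rw [← mul_assoc, ← mul_assoc, iei, io_sq, mul_assoc (ep A l), io_sq, h]; simp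
  · rw [ha l e, hb l e]
    congr 2
    · rw [← mul_assoc, car' e, neg_mul, mul_assoc, anti l i]; simp [mul_assoc]
    · rw [← mul_assoc, anti l i, neg_mul, mul_assoc, car' e]; simp [mul_assoc]

omit [Fintype n] [DecidableEq n] [DecidableEq n'] in
theorem sp_mul {n'' : Type} (i : β) (a b : Matrix n'' n' A) (c d : Matrix n' n A) :
    sp i a b * sp i c d = sp i (a * c) (b * d) := by
  unfold sp
  simp only [Matrix.mul_add, Matrix.add_mul, ← mul_kronecker_mul]
  have h1 : ep A i * io A i * (ep A i * io A i) = ep A i * io A i := by rw [← mul_assoc, eie]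
  have h2 : io A i * ep A i * (io A i * ep A i) = io A i * ep A i := by rw [← mul_assoc, iei]
  have h3 : io A i * ep A i * (ep A i * io A i) = 0 := by
    rw [mul_assoc, ← mul_assoc (ep A i), ep_sq]; simp
  have h4 : ep A i * io A i * (io A i * ep A i) = 0 := by
    rw [mul_assoc, ← mul_assoc (io A i), io_sq]; simp
  simp [h1, h2, h3, h4]

omit [Fintype n] in
theorem sp_one (i : β) : sp i (1 : Matrix n n A) 1 = 1 := by
  rw [sp, ← add_kronecker, add_comm, car, one_kronecker_one]

omit [Fintype n] [DecidableEq n] in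
theorem sp_add (i : β) (a b c d : Matrix n n A) : sp i a b + sp i c d = sp i (a + c) (b + d) := by
  simp only [sp, kronecker_add]; abel

omit [DecidableEq n] in
theorem sp_hom (i : β) (η : Matrix n n A) (W : β → Matrix n n A)
    (h : ∀ l ≠ i, W l * η = η * W l) :
    Kos W * (ep A i ⊗ₖ η) + (ep A i ⊗ₖ η) * Kos W = sp i (η * W i) (W i * η) := by
  unfold Kos sp
  rw [Matrix.sum_mul, Matrix.mul_sum, ← sum_add_distrib, sum_eq_single i]
  · simp only [← mul_kronecker_mul]; abel
  · intro l _ e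
    rw [← mul_kronecker_mul, ← mul_kronecker_mul, h l e, ← add_kronecker, io_ep, if_neg e,
      zero_kronecker]
  · simp

theorem dom_of {ι ι' : Type} [Fintype ι] [DecidableEq ι] [Fintype ι'] [DecidableEq ι'] (γ : A)
    {deg : ι → ℕ} {D : Matrix ι ι A} {deg' : ι' → ℕ} {D' : Matrix ι' ι' A}
    (h : Dom 1 deg D deg' D') : Dom γ deg D deg' D' := by
  obtain ⟨P, Q, H, h1, h2, h3, h4, h5, h6⟩ := h
  refine ⟨γ • P, Q, γ • H, h1.smul γ, h2, h3.smul γ, by simp [h4], h5, ?_⟩
  rw [one_smul] at h6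
  rw [← h6]; simp

/-- the doubled family -/
def dbl (i : β) (W : β → Matrix n n A) (g h : Matrix n n A) (l : β) :
    Matrix (n ⊕ n) (n ⊕ n) A :=
  if l = i then fromBlocks g (-1) 0 h else fromBlocks (W l) 0 0 (W l)

theorem dbl_dom (i : β) (W : β → Matrix n n A) (g h : Matrix n n A) (e : W i = g * h)
    (c : Commute g h) (cg : ∀ l, Commute (W l) g) (ch : ∀ l, Commute (W l) h) :
    Dom (1 : A) kd (Kos W) kd (Kos (dbl i W g h)) ∧ Dom (1 : A) kd (Kos (dbl i W g h)) kd (Kos W) := by
  have c1 := sp_chain i (fromRows 1 g) (fromRows 0 1) W (dbl i W g h)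
    (by simp [dbl, fromBlocks_mul_fromRows, fromRows_mul, e, c.eq])
    (fun l hl => by simp [dbl, hl, fromBlocks_mul_fromRows, fromRows_mul, (cg l).eq])
    fun l hl => by simp [dbl, hl, fromBlocks_mul_fromRows, fromRows_mul]
  have c2 := sp_chain i (fromCols 1 0) (fromCols h 1) (dbl i W g h) W
    (by simp [dbl, fromCols_mul_fromBlocks, mul_fromCols, e, c.eq])
    (fun l hl => by simp [dbl, hl, fromCols_mul_fromBlocks, mul_fromCols])
    fun l hl => by simp [dbl, hl, fromCols_mul_fromBlocks, mul_fromCols, (ch l).eq]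
  refine ⟨⟨_, _, 0, sp_gr _ _ _, sp_gr _ _ _, Gr.zero, c1, c2, ?_⟩,
    ⟨_, _, ep A i ⊗ₖ fromBlocks 0 0 (-1) 0, sp_gr _ _ _, sp_gr _ _ _, gr_ep _ _, c2, c1, ?_⟩⟩
  · simp [sp_mul, fromCols_mul_fromRows, sp_one]
  · rw [add_assoc, sp_hom _ _ _ fun l hl => by simp [dbl, hl, fromBlocks_multiply], sp_mul, sp_add,
      one_smul, ← sp_one i]
    congr 1 <;> rw [fromRows_mul_fromCols] <;> simp [dbl, fromBlocks_multiply, fromBlocks_add]

omit [Fintype n] in
theorem dbl_tri (i : β) (W : β → Matrix n n A) (g h : Matrix n n A) :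
    Tri (Equiv.prodSumDistrib (Finset β) n n).symm kd (Kos (dbl i W g h))
      kd (Kos (Function.update W i g)) kd (Kos (Function.update W i h)) := by
  refine ⟨fun _ => rfl, fun _ => rfl, fun p q => ?_, fun p q => ?_, fun p q => ?_⟩ <;>
    simp only [Kos, Matrix.sum_apply]
  · refine sum_congr rfl fun l _ => ?_
    by_cases e : l = i <;> simp [dbl, e]
  · refine sum_congr rfl fun l _ => ?_
    by_cases e : l = i <;> simp [dbl, e]
  · refine sum_eq_zero fun l _ => ?_
    by_cases e : l = i <;> simp [dbl, e]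

variable {k : Type u} [Field k] {r : ℕ} {γ : PS k (r + 1)} {M : ℕ}

theorem gd {W : Fin (r + 1) → Matrix n n (PS k (r + 1))} (h : Com γ M 1 W) : Gd γ M kd (Kos W) := by
  refine ⟨kos_gr W, kos_sq W h.com, fun p => by simpa using kd_le p, fun j => ?_⟩
  obtain ⟨Z, h1, h2⟩ := h.gen j
  refine ⟨_, (kos_nul W Z h1).1, ?_⟩
  simp only [pow_one] at h2
  rw [(kos_nul W Z h1).2, h2, kronecker_smul, one_kronecker_one]

theorem com_pow {t : ℕ} {Y : Fin (r + 1) → Matrix n n (PS k (r + 1))} (h : Com γ M t Y)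
    (a : Fin (r + 1) → ℕ) (ha : ∀ l, a l ≤ t) : Com γ M 1 fun l => Y l ^ a l := by
  refine ⟨fun i j => (h.com i j).pow_pow _ _, fun j => ?_⟩
  obtain ⟨Z, h1, h2⟩ := h.gen j
  refine ⟨fun l => Z l * Y l ^ (t - a l), fun l l' =>
    ((h1 l l').pow_right _).mul_left ((h.com _ _).pow_pow _ _), ?_⟩
  rw [← h2]
  exact sum_congr rfl fun l _ => by rw [pow_one, mul_assoc, ← pow_add, Nat.sub_add_cancel (ha l)]

theorem com_dbl {W : Fin (r + 1) → Matrix n n (PS k (r + 1))} (H : Com γ M 1 W) (i : Fin (r + 1))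
    (g h : Matrix n n (PS k (r + 1))) (e : W i = g * h) (c : Commute g h)
    (hg : ∀ l, Commute (W l) g) (hh : ∀ l, Commute (W l) h)
    (hz : ∀ j, ∃ Z : Fin (r + 1) → Matrix n n (PS k (r + 1)), (∀ l l', Commute (Z l) (W l')) ∧
      (∀ l, Commute (Z l) g ∧ Commute (Z l) h) ∧ ∑ l, Z l * W l = (γ * X j ^ M) • 1) :
    Com γ M 1 (dbl i W g h) := by
  refine ⟨fun a b => ?_, fun j => ?_⟩
  · by_cases ea : a = i <;> by_cases eb : b = i
    · rw [ea, eb]
    · simp [Commute, SemiconjBy, dbl, ea, eb, fromBlocks_multiply, (hg b).eq, (hh b).eq]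
    · simp [Commute, SemiconjBy, dbl, ea, eb, fromBlocks_multiply, (hg a).eq, (hh a).eq]
    · simp [Commute, SemiconjBy, dbl, ea, eb, fromBlocks_multiply, (H.com a b).eq]
  · obtain ⟨Z, h1, h2, h3⟩ := hz j
    refine ⟨fun l => fromBlocks (Z l) 0 0 (Z l) * if l = i then fromBlocks h 1 0 g else 1,
      fun a b => Commute.mul_left ?_ ?_, ?_⟩
    · by_cases eb : b = i <;> simp [Commute, SemiconjBy, dbl, eb, fromBlocks_multiply,
        (h2 a).1.eq, (h2 a).2.eq, (h1 a b).eq]
    · by_cases ea : a = i <;> by_cases eb : b = i <;> simp [Commute, SemiconjBy, dbl, ea, eb,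
        fromBlocks_multiply, (hg b).eq, (hh b).eq, c.eq]
    · have : ∀ l, (fromBlocks (Z l) 0 0 (Z l) * if l = i then fromBlocks h 1 0 g else 1) *
          dbl i W g h l ^ 1 = fromBlocks (Z l * W l) 0 0 (Z l * W l) := fun l => by
        by_cases el : l = i <;> simp [dbl, el, fromBlocks_multiply, e, c.eq, mul_assoc]
      rw [sum_congr rfl fun l _ => this l, ← fromBlocks_one, fromBlocks_smul, ← h3]
      ext1 (a | a) (b | b) <;> simp [Matrix.sum_apply]

end Ko

open Ko

theorem kosStmt : KosStmt.{u} := by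
  intro k _ r γ M s η η' f hf t n _ _ Y ht hY
  set c : ℤ := 2 ^ (r + 1) * Fintype.card n with hc
  have c0 : 0 ≤ c * η := by positivity
  have key : ∀ (N : ℕ) (a : Fin (r + 1) → ℕ), ∑ l, a l = N → (∀ l, 1 ≤ a l) → (∀ l, a l ≤ t) →
      |f _ kd (Kos fun l => Y l ^ a l) - (∏ l, a l : ℕ) * f _ kd (Kos Y)| ≤
        5 * ((∏ l, a l : ℕ) - 1) * (c * η) := by
    intro N
    induction N using Nat.strong_induction_on with
    | _ N ih =>
    intro a hN h1 h2
    by_cases h : ∀ l, a l = 1
    · simp [h]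
    obtain ⟨i, hi⟩ := not_forall.1 h
    obtain ⟨b, hb⟩ : ∃ b, a i = b + 1 := ⟨a i - 1, by have := h1 i; omega⟩
    have up : ∀ x, (Function.update (fun l => Y l ^ a l) i (Y i ^ x)) =
        fun l => Y l ^ Function.update a i x l := fun x => by
      ext1 l; by_cases e : l = i <;> simp [e]
    have bd : ∀ x, 1 ≤ x → x < a i → ∑ l, Function.update a i x l < N ∧
        (∀ l, 1 ≤ Function.update a i x l) ∧ ∀ l, Function.update a i x l ≤ t := fun x h3 h4 => by
      refine ⟨hN ▸ sum_lt_sum (fun l _ => ?_) ⟨i, mem_univ _, by simpa⟩, fun l => ?_, fun l => ?_⟩ <;>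
        by_cases e : l = i <;> simp [e, h1, h2, h3, h4.le, h4.le.trans (h2 i)]
    have b1 := bd b (by have := h1 i; omega) (by omega)
    have b2 := bd 1 le_rfl (by have := h1 i; omega)
    have i1 := ih _ b1.1 _ rfl b1.2.1 b1.2.2
    have i2 := ih _ b2.1 _ rfl b2.2.1 b2.2.2
    have cw := com_pow hY a h2
    have e : Y i ^ a i = Y i ^ b * Y i ^ 1 := by rw [hb, pow_add]
    have cg : ∀ x l, Commute (Y l ^ a l) (Y i ^ x) := fun x l => (hY.com _ _).pow_pow _ _
    have cc : Commute (Y i ^ b) (Y i ^ 1) := (hY.com _ _).pow_pow _ _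
    have gd' := gd (com_dbl cw i _ _ e cc (cg b) (cg 1) fun j => by
      obtain ⟨Z, z1, z2⟩ := hY.gen j
      have : ∀ l l' x, Commute (Z l * Y l ^ (t - a l)) (Y l' ^ x) := fun l l' x =>
        ((z1 l l').pow_right _).mul_left ((hY.com _ _).pow_pow _ _)
      refine ⟨_, fun l l' => this l l' _, fun l => ⟨this l i _, this l i _⟩, ?_⟩
      rw [← z2]
      exact sum_congr rfl fun l _ => by rw [mul_assoc, ← pow_add, Nat.sub_add_cancel (h2 l)])
    have dm := dbl_dom i (fun l => Y l ^ a l) _ _ e cc (cg b) (cg 1)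
    have a1 := hf.e1 _ _ _ _ _ _ (gd cw) gd' (dom_of γ dm.1) (dom_of γ dm.2)
    have tr := dbl_tri i (fun l => Y l ^ a l) (Y i ^ b) (Y i ^ 1)
    rw [up, up] at tr
    have a2 := hf.e2 _ _ _ _ _ _ _ _ _ _ tr gd' (gd (com_pow hY _ b1.2.2))
      (gd (com_pow hY _ b2.2.2))
    have pr : ∏ l, a l = ∏ l, Function.update a i b l + ∏ l, Function.update a i 1 l := by
      rw [prod_update_of_mem (mem_univ _), prod_update_of_mem (mem_univ _), ← add_mul, ← hb,
        prod_eq_mul_prod_sdiff_singleton_of_mem (mem_univ i)]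
    simp only [Fintype.card_prod, Fintype.card_finset, Fintype.card_fin, Fintype.card_sum] at a1 a2
    rw [pr]
    rw [abs_le] at *
    push_cast at *
    constructor <;> linarith [a1.1, a1.2, a2.1, a2.2, i1.1, i1.2, i2.1, i2.2]
  have := key _ (fun _ => t) rfl (fun _ => ht) fun _ => le_rfl
  refine ⟨by simpa using gd (com_pow hY (fun _ => 1) fun _ => ht),
    gd (com_pow hY (fun _ => t) fun _ => le_rfl), ?_⟩
  simp only [prod_const, card_univ, Fintype.card_fin, Nat.cast_pow] at this
  refine this.trans ?_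
  have : (0 : ℤ) ≤ r * t ^ (r + 1) * (c * η) := by positivity
  linarith

end Vale.Agent.P202
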