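import Vale.Agent.P202.Car2
import Vale.Agent.P202.Kos

/-! Multiplicativity for Koszul complexes on complexes. -/

open Finset Matrix MvPowerSeries Filter Topology IsLocalRing
open scoped Kronecker Nat

namespace Vale.Agent.P202

universe u

namespace Kc

open Ko

variable {β : Type} [Fintype β] [DecidableEq β] {A : Type*} [CommRing A] {n n' : Type}
  [Fintype n] [DecidableEq n] [Fintype n'] [DecidableEq n']

omit [Fintype n] [DecidableEq n] [Fintype n'] [DecidableEq n'] in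
theorem sp_gr {dn : n → ℕ} {dn' : n' → ℕ} (i : β) {a b : Matrix n' n A} (ha : Gr dn dn' 0 a)
    (hb : Gr dn dn' 0 b) : Gr (kc dn) (kc dn') 0 (sp i a b) :=
  (((gr_ep' i).mul (gr_io' i) (c := 0) (by simp)).kron ha (by simp)).add
    (((gr_io' i).mul (gr_ep' i) (c := 0) (by simp)).kron hb (by simp))

omit [DecidableEq n] [DecidableEq n'] in
theorem sp_chain' (i : β) (a b : Matrix n' n A) (W : β → Matrix n n A) (W' : β → Matrix n' n' A)
    (d : Matrix n n A) (d' : Matrix n' n' A) (h : Kos W' * sp i a b = sp i a b * Kos W)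
    (ha : d' * a = a * d) (hb : d' * b = b * d) : KosC W' d' * sp i a b = sp i a b * KosC W d := by
  rw [KosC, KosC, Matrix.add_mul, Matrix.mul_add, h, sp]
  congr 1
  simp only [Matrix.mul_add, Matrix.add_mul, ← mul_kronecker_mul, ha, hb]
  congr 2
  · rw [← mul_assoc, sgn_ep, neg_mul, mul_assoc, sgn_io]; simp [mul_assoc]
  · rw [← mul_assoc, sgn_io, neg_mul, mul_assoc, sgn_ep]; simp [mul_assoc]

omit [Fintype n] [DecidableEq n] [Fintype n'] [DecidableEq n'] in
theorem gr_blocks {dn : n → ℕ} {j : ℤ} {a b c d : Matrix n n A} (ha : Gr dn dn j a)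
    (hb : Gr dn dn j b) (hc : Gr dn dn j c) (hd : Gr dn dn j d) :
    Gr (Sum.elim dn dn) (Sum.elim dn dn) j (fromBlocks a b c d) := by
  rintro (x | x) (y | y) h
  exacts [ha _ _ h, hb _ _ h, hc _ _ h, hd _ _ h]

theorem dbl_dom {dn : n → ℕ} (i : β) (W : β → Matrix n n A) (d g h : Matrix n n A)
    (e : W i = g * h) (c : Commute g h) (cg : ∀ l, Commute (W l) g) (ch : ∀ l, Commute (W l) h)
    (dg : Commute g d) (dh : Commute h d) (gg : Gr dn dn 0 g) (gh : Gr dn dn 0 h) :
    Dom (1 : A) (kc dn) (KosC W d) (kc (Sum.elim dn dn)) (KosC (dbl i W g h) (fromBlocks d 0 0 d)) ∧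
    Dom (1 : A) (kc (Sum.elim dn dn)) (KosC (dbl i W g h) (fromBlocks d 0 0 d)) (kc dn)
      (KosC W d) := by
  have c1 := sp_chain' i _ _ _ _ d (fromBlocks d 0 0 d) (sp_chain i (fromRows 1 g) (fromRows 0 1) W
    (dbl i W g h) (by simp [dbl, fromBlocks_mul_fromRows, fromRows_mul, e, c.eq])
    (fun l hl => by simp [dbl, hl, fromBlocks_mul_fromRows, fromRows_mul, (cg l).eq])
    fun l hl => by simp [dbl, hl, fromBlocks_mul_fromRows, fromRows_mul])
    (by simp [fromBlocks_mul_fromRows, fromRows_mul, dg.eq])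
    (by simp [fromBlocks_mul_fromRows, fromRows_mul])
  have c2 := sp_chain' i _ _ _ _ (fromBlocks d 0 0 d) d (sp_chain i (fromCols 1 0) (fromCols h 1)
    (dbl i W g h) W (by simp [dbl, fromCols_mul_fromBlocks, mul_fromCols, e, c.eq])
    (fun l hl => by simp [dbl, hl, fromCols_mul_fromBlocks, mul_fromCols])
    fun l hl => by simp [dbl, hl, fromCols_mul_fromBlocks, mul_fromCols, (ch l).eq])
    (by simp [fromCols_mul_fromBlocks, mul_fromCols])
    (by simp [fromCols_mul_fromBlocks, mul_fromCols, dh.eq])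
  have o : Gr dn dn 0 (1 : Matrix n n A) := Gr.one
  have z : Gr dn dn 0 (0 : Matrix n n A) := Gr.zero
  have g1 : Gr (kc dn) (kc (Sum.elim dn dn)) 0 (sp i (fromRows 1 g) (fromRows 0 1)) :=
    sp_gr i (by rintro (x | x) y h; exacts [o _ _ h, gg _ _ h])
      (by rintro (x | x) y h; exacts [z _ _ h, o _ _ h])
  have g2 : Gr (kc (Sum.elim dn dn)) (kc dn) 0 (sp i (fromCols 1 0) (fromCols h 1)) :=
    sp_gr i (by rintro y (x | x) h; exacts [o _ _ h, z _ _ h])
      (by rintro y (x | x) h; exacts [gh _ _ h, o _ _ h])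
  refine ⟨⟨_, _, 0, g1, g2, Gr.zero, c1, c2, ?_⟩, ⟨_, _, ep A i ⊗ₖ fromBlocks 0 0 (-1) 0, g2, g1,
    (gr_ep' i).kron (gr_blocks z z o.neg z) (by simp), c2, c1, ?_⟩⟩
  · simp [sp_mul, fromCols_mul_fromRows, sp_one]
  · have h1 := sp_hom i (fromBlocks 0 0 (-1) 0) (dbl i W g h) fun l hl => by
      simp [dbl, hl, fromBlocks_multiply]
    have h2 : (sgn A β ⊗ₖ fromBlocks d 0 0 d) * (ep A i ⊗ₖ fromBlocks 0 0 (-1) 0) +
        (ep A i ⊗ₖ fromBlocks 0 0 (-1) 0) * (sgn A β ⊗ₖ fromBlocks d 0 0 d) = 0 := by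
      rw [← mul_kronecker_mul, ← mul_kronecker_mul, sgn_ep,
        show fromBlocks d 0 0 d * fromBlocks 0 0 (-1 : Matrix n n A) 0 =
          fromBlocks 0 0 (-1) 0 * fromBlocks d 0 0 d by simp [fromBlocks_multiply], ← add_kronecker]
      simp
    rw [add_assoc, KosC, add_mul, mul_add, add_add_add_comm, h1, h2, add_zero, sp_mul, sp_add,
      one_smul, ← sp_one i]
    congr 1 <;> rw [fromRows_mul_fromCols] <;> simp [dbl, fromBlocks_multiply, fromBlocks_add]

omit [Fintype n] in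
theorem dbl_tri {dn : n → ℕ} (i : β) (W : β → Matrix n n A) (d g h : Matrix n n A) :
    Tri (Equiv.prodSumDistrib (Finset β) n n).symm (kc (Sum.elim dn dn))
      (KosC (dbl i W g h) (fromBlocks d 0 0 d)) (kc dn) (KosC (Function.update W i g) d) (kc dn)
      (KosC (Function.update W i h) d) := by
  have t := Ko.dbl_tri i W g h
  refine ⟨fun _ => rfl, fun _ => rfl, fun p q => ?_, fun p q => ?_, fun p q => ?_⟩
  · rw [KosC, KosC, Matrix.add_apply, Matrix.add_apply, t.d1]; rfl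
  · rw [KosC, KosC, Matrix.add_apply, Matrix.add_apply, t.d2]; rfl
  · rw [KosC, Matrix.add_apply, t.d0]; simp

variable {k : Type u} [Field k] {r : ℕ} {γ : PS k (r + 1)} {M : ℕ}

theorem com_dbl {d : ℕ} {dn : n → ℕ} {W : Fin d → Matrix n n (PS k (r + 1))}
    {d0 : Matrix n n (PS k (r + 1))} (H : ComC γ M 1 (fun _ => 0) dn W d0) (i : Fin d)
    (g h : Matrix n n (PS k (r + 1))) (e : W i = g * h) (c : Commute g h)
    (hg : ∀ l, Commute (W l) g) (hh : ∀ l, Commute (W l) h) (dg : Commute g d0)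
    (dh : Commute h d0) (gg : Gr dn dn 0 g) (gh : Gr dn dn 0 h)
    (hz : ∀ j, ∃ (Z : Fin d → Matrix n n (PS k (r + 1))) (η : Matrix n n (PS k (r + 1))),
      (∀ l, Gr dn dn 0 (Z l)) ∧ Gr dn dn 1 η ∧ (∀ l l', Commute (Z l) (W l')) ∧
      (∀ l, Commute (Z l) d0) ∧ (∀ l, Commute η (W l)) ∧ (∀ l, Commute (Z l) g ∧ Commute (Z l) h) ∧
      Commute η g ∧ Commute η h ∧ ∑ l, Z l * W l + (d0 * η + η * d0) = (γ * X j ^ M) • 1) :
    ComC γ M 1 (fun _ => 0) (Sum.elim dn dn) (dbl i W g h) (fromBlocks d0 0 0 d0) := by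
  have o : Gr dn dn 0 (1 : Matrix n n (PS k (r + 1))) := Gr.one
  refine ⟨by rintro (a | a) <;> exact H.le a, fun l => ?_, gr_blocks H.g1 Gr.zero Gr.zero H.g1,
    fun _ => Bt.const _ _, Bt.const _ _, by simp [fromBlocks_multiply, H.dd], fun a b => ?_,
    fun a => ?_, fun j => ?_⟩
  · unfold dbl
    split_ifs
    exacts [gr_blocks gg o.neg Gr.zero gh, gr_blocks (H.g0 l) Gr.zero Gr.zero (H.g0 l)]
  · by_cases ea : a = i <;> by_cases eb : b = i
    · rw [ea, eb]
    · simp [Commute, SemiconjBy, dbl, ea, eb, fromBlocks_multiply, (hg b).eq, (hh b).eq]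
    · simp [Commute, SemiconjBy, dbl, ea, eb, fromBlocks_multiply, (hg a).eq, (hh a).eq]
    · simp [Commute, SemiconjBy, dbl, ea, eb, fromBlocks_multiply, (H.com a b).eq]
  · by_cases ea : a = i <;>
      simp [Commute, SemiconjBy, dbl, ea, fromBlocks_multiply, dg.eq, dh.eq, (H.cd a).eq]
  · obtain ⟨Z, η, g1, g2, h1, h4, h5, h2, h6, h7, h3⟩ := hz j
    refine ⟨fun l => fromBlocks (Z l) 0 0 (Z l) * if l = i then fromBlocks h 1 0 g else 1,
      fromBlocks η 0 0 η, fun l => (gr_blocks (g1 l) Gr.zero Gr.zero (g1 l)).mul (b := 0) ?_ (by simp),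
      gr_blocks g2 Gr.zero Gr.zero g2, fun _ => Bt.const _ _, Bt.const _ _,
      fun a b => Commute.mul_left ?_ ?_, fun a => Commute.mul_left ?_ ?_, fun b => ?_, ?_⟩
    · split_ifs
      exacts [gr_blocks gh o Gr.zero gg, Gr.one]
    · by_cases eb : b = i <;> simp [Commute, SemiconjBy, dbl, eb, fromBlocks_multiply,
        (h2 a).1.eq, (h2 a).2.eq, (h1 a b).eq]
    · by_cases ea : a = i <;> by_cases eb : b = i <;> simp [Commute, SemiconjBy, dbl, ea, eb,
        fromBlocks_multiply, (hg b).eq, (hh b).eq, c.eq]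
    · simp [Commute, SemiconjBy, fromBlocks_multiply, (h4 a).eq]
    · by_cases ea : a = i <;> simp [Commute, SemiconjBy, ea, fromBlocks_multiply, dg.eq, dh.eq]
    · by_cases eb : b = i <;> simp [Commute, SemiconjBy, dbl, eb, fromBlocks_multiply,
        h6.eq, h7.eq, (h5 b).eq]
    · have : ∀ l, (fromBlocks (Z l) 0 0 (Z l) * if l = i then fromBlocks h 1 0 g else 1) *
          dbl i W g h l ^ 1 = fromBlocks (Z l * W l) 0 0 (Z l * W l) := fun l => by
        by_cases el : l = i <;> simp [dbl, el, fromBlocks_multiply, e, c.eq, mul_assoc]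
      rw [sum_congr rfl fun l _ => this l, ← fromBlocks_one, fromBlocks_smul, ← h3,
        fromBlocks_multiply, fromBlocks_multiply]
      ext1 (a | a) (b | b) <;> simp [Matrix.sum_apply]

end Kc

open Kc

theorem kcStmt : KcStmt.{u} := by
  intro k _ r γ M s η η' f hf t d n _ _ dn Y d0 ht hY
  set c : ℤ := 2 ^ d * Fintype.card n with hc
  have c0 : 0 ≤ c * η := by positivity
  have key : ∀ (N : ℕ) (a : Fin d → ℕ), ∑ l, a l = N → (∀ l, 1 ≤ a l) → (∀ l, a l ≤ t) →
      |f _ (kc dn) (KosC (fun l => Y l ^ a l) d0) - (∏ l, a l : ℕ) * f _ (kc dn) (KosC Y d0)| ≤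
        5 * ((∏ l, a l : ℕ) - 1) * (c * η) := by
    intro N
    induction N using Nat.strong_induction_on with
    | _ N ih =>
    intro a hN h1 h2
    by_cases h : ∀ l, a l = 1
    · simp [h]
    obtain ⟨i, hi⟩ := not_forall.1 h
    obtain ⟨b, hb⟩ : ∃ b, a i = b + 1 := ⟨a i - 1, by have := h1 i; omega⟩
    have up : ∀ x, (Function.update (fun l => Y l ^ a l) i (Y i ^ x)) =
        fun l => Y l ^ Function.update a i x l := fun x => by
      ext1 l; by_cases e : l = i <;> simp [e]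
    have bd : ∀ x, 1 ≤ x → x < a i → ∑ l, Function.update a i x l < N ∧
        (∀ l, 1 ≤ Function.update a i x l) ∧ ∀ l, Function.update a i x l ≤ t := fun x h3 h4 => by
      refine ⟨hN ▸ sum_lt_sum (fun l _ => ?_) ⟨i, mem_univ _, by simpa⟩, fun l => ?_, fun l => ?_⟩ <;>
        by_cases e : l = i <;> simp [e, h1, h2, h3, h4.le, h4.le.trans (h2 i)]
    have b1 := bd b (by have := h1 i; omega) (by omega)
    have b2 := bd 1 le_rfl (by have := h1 i; omega)
    have i1 := ih _ b1.1 _ rfl b1.2.1 b1.2.2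
    have i2 := ih _ b2.1 _ rfl b2.2.1 b2.2.2
    have cw := hY.pow a h2
    have e : Y i ^ a i = Y i ^ b * Y i ^ 1 := by rw [hb, pow_add]
    have cg : ∀ x l, Commute (Y l ^ a l) (Y i ^ x) := fun x l => (hY.com _ _).pow_pow _ _
    have cc : Commute (Y i ^ b) (Y i ^ 1) := (hY.com _ _).pow_pow _ _
    have cd : ∀ x, Commute (Y i ^ x) d0 := fun x => (hY.cd i).pow_left _
    have g0 : ∀ x, Gr dn dn 0 (Y i ^ x) := fun x => (hY.g0 i).pow _
    have gd' := (com_dbl cw i _ _ e cc (cg b) (cg 1) (cd b) (cd 1) (g0 b) (g0 1) fun j => by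
      obtain ⟨Z, H, z1, z2, -, -, z3, z4, z5, z6⟩ := hY.gen j
      have : ∀ l l' x, Commute (Z l * Y l ^ (t - a l)) (Y l' ^ x) := fun l l' x =>
        ((z3 l l').pow_right _).mul_left ((hY.com _ _).pow_pow _ _)
      refine ⟨_, H, fun l => (z1 l).mul ((hY.g0 l).pow _) (by simp), z2, fun l l' => this l l' _,
        fun l => (z4 l).mul_left ((hY.cd l).pow_left _), fun l => (z5 l).pow_right _,
        fun l => ⟨this l i _, this l i _⟩, (z5 i).pow_right _, (z5 i).pow_right _, ?_⟩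
      rw [← z6]
      congr 1
      exact sum_congr rfl fun l _ => by
        rw [mul_assoc, ← pow_add, Nat.sub_add_cancel (h2 l)]).gdT1.gd
    have dm := dbl_dom i (fun l => Y l ^ a l) d0 _ _ e cc (cg b) (cg 1) (cd b) (cd 1) (g0 b) (g0 1)
    have a1 := hf.e1 _ _ _ _ _ _ cw.gdT1.gd gd' (Ko.dom_of γ dm.1) (Ko.dom_of γ dm.2)
    have tr := dbl_tri (dn := dn) i (fun l => Y l ^ a l) d0 (Y i ^ b) (Y i ^ 1)
    rw [up, up] at tr
    have a2 := hf.e2 _ _ _ _ _ _ _ _ _ _ tr gd' (hY.gdT _ b1.2.2).gd (hY.gdT _ b2.2.2).gd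
    have pr : ∏ l, a l = ∏ l, Function.update a i b l + ∏ l, Function.update a i 1 l := by
      rw [prod_update_of_mem (mem_univ _), prod_update_of_mem (mem_univ _), ← add_mul, ← hb,
        prod_eq_mul_prod_sdiff_singleton_of_mem (mem_univ i)]
    simp only [Fintype.card_prod, Fintype.card_finset, Fintype.card_fin, Fintype.card_sum] at a1 a2
    rw [pr]
    rw [abs_le] at *
    push_cast at *
    constructor <;> linarith [a1.1, a1.2, a2.1, a2.2, i1.1, i1.2, i2.1, i2.2]
  have := key _ (fun _ => t) rfl (fun _ => ht) fun _ => le_rfl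
  simp only [prod_const, card_univ, Fintype.card_fin, Nat.cast_pow] at this
  refine this.trans ?_
  linarith

end Vale.Agent.P202
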