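import Vale.Agent.P202.All
import Vale.Agent.P202.Spec2

/-! Final assembly in equal characteristic. -/

open Finset Matrix MvPowerSeries Filter Topology IsLocalRing
open scoped Kronecker Nat

namespace Vale.Agent.P202

universe u

theorem main2 (hI : NormIStmt.{u}) (R S : Type u) [CommRing R]
    [IsLocalRing R] [IsNoetherianRing R] [CommRing S] [IsLocalRing S] [IsNoetherianRing S]
    (f : R →+* S) [IsLocalHom f] (hf : f.Flat) (hK : HasPF R) (d D : ℕ) (hd : ringKrullDim R = d)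
    (hD : ringKrullDim S = D) : ∃ eR eS : ℝ, Mult R d eR ∧ Mult S D eS ∧ eR ≤ eS := by
  by_cases hp : PerfectField (ResidueField R)
  · exact main unrStmt gon1' grStmt nn' ben1Stmt ben2' norm' R S f hf hK hp d D hd hD
  obtain ⟨eR, heR⟩ : ∃ e, Mult R d e := by
    obtain ⟨K, R', _, _, _, _, _, a, cl, ua⟩ := gon1' R hK
    obtain ⟨C, hC⟩ := grStmt R d hd
    have e := (unrStmt.2.1 R R' a ua).2.1
    obtain ⟨_, _, c, -, -, h⟩ := nn' K R' d C cl fun N => (e N).trans_le (hC N)
    exact ⟨_, h.congr e⟩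
  obtain ⟨K, S', _, _, _, _, _, b, cl, ub⟩ := gon1' S (hK.map f)
  obtain ⟨C, hC⟩ := grStmt S D hD
  obtain ⟨lb, e, -⟩ := unrStmt.2.1 S S' b ub
  obtain ⟨_, _, c, fin, -, h⟩ := nn' K S' D C cl fun N => (e N).trans_le (hC N)
  have := cl.noeth
  refine ⟨eR, _, heR, h.congr e, ?_⟩
  obtain ⟨P, hP, ht⟩ := ben1Stmt K R S' (b.comp f) d D hd (hD ▸ (unrStmt.1 S S' b ub.flat).2.1)
  have := hP.1.1
  obtain ⟨y, c1, hy, hc1, hl⟩ := ben2' K S' d D P (hasPF_of_field K) ht
  set g := (algebraMap S' (Localization.AtPrime P)).comp (b.comp f) with hgd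
  have : IsLocalHom g := by
    refine ((local_hom_TFAE g).out 0 2).2 ?_
    rw [hgd, ← Ideal.map_map, ← Localization.AtPrime.map_eq_maximalIdeal]
    exact Ideal.map_mono hP.1.2
  have fl : g.Flat := (hf.comp ub.flat).comp (RingHom.flat_algebraMap_iff.2
    (IsLocalization.flat _ P.primeCompl))
  have key := hI R _ g fl hK hp d eR hd heR y c1 hy hc1
  refine le_of_forall_pos_le_add fun ε hε => ?_
  obtain ⟨t, ht1, ht2⟩ := ((hl ε hε).and (eventually_gt_atTop 0)).exists
  exact le_of_mul_le_mul_right ((key t).trans ht1) (by positivity)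

end Vale.Agent.P202
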