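import Vale.Agent.P202.All
import Vale.Agent.P202.Spec2

/-! The normalised inequality for an imperfect residue field. -/

open Finset Matrix MvPowerSeries Filter Topology IsLocalRing TensorProduct
open scoped Kronecker Nat

namespace Vale.Agent.P202

universe u

namespace Ni

theorem cpl (S : Type u) [CommRing S] [IsLocalRing S] [IsNoetherianRing S] :
    ∃ (C : Type u) (_ : CommRing C) (_ : IsLocalRing C) (a : S →+* C), IsNoetherianRing C ∧
      IsAdicComplete (maximalIdeal C) C ∧ Unr a ∧ Nonempty (ResidueField S ≃+* ResidueField C) ∧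
      (∀ c, ∃ x, c - a x ∈ maximalIdeal C) ∧
      ∀ (D : Type u) [CommRing D] (J : Ideal D) [IsAdicComplete J D] (g : S →+* D),
        maximalIdeal S ≤ J.comap g → ∃ G : C →+* D, ∀ x, G (a x) = g x := by
  have hb := AdicCompletion.residueField_map_bijective S
  have h : ∀ c : AdicCompletion (maximalIdeal S) S, ∃ x, c - algebraMap S _ x ∈ maximalIdeal _ :=
    fun c => by
      obtain ⟨a, ha⟩ := hb.2 (residue _ c)
      obtain ⟨a, rfl⟩ := residue_surjective a
      exact ⟨a, Ideal.Quotient.eq.1 ha.symm⟩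
  refine ⟨AdicCompletion (maximalIdeal S) S, _, inferInstance, algebraMap _ _,
    Gon.noeth (maximalIdeal _) ?_ (algebraMap S _) h, inferInstance,
    ⟨RingHom.flat_algebraMap_iff.2 inferInstance, AdicCompletion.maximalIdeal_eq_map.symm⟩,
    ⟨RingEquiv.ofBijective _ hb⟩, h, fun D _ J _ g hg => Gon.ext _ J g hg⟩
  rw [AdicCompletion.maximalIdeal_eq_map]
  exact (maximalIdeal S).fg_of_isNoetherianRing.map _

theorem dense {R C : Type*} [CommRing R] [CommRing C] (a : R →+* C) (I : Ideal R)
    (h : ∀ c, ∃ x, c - a x ∈ I.map a) (N : ℕ) (c : C) : ∃ x, c - a x ∈ (I ^ N).map a := by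
  induction N with
  | zero => exact ⟨0, by simp [Ideal.map_top]⟩
  | succ N ih =>
    obtain ⟨x, hx⟩ := ih
    suffices ∀ z ∈ (I ^ N).map a, ∀ c, ∃ x, c * z - a x ∈ (I ^ (N + 1)).map a by
      obtain ⟨x', h'⟩ := this _ hx 1
      exact ⟨x + x', by rwa [map_add, ← sub_sub, ← one_mul (c - a x)]⟩
    intro z hz
    induction hz using Submodule.span_induction with
    | mem _ g =>
      obtain ⟨z, hz, rfl⟩ := g
      intro c
      obtain ⟨x, hx⟩ := h c
      refine ⟨x * z, ?_⟩
      rw [map_mul, ← sub_mul, pow_succ', Ideal.map_mul]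
      exact Ideal.mul_mem_mul hx (Ideal.mem_map_of_mem _ hz)
    | zero => exact fun c => ⟨0, by simp⟩
    | add z w _ _ hz hw =>
      intro c
      obtain ⟨x, hx⟩ := hz c
      obtain ⟨y, hy⟩ := hw c
      exact ⟨x + y, by rw [mul_add, map_add, add_sub_add_comm]; exact add_mem hx hy⟩
    | smul c' z _ hz => exact fun c => by rw [smul_eq_mul, ← mul_assoc]; exact hz _

theorem flat {R C S : Type u} [CommRing R] [CommRing C] [IsNoetherianRing C] [CommRing S]
    [IsNoetherianRing S] [IsLocalRing S] (a : R →+* C) (G : C →+* S) (I : Ideal R)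
    (h : ∀ c, ∃ x, c - a x ∈ I.map a) (hf : (G.comp a).Flat) (hI : (I.map a).map G ≠ ⊤) :
    G.Flat := by
  let := a.toAlgebra
  let := G.toAlgebra
  let := (G.comp a).toAlgebra
  have : IsScalarTower R C S := .of_algebraMap_eq fun _ => rfl
  have : Module.Flat R S := hf
  let j : C ⊗[R] S →ₐ[C] S := Algebra.TensorProduct.lift (Algebra.ofId C S) (AlgHom.id R S)
    fun _ _ => mul_comm _ _
  have hj : j.toRingHom.comp (algebraMap C (C ⊗[R] S)) = G := RingHom.ext j.commutes
  have k : ∀ N, ∀ s ∈ ((I.map a) ^ N).map G, (1 : C) ⊗ₜ[R] s ∈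
      ((I.map a) ^ N).map (algebraMap C (C ⊗[R] S)) := fun N s hs => by
    have := Ideal.mem_map_of_mem (Algebra.TensorProduct.includeRight (R := R) (A := C)
      (B := S)).toRingHom hs
    rw [← Ideal.map_pow, Ideal.map_map, Ideal.map_map] at this
    rw [← Ideal.map_pow, Ideal.map_map]
    convert this using 2
    · exact RingHom.ext fun x => (Algebra.TensorProduct.tmul_one_eq_one_tmul x)
    · rfl
  rw [← hj]
  refine lcStmt C _ S (I.map a) j.toRingHom (by rwa [hj]) (fun N b => ⟨1 ⊗ₜ b, by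
    rw [show j.toRingHom (1 ⊗ₜ b) = b from (show G 1 * b = b by simp), sub_self]
    exact zero_mem _⟩) fun N t ht => ?_
  rw [hj] at ht
  suffices t - (1 : C) ⊗ₜ[R] j t ∈ ((I.map a) ^ N).map (algebraMap C (C ⊗[R] S)) by
    simpa using add_mem this (k N _ ht)
  clear ht
  induction t with
  | zero => simp
  | add x y hx hy => rw [map_add, tmul_add, add_sub_add_comm]; exact add_mem hx hy
  | tmul c s =>
    obtain ⟨x, hx⟩ := dense a I h N c
    rw [Ideal.map_pow] at hx
    have e : c ⊗ₜ[R] s - (1 : C) ⊗ₜ[R] j (c ⊗ₜ s) = algebraMap C _ (c - a x) * (1 : C) ⊗ₜ[R] s -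
        (1 : C) ⊗ₜ[R] (G (c - a x) * s) := by
      have : a x ⊗ₜ[R] s = (1 : C) ⊗ₜ[R] (G (a x) * s) := by
        change algebraMap R C x ⊗ₜ[R] s = (1 : C) ⊗ₜ[R] (algebraMap R S x * s)
        rw [Algebra.algebraMap_eq_smul_one, smul_tmul, Algebra.smul_def]
      simp only [Algebra.TensorProduct.algebraMap_apply, Algebra.algebraMap_self, RingHom.id_apply,
        Algebra.TensorProduct.tmul_mul_tmul, mul_one, one_mul, map_sub, sub_mul, tmul_sub,
        this, sub_sub_sub_cancel_right]
      rfl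
    rw [e]
    exact sub_mem (Ideal.mul_mem_right _ _ (Ideal.mem_map_of_mem _ hx))
      (k N _ (Ideal.mul_mem_right _ _ (Ideal.mem_map_of_mem _ hx)))

theorem clq {L S : Type u} [Field L] [CommRing S] [IsLocalRing S] [Algebra L S] (h : CL L S)
    (I : Ideal S) [IsLocalRing (S ⧸ I)] :
    (maximalIdeal S).map (Ideal.Quotient.mk I) = maximalIdeal (S ⧸ I) ∧ CL L (S ⧸ I) := by
  have := h.noeth
  have := h.cpl
  have e : (maximalIdeal S).map (Ideal.Quotient.mk I) = maximalIdeal (S ⧸ I) := by
    have := IsLocalHom.of_surjective _ (Ideal.Quotient.mk_surjective (I := I))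
    rw [← maximalIdeal_comap (Ideal.Quotient.mk I),
      Ideal.map_comap_of_surjective _ Ideal.Quotient.mk_surjective]
  have hp : IsPrecomplete (maximalIdeal (S ⧸ I)) (S ⧸ I) := by
    rw [← e, ← Ideal.Quotient.algebraMap_eq, IsPrecomplete.map_algebraMap_iff,
      ← AdicCompletion.of_surjective_iff]
    intro z
    obtain ⟨w, rfl⟩ := AdicCompletion.map_surjective (maximalIdeal S) I.mkQ_surjective z
    obtain ⟨w, rfl⟩ := AdicCompletion.of_surjective (maximalIdeal S) S w
    exact ⟨_, rfl⟩
  refine ⟨e, inferInstance, ⟨⟩, fun b => ?_⟩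
  obtain ⟨b, rfl⟩ := Ideal.Quotient.mk_surjective b
  obtain ⟨a, ha⟩ := h.res b
  exact ⟨a, e ▸ Ideal.mem_map_of_mem _ ha⟩

theorem key (hD : DomIStmt.{u}) {κ L R S : Type u} [Field κ] [Field L] [PerfectField L] (p : ℕ)
    [Fact p.Prime] [CharP L p] {d : ℕ} [CommRing R] [IsLocalRing R] [Algebra (PS κ (d + 1)) R]
    [Algebra κ R] [IsScalarTower κ (PS κ (d + 1)) R] [Module.Finite (PS κ (d + 1)) R]
    {c0 c : ℕ} [CommRing S] [IsLocalRing S] [Algebra L S] [Algebra (PS L (d + 1)) S]
    [IsScalarTower L (PS L (d + 1)) S] [Module.Finite (PS L (d + 1)) S] [Algebra R S]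
    [Module.Flat R S] (h1 : Red κ (d + 1) (maximalIdeal R) c0) (h2 : CL L S)
    (h3 : ∀ x ∈ maximalIdeal R, algebraMap R S x ∈ maximalIdeal S)
    (h4 : ∀ l, algebraMap (PS L (d + 1)) S (X l) ∈ maximalIdeal S)
    (h5 : maximalIdeal S ^ c ≤ (mx L (d + 1)).map (algebraMap (PS L (d + 1)) S)) :
    Module.finrank (PS κ (d + 1)) R ≤ Module.finrank (PS L (d + 1)) S := by
  have := Dv.dom κ (d + 1)
  have := Dv.dom L (d + 1)
  have : IsNoetherianRing R := IsNoetherianRing.of_finite (PS κ (d + 1)) R
  have : SMulCommClass R (PS L (d + 1)) S :=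
    ⟨fun a b s => by simp only [Algebra.smul_def, mul_left_comm]⟩
  have key : ∀ (M : Type u) [AddCommGroup M] [Module R M] [hM : Module.Finite R M],
      ∀ [Module (PS κ (d + 1)) M] [IsScalarTower (PS κ (d + 1)) R M],
        Module.finrank (PS κ (d + 1)) M ≤ Module.finrank (PS L (d + 1)) (S ⊗[R] M) := by
    intro M _ _ hM
    induction hM using IsNoetherianRing.induction_on_isQuotientEquivQuotientPrime R with
    | subsingleton M => exact fun [_] [_] => by simp [Module.finrank_zero_of_subsingleton]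
    | quotient M P e =>
      intro _ _
      have hP : P.1.map (algebraMap R S) ≤ maximalIdeal S :=
        Ideal.map_le_iff_le_comap.2 fun x hx => h3 x (le_maximalIdeal P.2.ne_top hx)
      have : Nontrivial (S ⧸ P.1.map (algebraMap R S)) := Ideal.Quotient.nontrivial_iff.2
        fun h => (maximalIdeal.isMaximal S).ne_top (top_le_iff.1 (h ▸ hP))
      have := IsLocalRing.of_surjective' _
        (Ideal.Quotient.mk_surjective (I := P.1.map (algebraMap R S)))
      obtain ⟨e1, e2⟩ := clq h2 (P.1.map (algebraMap R S))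
      rw [(e.restrictScalars (PS κ (d + 1))).finrank_eq,
        ((e.baseChange R S _ _).restrictScalars (PS L (d + 1))).finrank_eq,
        ← ((Algebra.TensorProduct.quotIdealMapEquivTensorQuot S P.1).toLinearEquiv.restrictScalars
          (PS L (d + 1))).finrank_eq]
      refine hD κ L _ _ p d ((maximalIdeal R).map (Ideal.Quotient.mk P.1)) c0 c
        (algebraMap _ _) ⟨fun b => ?_, ?_, fun b hb => ?_,
        fun j => Ideal.mem_map_of_mem _ (h1.x j), ?_⟩ e2 (fun x hx => ?_)
        (RingHom.flat_algebraMap_iff.2 (.of_linearEquiv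
          (Algebra.TensorProduct.quotIdealMapEquivQuotTensor S P.1).toLinearEquiv))
        (fun l => e1 ▸ Ideal.mem_map_of_mem _ (h4 l)) ?_
      · obtain ⟨b, rfl⟩ := Ideal.Quotient.mk_surjective b
        obtain ⟨a, ha⟩ := h1.res b
        exact ⟨a, Ideal.mem_map_of_mem _ ha⟩
      · intro h
        rw [Ideal.map_eq_top_iff_of_ker_le] at h
        · exact h1.ne h
        · rw [Ideal.mk_ker]; exact le_maximalIdeal P.2.ne_top
        · exact RingHom.isIntegral_of_surjective _ Ideal.Quotient.mk_surjective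
      · obtain ⟨b, rfl⟩ := Ideal.Quotient.mk_surjective b
        exact (h1.unit b fun h => hb (Ideal.mem_map_of_mem _ h)).map _
      · have := Ideal.map_mono (f := Ideal.Quotient.mk P.1) h1.red
        rwa [Ideal.map_mul, Ideal.map_pow, Ideal.map_pow, Ideal.map_map] at this
      · obtain ⟨x, g, rfl⟩ := (Ideal.mem_map_iff_of_surjective _ Ideal.Quotient.mk_surjective).1 hx
        exact e1 ▸ Ideal.mem_map_of_mem _ (h3 x g)
      · have := Ideal.map_mono (f := Ideal.Quotient.mk (P.1.map (algebraMap R S))) h5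
        rwa [Ideal.map_pow, e1, Ideal.map_map] at this
    | exact M₁ M₂ M₃ g g' hg hg' he i1 i3 =>
      intro _ _
      let := Module.compHom M₁ (algebraMap (PS κ (d + 1)) R)
      let := Module.compHom M₃ (algebraMap (PS κ (d + 1)) R)
      have : IsScalarTower (PS κ (d + 1)) R M₁ := .of_algebraMap_smul fun _ _ => rfl
      have : IsScalarTower (PS κ (d + 1)) R M₃ := .of_algebraMap_smul fun _ _ => rfl
      have : Module.Finite (PS κ (d + 1)) M₂ := Module.Finite.trans R _
      have : Module.Finite (PS L (d + 1)) (S ⊗[R] M₂) := Module.Finite.trans S _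
      rw [Dv.fr_add (g.restrictScalars (PS κ (d + 1))) (g'.restrictScalars _) hg hg' he,
        Dv.fr_add ((g.baseChange S).restrictScalars (PS L (d + 1)))
          ((g'.baseChange S).restrictScalars _)
          (Module.Flat.lTensor_preserves_injective_linearMap g hg)
          (LinearMap.lTensor_surjective S hg') (Module.Flat.lTensor_exact S he)]
      exact add_le_add i1 i3
  exact (key R).trans_eq ((AlgebraTensorModule.rid R S S).restrictScalars _).finrank_eq

end Ni

open No Ni in
theorem normIStmt (hD : DomIStmt.{u}) : NormIStmt.{u} := by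
  intro R S _ _ _ _ _ _ f _ hf hR hk d e hd he y c hy hyc t
  obtain ⟨C, _, _, a, h1, h2, ha, ⟨ε⟩, h3, U⟩ := cpl R
  obtain ⟨L, S', _, _, _, _, _, b, hS', hb⟩ := gon1' S (hR.map f)
  obtain ⟨F, _, _, ⟨ψ⟩⟩ := hR
  obtain ⟨s, -, -, hs⟩ := Gon.sect h2 (a.comp ψ) fun l _ _ => fsStmt F l
  have := hS'.noeth
  have := hS'.cpl
  obtain ⟨G, hG⟩ := U S' (maximalIdeal S') (b.comp f) fun x hx => Gon.mem hb (map_nonunit f x hx)
  have hk' : ¬ PerfectField (ResidueField C) := fun _ => hk (PerfectField.of_ringEquiv ε.symm)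
  have : Infinite (ResidueField C) := not_finite_iff_infinite.1 fun _ => hk' inferInstance
  let := s.toAlgebra
  obtain ⟨C1, hC⟩ := grStmt R d hd
  obtain ⟨-, ha1, ha2⟩ := unrStmt.2.1 R C a ha
  obtain ⟨-, -, hb2⟩ := unrStmt.2.1 S S' b hb
  obtain ⟨_, _, c', hfin, hred, hm⟩ := nn' (ResidueField C) C d C1 ⟨h1, h2, hs⟩
    fun N => (ha1 N).le.trans (hC N)
  rw [tendsto_nhds_unique he (hm.congr ha1)]
  obtain ⟨lam, hlam⟩ := ENat.ne_top_iff_exists.1 (finlen (S := S)
    (I := Ideal.span (Set.range fun l => y l ^ t)) (by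
      refine (le_rad hyc).trans (Ideal.radical_le_radical_iff.2 (Ideal.span_le.2 ?_))
      rintro _ ⟨l, rfl⟩
      exact ⟨t, Ideal.subset_span ⟨l, rfl⟩⟩))
  rw [← hlam, ENat.toNat_natCast, mul_comm]
  norm_cast
  cases d with
  | zero =>
    refine le_trans (by simp) (Dv.rk_le rkStmt (ResidueField C) 0 C 1 lam le_rfl ?_)
    rw [len_eq, ← unrStmt.2.2 _ C _ hs, hlam, show (br (ResidueField C) 0 1).map (algebraMap _ C) =
      (⊥ : Ideal R).map a by simp [br, Set.range_eq_empty], ha2,
      show Ideal.span (Set.range fun l => y l ^ t) = (⊥ : Ideal R).map f by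
        simp [Set.range_eq_empty], (unrStmt.1 R S f hf).2.2]
    have : Nontrivial (S ⧸ (maximalIdeal R).map f) := Ideal.Quotient.nontrivial_iff.2
      fun h => (maximalIdeal.isMaximal S).ne_top (top_le_iff.1 (h ▸ map_maximalIdeal_le f))
    exact le_mul_of_one_le_right' (Order.one_le_iff_pos.2 Module.length_pos)
  | succ d =>
    rcases Nat.eq_zero_or_pos t with rfl | ht
    · simp
    obtain ⟨p, hp⟩ := CharP.exists (ResidueField C)
    have : Fact p.Prime := ⟨(CharP.char_is_prime_or_zero (ResidueField C) p).resolve_right fun h =>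
      hk' (by subst h; have := CharP.charP_to_charZero (ResidueField C); infer_instance)⟩
    have : CharP L p := ((algebraMap L S').charP_iff_charP p).2 (((G.comp s).charP_iff_charP p).1 hp)
    obtain ⟨χ, hχ⟩ := (evStmt L (d + 1)).ev S' _ hS'.cpl (fun l => b (y l))
      fun l => Ideal.le_radical (Gon.mem hb (hy l))
    let := χ.toRingHom.toAlgebra
    have : IsScalarTower L (PS L (d + 1)) S' := .of_algebraMap_eq fun x => (χ.commutes x).symm
    have hbr : ∀ t, (br L (d + 1) t).map (algebraMap _ S') =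
        (Ideal.span (Set.range fun l => y l ^ t)).map b := fun t => by
      rw [Ideal.map_span, Ideal.map_span, ← Set.range_comp, ← Set.range_comp]
      congr 2
      funext l
      simp only [Function.comp, map_pow, ← hχ]; rfl
    have hmx : (mx L (d + 1)).map (algebraMap _ S') = (Ideal.span (Set.range y)).map b := by
      simpa only [br, pow_one] using hbr 1
    have hle : (mx L (d + 1)).map (algebraMap _ S') ≤ maximalIdeal S' := by
      rw [hmx, ← hb.map]
      exact Ideal.map_mono (Ideal.span_le.2 (by rintro _ ⟨l, rfl⟩; exact hy l))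
    have hF : Module.Finite (PS L (d + 1)) S' := by
      refine (evStmt L _).fin S' (.of_map hle) ?_
      rw [len_eq, hmx, ← unrStmt.2.2 L S' _ hS'.res, hb2]
      exact finlen (le_rad hyc)
    have hc : G.comp a = b.comp f := RingHom.ext hG
    have hl : (maximalIdeal C).map G ≤ maximalIdeal S' := by
      rw [← ha.map, Ideal.map_map, hc, ← Ideal.map_map, ← hb.map]
      exact Ideal.map_mono (map_maximalIdeal_le f)
    let := G.toAlgebra
    have : Module.Flat C S' := flat a G (maximalIdeal R) (by rwa [ha.map])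
      (hc ▸ hf.comp hb.flat) fun h => (maximalIdeal.isMaximal S').ne_top
        (top_le_iff.1 (by rw [← h, ha.map]; exact hl))
    refine (Nat.mul_le_mul_left _ (key hD (c := c) p hred hS'
      (fun x hx => hl (Ideal.mem_map_of_mem _ hx))
      (fun l => hle (Ideal.mem_map_of_mem _ (Ideal.subset_span ⟨l, rfl⟩))) ?_)).trans
      (Dv.rk_le rkStmt L _ S' t lam ht ?_)
    · rw [hmx, ← hb.map, ← Ideal.map_pow]; exact Ideal.map_mono hyc
    · rw [len_eq, hbr, ← unrStmt.2.2 L S' _ hS'.res, hb2, hlam]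

end Vale.Agent.P202
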