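import Vale.Agent.P202.Spec2
import Vale.Agent.P202.Fr1
import Vale.Agent.P202.Fr2
import Vale.Agent.P202.Ev

open Finset Matrix Filter Topology IsLocalRing
open scoped Kronecker Nat

namespace Vale.Agent.P202

universe u

namespace Phm

open MvPolynomial

section trunc
variable (A : Type u) [CommRing A] (ρ h : ℕ)

/-- the ideal of `t`-th powers of the variables -/
noncomputable def aa (t : ℕ) : Ideal (MvPolynomial (Fin h) A) :=
  Ideal.span ((fun s => monomial s (1 : A)) '' Set.range fun i : Fin h => Finsupp.single i t)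

variable {A h}

theorem mem_aa {t : ℕ} {f : MvPolynomial (Fin h) A} :
    f ∈ aa A h t ↔ ∀ d, coeff d f ≠ 0 → ∃ i, t ≤ d i := by
  simp [aa, mem_ideal_span_monomial_image]

theorem X_mem_aa {t q : ℕ} (ht : t ≤ q) (i : Fin h) :
    (X i : MvPolynomial (Fin h) A) ^ q ∈ aa A h t := by
  classical
  refine mem_aa.2 fun d hd => ⟨i, ?_⟩
  rw [coeff_X_pow] at hd
  split_ifs at hd with c
  · rw [← c]
    simpa using ht
  · exact absurd rfl hd

variable (A h)

/-- a truncation of polynomial vectors -/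
structure Tc (n : Type) (t : ℕ) where
  io : (n → A) →ₗ[A] (Fin ρ → MvPolynomial (Fin h) A)
  ta : (Fin ρ → MvPolynomial (Fin h) A) →ₗ[A] (n → A)
  ti : ∀ v, ta (io v) = v
  it : ∀ w i, w i - io (ta w) i ∈ aa A h t
  kill : ∀ w, (∀ i, w i ∈ aa A h t) → ta w = 0

/-- constant terms -/
noncomputable def tc0 : Tc A ρ h (Fin ρ) 1 where
  io := LinearMap.pi fun i => monomial 0 ∘ₗ LinearMap.proj i
  ta := LinearMap.pi fun i => lcoeff A 0 ∘ₗ LinearMap.proj i
  ti v := by
    ext i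
    simp
  it w i := by
    classical
    refine mem_aa.2 fun d hd => ?_
    by_contra c
    push Not at c
    obtain rfl : d = 0 := by
      ext j
      simpa using c j
    simp at hd
  kill w hw := by
    ext i
    by_contra c
    simpa using mem_aa.1 (hw i) 0 c

/-- the exponent with a given number -/
noncomputable def gm {q : ℕ} (j : Fin (q ^ h)) : Fin h →₀ ℕ := Fr1m.al (finFunctionFinEquiv.symm j)

variable {h}

theorem gm_apply {q : ℕ} (j : Fin (q ^ h)) (i : Fin h) :
    gm h j i = (finFunctionFinEquiv.symm j i : ℕ) := rfl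

theorem gm_inj {q : ℕ} : Function.Injective (gm h : Fin (q ^ h) → _) := fun j j' e =>
  finFunctionFinEquiv.symm.injective (funext fun i => Fin.ext (by
    rw [← gm_apply, ← gm_apply, e]))

theorem gm_mono {q : ℕ} {j j' : Fin (q ^ h)} (e : gm h j ≤ gm h j') : (j : ℕ) ≤ j' := by
  rw [← finFunctionFinEquiv.apply_symm_apply j, ← finFunctionFinEquiv.apply_symm_apply j',
    finFunctionFinEquiv_apply, finFunctionFinEquiv_apply]
  exact sum_le_sum fun i _ => Nat.mul_le_mul_right _ (e i)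

variable (h)

/-- coefficients below `q` -/
noncomputable def tc1 (q : ℕ) : Tc A ρ h (Fin ρ × Fin (q ^ h)) q where
  io := LinearMap.pi fun i => ∑ j, monomial (gm h j) ∘ₗ LinearMap.proj (i, j)
  ta := LinearMap.pi fun x => lcoeff A (gm h x.2) ∘ₗ LinearMap.proj x.1
  ti v := by
    classical
    ext ⟨i, j⟩
    simp [coeff_monomial, gm_inj.eq_iff]
  it w i := by
    classical
    refine mem_aa.2 fun d hd => ?_
    by_contra c
    push Not at c
    obtain ⟨j, rfl⟩ : ∃ j : Fin (q ^ h), gm h j = d :=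
      ⟨finFunctionFinEquiv fun i => ⟨d i, c i⟩, by ext i; simp [gm_apply]⟩
    simp [coeff_sum, coeff_monomial, gm_inj.eq_iff] at hd
  kill w hw := by
    ext ⟨i, j⟩
    by_contra c
    obtain ⟨a, ha⟩ := mem_aa.1 (hw i) (gm h j) c
    exact absurd (finFunctionFinEquiv.symm j a).2 (not_lt.2 ha)

theorem tc0_io (j : Fin ρ) : (tc0 A ρ h).io (Pi.single j 1) = Pi.single j 1 := by
  ext1 i
  by_cases c : i = j
  · subst c
    simp [tc0]
  · simp [tc0, c]

theorem tc1_io (q : ℕ) (y : Fin ρ × Fin (q ^ h)) : (tc1 A ρ h q).io (Pi.single y 1) =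
    (monomial (gm h y.2) 1 : MvPolynomial (Fin h) A) • Pi.single y.1 1 := by
  ext1 i
  obtain ⟨a, b⟩ := y
  simp only [tc1, LinearMap.pi_apply, LinearMap.coe_sum, LinearMap.coe_comp, Finset.sum_apply,
    Function.comp_apply, LinearMap.coe_proj, Function.eval, Pi.smul_apply, smul_eq_mul]
  by_cases c : i = a
  · subst c
    rw [sum_eq_single b]
    · simp
    · intro j _ hj
      simp [hj]
    · simp
  · simp [c]

end trunc

section tw
variable {A T T' : Type u} [CommRing A] [CommRing T] [Algebra A T] {ρ h k : ℕ} {δ : A}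
  [CommRing T'] [Algebra A T'] [Algebra (MvPolynomial (Fin h) A) T'] {ϖ : T' →ₐ[A] T}
  {α : (Fin ρ → MvPolynomial (Fin h) A) →ₗ[MvPolynomial (Fin h) A] T'}
  {β : T' →ₗ[MvPolynomial (Fin h) A] (Fin ρ → MvPolynomial (Fin h) A)} {Θ : Fin h → T'}
  {n : Type} {t : ℕ} (c : Tc A ρ h n t)

omit [Algebra A T'] in
theorem be_mem {J : Ideal (MvPolynomial (Fin h) A)} {y : T'}
    (hy : y ∈ J.map (algebraMap _ T')) (i : Fin ρ) : β y i ∈ J := by
  have key : ∀ z ∈ J • (⊤ : Submodule (MvPolynomial (Fin h) A) T'), β z i ∈ J := fun z hz =>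
    Submodule.smul_induction_on hz
      (fun a ha w _ => by rw [map_smul]; exact J.mul_mem_right _ ha)
      fun a b ha hb => by rw [map_add]; exact J.add_mem ha hb
  refine key _ ?_
  rwa [Ideal.smul_top_eq_map]

omit [Algebra A T'] in
theorem al_mem {J : Ideal (MvPolynomial (Fin h) A)} {w : Fin ρ → MvPolynomial (Fin h) A}
    (hw : ∀ i, w i ∈ J) : α w ∈ J.map (algebraMap _ T') := by
  rw [α.pi_apply_eq_sum_univ]
  refine sum_mem fun i _ => ?_
  rw [Algebra.smul_def]
  exact Ideal.mul_mem_right _ _ (Ideal.mem_map_of_mem _ (hw i))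

theorem ta_kill {y : T'} (hy : y ∈ (aa A h t).map (algebraMap _ T')) : c.ta (β y) = 0 :=
  c.kill _ (be_mem hy)

theorem ta_it (z : T') (w : Fin ρ → MvPolynomial (Fin h) A) :
    c.ta (β (z * α (c.io (c.ta w)))) = c.ta (β (z * α w)) := by
  have := ta_kill (β := β) c (Ideal.mul_mem_left _ z (al_mem (α := α) (w := w - c.io (c.ta w))
    (c.it w)))
  rw [map_sub, mul_sub, map_sub, map_sub, sub_eq_zero] at this
  exact this.symm

variable (W : Tw A T ρ h k δ T' ϖ α β Θ)
include W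

theorem be_smul (a : A) (y : T') : β (a • y) = a • β y := by
  have := W.tow
  exact β.map_smul_of_tower a y

theorem al_smul (a : A) (w : Fin ρ → MvPolynomial (Fin h) A) : α (a • w) = a • α w := by
  have := W.tow
  exact α.map_smul_of_tower a w

/-- the operator of a power of `z` -/
noncomputable def EE (q : ℕ) (z : T') : (n → A) →ₗ[A] (n → A) where
  toFun v := c.ta (β (z ^ q * α (c.io v)))
  map_add' v w := by simp [mul_add]
  map_smul' a v := by
    rw [map_smul, al_smul W, mul_smul_comm, be_smul W, map_smul, RingHom.id_apply]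

theorem EE_apply (q : ℕ) (z : T') (v : n → A) :
    EE c W q z v = c.ta (β (z ^ q * α (c.io v))) := rfl

theorem EE_ta (q : ℕ) (z w : T') : EE c W q z (c.ta (β w)) = δ • c.ta (β (z ^ q * w)) := by
  rw [EE_apply, ta_it, W.ab, mul_smul_comm, be_smul W, map_smul]

theorem EE_mul (q : ℕ) (z z' : T') :
    EE c W q z * EE c W q z' = δ • EE c W q (z * z') := by
  refine LinearMap.ext fun v => ?_
  rw [Module.End.mul_apply, EE_apply c W q z', EE_ta, LinearMap.smul_apply, EE_apply, mul_pow,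
    mul_assoc]

theorem EE_one (q : ℕ) : EE c W q 1 = δ • LinearMap.id := by
  refine LinearMap.ext fun v => ?_
  rw [EE_apply, one_pow, one_mul, W.ba, map_smul, c.ti]
  rfl

theorem EE_sc (q : ℕ) (a : A) (z : T') :
    EE c W q (algebraMap A T' a * z) = a ^ q • EE c W q z := by
  refine LinearMap.ext fun v => ?_
  rw [EE_apply, LinearMap.smul_apply, EE_apply, mul_pow, ← map_pow, mul_assoc, ← Algebra.smul_def,
    be_smul W, map_smul]

theorem ta_zero [IsDomain A] (hδ : δ ≠ 0) {x : T'} {r : ℕ}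
    (hx : δ ^ r • x ∈ (aa A h t).map (algebraMap _ T')) (y : T') : c.ta (β (x * y)) = 0 := by
  have := ta_kill (β := β) c (Ideal.mul_mem_right y _ hx)
  rw [smul_mul_assoc, be_smul W, map_smul] at this
  ext i
  exact (mul_eq_zero.1 (congrFun this i)).resolve_left (pow_ne_zero _ hδ)

variable {p e : ℕ} [ExpChar T' p]

theorem EE_add (z z' : T') :
    EE c W (p ^ e) (z + z') = EE c W (p ^ e) z + EE c W (p ^ e) z' := by
  refine LinearMap.ext fun v => ?_
  simp [EE_apply, add_pow_expChar_pow, add_mul]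

theorem EE_ker [IsDomain A] (hδ : δ ≠ 0) (ht : t ≤ p ^ e) {z : T'} (hz : ϖ z = 0) :
    EE c W (p ^ e) z = 0 := by
  refine LinearMap.ext fun v => ta_zero c W hδ (r := p ^ e) ?_ _
  obtain ⟨a, ha⟩ := Ideal.mem_span_range_iff_exists_fun.1 (W.ker z hz)
  rw [← _root_.smul_pow, ← ha, sum_pow_char_pow]
  refine sum_mem fun i _ => ?_
  rw [mul_pow, ← map_pow]
  exact Ideal.mul_mem_left _ _ (Ideal.mem_map_of_mem _ (X_mem_aa ht i))

theorem EE_congr [IsDomain A] (hδ : δ ≠ 0) (ht : t ≤ p ^ e) {z z' : T'} (hz : ϖ z = ϖ z') :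
    EE c W (p ^ e) z = EE c W (p ^ e) z' := by
  have := EE_add (p := p) (e := e) c W (z - z') z'
  rwa [sub_add_cancel, EE_ker c W hδ ht (z := z - z') (by rw [map_sub, hz, sub_self]),
    zero_add] at this

theorem exPh [IsDomain A] [Fintype n] [DecidableEq n] (hδ : δ ≠ 0) (ht : t ≤ p ^ e) :
    ∃ Φ : T →+ Matrix n n A, Ph δ (p ^ e) Φ ∧
      ∀ z, Φ (ϖ z) = LinearMap.toMatrix' (EE c W (p ^ e) z) := by
  let σ := Function.surjInv W.sur
  have hσ : ∀ b, ϖ (σ b) = b := Function.surjInv_eq W.sur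
  have key : ∀ z, EE c W (p ^ e) (σ (ϖ z)) = EE c W (p ^ e) z := fun z =>
    EE_congr c W hδ ht (hσ _)
  let Φ : T →+ Matrix n n A := AddMonoidHom.mk' (fun b => LinearMap.toMatrix' (EE c W (p ^ e) (σ b)))
    fun b b' => by
      obtain ⟨z, rfl⟩ := W.sur b
      obtain ⟨z', rfl⟩ := W.sur b'
      simp only [← map_add ϖ, key, EE_add, map_add LinearMap.toMatrix']
  have hΦ : ∀ z, Φ (ϖ z) = LinearMap.toMatrix' (EE c W (p ^ e) z) := fun z =>
    congrArg LinearMap.toMatrix' (key z)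
  refine ⟨Φ, ⟨fun b b' => ?_, ?_, fun a b => ?_⟩, hΦ⟩
  · obtain ⟨z, rfl⟩ := W.sur b
    obtain ⟨z', rfl⟩ := W.sur b'
    rw [← map_mul ϖ, hΦ, hΦ, hΦ, ← LinearMap.toMatrix'_mul, EE_mul, map_smul]
  · rw [← map_one ϖ, hΦ, EE_one, map_smul, LinearMap.toMatrix'_id]
  · obtain ⟨z, rfl⟩ := W.sur b
    rw [← ϖ.commutes, ← map_mul ϖ, hΦ, hΦ, EE_sc, map_smul]

omit [ExpChar T' p] in
theorem ord0 [IsDomain A] (hδ : δ ≠ 0) {J : Ideal A} {x : T'}
    (hx : ϖ x ∈ J.map (algebraMap A T)) (y : T') (i : Fin ρ) :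
    (tc0 A ρ h).ta (β (x * y)) i ∈ J := by
  have h1 : J.map (algebraMap A T) = (J.map (algebraMap A T')).map (ϖ : T' →+* T) := by
    rw [Ideal.map_map, ϖ.comp_algebraMap]
  rw [h1] at hx
  obtain ⟨x', hx', e1⟩ := (Ideal.mem_map_iff_of_surjective (ϖ : T' →+* T) W.sur).1 hx
  have h2 : (tc0 A ρ h).ta (β ((x - x') * y)) = 0 := by
    refine ta_zero _ W hδ (r := 1) ?_ _
    rw [pow_one]
    refine Ideal.span_le.2 ?_ (W.ker _ (by rw [map_sub, sub_eq_zero]; exact e1.symm))
    rintro _ ⟨j, rfl⟩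
    exact Ideal.mem_map_of_mem _ (by simpa using X_mem_aa (A := A) (le_refl 1) j)
  rw [sub_mul, map_sub, map_sub, sub_eq_zero] at h2
  rw [h2]
  have key : ∀ z ∈ J • (⊤ : Submodule A T'), (tc0 A ρ h).ta (β z) i ∈ J := fun z hz =>
    Submodule.smul_induction_on hz
      (fun a ha w _ => by rw [be_smul W, map_smul]; exact J.mul_mem_right _ ha)
      fun a b ha hb => by rw [map_add, map_add]; exact J.add_mem ha hb
  refine key _ ?_
  rw [Ideal.smul_top_eq_map]
  exact Ideal.mul_mem_right _ _ hx'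

omit [ExpChar T' p] in
theorem up_mem [Fintype n] [DecidableEq n] {q : ℕ} {Φ : T →+ Matrix n n A}
    (hΦ : ∀ z, Φ (ϖ z) = LinearMap.toMatrix' (EE c W q z)) (I : Ideal T) {v : n → A}
    (hv : α (c.io v) ∈ Ideal.span ((· ^ q) '' {z | ϖ z ∈ I})) :
    δ ^ 2 • v ∈ ⨆ b ∈ I, LinearMap.range (Φ b).mulVecLin := by
  have key : ∀ y ∈ Ideal.span ((· ^ q) '' {z | ϖ z ∈ I}), ∀ w,
      δ • c.ta (β (y * w)) ∈ ⨆ b ∈ I, LinearMap.range (Φ b).mulVecLin := by
    intro y hy
    induction hy using Submodule.span_induction with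
    | mem x hx =>
      obtain ⟨z, hz, rfl⟩ := hx
      intro w
      refine Submodule.mem_iSup_of_mem (ϖ z) (Submodule.mem_iSup_of_mem hz ⟨c.ta (β w), ?_⟩)
      rw [mulVecLin_apply, hΦ, LinearMap.toMatrix'_mulVec, EE_ta]
    | zero => simp
    | add x y _ _ hx hy =>
      intro w
      rw [add_mul, map_add, map_add, smul_add]
      exact add_mem (hx w) (hy w)
    | smul a x _ hx =>
      intro w
      rw [smul_eq_mul, mul_comm a, mul_assoc]
      exact hx _
  have := key _ hv 1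
  rwa [mul_one, W.ba, map_smul, c.ti, smul_smul, ← pow_two] at this

omit [ExpChar T' p] in
theorem alg_eq (f : MvPolynomial (Fin h) A) : algebraMap _ T' f =
    aeval (fun i => algebraMap (MvPolynomial (Fin h) A) T' (X i)) f := by
  have := W.tow
  exact congrArg (fun g : MvPolynomial (Fin h) A →ₐ[A] T' => g f)
    (MvPolynomial.algHom_ext (f := IsScalarTower.toAlgHom A _ T') fun i => by simp)

omit [ExpChar T' p] in
theorem dil {q : ℕ} (J : Ideal T')
    (hJ : ∀ i, algebraMap (MvPolynomial (Fin h) A) T' (X i) ^ q ∈ J) (y : T') :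
    δ ^ (k * h * q + 1) • y ∈
      Subalgebra.toSubmodule (Algebra.adjoin A (Set.range Θ)) ⊔ J.restrictScalars A := by
  have := W.tow
  set B := Algebra.adjoin A (Set.range Θ) with hB
  set U := Subalgebra.toSubmodule B ⊔ J.restrictScalars A with hU
  have k1 : ∀ (f : MvPolynomial (Fin h) A), ∀ x ∈ B, δ ^ (k * h * q) • f • x ∈ U := by
    intro f x hx
    rw [Algebra.smul_def f, alg_eq W, aeval_def, eval₂_eq', sum_mul, smul_sum]
    refine sum_mem fun d _ => ?_
    rw [← Algebra.smul_def, smul_mul_assoc, smul_comm]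
    refine U.smul_mem _ ?_
    by_cases hd : ∃ i, q ≤ d i
    · obtain ⟨i, hi⟩ := hd
      refine Submodule.mem_sup_right (Submodule.smul_mem _ _ ?_)
      refine J.mul_mem_right _ (J.mem_of_dvd ?_ (hJ i))
      exact (pow_dvd_pow _ hi).trans (dvd_prod_of_mem _ (mem_univ i))
    · push Not at hd
      refine Submodule.mem_sup_left ?_
      rw [← smul_mul_assoc]
      refine B.mul_mem ?_ hx
      have e1 : δ ^ (k * h * q) • ∏ i, algebraMap (MvPolynomial (Fin h) A) T' (X i) ^ d i =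
          ∏ i, δ ^ (k * (q - d i)) •
            (δ ^ k • algebraMap (MvPolynomial (Fin h) A) T' (X i)) ^ d i := by
        have e2 : ∀ i, δ ^ (k * (q - d i)) •
            (δ ^ k • algebraMap (MvPolynomial (Fin h) A) T' (X i)) ^ d i =
            δ ^ (k * q) • algebraMap (MvPolynomial (Fin h) A) T' (X i) ^ d i := by
          intro i
          rw [_root_.smul_pow, smul_smul, ← pow_mul, ← pow_add, ← mul_add,
            Nat.sub_add_cancel (hd i).le]
        simp only [e2]
        rw [prod_smul, prod_const, card_univ, Fintype.card_fin, ← pow_mul, mul_right_comm]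
      rw [e1]
      exact B.prod_mem fun i _ => B.smul_mem (B.pow_mem (W.th i) _) _
  have k2 : ∀ x ∈ Submodule.span (MvPolynomial (Fin h) A) (B : Set T'),
      ∀ f : MvPolynomial (Fin h) A, δ ^ (k * h * q) • f • x ∈ U := by
    intro x hx
    induction hx using Submodule.span_induction with
    | mem x hx => exact fun f => k1 f x hx
    | zero => simp
    | add x y _ _ hx hy =>
      intro f
      rw [smul_add, smul_add]
      exact add_mem (hx f) (hy f)
    | smul a x _ hx =>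
      intro f
      rw [smul_smul f]
      exact hx _
  have := k2 _ (W.gen y) 1
  rwa [one_smul, smul_smul, ← pow_succ] at this

end tw

section cnt
variable {L A T' : Type u} [Field L] [CommRing A] [CommRing T'] [Algebra A T'] [Algebra L T']
  {p e : ℕ} [ExpChar T' p]

theorem step {J : Ideal T'} {m : ℕ} {s : Fin m → T'}
    (hs : ∀ u, ∃ a : Fin m → L, u - ∑ j, a j • s j ∈ J) (P : Submodule L T') (v : T')
    (h1 : ∀ j, v * s j ^ p ^ e ∈ P) (h2 : ∀ z ∈ J, v * z ^ p ^ e ∈ P) (z : T') :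
    v * z ^ p ^ e ∈ P := by
  obtain ⟨a, ha⟩ := hs z
  have e1 : v * z ^ p ^ e = v * (z - ∑ j, a j • s j) ^ p ^ e +
      ∑ j, a j ^ p ^ e • (v * s j ^ p ^ e) := by
    rw [sub_pow_expChar_pow, sum_pow_char_pow, mul_sub, mul_sum]
    simp only [_root_.smul_pow, mul_smul_comm, sub_add_cancel]
  rw [e1]
  exact P.add_mem (h2 _ ha) (P.sum_mem fun j _ => P.smul_mem _ (h1 j))

omit [ExpChar T' p] in
theorem expand {q h : ℕ} (hq : 0 < q) {κ : Type} [Fintype κ] {w : κ → A} (hw : Fr1m.Sp q 1 w)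
    (P : Submodule L T') (x : Fin h → T') (y : T')
    (H : ∀ (a : κ) (b : Fin h → Fin q) (z : T'),
      algebraMap A T' (w a) * (∏ i, x i ^ (b i : ℕ)) * y * z ^ q ∈ P)
    {f : T'} (hf : f ∈ Algebra.adjoin A (Set.range x)) : f * y ∈ P := by
  rw [Algebra.adjoin_range_eq_range_aeval] at hf
  obtain ⟨F, rfl⟩ := hf
  change aeval x F * y ∈ P
  rw [aeval_def, eval₂_eq', sum_mul]
  refine sum_mem fun d _ => ?_
  obtain ⟨c, hc⟩ := hw (coeff d F)
  rw [one_mul] at hc
  rw [hc, map_sum, sum_mul, sum_mul]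
  refine sum_mem fun a _ => ?_
  have e1 : ∏ i, x i ^ d i = (∏ i, x i ^ (d i % q)) * (∏ i, x i ^ (d i / q)) ^ q := by
    rw [← prod_pow, ← prod_mul_distrib]
    refine prod_congr rfl fun i _ => ?_
    rw [← pow_mul, ← pow_add, mul_comm, Nat.mod_add_div]
  have := H a (fun i => ⟨d i % q, Nat.mod_lt _ hq⟩)
    (algebraMap A T' (c a) * ∏ i, x i ^ (d i / q))
  rw [e1, map_mul, map_pow]
  rw [mul_pow] at this
  convert this using 1
  ring

end cnt

theorem count {L A T T' : Type u} [Field L] [CommRing A] [CommRing T] [Algebra A T] {ρ h k : ℕ}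
    {δ : A} [CommRing T'] [Algebra A T'] [Algebra (MvPolynomial (Fin h) A) T'] [Algebra L T']
    {ϖ : T' →ₐ[A] T} {α : (Fin ρ → MvPolynomial (Fin h) A) →ₗ[MvPolynomial (Fin h) A] T'}
    {β : T' →ₗ[MvPolynomial (Fin h) A] (Fin ρ → MvPolynomial (Fin h) A)} {Θ : Fin h → T'}
    (W : Tw A T ρ h k δ T' ϖ α β Θ) {p e : ℕ} [ExpChar T' p] (hq : 0 < p ^ e) {κ : Type}
    [Fintype κ] {w : κ → A} (hw : Fr1m.Sp (p ^ e) 1 w) {g : ℕ} {ω : Fin g → T'}
    (hω : Submodule.span (MvPolynomial (Fin h) A) (Set.range ω) = ⊤) {C : ℕ} (hC : k * h + 1 ≤ C)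
    (I : Ideal T) {lam lam' : ℕ} (h1 : cl L (I.comap ϖ) ≤ lam)
    (h2 : cl L ((I ⊔ Ideal.span {algebraMap A T δ ^ C}).comap ϖ) ≤ lam') :
    cl L (Ideal.span ((· ^ p ^ e) '' {z | ϖ z ∈ I})) ≤
      (Fintype.card κ * (p ^ e) ^ h * (lam + g * lam') : ℕ) := by
  obtain ⟨m, s, hm, hs⟩ := Fr1m.span_of_cl h1
  obtain ⟨m', s', hm', hs'⟩ := Fr1m.span_of_cl h2
  set q := p ^ e with hqd
  set J := Ideal.span ((· ^ q) '' {z | ϖ z ∈ I}) with hJ
  let u : Fin h → T' := fun i => algebraMap (MvPolynomial (Fin h) A) T' (X i)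
  let v : (Fin h → T') → T' → κ × (Fin h → Fin q) → T' := fun x y a =>
    algebraMap A T' (w a.1) * (∏ i, x i ^ (a.2 i : ℕ)) * y
  let G : (κ × (Fin h → Fin q)) × (Fin m ⊕ Fin g × Fin m') → T' := fun a =>
    a.2.elim (fun j => v Θ 1 a.1 * s j ^ q) fun j => v u (ω j.1) a.1 * s' j.2 ^ q
  let P := J.restrictScalars L ⊔ Submodule.span L (Set.range G)
  have hN : ∀ (r z : T'), ϖ z ∈ I → r * z ^ q ∈ P := fun r z hz =>
    Submodule.mem_sup_left (J.mul_mem_left r (Ideal.subset_span ⟨z, hz, rfl⟩))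
  have a1 : ∀ y, δ ^ (C * q) • y ∈ P := by
    intro y
    have b1 : k * h * q + 1 ≤ C * q := by nlinarith
    have b2 := dil W (q := q) J (fun i => Ideal.subset_span ⟨_, by simp [W.u0], rfl⟩)
      (δ ^ (C * q - (k * h * q + 1)) • y)
    rw [smul_smul, ← pow_add, Nat.add_sub_cancel' b1] at b2
    obtain ⟨x, hx, z, hz, e1⟩ := Submodule.mem_sup.1 b2
    rw [← e1]
    refine P.add_mem ?_ (Submodule.mem_sup_left hz)
    rw [← mul_one x]
    exact expand hq hw P Θ 1 (fun a b => step hs P _ (fun j => Submodule.mem_sup_right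
      (Submodule.subset_span ⟨((a, b), .inl j), rfl⟩)) fun z hz => hN _ z hz) hx
  have a2 : ∀ y, y ∈ P := by
    intro y
    obtain ⟨f, rfl⟩ := (Submodule.mem_span_range_iff_exists_fun _).1 (hω ▸ Submodule.mem_top (x := y))
    refine sum_mem fun j _ => ?_
    rw [Algebra.smul_def]
    refine expand hq hw P u (ω j) (fun a b => step hs' P _ (fun i => Submodule.mem_sup_right
      (Submodule.subset_span ⟨((a, b), .inr (j, i)), rfl⟩)) fun z hz => ?_) ?_
    · obtain ⟨x, hx, y, hy, e1⟩ := Submodule.mem_sup.1 (Ideal.mem_comap.1 hz)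
      obtain ⟨y, rfl⟩ := Ideal.mem_span_singleton'.1 hy
      obtain ⟨y, rfl⟩ := W.sur y
      have e2 : z = (z - δ ^ C • y) + δ ^ C • y := by abel
      rw [e2, add_pow_expChar_pow, mul_add, _root_.smul_pow, ← pow_mul, mul_smul_comm]
      refine P.add_mem (hN _ _ ?_) (a1 _)
      rw [map_sub, ← e1, map_smul, Algebra.smul_def, map_pow, mul_comm]
      simpa using hx
    · rw [alg_eq W, Algebra.adjoin_range_eq_range_aeval]
      exact ⟨_, rfl⟩
  refine (Fr1m.cl_of_span _ G a2).trans ?_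
  simp only [Fintype.card_sum, Fintype.card_prod, Fintype.card_fin, Nat.cast_le, Fintype.card_fun]
  gcongr

theorem cl_comap {L M M' A A' : Type u} [Field L] [CommRing A] [CommRing A'] [Algebra L A]
    [Algebra L A'] [AddCommGroup M] [AddCommGroup M'] [Module A M] [Module L M]
    [IsScalarTower L A M] [Module A' M'] [Module L M'] [IsScalarTower L A' M'] (f : M →ₗ[L] M')
    {N : Submodule A M} {N' : Submodule A' M'} (h : ∀ x, f x ∈ N' → x ∈ N) : cl L N ≤ cl L N' := by
  rw [cl_eq, cl_eq]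
  exact rl_le_of_comap f (fun x _ => h x) (by simp)

end Phm

open Phm

theorem phStmt : PhStmt.{u} := by
  intro L _ _ p hp _ D T _ _ _ _ m c0 ρ δ hR hδ ⟨h, k, T', _, _, _, ϖ, α, β, Θ, W⟩
  have := W.tow
  have := W.fin
  have : IsDomain (PS L D) := NoZeroDivisors.to_isDomain _
  let _ : Algebra L T' := ((algebraMap (PS L D) T').comp (algebraMap L _)).toAlgebra
  have : IsScalarTower L (PS L D) T' := IsScalarTower.of_algebraMap_eq fun _ => rfl
  have : Nontrivial T := nontrivial_of_ne 1 0 fun e =>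
    hR.ne ((Ideal.eq_top_iff_one m).2 (e ▸ m.zero_mem))
  have : Nontrivial T' := (ϖ : T' →+* T).domain_nontrivial
  have := expChar_of_injective_algebraMap (algebraMap L T').injective p
  have := expChar_of_injective_algebraMap (algebraMap L (PS L D)).injective p
  obtain ⟨g, ω, hω⟩ := Module.Finite.exists_fin (R := MvPolynomial (Fin h) (PS L D)) (M := T')
  refine ⟨h, k * h + 1 + g, fun e => ?_⟩
  have hq : 0 < p ^ e := pow_pos hp.out.pos e
  obtain ⟨Φ, hΦ, eΦ⟩ := exPh (p := p) (e := e) (tc1 _ ρ h (p ^ e)) W hδ le_rfl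
  obtain ⟨Φ0, hΦ0, eΦ0⟩ := exPh (p := p) (e := e) (tc0 _ ρ h) W hδ hq
  have e1 : ∀ z x y, Φ (ϖ z) x y = MvPolynomial.coeff (gm h x.2)
      (MvPolynomial.monomial (gm h y.2) 1 * β (z ^ p ^ e * α (Pi.single y.1 1)) x.1) := by
    intro z x y
    rw [eΦ, LinearMap.toMatrix'_apply, EE_apply, tc1_io, map_smul, mul_smul_comm, map_smul]
    rfl
  have e0 : ∀ z i j, Φ0 (ϖ z) i j =
      (tc0 _ ρ h).ta (β (z ^ p ^ e * α (Pi.single j 1))) i := by
    intro z i j
    rw [eΦ0, LinearMap.toMatrix'_apply, EE_apply, tc0_io]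
  refine ⟨Φ, Φ0, hΦ, hΦ0, fun b x y hxy => ?_, fun b x y hxy => ?_, fun b hb i j => ?_,
    fun I lam lam' h1 h2 => ?_⟩
  · obtain ⟨z, rfl⟩ := W.sur b
    rw [e1, MvPolynomial.coeff_monomial_mul'] at hxy
    split_ifs at hxy with c
    · exact gm_mono c
    · exact absurd rfl hxy
  · obtain ⟨z, rfl⟩ := W.sur b
    rw [e1, e0, hxy, MvPolynomial.coeff_monomial_mul', if_pos le_rfl, one_mul, tsub_self]
    rfl
  · obtain ⟨z, rfl⟩ := W.sur b
    rw [← (evStmt L D).ord, e0]
    refine ord0 W hδ ?_ _ _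
    rw [map_pow, Ideal.map_pow]
    rcases le_total c0 (p ^ e) with c | c
    · have := F2.red_mem hR.red (p ^ e - c0) hb
      rwa [Nat.sub_add_cancel c] at this
    · simp [Nat.sub_eq_zero_of_le c]
  · obtain ⟨κ, _, w, hκ, hw⟩ := Fr1m.iter p hp.out.two_le (δ := (1 : PS L D))
      ((one_pow p : (1 : PS L D) ^ p = 1).symm ▸ Fr1m.decomp L p D) e
    rw [one_pow, one_pow] at hw
    have h3 := count W hq hw hω (C := k * h + 1 + g) (by omega) I
      ((cl_comap (ϖ.restrictScalars L).toLinearMap fun _ hx => hx).trans h1)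
      ((cl_comap (ϖ.restrictScalars L).toLinearMap fun _ hx => hx).trans h2)
    let f : (Fin ρ × Fin ((p ^ e) ^ h) → PS L D) →ₗ[PS L D] T' :=
      α.restrictScalars _ ∘ₗ (tc1 _ ρ h (p ^ e)).io
    refine ⟨((Ideal.span ((· ^ p ^ e) '' {z | ϖ z ∈ I})).restrictScalars _).comap f,
      ((cl_comap (f.restrictScalars L) fun _ hx => hx).trans h3).trans ?_,
      fun v hv => up_mem _ W eΦ I hv⟩
    simp only [Fintype.card_fun, Fintype.card_fin] at hκ
    rw [Nat.cast_le, hκ, ← pow_mul p D e, mul_comm D e, pow_mul, pow_add]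
    gcongr
    omega

end Vale.Agent.P202
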