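import Vale.Agent.P202.Spec2

/-! Finite free resolutions over a flat deformation of a power series ring. -/

open Finset Matrix MvPowerSeries Filter Topology IsLocalRing
open scoped Kronecker Nat

namespace Vale.Agent.P202

universe u

namespace Rsm

variable {T : Type u} [CommRing T]

/-- `T ^ b / N` has a free resolution of length at most `c` that starts with `T ^ b` -/
def Pd : ℕ → ∀ {b : ℕ}, Submodule T (Fin b → T) → Prop
  | 0, _, N => N = ⊥
  | c + 1, b, N => ∃ (b' : ℕ) (M : Matrix (Fin b) (Fin b') T),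
      LinearMap.range M.mulVecLin = N ∧ Pd c (LinearMap.ker M.mulVecLin)

theorem mulVec_cols {b b' : ℕ} (v : Fin b' → Fin b → T) (x : Fin b' → T) :
    (Matrix.of fun i j => v j i) *ᵥ x = ∑ j, x j • v j := by
  ext i
  simp [mulVec, dotProduct, mul_comm]

theorem exists_gen [IsNoetherianRing T] {b : ℕ} (N : Submodule T (Fin b → T)) :
    ∃ (b' : ℕ) (M : Matrix (Fin b) (Fin b') T), LinearMap.range M.mulVecLin = N := by
  obtain ⟨n, v, hv⟩ := Submodule.fg_iff_exists_fin_generating_family.1 (IsNoetherian.noetherian N)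
  refine ⟨n, Matrix.of fun i j => v j i, ?_⟩
  rw [← hv]
  ext w
  rw [Submodule.mem_span_range_iff_exists_fun]
  simp only [LinearMap.mem_range, mulVecLin_apply, mulVec_cols]

section lift
variable {T' : Type u} [CommRing T'] (ψ : T →+* T')

theorem comp_eq_zero {b : ℕ} {N : Submodule T (Fin b → T)} {y : Fin b → T}
    (hy : y ∈ RingHom.ker ψ • N) : ψ ∘ y = 0 := by
  refine Submodule.smul_induction_on hy (fun a ha n _ => ?_) (fun x y hx hy => ?_)
  · ext i
    simp [(RingHom.mem_ker).1 ha]
  · ext i
    have h1 := congrFun hx i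
    have h2 := congrFun hy i
    simp only [Function.comp, Pi.zero_apply] at h1 h2
    simp [h1, h2]

theorem comp_sub {b : ℕ} (x y : Fin b → T) : ψ ∘ (x - y) = ψ ∘ x - ψ ∘ y := by
  ext i; simp

theorem comp_mulVec {b b' : ℕ} (M : Matrix (Fin b) (Fin b') T) (x : Fin b' → T) :
    ψ ∘ (M *ᵥ x) = M.map ψ *ᵥ (ψ ∘ x) := by
  ext i
  exact RingHom.map_mulVec ψ M x i

theorem lift_vec (hψ : Function.Surjective ψ) {b : ℕ} (w : Fin b → T') : ∃ v, ψ ∘ v = w :=
  ⟨fun i => (hψ (w i)).choose, funext fun i => (hψ (w i)).choose_spec⟩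

/-- the image of a submodule -/
def img (hψ : Function.Surjective ψ) {b : ℕ} (N : Submodule T (Fin b → T)) :
    Submodule T' (Fin b → T') where
  carrier := {w | ∃ v ∈ N, ψ ∘ v = w}
  add_mem' := by
    rintro _ _ ⟨v, hv, rfl⟩ ⟨v', hv', rfl⟩
    exact ⟨v + v', N.add_mem hv hv', by ext i; simp⟩
  zero_mem' := ⟨0, N.zero_mem, by ext i; simp⟩
  smul_mem' := by
    rintro a _ ⟨v, hv, rfl⟩
    obtain ⟨a, rfl⟩ := hψ a
    exact ⟨a • v, N.smul_mem a hv, by ext i; simp⟩

theorem lift [IsNoetherianRing T] (hψ : Function.Surjective ψ)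
    (hj : RingHom.ker ψ ≤ Ideal.jacobson ⊥) (C : ∀ b : ℕ, Submodule T (Fin b → T) → Prop)
    (h1 : ∀ b N, C b N → ∀ v ∈ N, ψ ∘ v = 0 → v ∈ RingHom.ker ψ • N)
    (h2 : ∀ b b' (M : Matrix (Fin b) (Fin b') T), C b (LinearMap.range M.mulVecLin) →
      C b' (LinearMap.ker M.mulVecLin)) (c : ℕ) :
    ∀ (b : ℕ) (N : Submodule T (Fin b → T)), C b N → Pd c (img ψ hψ N) → Pd c N := by
  induction c with
  | zero =>
    intro b N hC hP
    have hP' : img ψ hψ N = ⊥ := hP
    refine Submodule.eq_bot_of_le_smul_of_le_jacobson_bot _ N (IsNoetherian.noetherian N)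
      (fun v hv => h1 b N hC v hv ?_) hj
    have : ψ ∘ v ∈ img ψ hψ N := ⟨v, hv, rfl⟩
    rwa [hP', Submodule.mem_bot] at this
  | succ c ih =>
    rintro b N hC ⟨b', M', hr, hk⟩
    have hcol : ∀ j, ∃ v ∈ N, ψ ∘ v = M' *ᵥ Pi.single j 1 := fun j => by
      have : M' *ᵥ Pi.single j 1 ∈ img ψ hψ N := hr ▸ ⟨_, rfl⟩
      exact this
    choose v hvN hv using hcol
    set M : Matrix (Fin b) (Fin b') T := Matrix.of fun i j => v j i with hM
    have hMM : M.map ψ = M' := by
      ext i j
      have := congrFun (hv j) i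
      simpa [hM] using this
    have hle : LinearMap.range M.mulVecLin ≤ N := by
      rintro _ ⟨x, rfl⟩
      rw [mulVecLin_apply, hM, mulVec_cols]
      exact N.sum_mem fun j _ => N.smul_mem _ (hvN j)
    have hN : LinearMap.range M.mulVecLin = N := by
      refine le_antisymm hle (Submodule.le_of_le_smul_of_le_jacobson_bot
        (IsNoetherian.noetherian N) hj fun w hw => ?_)
      have h : ψ ∘ w ∈ img ψ hψ N := ⟨w, hw, rfl⟩
      rw [← hr] at h
      obtain ⟨x', hx'⟩ := h
      obtain ⟨x, rfl⟩ := lift_vec ψ hψ x'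
      have hx : M *ᵥ x ∈ LinearMap.range M.mulVecLin := ⟨x, rfl⟩
      have := h1 b N hC (w - M *ᵥ x) (N.sub_mem hw (hle hx))
        (by rw [comp_sub, comp_mulVec, hMM, ← hx', mulVecLin_apply, sub_self])
      have e : w = M *ᵥ x + (w - M *ᵥ x) := by abel
      rw [e]
      exact Submodule.add_mem_sup hx this
    refine ⟨b', M, hN, ih b' _ (h2 b b' M (hN ▸ hC)) ?_⟩
    have : img ψ hψ (LinearMap.ker M.mulVecLin) = LinearMap.ker M'.mulVecLin := by
      ext w
      constructor
      · rintro ⟨x, hx, rfl⟩
        rw [LinearMap.mem_ker, mulVecLin_apply] at hx ⊢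
        rw [← hMM, ← comp_mulVec, hx]
        ext i; simp
      · intro hw
        obtain ⟨x, rfl⟩ := lift_vec ψ hψ w
        rw [LinearMap.mem_ker, mulVecLin_apply, ← hMM, ← comp_mulVec] at hw
        have h := h1 b N hC _ (hle ⟨x, rfl⟩) hw
        rw [← hN, LinearMap.range_eq_map, ← Submodule.map_smul''] at h
        obtain ⟨y, hy, hxy⟩ := h
        refine ⟨x - y, ?_, ?_⟩
        · rw [LinearMap.mem_ker, map_sub, hxy, sub_self]
        · rw [comp_sub, comp_eq_zero ψ hy, sub_zero]
    rw [this]
    exact hk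

end lift

theorem pd_pid [IsDomain T] [IsPrincipalIdealRing T] {b : ℕ} (N : Submodule T (Fin b → T)) :
    Pd 1 N := by
  obtain ⟨n, ⟨B⟩⟩ := Submodule.nonempty_basis_of_pid (Pi.basisFun T (Fin b)) N
  refine ⟨n, Matrix.of fun i j => (B j : Fin b → T) i, ?_, ?_⟩
  · ext w
    simp only [LinearMap.mem_range, mulVecLin_apply, mulVec_cols]
    constructor
    · rintro ⟨x, rfl⟩
      exact N.sum_mem fun j _ => N.smul_mem _ (B j).2
    · intro hw
      refine ⟨B.repr ⟨w, hw⟩, ?_⟩
      have := congrArg N.subtype (B.sum_repr ⟨w, hw⟩)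
      rw [map_sum] at this
      exact this
  · show _ = ⊥
    rw [LinearMap.ker_eq_bot']
    intro x hx
    rw [mulVecLin_apply, mulVec_cols] at hx
    have h : ∑ j, x j • B j = 0 := Subtype.ext (by simpa using hx)
    exact funext (Fintype.linearIndependent_iff.1 B.linearIndependent x h)

theorem hilbert (L : Type u) [Field L] (c : ℕ) :
    ∀ (b : ℕ) (N : Submodule (PS L (c + 1)) (Fin b → PS L (c + 1))), Pd (c + 1) N := by
  induction c with
  | zero =>
    intro b N
    let e : PowerSeries L →+* PS L 1 := (finSuccEquiv L 0).symm.toRingEquiv.toRingHom.comp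
      (PowerSeries.map (isEmptyEquiv (Fin 0) L).symm.toRingEquiv.toRingHom)
    have he : Function.Surjective e := (finSuccEquiv L 0).symm.surjective.comp
      (PowerSeries.map_surjective _ (isEmptyEquiv (Fin 0) L).symm.surjective)
    have : IsPrincipalIdealRing (PS L (0 + 1)) := IsPrincipalIdealRing.of_surjective e he
    have : IsDomain (PS L (0 + 1)) := NoZeroDivisors.to_isDomain _
    exact pd_pid N
  | succ c ih =>
    intro b N
    obtain ⟨b', M, hM⟩ := exists_gen N
    let ψ : PS L (c + 1 + 1) →+* PS L (c + 1) :=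
      PowerSeries.constantCoeff.comp (finSuccEquiv L (c + 1)).toRingEquiv.toRingHom
    have hψ : Function.Surjective ψ :=
      PowerSeries.constantCoeff_surj.comp (finSuccEquiv L (c + 1)).surjective
    have hX : (X 0 : PS L (c + 1 + 1)) ∈ RingHom.ker ψ := by simp [ψ, RingHom.mem_ker]
    have hdv : ∀ x, ψ x = 0 → ∃ y, x = X 0 * y := fun x hx => by
      have hx' : PowerSeries.constantCoeff (finSuccEquiv L (c + 1) x) = 0 := hx
      obtain ⟨y, hy⟩ := PowerSeries.X_dvd_iff.2 hx'
      refine ⟨(finSuccEquiv L (c + 1)).symm y, (finSuccEquiv L (c + 1)).injective ?_⟩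
      rw [map_mul, finSuccEquiv_X_zero, AlgEquiv.apply_symm_apply]
      exact hy
    have hX0 : (X 0 : PS L (c + 1 + 1)) ≠ 0 := fun h => by
      have := finSuccEquiv_X_zero (R := L) (n := c + 1)
      rw [h, map_zero] at this
      exact PowerSeries.X_ne_zero this.symm
    have hk : ∀ b b' (M : Matrix (Fin b) (Fin b') (PS L (c + 1 + 1))) w,
        (X 0 : PS L (c + 1 + 1)) • w ∈ LinearMap.ker M.mulVecLin →
          w ∈ LinearMap.ker M.mulVecLin := fun b b' M w hw => by
      rw [LinearMap.mem_ker, map_smul] at hw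
      exact (smul_eq_zero.1 hw).resolve_left hX0
    refine ⟨b', M, hM, lift ψ hψ ?_ (fun b N => ∀ w, (X 0 : PS L (c + 1 + 1)) • w ∈ N → w ∈ N)
      ?_ (fun b b' M _ => hk b b' M) (c + 1) b' _ (hk b b' M) (ih b' _)⟩
    · rw [jacobson_eq_maximalIdeal ⊥ bot_ne_top]
      exact le_maximalIdeal (RingHom.ker_ne_top ψ)
    · intro b N hC v hv h0
      choose w hw using fun i => hdv (v i) (congrFun h0 i)
      have e : v = (X 0 : PS L (c + 1 + 1)) • w := funext fun i => by simpa using hw i
      rw [e] at hv ⊢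
      exact Submodule.smul_mem_smul hX (hC w hv)

theorem flat_ker {R F Q : Type u} [CommRing R] [AddCommGroup F] [Module R F] [AddCommGroup Q]
    [Module R Q] [Module.Flat R F] [Module.Flat R Q] (ϖ : F →ₗ[R] Q)
    (hϖ : Function.Surjective ϖ) : Module.Flat R (LinearMap.ker ϖ) := by
  refine Module.Flat.iff_rTensor_injective'.2 fun I => ?_
  have h1 := LinearMap.lTensor_injective_of_exact_of_flat ϖ hϖ _
    (LinearMap.ker ϖ).subtype_injective (LinearMap.exact_subtype_ker_map ϖ) I
  have h2 := Module.Flat.iff_rTensor_injective'.1 (inferInstance : Module.Flat R F) I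
  have e : (LinearMap.ker ϖ).subtype.lTensor R ∘ₗ I.subtype.rTensor (LinearMap.ker ϖ) =
      I.subtype.rTensor F ∘ₗ (LinearMap.ker ϖ).subtype.lTensor I := by
    rw [LinearMap.lTensor_comp_rTensor, LinearMap.rTensor_comp_lTensor]
  have h3 : Function.Injective ((LinearMap.ker ϖ).subtype.lTensor R ∘ₗ
      I.subtype.rTensor (LinearMap.ker ϖ)) := by
    rw [e]
    exact h2.comp h1
  exact Function.Injective.of_comp h3

structure Ex {b : ℕ} (N : Submodule T (Fin b → T)) (c : ℕ) {ι : Type} [Fintype ι] [DecidableEq ι]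
    (deg : ι → ℕ) (d : Matrix ι ι T) (e : Fin b → ι) : Prop where
  gr : Gr deg deg (-1) d
  dd : d * d = 0
  le : ∀ i, deg i ≤ c
  inj : Function.Injective e
  zero : ∀ i, deg i = 0 ↔ i ∈ Set.range e
  ent : ∀ w, (d *ᵥ w) ∘ e ∈ N
  ex : ∀ v, d *ᵥ v = 0 → v ∘ e ∈ N → ∃ w, d *ᵥ w = v

theorem exists_ex (c : ℕ) : ∀ (b : ℕ) (N : Submodule T (Fin b → T)), Pd c N →
    ∃ (ι : Type) (_ : Fintype ι) (_ : DecidableEq ι) (deg : ι → ℕ) (d : Matrix ι ι T)
      (e : Fin b → ι), Ex N c deg d e := by
  induction c with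
  | zero =>
    intro b N h
    have h' : N = ⊥ := h
    subst h'
    refine ⟨Fin b, inferInstance, inferInstance, fun _ => 0, 0, id, fun i j h => absurd rfl h,
      by simp, fun _ => le_rfl, Function.injective_id, by simp, by simp, fun v _ hv => ⟨0, ?_⟩⟩
    simpa using ((Submodule.mem_bot T).1 hv).symm
  | succ c ih =>
    rintro b N ⟨b', M, rfl, hk⟩
    obtain ⟨ι, _, _, deg, d, e, h⟩ := ih b' _ hk
    let E : Matrix (Fin b') ι T := Matrix.of fun a i => if e a = i then 1 else 0
    have hE : ∀ v, E *ᵥ v = v ∘ e := fun v => by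
      ext a
      simp [E, mulVec, dotProduct]
    have hME : ∀ v, (M * E) *ᵥ v = M *ᵥ (v ∘ e) := fun v => by rw [← mulVec_mulVec, hE]
    have hd : ∀ v, fromBlocks (0 : Matrix (Fin b) (Fin b) T) (M * E) 0 d *ᵥ v =
        Sum.elim (M *ᵥ ((v ∘ Sum.inr) ∘ e)) (d *ᵥ (v ∘ Sum.inr)) := fun v => by
      rw [fromBlocks_mulVec, zero_mulVec, zero_mulVec, zero_add, zero_add, hME]
    refine ⟨Fin b ⊕ ι, inferInstance, inferInstance, Sum.elim (fun _ => 0) fun i => deg i + 1,
      fromBlocks 0 (M * E) 0 d, Sum.inl, ?_, ?_, ?_, Sum.inl_injective, ?_, ?_, ?_⟩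
    · rintro (a | i) (a' | j) hne
      · exact absurd rfl hne
      · have : deg j = 0 := by
          by_contra hj
          refine hne ?_
          rw [fromBlocks_apply₁₂, mul_apply]
          refine sum_eq_zero fun x _ => ?_
          have : e x ≠ j := fun hx => hj ((h.zero j).2 ⟨x, hx⟩)
          simp [E, this]
        simp [this]
      · exact absurd rfl hne
      · have := h.gr i j hne
        simp only [Sum.elim_inr]
        push_cast
        omega
    · have : M * E * d = 0 := by
        rw [ext_iff_mulVec]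
        intro v
        rw [← mulVec_mulVec, hME, zero_mulVec]
        exact h.ent v
      simp [fromBlocks_multiply, this, h.dd]
    · rintro (a | i)
      · simp
      · simpa using h.le i
    · rintro (a | i) <;> simp
    · intro w
      rw [hd]
      exact ⟨_, rfl⟩
    · rintro v hv ⟨x, hx⟩
      rw [hd] at hv
      have h1 : M *ᵥ ((v ∘ Sum.inr) ∘ e) = 0 := funext fun a => congrFun hv (Sum.inl a)
      have h2 : d *ᵥ (v ∘ Sum.inr) = 0 := funext fun a => congrFun hv (Sum.inr a)
      obtain ⟨w, hw⟩ := h.ex _ h2 h1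
      let y : ι → T := Function.extend e (x - w ∘ e) 0
      have hy : y ∘ e = x - w ∘ e := funext fun a => h.inj.extend_apply _ _ a
      have hdy : d *ᵥ y = 0 := by
        ext i
        refine sum_eq_zero fun j _ => ?_
        by_cases hj : ∃ a, e a = j
        · have h0 := (h.zero j).2 hj
          have : d i j = 0 := by
            by_contra hne
            have := h.gr i j hne
            omega
          simp [this]
        · simp [y, Function.extend_apply' _ _ _ hj]
      refine ⟨Sum.elim 0 (w + y), ?_⟩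
      rw [hd]
      have e1 : (Sum.elim (0 : Fin b → T) (w + y) ∘ Sum.inr) = w + y := rfl
      have e2 : (w + y) ∘ e = x := by
        rw [show (w + y) ∘ e = w ∘ e + y ∘ e from rfl, hy]; abel
      rw [e1, e2, mulVec_add, hw, hdy, add_zero]
      ext (a | i)
      · exact congrFun hx a
      · rfl

theorem Ex.nul {b : ℕ} {N : Submodule T (Fin b → T)} {c : ℕ} {ι : Type} [Fintype ι]
    [DecidableEq ι] {deg : ι → ℕ} {d : Matrix ι ι T} {e : Fin b → ι} (h : Ex N c deg d e) (z : T)
    (hz : ∀ v, z • v ∈ N) : ∃ k, Gr deg deg 1 k ∧ d * k + k * d = z • (1 : Matrix ι ι T) := by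
  have key : ∀ p : ℕ, ∃ k : Matrix ι ι T, Gr deg deg 1 k ∧
      ∀ i j, deg j < p → (d * k + k * d) i j = (z • (1 : Matrix ι ι T)) i j := by
    intro p
    induction p with
    | zero => exact ⟨0, fun i j h => absurd rfl h, fun i j h => absurd h (Nat.not_lt_zero _)⟩
    | succ p ih =>
      obtain ⟨k, hk, hp⟩ := ih
      set V : Matrix ι ι T := z • (1 : Matrix ι ι T) - k * d with hV
      have hkd : ∀ i j, (k * d) i j ≠ 0 → deg i = deg j ∧ deg i ≠ 0 := fun i j hne => by
        obtain ⟨x, -, hx⟩ := exists_ne_zero_of_sum_ne_zero hne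
        have h1 := hk i x (left_ne_zero_of_mul hx)
        have h2 := h.gr x j (right_ne_zero_of_mul hx)
        omega
      have hVg : ∀ i j, V i j ≠ 0 → deg i = deg j := fun i j hne => by
        by_contra hij
        refine hne ?_
        have h1 : (k * d) i j = 0 := by
          by_contra h1
          exact hij (hkd i j h1).1
        have h2 : i ≠ j := fun h => hij (h ▸ rfl)
        simp [hV, h1, h2]
      have hcol : ∀ j, deg j = p → ∃ w, d *ᵥ w = fun i => V i j := fun j hj => by
        refine h.ex _ ?_ ?_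
        · ext i
          have e1 : d * V = -((d * k + k * d - z • (1 : Matrix ι ι T)) * d) := by
            simp only [hV, mul_sub, sub_mul, add_mul, mul_assoc, h.dd, mul_zero, add_zero,
              smul_mul_assoc, mul_smul_comm, one_mul, mul_one, neg_sub]
          have e2 : (d *ᵥ fun i => V i j) i = (d * V) i j := rfl
          rw [e2, e1, Matrix.neg_apply, mul_apply, Pi.zero_apply, neg_eq_zero]
          refine sum_eq_zero fun x _ => ?_
          by_cases hx : d x j = 0
          · rw [hx, mul_zero]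
          · have := h.gr x j hx
            rw [Matrix.sub_apply, hp i x (by omega), sub_self, zero_mul]
        · have : (fun i => V i j) ∘ e = z • fun a => (1 : Matrix ι ι T) (e a) j := by
            ext a
            have h1 : (k * d) (e a) j = 0 := by
              by_contra h1
              exact (hkd _ j h1).2 ((h.zero _).2 ⟨a, rfl⟩)
            simp [hV, h1]
          rw [this]
          exact hz _
      choose! w hw using hcol
      let k' : Matrix ι ι T := Matrix.of fun i j =>
        if deg j = p then (if deg i = p + 1 then w j i else 0) else k i j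
      have hkk : ∀ i j, deg j < p + 1 → (k' * d) i j = (k * d) i j := fun i j hj => by
        rw [mul_apply, mul_apply]
        refine sum_congr rfl fun x _ => ?_
        by_cases hx : d x j = 0
        · rw [hx, mul_zero, mul_zero]
        · have := h.gr x j hx
          have hx' : deg x ≠ p := by omega
          simp [k', hx']
      refine ⟨k', fun i j hne => ?_, fun i j hj => ?_⟩
      · by_cases hj : deg j = p
        · by_cases hi : deg i = p + 1
          · omega
          · simp [k', hj, hi] at hne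
        · exact hk i j (by simpa [k', hj] using hne)
      · rw [Matrix.add_apply, hkk i j hj]
        by_cases hjp : deg j = p
        · have e1 : (d * k') i j = V i j := by
            by_cases hi : deg i = p
            · rw [← congrFun (hw j hjp) i]
              refine sum_congr rfl fun x _ => ?_
              by_cases hx : d i x = 0
              · simp [hx]
              · have := h.gr i x hx
                have hx' : deg x = p + 1 := by omega
                simp [k', hjp, hx']
            · have : V i j = 0 := by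
                by_contra hne
                exact hi ((hVg i j hne).trans hjp)
              rw [this]
              refine sum_eq_zero fun x _ => ?_
              by_cases hx : d i x = 0
              · simp [hx]
              · have := h.gr i x hx
                have hx' : deg x ≠ p + 1 := by omega
                simp [k', hjp, hx']
          rw [e1, hV, Matrix.sub_apply, sub_add_cancel]
        · have e1 : (d * k') i j = (d * k) i j := by
            refine sum_congr rfl fun x _ => ?_
            simp [k', hjp]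
          rw [e1, ← Matrix.add_apply]
          exact hp i j (by omega)
  obtain ⟨k, hk, hp⟩ := key (c + 1)
  exact ⟨k, hk, Matrix.ext fun i j => hp i j (Nat.lt_succ_of_le (h.le j))⟩

end Rsm

open Rsm in
theorem rsStmt : RsStmt.{u} := by
  intro L R T _ _ _ _ _ _ m J c hJ hj ⟨e⟩
  let ψ : T →+* PS L (c + 1) := e.symm.toRingHom.comp (Ideal.Quotient.mk _)
  have hψ : Function.Surjective ψ := e.symm.surjective.comp Ideal.Quotient.mk_surjective
  have hker : RingHom.ker ψ = m.map (algebraMap R T) := by
    ext x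
    simp [ψ, RingHom.mem_ker, Ideal.Quotient.eq_zero_iff_mem]
  let N : Submodule T (Fin 1 → T) :=
    Submodule.comap (LinearMap.proj (0 : Fin 1) : (Fin 1 → T) →ₗ[T] T) J
  have hP : Pd (c + 1) N := by
    refine lift ψ hψ (hker ▸ hj) (fun b N => ∃ (Q : Type u) (_ : AddCommGroup Q) (_ : Module R Q)
      (_ : Module.Flat R Q) (ϖ : (Fin b → T) →ₗ[R] Q), Function.Surjective ϖ ∧
        LinearMap.ker ϖ = N.restrictScalars R) ?_ ?_ (c + 1) 1 N ?_ (hilbert L c 1 _)
    · rintro b N ⟨Q, _, _, _, ϖ, hϖ, hk⟩ v hv h0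
      have h1 := LinearMap.ker_inf_smul_top_eq_smul_of_flat m ϖ hϖ
      have h2 : v ∈ m.map (algebraMap R T) • (⊤ : Submodule T (Fin b → T)) := by
        rw [pi_eq_sum_univ v]
        refine Submodule.sum_mem _ fun i _ => Submodule.smul_mem_smul ?_ trivial
        rw [← hker]
        exact congrFun h0 i
      rw [← Submodule.restrictScalars_mem R, Ideal.smul_restrictScalars] at h2
      rw [hker, ← Submodule.restrictScalars_mem R, Ideal.smul_restrictScalars, ← hk, ← h1, hk]
      exact ⟨hv, h2⟩
    · rintro b b' M ⟨Q, _, _, _, ϖ, hϖ, hk⟩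
      have : Module.Flat R (Fin b → T) := Module.Flat.trans R T _
      have hf := flat_ker ϖ hϖ
      refine ⟨LinearMap.ker ϖ, inferInstance, inferInstance, hf,
        (M.mulVecLin.restrictScalars R).codRestrict _ fun x => ?_, ?_, ?_⟩
      · rw [hk]
        exact ⟨x, rfl⟩
      · rintro ⟨y, hy⟩
        rw [hk] at hy
        obtain ⟨x, hx⟩ := hy
        exact ⟨x, Subtype.ext hx⟩
      · rw [LinearMap.ker_codRestrict]
        rfl
    · refine ⟨T ⧸ J, inferInstance, inferInstance, hJ,
        (J.mkQ ∘ₗ LinearMap.proj (0 : Fin 1)).restrictScalars R, fun y => ?_, ?_⟩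
      · obtain ⟨y, rfl⟩ := Ideal.Quotient.mk_surjective y
        exact ⟨fun _ => y, rfl⟩
      · ext v
        simp [N, Ideal.Quotient.eq_zero_iff_mem]
  obtain ⟨ι, _, _, deg, d, ε, h⟩ := exists_ex _ _ _ hP
  refine ⟨ι, inferInstance, inferInstance, deg, d, ε 0, h.gr, h.dd, h.le, fun i => ?_, fun i => ?_,
    fun z hz => h.nul z fun v => J.mul_mem_right _ hz⟩
  · rw [h.zero]
    exact ⟨fun ⟨a, ha⟩ => by rw [← ha, Subsingleton.elim a 0], fun hi => ⟨0, hi.symm⟩⟩
  · simpa [N] using h.ent (Pi.single i 1)

end Vale.Agent.P202
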