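import Vale.Agent.P202.Tw1

/-! The dilated complete intersection model. -/

open Finset MvPolynomial Filter

namespace Vale.Agent.P202

universe u

namespace Twm

theorem mem_vars {A σ : Type*} [CommRing A] {v : MvPolynomial σ A} (h : constantCoeff v = 0) :
    v ∈ Ideal.span (Set.range (X : σ → MvPolynomial σ A)) := by
  rw [← Set.image_univ, mem_ideal_span_X_image]
  intro m hm
  by_contra hc
  push Not at hc
  have : m = 0 := Finsupp.ext fun i => hc i trivial
  rw [this, mem_support_iff] at hm
  exact hm h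

theorem clear {A σ : Type*} [CommRing A] (δ : A) (v : MvPolynomial σ A) :
    ∀ᶠ N in atTop, ∃ w : MvPolynomial σ A,
      aeval (fun i => δ • (X i : MvPolynomial σ A)) w = δ ^ N • v := by
  induction v using MvPolynomial.induction_on with
  | C a => exact Eventually.of_forall fun N => ⟨δ ^ N • C a, by rw [map_smul, aeval_C]; rfl⟩
  | add p q hp hq =>
    filter_upwards [hp, hq] with N ⟨w, hw⟩ ⟨w', hw'⟩
    exact ⟨w + w', by rw [map_add, hw, hw', smul_add]⟩
  | mul_X p i hp =>
    obtain ⟨N0, h⟩ := eventually_atTop.1 hp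
    refine eventually_atTop.2 ⟨N0 + 1, fun N hN => ?_⟩
    obtain ⟨M, rfl⟩ : ∃ M, N = M + 1 := ⟨N - 1, by omega⟩
    obtain ⟨w, hw⟩ := h M (by omega)
    exact ⟨w * X i, by rw [map_mul, hw, aeval_X, smul_mul_smul_comm, pow_succ]⟩

variable {A R T W : Type u} [CommRing A] [IsDomain A] [CommRing R] [Algebra A R] [CommRing T]
  [Algebra A T] [CommRing W] [Algebra A W]

theorem dil {n ρ s : ℕ} (U Θ : Fin n → T) (e : Fin ρ → T)
    (hsp : ∀ t, ∃ v : Fin ρ → MvPolynomial (Fin n) A, ∑ i, aeval U (v i) * e i = t)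
    (hind : ∀ v : Fin ρ → MvPolynomial (Fin n) A, ∑ i, aeval U (v i) * e i = 0 → v = 0)
    (ev : T →ₐ[A] R) (hU : ∀ i, ev (U i) = 0) (hli : LinearIndependent A fun i => ev (e i))
    (hΘ : Algebra.adjoin A (Set.range Θ) = ⊤) {δ : A} (hδ : δ ≠ 0) (j : T →ₐ[A] W)
    (hj : Function.Injective j) (pr : W →ₐ[A] R) (hpr : ∀ t, pr (j t) = ev t)
    (reg : ∀ w : W, δ • w = 0 → w = 0) (u : Fin n → W) (hu : ∀ i, δ ^ 2 • u i = j (U i))
    (hu0 : ∀ i, pr (u i) = 0) (bh : Fin s → W) (hb : ∀ l, ∃ t, j t = δ • bh l)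
    (hb' : Submodule.span A (Set.range fun l => pr (bh l)) = ⊤) : HasTw A R ρ δ := by
  classical
  let _ : Algebra (MvPolynomial (Fin n) A) W := (aeval u).toRingHom.toAlgebra
  have halg : ∀ p, algebraMap (MvPolynomial (Fin n) A) W p = aeval u p := fun _ => rfl
  have : IsScalarTower A (MvPolynomial (Fin n) A) W :=
    IsScalarTower.of_algebraMap_eq fun a => by rw [halg, AlgHom.commutes]
  have hφ : ∀ v, j (aeval U v) = algebraMap (MvPolynomial (Fin n) A) W
      (aeval (fun i => δ ^ 2 • (X i : MvPolynomial (Fin n) A)) v) := fun v => by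
    have : j.comp (aeval U) = (aeval u).comp
        (aeval fun i => δ ^ 2 • (X i : MvPolynomial (Fin n) A)) := by
      ext i; simp [hu]
    exact DFunLike.congr_fun this v
  have hc1 : ∀ v, pr (aeval u v) = algebraMap A R (constantCoeff v) := fun v => by
    rw [← aeval_zero, ← AlgHom.comp_apply, comp_aeval]
    exact congrArg (fun f => aeval f v) (funext hu0)
  have hc2 : ∀ v, ev (aeval U v) = algebraMap A R (constantCoeff v) := fun v => by
    rw [← aeval_zero, ← AlgHom.comp_apply, comp_aeval]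
    exact congrArg (fun f => aeval f v) (funext hU)
  let α0 := Fintype.linearCombination (MvPolynomial (Fin n) A) fun i => j (e i)
  have hα0 : ∀ v : Fin ρ → MvPolynomial (Fin n) A, j (∑ i, aeval U (v i) * e i) =
      α0 fun i => aeval (fun i => δ ^ 2 • (X i : MvPolynomial (Fin n) A)) (v i) := fun v => by
    simp only [α0, Fintype.linearCombination_apply, map_sum, map_mul, hφ, Algebra.smul_def]
  have hjα : ∀ t, j t ∈ LinearMap.range α0 := fun t => by
    obtain ⟨v, rfl⟩ := hsp t
    exact ⟨_, (hα0 v).symm⟩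
  have hinj : Function.Injective α0 := by
    rw [injective_iff_map_eq_zero]
    intro v hv
    obtain ⟨N, hN⟩ := (eventually_all.2 fun i => clear (δ ^ 2) (v i)).exists
    choose w hw using hN
    have h1 : w = 0 := hind w (hj (by
      rw [hα0, map_zero, funext hw]
      exact (α0.map_smul_of_tower ((δ ^ 2) ^ N) v).trans (by rw [hv, smul_zero])))
    funext i
    have h2 := hw i
    rw [h1, Pi.zero_apply, map_zero, eq_comm, smul_eq_zero] at h2
    exact h2.resolve_left (pow_ne_zero _ (pow_ne_zero _ hδ))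
  let V := Submodule.span (MvPolynomial (Fin n) A) (Set.range bh ∪ Set.range fun i => j (e i))
  have hαV : LinearMap.range α0 ≤ V := by
    rw [Fintype.range_linearCombination]
    exact Submodule.span_mono Set.subset_union_right
  have hG : ∀ x ∈ Set.range bh ∪ Set.range fun i => j (e i), ∃ t, j t = δ • x := by
    rintro _ (⟨l, rfl⟩ | ⟨i, rfl⟩)
    exacts [hb l, ⟨δ • e i, map_smul _ _ _⟩]
  have hker : ∀ t, ev t = 0 → ∃ y ∈ V, j t = δ ^ 2 • y := fun t ht => by
    obtain ⟨v, rfl⟩ := hsp t
    simp only [map_sum, map_mul, hc2, ← Algebra.smul_def] at ht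
    have h1 : ∑ i, aeval U (v i) * e i ∈ Ideal.span (Set.range U) := by
      refine Ideal.sum_mem _ fun i _ => Ideal.mul_mem_right _ _ ?_
      have h2 := Ideal.mem_map_of_mem (aeval U : MvPolynomial (Fin n) A →ₐ[A] T)
        (mem_vars (Fintype.linearIndependent_iff.1 hli _ ht i))
      rw [Ideal.map_span, ← Set.range_comp] at h2
      simpa [Function.comp_def] using h2
    obtain ⟨g, hg⟩ := Ideal.mem_span_range_iff_exists_fun.1 h1
    refine ⟨∑ i, (X i : MvPolynomial (Fin n) A) • j (g i),
      V.sum_mem fun i _ => V.smul_mem _ (hαV (hjα _)), ?_⟩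
    rw [← hg, map_sum, Finset.smul_sum]
    refine Finset.sum_congr rfl fun i _ => ?_
    rw [map_mul, ← hu, Algebra.smul_def (X i), halg, aeval_X, mul_smul_comm, mul_comm]
  have hmul : ∀ x y, x ∈ V → y ∈ V → x * y ∈ V := fun x y hx hy => by
    have h1 := Submodule.mul_mem_mul hx hy
    rw [Submodule.span_mul_span] at h1
    refine (Submodule.span_le.2 ?_ : _ ≤ V) h1
    rintro _ ⟨x, hx, y, hy, rfl⟩
    obtain ⟨t, ht⟩ := hG x hx
    obtain ⟨t', ht'⟩ := hG y hy
    choose B hB using hb
    obtain ⟨c, hc⟩ := (Submodule.mem_span_range_iff_exists_fun A).1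
      (hb' ▸ Submodule.mem_top : pr (x * y) ∈ _)
    have h2 : j (t * t' - δ • ∑ l, c l • B l) = δ ^ 2 • (x * y - ∑ l, c l • bh l) := by
      simp only [map_sub, map_mul, map_smul, map_sum, ht, ht', hB, smul_sub, pow_two, mul_smul,
        smul_mul_smul_comm, Finset.smul_sum, smul_comm δ (c _)]
    obtain ⟨z, hz, h3⟩ := hker _ (by
      rw [← hpr, h2, map_smul, map_sub, map_sum, ← hc]
      simp)
    have h4 : x * y - ∑ l, c l • bh l - z = 0 := by
      refine reg _ (reg _ ?_)
      rw [← mul_smul, ← pow_two, smul_sub, ← h2, h3, sub_self]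
    have h5 : x * y = ∑ l, c l • bh l + z := by linear_combination h4
    change x * y ∈ V
    rw [h5]
    exact V.add_mem (V.sum_mem fun l _ => V.smul_of_tower_mem _
      (Submodule.subset_span (Or.inl ⟨l, rfl⟩))) hz
  let T' := V.toSubalgebra (map_one j ▸ hαV (hjα 1)) hmul
  have hδV : ∀ z : T', δ • (z : W) ∈ LinearMap.range α0 := by
    rintro ⟨z, hz⟩
    change δ • z ∈ _
    induction hz using Submodule.span_induction with
    | mem x hx => obtain ⟨t, ht⟩ := hG x hx; exact ht ▸ hjα t
    | zero => rw [smul_zero]; exact Submodule.zero_mem _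
    | add x y _ _ hx hy => rw [smul_add]; exact Submodule.add_mem _ hx hy
    | smul a x _ hx => rw [smul_comm]; exact Submodule.smul_mem _ _ hx
  let j' : T →ₐ[A] T' := (j.codRestrict (T'.restrictScalars A) fun t => hαV (hjα t) :)
  let α : (Fin ρ → MvPolynomial (Fin n) A) →ₗ[MvPolynomial (Fin n) A] T' :=
    (α0.codRestrict T'.toSubmodule fun v => hαV ⟨v, rfl⟩ :)
  have hα : ∀ v, (α v : W) = α0 v := fun _ => rfl
  let β : T' →ₗ[MvPolynomial (Fin n) A] (Fin ρ → MvPolynomial (Fin n) A) :=
    (LinearEquiv.ofInjective α0 hinj).symm.toLinearMap ∘ₗ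
      LinearMap.codRestrict _ (δ • T'.val.toLinearMap) hδV
  have hab : ∀ z, α (β z) = δ • z := fun z => by
    have h1 := congrArg Subtype.val
      ((LinearEquiv.ofInjective α0 hinj).apply_symm_apply ⟨_, hδV z⟩)
    exact Subtype.ext h1
  have hsum : ∀ v, α v = ∑ i, v i • j' (e i) := fun v => Subtype.ext (by
    rw [hα, AddSubmonoidClass.coe_finsetSum]; rfl)
  have hadj : ∀ t, j' t ∈ Algebra.adjoin A (Set.range fun i => j' (Θ i)) := fun t => by
    have h1 : j' t ∈ (Algebra.adjoin A (Set.range Θ)).map j' := ⟨t, hΘ ▸ Algebra.mem_top, rfl⟩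
    rwa [AlgHom.map_adjoin, ← Set.range_comp] at h1
  refine ⟨n, 2, T', inferInstance, inferInstance, inferInstance,
    pr.comp (T'.val.restrictScalars A), α, β, fun i => j' (Θ i), inferInstance, ?_, fun r => ?_,
    fun i => ?_, fun v => ?_, hab, fun z hz => ?_, fun i => ?_, fun z => ?_⟩
  · exact Module.Finite.span_of_finite _ ((Set.finite_range _).union (Set.finite_range _))
  · obtain ⟨c, hc⟩ := (Submodule.mem_span_range_iff_exists_fun A).1
      (hb' ▸ Submodule.mem_top : r ∈ _)
    refine ⟨⟨∑ l, c l • bh l, V.sum_mem fun l _ => V.smul_of_tower_mem _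
      (Submodule.subset_span (Or.inl ⟨l, rfl⟩))⟩, ?_⟩
    change pr (∑ l, c l • bh l) = r
    simp only [map_sum, map_smul, hc]
  · exact (congrArg pr (aeval_X u i)).trans (hu0 i)
  · apply hinj
    rw [← hα, hab, ← hα, LinearMap.map_smul_of_tower]
  · have h1 : ∑ i, constantCoeff (β z i) • ev (e i) = 0 := by
      have h2 : pr (α0 (β z)) = 0 := by
        rw [← hα, hab]
        change pr (δ • (z : W)) = 0
        rw [map_smul, show pr (z : W) = 0 from hz, smul_zero]
      rw [← h2]
      simp only [α0, Fintype.linearCombination_apply, map_sum, Algebra.smul_def, map_mul, halg, hc1,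
        hpr]
    rw [← hab, hsum]
    refine Ideal.sum_mem _ fun i _ => ?_
    rw [Algebra.smul_def]
    refine Ideal.mul_mem_right _ _ ?_
    have h2 := Ideal.mem_map_of_mem (algebraMap (MvPolynomial (Fin n) A) T')
      (mem_vars (Fintype.linearIndependent_iff.1 hli _ h1 i))
    rwa [Ideal.map_span, ← Set.range_comp] at h2
  · have h1 : δ ^ 2 • algebraMap (MvPolynomial (Fin n) A) T' (X i) = j' (U i) :=
      Subtype.ext ((congrArg (δ ^ 2 • ·) (aeval_X u i)).trans (hu i))
    exact h1 ▸ hadj _
  · rw [← hab, hsum]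
    exact Submodule.sum_mem _ fun i _ => Submodule.smul_mem _ _ (Submodule.subset_span (hadj _))

end Twm

open Twm in
theorem twStmt : TwStmt.{u} := by
  intro A R _ _ _ _ _ _ hinj
  obtain ⟨n, b, hb⟩ := Module.Finite.exists_fin (R := A) (M := R)
  obtain ⟨T, _, _, _, _, ι, _, e, ev, Θ, δ, hδ, h1, h2, h3, h4, h5⟩ :=
    tower hinj (aeval (0 : Fin n → A) : MvPolynomial (Fin n) A →ₐ[A] A) n b X fun j => aeval_X _ j
  let U : Fin n → T := fun j => algebraMap (MvPolynomial (Fin n) A) T (X j)
  have hU : ∀ v, aeval U v = algebraMap (MvPolynomial (Fin n) A) T v := fun v =>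
    DFunLike.congr_fun (MvPolynomial.algHom_ext fun i => by simp [U] :
      aeval U = IsScalarTower.toAlgHom A (MvPolynomial (Fin n) A) T) v
  have hδR : ∀ r : R, δ • r ∈ ev.range := fun r => by
    obtain ⟨c, rfl⟩ := (Submodule.mem_span_range_iff_exists_fun A).1
      (hb ▸ Submodule.mem_top : r ∈ _)
    rw [Finset.smul_sum]
    exact Subalgebra.sum_mem _ fun i _ => smul_comm δ (c i) (b i) ▸ Subalgebra.smul_mem _ (h1 i) _
  have hcard : Fintype.card ι = Module.finrank A R := by
    rw [← Submodule.finrank_quotient_add_finrank (Submodule.span A (Set.range fun i => ev (e i))),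
      finrank_span_eq_card h3, Module.finrank_eq_zero_iff.2, zero_add]
    intro x
    obtain ⟨x, rfl⟩ := Submodule.mkQ_surjective _ x
    refine ⟨δ, hδ, (Submodule.Quotient.mk_eq_zero _).2 ?_⟩
    obtain ⟨t, ht⟩ := hδR x
    change δ • x ∈ _
    rw [← ht]
    change ev t ∈ _
    rw [range_le _ e ev h2 t]
    exact Submodule.sum_mem _ fun i _ => Submodule.smul_mem _ _ (Submodule.subset_span ⟨i, rfl⟩)
  let σ := (Fintype.equivFinOfCardEq hcard).symm
  let e' := e.reindex σ.symm
  have he' : ∀ i, e' i = e (σ i) := fun i => by simp [e']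
  let L := Localization.Away (algebraMap A T δ)
  have hreg : algebraMap A T δ ∈ nonZeroDivisors T := by
    rw [mem_nonZeroDivisors_iff_left]
    intro t ht
    rw [IsScalarTower.algebraMap_apply A (MvPolynomial (Fin n) A) T, ← Algebra.smul_def] at ht
    have := Module.Free.of_basis e
    exact (smul_eq_zero.1 ht).resolve_left (by simpa using hδ)
  have hL : Function.Injective (algebraMap T L) :=
    IsLocalization.injective L (M := Submonoid.powers (algebraMap A T δ))
      (Submonoid.powers_le.2 hreg)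
  let z : L := IsLocalization.Away.invSelf (algebraMap A T δ)
  have hz : algebraMap A L δ * z = 1 := IsLocalization.Away.mul_invSelf (algebraMap A T δ)
  choose B hB using h1
  refine ⟨δ, hδ, dil (W := L × R) U Θ e' (fun t => ⟨e'.repr t, ?_⟩) (fun v hv => ?_) ev
    (fun i => ?_) ?_ ?_ hδ ((IsScalarTower.toAlgHom A T L).prod ev)
    (fun x y h => hL (congrArg Prod.fst h)) (AlgHom.snd A L R) (fun _ => rfl) ?_
    (fun i => (algebraMap T L (U i) * z ^ 2, 0)) (fun i => ?_) (fun _ => rfl)
    (fun l => (algebraMap T L (B l) * z, b l)) (fun l => ⟨B l, ?_⟩) hb⟩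
  · simp only [hU, ← Algebra.smul_def]
    exact e'.sum_repr t
  · simp only [hU, ← Algebra.smul_def] at hv
    exact funext (Fintype.linearIndependent_iff.1 e'.linearIndependent v hv)
  · rw [h2, aeval_X]; simp
  · simp only [he']
    exact h3.comp σ σ.injective
  · rw [eq_top_iff]
    intro t _
    rw [← e.sum_repr t]
    refine Subalgebra.sum_mem _ fun i _ => ?_
    rw [Algebra.smul_def, ← hU]
    refine Subalgebra.mul_mem _ ?_ (h4 i)
    have : Algebra.adjoin A (Set.range U) ≤ Algebra.adjoin A (Set.range Θ) :=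
      Algebra.adjoin_le (by rintro _ ⟨j, rfl⟩; exact h5 j)
    exact this (by rw [Algebra.adjoin_range_eq_range_aeval]; exact ⟨_, rfl⟩)
  · rintro ⟨x, r⟩ h
    have e1 : algebraMap A L δ * x = 0 := (Algebra.smul_def δ x).symm.trans (congrArg Prod.fst h)
    have e2 : algebraMap A R δ * r = 0 := (Algebra.smul_def δ r).symm.trans (congrArg Prod.snd h)
    refine Prod.ext ?_ ((mul_eq_zero.1 e2).resolve_left fun h0 => hδ (hinj (by simpa using h0)))
    change x = 0
    linear_combination z * e1 - x * hz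
  · refine Prod.ext ?_ ?_
    · change δ ^ 2 • (algebraMap T L (U i) * z ^ 2) = algebraMap T L (U i)
      rw [Algebra.smul_def, map_pow]
      linear_combination algebraMap T L (U i) * (algebraMap A L δ * z + 1) * hz
    · change δ ^ 2 • (0 : R) = ev (U i)
      rw [h2, aeval_X]; simp
  · refine Prod.ext ?_ (hB l)
    change algebraMap T L (B l) = δ • (algebraMap T L (B l) * z)
    rw [Algebra.smul_def]
    linear_combination (-algebraMap T L (B l)) * hz

end Vale.Agent.P202
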