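import Vale.Agent.P202.Bt
import Vale.Agent.P202.Co
import Vale.Agent.P202.DomB
import Vale.Agent.P202.DomI
import Vale.Agent.P202.E5
import Vale.Agent.P202.Eu2
import Vale.Agent.P202.Fil
import Vale.Agent.P202.Kc
import Vale.Agent.P202.Main2
import Vale.Agent.P202.NormI
import Vale.Agent.P202.Ph
import Vale.Agent.P202.Rs
import Vale.Agent.P202.Tw

/-! All modules together, for arbitrary residue fields. -/

namespace Vale.Agent.P202

universe u

theorem coreB' : CoreBStmt.{u} := coreBStmt (eu2Stmt (seg2Stmt rkStmt evStmt) ghStmt tam' e1Stmt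
  e2Stmt (e3Stmt cb' tauStmt) (e4Stmt cb' numStmt) (e5Stmt cb' tauStmt)) kcStmt filStmt

theorem normI' : NormIStmt.{u} :=
  normIStmt (domIStmt coStmt twStmt btStmt rsStmt (domBStmt phStmt coreB'))

end Vale.Agent.P202
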