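import Vale.Agent.P202.Spec

/-! Module AT: transfer of finitely many power series to a finite field. -/

open Polynomial IsLocalRing
open scoped PowerSeries

namespace Vale.Agent.P202

universe u

namespace At

lemma graph {B B' : Type*} [CommRing B] [CommRing B'] (Γ : Subring (B × B'))
    (h : ∀ b', (0, b') ∈ Γ → b' = 0) :
    ∃ (T : Subring B) (τ : T →+* B'), ∀ b b', (b, b') ∈ Γ → ∃ h : b ∈ T, τ ⟨b, h⟩ = b' := by
  let F := (RingHom.fst B B').comp Γ.subtype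
  have hF : Function.Injective F := (injective_iff_map_eq_zero F).2 fun a ha => by
    obtain ⟨⟨b, b'⟩, hb⟩ := a
    obtain rfl : b = 0 := ha
    obtain rfl := h b' hb
    rfl
  let e := RingEquiv.ofBijective F.rangeRestrict
    ⟨fun a b hab => hF (congrArg Subtype.val hab), F.rangeRestrict_surjective⟩
  refine ⟨F.range, ((RingHom.snd B B').comp Γ.subtype).comp e.symm.toRingHom, fun b b' hb =>
    ⟨⟨⟨(b, b'), hb⟩, rfl⟩, ?_⟩⟩
  exact congrArg (fun a : Γ => a.1.2) (e.symm_apply_apply ⟨(b, b'), hb⟩)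

lemma glue {P B B' : Type*} [CommRing P] [CommRing B] [CommRing B'] [IsDomain B'] (w : P →+* B)
    (θ : B) (f : P[X]) (g : P) (hk : ∀ h, eval₂ w θ h = 0 → f ∣ h) (w' : P →+* B') (θ' : B')
    (hf : eval₂ w' θ' f = 0) (hg : w' g ≠ 0) :
    ∃ (T : Subring B) (τ : T →+* B'), ∀ b b' h, w g * b = eval₂ w θ h →
      w' g * b' = eval₂ w' θ' h → ∃ hb : b ∈ T, τ ⟨b, hb⟩ = b' := by
  let Γ : Subring (B × B') :=
    { carrier := {p | ∃ (N : ℕ) (h : P[X]), w g ^ N * p.1 = eval₂ w θ h ∧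
        w' g ^ N * p.2 = eval₂ w' θ' h}
      mul_mem' := by
        rintro a b ⟨N, h, h1, h2⟩ ⟨N', h', h3, h4⟩
        refine ⟨N + N', h * h', ?_, ?_⟩
        · rw [eval₂_mul, ← h1, ← h3, Prod.fst_mul]; ring
        · rw [eval₂_mul, ← h2, ← h4, Prod.snd_mul]; ring
      one_mem' := ⟨0, 1, by simp, by simp⟩
      add_mem' := by
        rintro a b ⟨N, h, h1, h2⟩ ⟨N', h', h3, h4⟩
        refine ⟨N + N', C (g ^ N') * h + C (g ^ N) * h', ?_, ?_⟩
        · rw [eval₂_add, eval₂_mul, eval₂_mul, eval₂_C, eval₂_C, map_pow, map_pow, ← h1, ← h3,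
            Prod.fst_add]; ring
        · rw [eval₂_add, eval₂_mul, eval₂_mul, eval₂_C, eval₂_C, map_pow, map_pow, ← h2, ← h4,
            Prod.snd_add]; ring
      zero_mem' := ⟨0, 0, by simp, by simp⟩
      neg_mem' := by
        rintro a ⟨N, h, h1, h2⟩
        exact ⟨N, -h, by simp [← h1], by simp [← h2]⟩ }
  obtain ⟨T, τ, hT⟩ := graph Γ (by
    rintro b' ⟨N, h, h1, h2⟩
    obtain ⟨q, rfl⟩ := hk h (by simpa using h1.symm)
    rw [eval₂_mul, hf, zero_mul] at h2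
    exact (mul_eq_zero.1 h2).resolve_left (pow_ne_zero N hg))
  exact ⟨T, τ, fun b b' h h1 h2 => hT b b' ⟨1, h, by rwa [pow_one], by rwa [pow_one]⟩⟩

lemma newt (hW : NewtStmt.{0}) {P D : Type} [CommRing P] [CommRing D] [IsDomain D] (I : Ideal D)
    (hI : IsAdicComplete I D) (w : P →+* D) (f h0 : P[X]) (g : P) {x θ W v q1 q2 : D} (hx : x ∈ I)
    (W0 : W ≠ 0) (h1 : eval₂ w θ f = x * W ^ 2 * q1)
    (h2 : W = eval₂ w θ (derivative f) * w g * eval₂ w θ h0 * v + x * W ^ 2 * q2) :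
    ∃ θ', eval₂ w θ' f = 0 ∧ w g ≠ 0 ∧ eval₂ w θ' h0 ≠ 0 ∧
      ∀ h b q, w g * b = eval₂ w θ h + x * W ^ 2 * q → w g ∣ eval₂ w θ' h := by
  have un : ∀ y, IsUnit (x * y + 1) := Ideal.mem_jacobson_bot.1 (IsAdicComplete.le_jacobson_bot I hx)
  obtain ⟨a, ha⟩ := (un (-(W * q2))).exists_right_inv
  set F := eval₂ w θ (derivative f)
  set η := eval₂ w θ h0
  have e : W = F * (w g * η * (v * a)) := by linear_combination a * h2 - W * ha
  have g0 : w g ≠ 0 := fun h => W0 (by rw [e, h]; ring)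
  have η0 : η ≠ 0 := fun h => W0 (by rw [e, h]; ring)
  obtain ⟨t, ht⟩ := hW D I hI (f.map w) θ (x * (w g * η * (v * a)) ^ 2 * q1)
    (I.mul_mem_right _ (I.mul_mem_right _ hx))
    (by rw [derivative_map, eval_map, eval_map, h1, e]; ring)
  rw [derivative_map, eval_map, eval_map] at ht
  set θ' := θ + F * (x * (w g * η * (v * a)) ^ 2 * q1) * t with hθ
  have dv : ∀ h, ∃ c, eval₂ w θ' h = eval₂ w θ h + x * w g * η * c := fun h => by
    obtain ⟨c, hc⟩ := sub_dvd_eval_sub θ' θ (h.map w)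
    rw [eval_map, eval_map] at hc
    exact ⟨F * (w g * η * (v * a) ^ 2 * q1) * t * c, by linear_combination hc + c * hθ⟩
  refine ⟨θ', ht, g0, ?_, fun h b q hb => ?_⟩
  · obtain ⟨c, hc⟩ := dv h0
    rw [hc, show η + x * w g * η * c = η * (x * (w g * c) + 1) by ring]
    exact mul_ne_zero η0 (un _).ne_zero
  · obtain ⟨c, hc⟩ := dv h
    exact ⟨b - x * W * (F * η * (v * a)) * q + x * η * c, by
      linear_combination hc - hb - x * W * q * e⟩

lemma weier {A : Type*} [CommRing A] [IsLocalRing A] [IsAdicComplete (maximalIdeal A) A]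
    {ι κ : Type*} (w : MvPolynomial ι ℤ →+* A⟦X⟧) (θ : A⟦X⟧) (f h0 : (MvPolynomial ι ℤ)[X])
    (g : MvPolynomial ι ℤ) (hf : eval₂ w θ f = 0)
    (hΔ : (eval₂ w θ (derivative f) * w g * eval₂ w θ h0).map (residue A) ≠ 0)
    (b : κ → A⟦X⟧) (h : κ → (MvPolynomial ι ℤ)[X]) (hb : ∀ j, w g * b j = eval₂ w θ (h j)) :
    ∃ (w' : MvPolynomial ι ℤ →+* A[X]) (θ' W v q1 q2 : A[X]) (b' q : κ → A[X]),
      (∀ j (p : A[X]), w (MvPolynomial.X j) = p → w' (MvPolynomial.X j) = p) ∧ W.Monic ∧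
      eval₂ w' θ' f = X * W ^ 2 * q1 ∧
      W = eval₂ w' θ' (derivative f) * w' g * eval₂ w' θ' h0 * v + X * W ^ 2 * q2 ∧
      ∀ j, w' g * b' j = eval₂ w' θ' (h j) + X * W ^ 2 * q j := by
  obtain ⟨W, U, H⟩ := PowerSeries.exists_isWeierstrassFactorization hΔ
  have hX : (X : A[X]).IsDistinguishedAt (maximalIdeal A) :=
    ⟨⟨fun {n} hn => by
      rw [natDegree_X, Nat.lt_one_iff] at hn
      simp [hn]⟩, monic_X⟩
  have hω : (X * W ^ 2).IsDistinguishedAt (maximalIdeal A) := by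
    rw [sq]; exact hX.mul (H.1.mul H.1)
  let π := Ideal.Quotient.mk (Ideal.span {((X * W ^ 2 : A[X]) : A⟦X⟧)})
  let ρ := π.comp (coeToPowerSeries.ringHom (R := A))
  have E : ∀ p, hω.algEquivQuotient (Ideal.Quotient.mk _ p) = ρ p := fun p => rfl
  have sur : ∀ a, ∃ p, ρ p = π a := fun a => by
    obtain ⟨p, hp⟩ := hω.algEquivQuotient.surjective (π a)
    obtain ⟨p, rfl⟩ := Ideal.Quotient.mk_surjective p
    exact ⟨p, hp⟩
  have ker : ∀ p p', ρ p = ρ p' → ∃ q, p = p' + X * W ^ 2 * q := fun p p' hp => by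
    rw [← E, ← E] at hp
    obtain ⟨q, hq⟩ := Ideal.mem_span_singleton.1
      (Ideal.Quotient.eq.1 (hω.algEquivQuotient.injective hp))
    exact ⟨q, by linear_combination hq⟩
  have ex : ∀ j, ∃ p, ρ p = π (w (MvPolynomial.X j)) ∧
      ∀ p' : A[X], w (MvPolynomial.X j) = p' → p = p' := fun j => by
    by_cases hj : ∃ p : A[X], w (MvPolynomial.X j) = p
    · obtain ⟨p, hp⟩ := hj
      exact ⟨p, by rw [hp]; rfl, fun p' hp' => coe_injective A (hp.symm.trans hp')⟩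
    · obtain ⟨p, hp⟩ := sur (w (MvPolynomial.X j))
      exact ⟨p, hp, fun p' hp' => absurd ⟨p', hp'⟩ hj⟩
  choose u u1 u2 using ex
  let w' := MvPolynomial.eval₂Hom (Int.castRingHom A[X]) u
  have ew : ρ.comp w' = π.comp w := MvPolynomial.ringHom_ext (fun r => by simp) fun j => by
    simp only [RingHom.comp_apply, w', MvPolynomial.eval₂Hom_X', u1]
  obtain ⟨θ', hθ⟩ := sur θ
  obtain ⟨V, hV⟩ := H.2.exists_right_inv
  obtain ⟨v, hv⟩ := sur V
  choose b' hb' using fun j => sur (b j)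
  have ev : ∀ h, ρ (eval₂ w' θ' h) = π (eval₂ w θ h) := fun h => by
    rw [hom_eval₂, hom_eval₂, ew, hθ]
  have eg : ρ (w' g) = π (w g) := RingHom.congr_fun ew g
  obtain ⟨q1, h1⟩ := ker (eval₂ w' θ' f) 0 (by rw [ev, hf, map_zero, map_zero])
  obtain ⟨q2, h2⟩ := ker W (eval₂ w' θ' (derivative f) * w' g * eval₂ w' θ' h0 * v) (by
    rw [map_mul, map_mul, map_mul, ev, ev, eg, hv, ← map_mul, ← map_mul, ← map_mul, H.3, mul_assoc,
      hV, mul_one]; rfl)
  choose q hq using fun j => ker (w' g * b' j) (eval₂ w' θ' (h j)) (by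
    rw [map_mul, ev, eg, hb', ← map_mul, hb])
  exact ⟨w', θ', W, v, q1, q2, b', q, fun j p hp => by
    simp only [w', MvPolynomial.eval₂Hom_X', u2 j p hp], H.1.monic, by rw [h1, zero_add], h2, hq⟩

lemma fin_field (F : Type*) [Field F] [Algebra ℤ F] [Algebra.FiniteType ℤ F] : Finite F := by
  have : IsJacobsonRing ℤ := isJacobsonRing_iff_prime_eq.2 fun P hP => by
    by_cases h : P = ⊥
    · subst h
      refine le_antisymm (fun x hx => ?_) Ideal.le_jacobson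
      have := Int.isUnit_iff.1 (Ideal.mem_jacobson_bot.1 hx x)
      rw [Ideal.mem_bot]
      rcases this with h | h <;> nlinarith
    · have := hP.isMaximal h
      exact Ideal.jacobson_eq_self_of_isMaximal
  have := finite_of_finite_type_of_isJacobsonRing ℤ F
  have hn : ¬ Function.Injective (algebraMap ℤ F) := fun h =>
    Int.not_isField (isField_of_isIntegral_of_isField h (Field.toIsField F))
  rw [injective_iff_map_eq_zero] at hn
  push Not at hn
  obtain ⟨n, h1, h2⟩ := hn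
  exact @Module.finite_of_fg_torsion F _ Algebra.toModule this fun x =>
    ⟨⟨n, mem_nonZeroDivisors_of_ne_zero h2⟩, (Algebra.smul_def n x).trans (by rw [h1, zero_mul])⟩

def Tr (K : Type u) [Field K] (d : ℕ) : Prop := ∀ (G : Finset (PS K d)) (δ : PS K d), δ ≠ 0 →
  ∃ (k : Type) (_ : Field k) (_ : Finite k) (T : Subring (PS K d)) (τ : T →+* PS k d),
    (∀ g ∈ G, g ∈ T) ∧ (∀ i, ∃ h : MvPowerSeries.X i ∈ T, τ ⟨_, h⟩ = MvPowerSeries.X i) ∧
    ∃ h : δ ∈ T, τ ⟨δ, h⟩ ≠ 0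

lemma base (K : Type u) [Field K] : Tr K 0 := by
  classical
  intro G δ hδ
  obtain ⟨ε, hε⟩ : ∃ ε, δ * ε = 1 := IsUnit.exists_right_inv (by
    rw [MvPowerSeries.isUnit_iff_constantCoeff, isUnit_iff_ne_zero]
    refine fun h => hδ (MvPowerSeries.ext fun n => ?_)
    rw [Subsingleton.elim n 0]; simpa using h)
  let T := Algebra.adjoin ℤ (insert δ (insert ε (G : Set (PS K 0))))
  have : Algebra.FiniteType ℤ T := Algebra.FiniteType.adjoin_of_finite (Set.toFinite _)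
  obtain ⟨m, hm⟩ := Ideal.exists_maximal T
  let := Ideal.Quotient.field m
  have := fin_field (T ⧸ m)
  have hδT : δ ∈ T := Algebra.subset_adjoin (by simp)
  have hεT : ε ∈ T := Algebra.subset_adjoin (by simp)
  let τ : T →+* PS (Shrink.{0} (T ⧸ m)) 0 := MvPowerSeries.C.comp
    ((Shrink.ringEquiv.{0} (T ⧸ m)).symm.toRingHom.comp (Ideal.Quotient.mk m))
  refine ⟨Shrink.{0} (T ⧸ m), inferInstance, inferInstance, T.toSubring, τ,
    fun g hg => Algebra.subset_adjoin (by simp [hg]), fun i => i.elim0, hδT, ?_⟩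
  exact ((IsUnit.of_mul_eq_one (a := (⟨δ, hδT⟩ : T)) ⟨ε, hεT⟩ (Subtype.ext hε)).map τ).ne_zero

lemma polyT {K : Type u} [Field K] {d : ℕ} (ih : Tr K d) (F : Set (PS K d)[X]) (hF : F.Finite) :
    ∃ (k : Type) (_ : Field k) (_ : Finite k) (T : Subring (PS K d)) (τ : T →+* PS k d),
      (∀ p ∈ F, ∃ s : T[X], mapRingHom T.subtype s = p) ∧
      ∀ i, ∃ h : MvPowerSeries.X i ∈ T, τ ⟨_, h⟩ = MvPowerSeries.X i := by
  classical
  obtain ⟨k, _, _, T, τ, h1, h2, -⟩ := ih (hF.toFinset.biUnion coeffs) 1 one_ne_zero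
  refine ⟨k, _, ‹_›, T, τ, fun p hp => (mem_lifts p).1 ((lifts_iff_coeffs_subset_range p).2
    fun a ha => ⟨⟨a, h1 a ?_⟩, rfl⟩), h2⟩
  exact Finset.mem_biUnion.2 ⟨p, hF.mem_toFinset.2 hp, ha⟩

lemma indep {B ι : Type*} [CommRing B] {ξ : ι → B} (F : MvPolynomial ι ℤ →+* B)
    (hF : Function.Injective F) (h : ∀ i, F (MvPolynomial.X i) = ξ i) :
    AlgebraicIndependent ℤ ξ := by
  have e : (MvPolynomial.aeval ξ : MvPolynomial ι ℤ →ₐ[ℤ] B).toRingHom = F :=
    MvPolynomial.ringHom_ext (fun r => by simp) fun j => by simp [h]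
  rw [algebraicIndependent_iff_injective_aeval]
  change Function.Injective (AlgHom.toRingHom _)
  rwa [e]

lemma shear_eq {K : Type*} [Field K] {d : ℕ} {n : Fin d → ℕ}
    {σ : MvPowerSeries (Fin (d + 1)) K ≃ₐ[K] MvPowerSeries (Fin (d + 1)) K}
    (h0 : σ (MvPowerSeries.X 0) = MvPowerSeries.X 0)
    (h1 : ∀ i, σ (MvPowerSeries.X i.succ) = MvPowerSeries.X i.succ +
      MvPowerSeries.C (n i : K) * MvPowerSeries.X 0) :
    MvPowerSeries.finSuccEquiv K d (σ (MvPowerSeries.X 0)) = (X : (MvPowerSeries (Fin d) K)[X]) ∧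
    ∀ i, MvPowerSeries.finSuccEquiv K d (σ (MvPowerSeries.X i.succ)) =
      (C (MvPowerSeries.X i) + (n i : (MvPowerSeries (Fin d) K)[X]) * X :
        (MvPowerSeries (Fin d) K)[X]) := by
  refine ⟨by rw [h0, MvPowerSeries.finSuccEquiv_X_zero, coe_X], fun i => ?_⟩
  rw [h1, map_add, map_mul, MvPowerSeries.finSuccEquiv_X_zero, MvPowerSeries.finSuccEquiv_X_succ,
    map_natCast, map_natCast, ← coeToPowerSeries.ringHom_apply, map_add, map_mul, map_natCast,
    coeToPowerSeries.ringHom_apply, coeToPowerSeries.ringHom_apply, coe_C, coe_X]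

lemma move' (hW : NewtStmt.{0}) {A κ : Type*} {A' ι : Type} [CommRing A] [CommRing A'] [IsDomain A']
    (T : Subring A) (τ : T →+* A') {w1 : MvPolynomial ι ℤ →+* A[X]} {θ1 W v q1 q2 : A[X]}
    {b1 q : κ → A[X]} {f h0 : (MvPolynomial ι ℤ)[X]} {g : MvPolynomial ι ℤ}
    {h : κ → (MvPolynomial ι ℤ)[X]} (mon : W.Monic) (h1 : eval₂ w1 θ1 f = X * W ^ 2 * q1)
    (h2 : W = eval₂ w1 θ1 (derivative f) * w1 g * eval₂ w1 θ1 h0 * v + X * W ^ 2 * q2)
    (h3 : ∀ j, w1 g * b1 j = eval₂ w1 θ1 (h j) + X * W ^ 2 * q j)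
    (lift : ∀ p ∈ Set.range (fun j => w1 (MvPolynomial.X j)) ∪ {θ1, W, v, q1, q2} ∪
      Set.range b1 ∪ Set.range q, ∃ s : T[X], mapRingHom T.subtype s = p) :
    ∃ (w3 : MvPolynomial ι ℤ →+* A'⟦X⟧) (θ3 : A'⟦X⟧), eval₂ w3 θ3 f = 0 ∧ w3 g ≠ 0 ∧
      eval₂ w3 θ3 h0 ≠ 0 ∧ (∀ j, w3 g ∣ eval₂ w3 θ3 (h j)) ∧
      ∀ j (s : T[X]), w1 (MvPolynomial.X j) = s.map T.subtype →
        w3 (MvPolynomial.X j) = s.map τ := by
  choose u hu using fun j => lift (w1 (MvPolynomial.X j)) (by simp)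
  choose b2 hb using fun j => lift (b1 j) (by simp)
  choose r hr using fun j => lift (q j) (by simp)
  obtain ⟨θ2, hθ⟩ := lift θ1 (by simp)
  obtain ⟨W2, hW2⟩ := lift W (by simp)
  obtain ⟨v2, hv⟩ := lift v (by simp)
  obtain ⟨r1, hr1⟩ := lift q1 (by simp)
  obtain ⟨r2, hr2⟩ := lift q2 (by simp)
  have inj : Function.Injective (mapRingHom T.subtype) := map_injective _ T.subtype_injective
  let w2 := MvPolynomial.eval₂Hom (Int.castRingHom T[X]) u
  have ew : (mapRingHom T.subtype).comp w2 = w1 :=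
    MvPolynomial.ringHom_ext (fun r => by simp) fun j => by
      simp only [RingHom.comp_apply, w2, MvPolynomial.eval₂Hom_X', hu]
  have ev : ∀ h, mapRingHom T.subtype (eval₂ w2 θ2 h) = eval₂ w1 θ1 h := fun h => by
    rw [hom_eval₂, ew, hθ]
  have eg : mapRingHom T.subtype (w2 g) = w1 g := RingHom.congr_fun ew g
  have eX : mapRingHom T.subtype X = X := map_X _
  let φ : T[X] →+* A'⟦X⟧ := coeToPowerSeries.ringHom.comp (mapRingHom τ)
  have k1 := congrArg φ (inj (a₁ := eval₂ w2 θ2 f) (a₂ := X * W2 ^ 2 * r1) (by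
    simp only [map_mul, map_pow, ev, eX, hW2, hr1, h1]))
  have k2 := congrArg φ (inj (a₁ := W2) (a₂ := eval₂ w2 θ2 (derivative f) * w2 g *
      eval₂ w2 θ2 h0 * v2 + X * W2 ^ 2 * r2) (by
    simp only [map_add, map_mul, map_pow, ev, eg, eX, hW2, hr2, hv]; exact h2))
  have k3 := fun j => congrArg φ (inj (a₁ := w2 g * b2 j)
      (a₂ := eval₂ w2 θ2 (h j) + X * W2 ^ 2 * r j) (by
    simp only [map_add, map_mul, map_pow, ev, eg, eX, hW2, hr, hb, h3]))
  simp only [map_add, map_mul, map_pow, hom_eval₂] at k1 k2 k3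
  have φX : φ X = PowerSeries.X := by simp [φ]
  obtain ⟨θ3, f3, g3, δ3, dv⟩ := newt hW (Ideal.span {PowerSeries.X}) inferInstance (φ.comp w2) f
    h0 g (x := φ X) (by rw [φX]; exact Ideal.mem_span_singleton_self _) (fun h0 =>
      ((monic_of_injective T.subtype_injective (p := W2) (by
        rw [← coe_mapRingHom, hW2]; exact mon)).map τ).ne_zero (coe_injective _ (h0.trans
          coe_zero.symm))) k1 k2
  refine ⟨φ.comp w2, θ3, f3, g3, δ3, fun j => dv _ _ _ (k3 j), fun j s hs => ?_⟩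
  simp only [RingHom.comp_apply, w2, MvPolynomial.eval₂Hom_X']
  rw [inj (a₁ := u j) (a₂ := s) ((hu j).trans hs)]
  rfl

lemma reg {K : Type u} [Field K] {d j : ℕ} {a : PS K (d + 1)}
    (hj : MvPowerSeries.coeff (Finsupp.single 0 j) a ≠ 0) :
    (MvPowerSeries.finSuccEquiv K d a).map (residue (PS K d)) ≠ 0 := by
  intro h0
  have := congrArg (PowerSeries.coeff j) h0
  rw [PowerSeries.coeff_map, map_zero, residue_eq_zero_iff, mem_maximalIdeal, mem_nonunits_iff,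
    MvPowerSeries.isUnit_iff_constantCoeff, isUnit_iff_ne_zero, not_not,
    ← MvPowerSeries.coeff_zero_eq_constantCoeff_apply,
    MvPowerSeries.coeff_coeff_finSuccEquiv] at this
  refine hj (Eq.trans ?_ this)
  congr 2
  ext i
  refine Fin.cases ?_ (fun i => ?_) i <;> simp

lemma succ (hW : NewtStmt.{0}) (hH : ShStmt.{u}) (hH0 : ShStmt.{0}) (hV : EvStmt.{u})
    (hN : NfStmt.{u}) (K : Type u) [Field K] [CharZero K] (d : ℕ) (ih : Tr K d) : Tr K (d + 1) := by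
  intro G δ hδ
  obtain ⟨G', G1, G2⟩ : ∃ G' : Finset (PS K (d + 1)), G ⊆ G' ∧ δ ∈ G' := by
    classical exact ⟨insert δ G, Finset.subset_insert _ _, Finset.mem_insert_self _ _⟩
  have : IsDomain (PS K (d + 1)) := NoZeroDivisors.to_isDomain _
  have : CharZero (PS K (d + 1)) := algebraRat.charZero _
  obtain ⟨s, w, θ, f, g, wX, hk, f0, g0, hG⟩ :=
    hN (PS K (d + 1)) (d + 1) MvPowerSeries.X (indep
      (MvPolynomial.coeToMvPowerSeries.ringHom.comp (MvPolynomial.map (Int.castRingHom K)))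
      ((MvPolynomial.coe_injective _ _).comp
        (MvPolynomial.map_injective _ (Int.castRingHom K).injective_int)) fun j => by simp) G'
  choose h hh using fun b : G' => hG b.1 b.2
  let j0 : G' := ⟨δ, G2⟩
  obtain ⟨c, hc, σ, ⟨σ0, σ1⟩, j, hj⟩ := (hH K d).2 (Set.range Nat.cast)
    (Set.infinite_range_of_injective Nat.cast_injective)
    (eval₂ w θ (derivative f) * w g * eval₂ w θ (h j0))
    (mul_ne_zero (mul_ne_zero f0 g0) (by rw [← hh j0]; exact mul_ne_zero g0 hδ))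
  choose n hn using hc
  obtain rfl : (fun i => (n i : K)) = c := funext hn
  obtain ⟨e0, e1⟩ := shear_eq σ0 σ1
  obtain ⟨ψ, hψ⟩ : ∃ ψ : PS K (d + 1) →+* (PS K d)⟦X⟧,
      ∀ a, ψ a = MvPowerSeries.finSuccEquiv K d (σ a) :=
    ⟨(σ.trans (MvPowerSeries.finSuccEquiv K d)).toRingHom, fun _ => rfl⟩
  have : IsAdicComplete (maximalIdeal (PS K d)) (PS K d) := by rw [(hV K d).max]; infer_instance
  obtain ⟨w1, θ1, W, v, q1, q2, b1, q, ex, mon, h1, h2, h3⟩ := weier (ψ.comp w) (ψ θ) f (h j0) g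
    (by rw [← hom_eval₂, (hk f).2 dvd_rfl, map_zero]) (by
      rw [← hom_eval₂, ← hom_eval₂, RingHom.comp_apply, ← map_mul, ← map_mul, hψ]
      exact reg hj)
    (fun b => ψ b.1) h fun b => by rw [← hom_eval₂, RingHom.comp_apply, ← map_mul, hh]
  obtain ⟨k, _, _, T, τ, lift, τX⟩ := polyT ih (Set.range (fun j => w1 (MvPolynomial.X j)) ∪
    {θ1, W, v, q1, q2} ∪ Set.range b1 ∪ Set.range q) (Set.toFinite _)
  have : IsDomain (PS k d) := NoZeroDivisors.to_isDomain _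
  obtain ⟨w3, θ3, f3, g3, δ3, dv, wx⟩ := move' hW T τ mon h1 h2 h3 lift
  obtain ⟨T', τ', hT⟩ := glue w θ f g (fun h => (hk h).1) w3 θ3 f3 g3
  obtain ⟨σ', σ0', σ1'⟩ := (hH0 k d).1 fun i => (n i : k)
  obtain ⟨e0', e1'⟩ := shear_eq σ0' σ1'
  obtain ⟨ψ', hψ'⟩ : ∃ ψ' : PS k (d + 1) ≃+* (PS k d)⟦X⟧,
      ∀ a, ψ' a = MvPowerSeries.finSuccEquiv k d (σ' a) :=
    ⟨(σ'.trans (MvPowerSeries.finSuccEquiv k d)).toRingEquiv, fun _ => rfl⟩
  refine ⟨k, _, ‹_›, T', ψ'.symm.toRingHom.comp τ', fun b hb => ?_, fun i => ?_, ?_⟩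
  · obtain ⟨b', hb'⟩ := dv ⟨b, G1 hb⟩
    exact (hT b b' _ (hh ⟨b, G1 hb⟩) hb'.symm).1
  · obtain ⟨hi, hτ⟩ := hT (MvPowerSeries.X i) (w3 (MvPolynomial.X (.inl i)))
      (C (g * MvPolynomial.X (.inl i))) (by rw [eval₂_C, map_mul, wX]) (by rw [eval₂_C, map_mul])
    refine ⟨hi, ψ'.symm_apply_eq.2 (hτ.trans ?_)⟩
    rw [hψ']
    refine Fin.cases ?_ (fun i => ?_) i
    · rw [e0', wx _ X (by rw [map_X]; exact ex _ _ (by rw [RingHom.comp_apply, wX, hψ, e0])), map_X]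
    · obtain ⟨hx, hτx⟩ := τX i
      rw [e1', wx _ (C ⟨_, hx⟩ + (n i : T[X]) * X) (by
        rw [ex _ _ (by rw [RingHom.comp_apply, wX, hψ, e1])]; simp)]
      simp [hτx]
  · obtain ⟨b', hb'⟩ := dv j0
    obtain ⟨hi, hτ⟩ := hT δ b' _ (hh j0) hb'.symm
    refine ⟨hi, fun h0 => δ3 ?_⟩
    rw [hb', ← hτ, (map_eq_zero_iff _ ψ'.symm.injective).1 h0, mul_zero]

end At

theorem atStmt (hW : NewtStmt.{0}) (hH : ShStmt.{u}) (hH0 : ShStmt.{0}) (hV : EvStmt.{u})
    (_hV0 : EvStmt.{0}) (hN : NfStmt.{u}) : AtStmt.{u} := by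
  intro K _ _ d
  induction d with
  | zero => exact At.base K
  | succ d ih => exact At.succ hW hH hH0 hV hN K d ih

end Vale.Agent.P202
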