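import Vale.Agent.P202.Car

/-! Shared lemmas for the Cech part. -/

open Finset Matrix MvPowerSeries Filter Topology IsLocalRing
open scoped Kronecker Nat

namespace Vale.Agent.P202

universe u

section rl
variable {k : Type*} [Field k] {E E' : Type*} [AddCommGroup E] [Module k E] [AddCommGroup E']
  [Module k E']

theorem rl_eq_zero {P Q : Submodule k E} : rl P Q = 0 ↔ Q ≤ P := by
  rw [rl, Module.length_eq_zero_iff, Submodule.subsingleton_iff_eq_bot, eq_bot_iff,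
    Submodule.map_le_iff_le_comap, Submodule.comap_bot, Submodule.ker_mkQ]

/-- comparison through a linear map -/
theorem rl_le_of_map (f : E →ₗ[k] E') {P Q : Submodule k E} {P' Q' : Submodule k E'}
    (h : ∀ x ∈ P, f x ∈ P') (h' : Q' ≤ P' ⊔ Q.map f) : rl P' Q' ≤ rl P Q := by
  let F := P.mapQ P' f h
  have : Q'.map P'.mkQ ≤ (Q.map P.mkQ).map F := by
    rintro _ ⟨y, hy, rfl⟩
    obtain ⟨a, ha, _, ⟨x, hx, rfl⟩, rfl⟩ := Submodule.mem_sup.1 (h' hy)
    refine ⟨P.mkQ x, ⟨x, hx, rfl⟩, ?_⟩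
    simp [F, (Submodule.Quotient.mk_eq_zero _).2 ha]
  refine (Module.length_le_of_injective _ (Submodule.inclusion_injective this)).trans ?_
  exact Module.length_le_of_surjective _ (F.submoduleMap_surjective _)

theorem rl_mono {P Q P' Q' : Submodule k E} (h : P ≤ P') (h' : Q' ≤ P' ⊔ Q) :
    rl P' Q' ≤ rl P Q :=
  rl_le_of_map LinearMap.id h (by simpa using h')

/-- comparison through a linear map that detects `P` on `Q` -/
theorem rl_le_of_comap (f : E →ₗ[k] E') {P Q : Submodule k E} {P' Q' : Submodule k E'}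
    (h : ∀ x ∈ Q, f x ∈ P' → x ∈ P) (h' : ∀ x ∈ Q, f x ∈ P' ⊔ Q') : rl P Q ≤ rl P' Q' := by
  let a : Q →ₗ[k] Q.map P.mkQ := P.mkQ.submoduleMap Q
  have hb : ∀ x : Q, (P'.mkQ ∘ₗ f ∘ₗ Q.subtype) x ∈ Q'.map P'.mkQ := fun x => by
    obtain ⟨y, hy, z, hz, e⟩ := Submodule.mem_sup.1 (h' x x.2)
    refine ⟨z, hz, ?_⟩
    simp [← e, (Submodule.Quotient.mk_eq_zero _).2 hy]
  let b : Q →ₗ[k] Q'.map P'.mkQ := LinearMap.codRestrict _ _ hb
  have hk : LinearMap.ker b ≤ LinearMap.ker a := fun x hx => by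
    have h1 : f x ∈ P' := by simpa [b, Subtype.ext_iff] using hx
    simpa [a, Subtype.ext_iff] using h x x.2 h1
  have h1 := Module.length_le_of_surjective ((LinearMap.ker b).liftQ a hk) fun y => by
    obtain ⟨x, rfl⟩ := P.mkQ.submoduleMap_surjective Q y
    exact ⟨Submodule.Quotient.mk x, rfl⟩
  refine h1.trans ?_
  exact Module.length_le_of_injective ((LinearMap.ker b).liftQ b le_rfl)
    (LinearMap.ker_eq_bot.1 (Submodule.ker_liftQ_eq_bot _ _ _ le_rfl))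

theorem rl_add {P Q R : Submodule k E} (h : P ≤ Q) (h' : Q ≤ R) : rl P R = rl P Q + rl Q R := by
  let F := P.mapQ Q LinearMap.id h
  have hm : (R.map P.mkQ).map F = R.map Q.mkQ := by
    rw [← Submodule.map_comp]; congr 1
  unfold rl
  rw [← hm]
  refine Module.length_eq_add_of_exact (Submodule.inclusion (Submodule.map_mono h'))
    (F.submoduleMap _) (Submodule.inclusion_injective _) (F.submoduleMap_surjective _) ?_
  rintro ⟨_, x, hx, rfl⟩
  constructor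
  · intro e
    have : x ∈ Q := by simpa [F, Subtype.ext_iff] using e
    exact ⟨⟨_, x, this, rfl⟩, rfl⟩
  · rintro ⟨⟨_, y, hy, rfl⟩, e⟩
    rw [← e]
    simpa [F, Subtype.ext_iff] using hy

theorem rl_le_add (P Q R : Submodule k E) : rl P R ≤ rl P Q + rl Q R := by
  calc rl P R ≤ rl P (P ⊔ Q ⊔ R) := rl_mono le_rfl (le_sup_right.trans le_sup_right)
    _ = rl P (P ⊔ Q) + rl (P ⊔ Q) (P ⊔ Q ⊔ R) := rl_add le_sup_left le_sup_left
    _ ≤ _ := add_le_add (rl_mono le_rfl le_rfl) (rl_mono le_sup_right le_rfl)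

theorem rl_sup_le (P Q R : Submodule k E) : rl P (Q ⊔ R) ≤ rl P Q + rl P R :=
  (rl_le_add P (P ⊔ Q) _).trans (add_le_add (rl_mono le_rfl le_rfl)
    (rl_mono le_sup_left (sup_le_sup_right le_sup_right _)))

theorem rl_iSup_le {γ : Type*} [Fintype γ] (P : Submodule k E) (Q : γ → Submodule k E) :
    rl P (⨆ i, Q i) ≤ ∑ i, rl P (Q i) := by
  classical
  have : ∀ s : Finset γ, rl P (s.sup Q) ≤ ∑ i ∈ s, rl P (Q i) := fun s => by
    induction s using Finset.induction_on with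
    | empty => simp [rl_eq_zero]
    | insert a s ha ih =>
      rw [sup_insert, sum_insert ha]
      exact (rl_sup_le _ _ _).trans (add_le_add le_rfl ih)
  simpa [Finset.sup_eq_iSup] using this univ

theorem rl_top (P : Submodule k E) : rl P ⊤ = Module.length k (E ⧸ P) := by
  rw [rl, Submodule.map_top, Submodule.range_mkQ, Module.length_top]

theorem cl_eq {A M : Type*} [CommRing A] [Algebra k A] [AddCommGroup M] [Module A M] [Module k M]
    [IsScalarTower k A M] (N : Submodule A M) : cl k N = rl (N.restrictScalars k) ⊤ := by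
  rw [rl_top, cl, (Submodule.Quotient.restrictScalarsEquiv k N).length_eq]

end rl

section pv
variable {k : Type u} [Field k] {σ : Type*}

theorem mem_Pv {S : Set (σ →₀ ℕ)} {f : MvPowerSeries σ k} :
    f ∈ Pv k S ↔ ∀ e, coeff e f ≠ 0 → e ∈ S := Iff.rfl

theorem Pv_mono {S T : Set (σ →₀ ℕ)} (h : S ⊆ T) : Pv k S ≤ Pv k T := fun _ hf e he => h (hf e he)

theorem mul_mem_Pv {S T U : Set (σ →₀ ℕ)} {f g : MvPowerSeries σ k} (hf : f ∈ Pv k S)
    (hg : g ∈ Pv k T) (h : ∀ a ∈ S, ∀ b ∈ T, a + b ∈ U) : f * g ∈ Pv k U := by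
  classical
  intro e he
  rw [coeff_mul] at he
  obtain ⟨p, hp, hne⟩ := exists_ne_zero_of_sum_ne_zero he
  rw [← mem_antidiagonal.1 hp]
  exact h _ (hf _ (left_ne_zero_of_mul hne)) _ (hg _ (right_ne_zero_of_mul hne))

theorem intCast_mul_mem_Pv {S : Set (σ →₀ ℕ)} {f : MvPowerSeries σ k} (hf : f ∈ Pv k S) (z : ℤ) :
    (z : MvPowerSeries σ k) * f ∈ Pv k S := by
  rw [← zsmul_eq_mul]; exact zsmul_mem hf z

end pv

section cech
variable {k : Type u} [Field k] {r : ℕ} {ι ι' ι'' : Type} [Fintype ι] [DecidableEq ι] [Fintype ι']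
  [DecidableEq ι'] [Fintype ι''] [DecidableEq ι'']

omit [Fintype ι] [DecidableEq ι] in
theorem mem_XX {deg : ι → ℕ} {Ω : ℕ → FJ r → Set (Mon r)} {n : ℤ} {x : ι × FJ r → LL k r} :
    x ∈ XX k deg Ω n ↔ ∀ i J e, coeff e (x (i, J)) ≠ 0 →
      (deg i : ℤ) + r - J.card = n ∧ e ∈ Ω (deg i) J :=
  ⟨fun h i J => h (i, J) trivial, fun h p _ => h p.1 p.2⟩

omit [Fintype ι] [DecidableEq ι] in
theorem XX_mono {deg : ι → ℕ} {Ω Ω' : ℕ → FJ r → Set (Mon r)} (h : ∀ p J, Ω p J ⊆ Ω' p J) (n : ℤ) :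
    XX k deg Ω n ≤ XX k deg Ω' n := fun _ hx =>
  mem_XX.2 fun i J e he => ⟨(mem_XX.1 hx i J e he).1, h _ _ (mem_XX.1 hx i J e he).2⟩

omit [Fintype ι] [DecidableEq ι] in
theorem XS_mono {N0 : ℕ} {ν : Fin r → ℤ} {deg : ι → ℕ} {Ω Ω' : ℕ → Set (Mon r)}
    (h : ∀ p, Ω p ⊆ Ω' p) : XS k N0 ν deg Ω ≤ XS k N0 ν deg Ω' := fun n =>
  XX_mono (fun p _ => Set.inter_subset_inter_left _ (h p)) n

theorem Om_mono {N0 : ℕ} {ν : Fin r → ℤ} {N N' l l' : ℕ} (h : N ≤ N') (h' : l' ≤ l) :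
    Om N0 ν N l ⊆ Om N0 ν N' l' := fun e he =>
  ⟨h'.trans he.1, fun a => by have := he.2 a; omega⟩

omit [Fintype ι] [DecidableEq ι] in
theorem XF_mono {N0 : ℕ} {ν : Fin r → ℤ} {deg : ι → ℕ} {N N' : ℕ} {l l' : ℕ → ℕ} (h : N ≤ N')
    (h' : ∀ p, l' p ≤ l p) : XF k N0 ν N l deg ≤ XF k N0 ν N' l' deg :=
  XS_mono fun p => Om_mono h (h' p)

theorem cond_mono {N0 : ℕ} {ν : Fin r → ℤ} {J J' : FJ r} (h : J ⊆ J') :
    cond N0 ν J ⊆ cond N0 ν J' := fun _ he a =>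
  ⟨(he a).1.imp (@h _) (@h _), fun c => (he a).2.1 fun d => c (h d),
    fun c => (he a).2.2 fun d => c (h d)⟩

theorem cond_card {N0 : ℕ} {ν : Fin r → ℤ} {J : FJ r} {e : Mon r} (h : e ∈ cond N0 ν J) :
    r ≤ J.card := by
  have : (univ : Finset (Fin r)) ⊆ J.image Prod.fst := fun a _ =>
    (h a).1.elim (fun c => mem_image.2 ⟨_, c, rfl⟩) fun c => mem_image.2 ⟨_, c, rfl⟩
  simpa using (card_le_card this).trans card_image_le

theorem FJ_card (J : FJ r) : J.card ≤ 2 * r := by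
  simpa [mul_comm] using card_le_univ J

theorem add_mem_cond {N0 : ℕ} {ν : Fin r → ℤ} {J : FJ r} {s : ℕ} {a b : Mon r} (ha : a ∈ SB r s)
    (hb : b ∈ cond N0 ν J) : a + b ∈ cond N0 ν J := fun c => by
  have h1 := ha.2 c
  refine ⟨(hb c).1, fun h => ?_, fun h => ?_⟩
  · have := (hb c).2.1 h; simp only [Finsupp.add_apply]; omega
  · have := (hb c).2.2 h; simp only [Finsupp.add_apply]; push_cast; omega

theorem add_mem_Om {N0 : ℕ} {ν : Fin r → ℤ} {N l l' s : ℕ} {a b : Mon r} (ha : a ∈ SB r s)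
    (hb : b ∈ Om N0 ν N l) (h : l' ≤ l + s) : a + b ∈ Om N0 ν N l' := by
  have h0 := ha.1
  have h1 := hb.1
  refine ⟨by simp only [Finsupp.add_apply]; omega, fun c => ?_⟩
  have h2 := ha.2 c
  have h3 := hb.2 c
  simp only [Finsupp.add_apply]; push_cast; omega

theorem sg_sq : sg k r * sg k r = 1 := by
  rw [sg, diagonal_mul_diagonal, ← diagonal_one]
  congr 1; ext1 J; rw [← mul_pow]; simp

theorem sg_cb : sg k r * cb k r + cb k r * sg k r = 0 := by
  ext1 J J'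
  rw [Matrix.add_apply, sg, diagonal_mul, mul_diagonal, cb, Matrix.sum_apply, mul_sum, sum_mul,
    ← sum_add_distrib]
  refine sum_eq_zero fun b _ => ?_
  by_cases h : ct b J' J = 0
  · simp [h]
  · rw [ct_card h, pow_succ]; ring

theorem cb_sq : cb k r * cb k r = 0 := by
  unfold cb
  rw [sum_mul_sum]
  exact sum_anti _ (fun j => ep_sq _ j) fun j l => ep_anti _ j l

/-- contraction is a homotopy for the Cech differential -/
theorem io_cb (b : Fin r × Bool) : io (LL k r) b * cb k r + cb k r * io (LL k r) b = 1 := by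
  unfold cb
  rw [mul_sum, sum_mul, ← sum_add_distrib, sum_congr rfl fun l _ => io_ep (LL k r) b l]
  simp

/-- a matrix over `A` tensored with a matrix on the Cech indices -/
noncomputable def LM (θ : PS k (r + 1) →ₐ[k] LL k r) (P : Matrix ι' ι (PS k (r + 1)))
    (T : Matrix (FJ r) (FJ r) (LL k r)) : (ι × FJ r → LL k r) →ₗ[k] (ι' × FJ r → LL k r) :=
  (P.map θ ⊗ₖ T).mulVecLin.restrictScalars k

variable (θ : PS k (r + 1) →ₐ[k] LL k r)

omit [DecidableEq ι] [Fintype ι'] [DecidableEq ι'] in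
theorem LM_apply (P : Matrix ι' ι (PS k (r + 1))) (T : Matrix (FJ r) (FJ r) (LL k r))
    (x : ι × FJ r → LL k r) (i : ι') (J : FJ r) :
    LM θ P T x (i, J) = ∑ j, ∑ J', θ (P i j) * T J J' * x (j, J') := by
  simp [LM, mulVec, dotProduct, Fintype.sum_prod_type]

omit [DecidableEq ι] [Fintype ι'] [DecidableEq ι'] in
theorem LM_one_apply (P : Matrix ι' ι (PS k (r + 1))) (x : ι × FJ r → LL k r) (i : ι') (J : FJ r) :
    LM θ P 1 x (i, J) = ∑ j, θ (P i j) * x (j, J) := by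
  simp [LM_apply, one_apply]

omit [DecidableEq ι] [Fintype ι'] [DecidableEq ι'] in
theorem LM_sg_apply (P : Matrix ι' ι (PS k (r + 1))) (x : ι × FJ r → LL k r) (i : ι') (J : FJ r) :
    LM θ P (sg k r) x (i, J) = (-1) ^ J.card * ∑ j, θ (P i j) * x (j, J) := by
  simp [LM_apply, sg, diagonal_apply, mul_sum, mul_assoc, mul_left_comm]

theorem LM_cb_apply (x : ι × FJ r → LL k r) (i : ι) (J : FJ r) :
    LM θ 1 (cb k r) x (i, J) = ∑ b, ∑ J', (ct b J' J : LL k r) * x (i, J') := by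
  rw [sum_comm]
  simp [LM_apply, one_apply, cb, Matrix.sum_apply, sum_mul, apply_ite θ]

omit [DecidableEq ι] [DecidableEq ι'] [Fintype ι''] [DecidableEq ι''] in
theorem LM_mul (P : Matrix ι'' ι' (PS k (r + 1))) (Q : Matrix ι' ι (PS k (r + 1)))
    (T U : Matrix (FJ r) (FJ r) (LL k r)) (x : ι × FJ r → LL k r) :
    LM θ P T (LM θ Q U x) = LM θ (P * Q) (T * U) x := by
  have : (P * Q).map θ = P.map θ * Q.map θ := Matrix.map_mul (f := (θ : PS k (r + 1) →+* LL k r))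
  simp [LM, this, mul_kronecker_mul]

omit [DecidableEq ι] [Fintype ι'] [DecidableEq ι'] in
theorem LM_add (P Q : Matrix ι' ι (PS k (r + 1))) (T : Matrix (FJ r) (FJ r) (LL k r))
    (x : ι × FJ r → LL k r) : LM θ (P + Q) T x = LM θ P T x + LM θ Q T x := by
  ext1 ⟨i, J⟩
  simp [LM_apply, add_mul, sum_add_distrib]

omit [DecidableEq ι] [Fintype ι'] [DecidableEq ι'] in
theorem LM_add' (P : Matrix ι' ι (PS k (r + 1))) (T U : Matrix (FJ r) (FJ r) (LL k r))
    (x : ι × FJ r → LL k r) : LM θ P (T + U) x = LM θ P T x + LM θ P U x := by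
  ext1 ⟨i, J⟩
  simp [LM_apply, add_mul, mul_add, sum_add_distrib]

omit [DecidableEq ι] [Fintype ι'] [DecidableEq ι'] in
theorem LM_zero (T : Matrix (FJ r) (FJ r) (LL k r)) (x : ι × FJ r → LL k r) :
    LM θ (0 : Matrix ι' ι _) T x = 0 := by
  ext1 ⟨i, J⟩; simp [LM_apply]

omit [DecidableEq ι] [Fintype ι'] [DecidableEq ι'] in
theorem LM_zero' (P : Matrix ι' ι (PS k (r + 1))) (x : ι × FJ r → LL k r) : LM θ P 0 x = 0 := by
  ext1 ⟨i, J⟩; simp [LM_apply]

omit [Fintype ι] [DecidableEq ι] in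
theorem gg_apply (γ : PS k (r + 1)) (x : ι × FJ r → LL k r) (p : ι × FJ r) :
    gg θ γ ι x p = θ γ * x p := rfl

omit [Fintype ι] [DecidableEq ι] in
theorem gg_pow_apply (γ : PS k (r + 1)) (c : ℕ) (x : ι × FJ r → LL k r) (p : ι × FJ r) :
    (gg θ γ ι ^ c) x p = θ γ ^ c * x p := by
  induction c with
  | zero => simp
  | succ c ih => rw [pow_succ', Module.End.mul_apply, gg_apply, ih]; ring

theorem LM_smul_one (γ : PS k (r + 1)) (x : ι × FJ r → LL k r) :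
    LM θ (γ • (1 : Matrix ι ι _)) 1 x = gg θ γ ι x := by
  ext1 ⟨i, J⟩
  simp [LM_one_apply, gg_apply, one_apply, apply_ite θ]

omit [DecidableEq ι] [Fintype ι'] [DecidableEq ι'] in
theorem LM_gg (γ : PS k (r + 1)) (P : Matrix ι' ι (PS k (r + 1)))
    (T : Matrix (FJ r) (FJ r) (LL k r)) (x : ι × FJ r → LL k r) :
    gg θ γ ι' (LM θ P T x) = LM θ P T (gg θ γ ι x) := by
  ext1 ⟨i, J⟩
  simp [LM_apply, gg_apply, mul_sum, mul_left_comm]

theorem DD_eq (D : Matrix ι ι (PS k (r + 1))) (x : ι × FJ r → LL k r) :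
    DD θ D x = LM θ D (sg k r) x + LM θ 1 (cb k r) x := by
  simp [DD, LM]

theorem DD_apply (D : Matrix ι ι (PS k (r + 1))) (x : ι × FJ r → LL k r) (i : ι) (J : FJ r) :
    DD θ D x (i, J) = (-1) ^ J.card * ∑ j, θ (D i j) * x (j, J) +
      ∑ b, ∑ J', (ct b J' J : LL k r) * x (i, J') := by
  rw [DD_eq, Pi.add_apply, LM_sg_apply, LM_cb_apply]

/-- chain maps lift -/
theorem DD_LM {D : Matrix ι ι (PS k (r + 1))} {D' : Matrix ι' ι' (PS k (r + 1))}
    {P : Matrix ι' ι (PS k (r + 1))} (h : D' * P = P * D) (x : ι × FJ r → LL k r) :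
    DD θ D' (LM θ P 1 x) = LM θ P 1 (DD θ D x) := by
  simp [DD_eq, LM_mul, h]

/-- homotopies lift -/
theorem DD_LM_sg (D : Matrix ι ι (PS k (r + 1))) (D' : Matrix ι' ι' (PS k (r + 1)))
    (H : Matrix ι' ι (PS k (r + 1))) (x : ι × FJ r → LL k r) :
    DD θ D' (LM θ H (sg k r) x) + LM θ H (sg k r) (DD θ D x) = LM θ (D' * H + H * D) 1 x := by
  have := LM_add' θ H (sg k r * cb k r) (cb k r * sg k r) x
  rw [sg_cb, LM_zero'] at this
  simp only [DD_eq, LM_mul, map_add, sg_sq, Matrix.one_mul, Matrix.mul_one, LM_add]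
  rw [← sub_eq_zero, this]; abel

theorem DD_sq {D : Matrix ι ι (PS k (r + 1))} (h : D * D = 0) : DD θ D * DD θ D = 0 := by
  refine LinearMap.ext fun x => ?_
  have := LM_add' θ D (sg k r * cb k r) (cb k r * sg k r) x
  rw [sg_cb, LM_zero'] at this
  simp only [Module.End.mul_apply, DD_eq, LM_mul, map_add, h, cb_sq, LM_zero, LM_zero',
    Matrix.one_mul, Matrix.mul_one, LinearMap.zero_apply]
  rw [zero_add, add_zero, add_comm, ← this]

theorem DD_comm (D : Matrix ι ι (PS k (r + 1))) (γ : PS k (r + 1)) :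
    Commute (DD θ D) (gg θ γ ι) := by
  refine LinearMap.ext fun x => ?_
  simp only [Module.End.mul_apply, DD_eq, map_add, LM_gg]

variable {θ} {N0 : ℕ} {ν : Fin r → ℤ} {deg : ι → ℕ} {deg' : ι' → ℕ}

omit [DecidableEq ι] [Fintype ι'] [DecidableEq ι'] in
/-- graded matrices act on the strands; `σ` is a lower bound for the orders of the entries -/
theorem LM_one_mem (hθ : Th0 θ) {P : Matrix ι' ι (PS k (r + 1))} {j : ℤ} (hP : Gr deg deg' j P)
    {σ N : ℕ} (hσ : ∀ a b, (σ : ℕ∞) ≤ (P a b).order) {l l' : ℕ → ℕ}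
    (hl : ∀ p p' : ℕ, (p' : ℤ) = p + j → l' p' ≤ l p + σ) {n : ℤ} {x : ι × FJ r → LL k r}
    (hx : x ∈ XF k N0 ν N l deg n) : LM θ P 1 x ∈ XF k N0 ν N l' deg' (n + j) := by
  rintro ⟨i, J⟩ -
  rw [LM_one_apply]
  refine sum_mem fun b _ => ?_
  by_cases h : P i b = 0
  · simp [h]
  have h1 := hP _ _ h
  refine mul_mem_Pv (hθ.ord _ _ (hσ i b)) (hx (b, J) trivial) fun a ha c hc => ?_
  exact ⟨by have := hc.1; simp only at this ⊢; omega, add_mem_Om ha hc.2.1 (hl _ _ h1),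
    add_mem_cond ha hc.2.2⟩

omit [DecidableEq ι] [Fintype ι'] [DecidableEq ι'] in
theorem LM_sg_mem (hθ : Th0 θ) {P : Matrix ι' ι (PS k (r + 1))} {j : ℤ} (hP : Gr deg deg' j P)
    {σ N : ℕ} (hσ : ∀ a b, (σ : ℕ∞) ≤ (P a b).order) {l l' : ℕ → ℕ}
    (hl : ∀ p p' : ℕ, (p' : ℤ) = p + j → l' p' ≤ l p + σ) {n : ℤ} {x : ι × FJ r → LL k r}
    (hx : x ∈ XF k N0 ν N l deg n) : LM θ P (sg k r) x ∈ XF k N0 ν N l' deg' (n + j) := by
  rintro ⟨i, J⟩ -
  have := intCast_mul_mem_Pv (LM_one_mem hθ hP hσ hl hx (i, J) trivial) ((-1) ^ J.card)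
  rw [LM_sg_apply, ← LM_one_apply]
  simpa using this

/-- the Cech differential preserves every `XS` -/
theorem LM_cb_mem {Ω : ℕ → Set (Mon r)} {n : ℤ} {x : ι × FJ r → LL k r}
    (hx : x ∈ XS k N0 ν deg Ω n) : LM θ 1 (cb k r) x ∈ XS k N0 ν deg Ω (n - 1) := by
  rintro ⟨i, J⟩ -
  rw [LM_cb_apply]
  refine sum_mem fun b _ => sum_mem fun J' _ => ?_
  by_cases h : ct b J' J = 0
  · simp [h]
  refine intCast_mul_mem_Pv (Pv_mono ?_ (hx (i, J') trivial)) _
  rintro e ⟨h1, h2, h3⟩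
  have := ct_card h
  exact ⟨by simp only at h1 ⊢; omega, h2, cond_mono (by rw [(ct_ne' h).2]; exact subset_insert _ _) h3⟩

omit [Fintype ι] [DecidableEq ι] in
theorem smul_mem_XF {f : LL k r} (hf : f ∈ Pv k (SB r 0)) {N : ℕ} {l : ℕ → ℕ} {n : ℤ}
    {x : ι × FJ r → LL k r} (hx : x ∈ XF k N0 ν N l deg n) : f • x ∈ XF k N0 ν N l deg n :=
  fun p _ => mul_mem_Pv hf (hx p trivial) fun _ ha _ hc =>
    ⟨hc.1, add_mem_Om ha hc.2.1 le_rfl, add_mem_cond ha hc.2.2⟩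

theorem XF_cx (hθ : Th0 θ) {D : Matrix ι ι (PS k (r + 1))} (hD : Gr deg deg (-1) D)
    (γ : PS k (r + 1)) (N : ℕ) {l : ℕ → ℕ} (hl : Slope D l) :
    Cx (DD θ D) (gg θ γ ι) (XF k N0 ν N l deg) := by
  obtain ⟨-, σ, h1, h2⟩ := hl
  refine ⟨fun n x hx => ?_, fun n x hx => smul_mem_XF (hθ.ord γ 0 (by simp)) hx⟩
  rw [DD_eq]
  refine add_mem (LM_sg_mem hθ hD h1 (fun p p' e => ?_) hx) (LM_cb_mem hx)
  obtain rfl : p = p' + 1 := by omega
  exact h2 _

omit [Fintype ι] [DecidableEq ι] in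
theorem slope_const (D : Matrix ι ι (PS k (r + 1))) (c : ℕ) : Slope D fun _ => c :=
  ⟨antitone_const, 0, by simp, by simp⟩

omit [Fintype ι] [DecidableEq ι] in
theorem Slope.add {D : Matrix ι ι (PS k (r + 1))} {l : ℕ → ℕ} (h : Slope D l) (c : ℕ) :
    Slope D fun p => l p + c := by
  obtain ⟨h0, σ, h1, h2⟩ := h
  exact ⟨fun a b e => by have := h0 e; simp only; omega, σ, h1, fun p => by
    have := h2 p; simp only; omega⟩

omit [Fintype ι] [DecidableEq ι] in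
theorem Slope.sub {D : Matrix ι ι (PS k (r + 1))} {l : ℕ → ℕ} (h : Slope D l) (c : ℕ) :
    Slope D fun p => l p - c := by
  obtain ⟨h0, σ, h1, h2⟩ := h
  exact ⟨fun a b e => by have := h0 e; simp only; omega, σ, h1, fun p => by
    have := h2 p; simp only; omega⟩

omit [Fintype ι] [DecidableEq ι] in
theorem XS_bd (h : ∀ i, deg i ≤ r + 1) (Ω : ℕ → Set (Mon r)) {n : ℤ}
    (hn : ((r + 1 : ℕ) : ℤ) < |n|) : XS k N0 ν deg Ω n = ⊥ := by
  refine eq_bot_iff.2 fun x hx => ?_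
  ext ⟨i, J⟩ e
  by_contra he
  obtain ⟨h1, -, h2⟩ := mem_XX.1 hx i J e he
  have := cond_card h2
  have := FJ_card J
  have := h i
  rcases abs_cases n with c | c <;> omega

theorem cx_bot {E : Type*} [AddCommGroup E] [Module k E] (D g : Module.End k E) :
    Cx D g fun _ => ⊥ :=
  ⟨fun _ x hx => by simp [(Submodule.mem_bot k).1 hx], fun _ x hx => by
    simp [(Submodule.mem_bot k).1 hx]⟩

theorem nu_bd (s L : ℕ) (hs : 1 ≤ s) (κ : Fin (r + 1)) (a : Fin r) :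
    (L : ℤ) ≤ nu s L κ a ∧ nu s L κ a ≤ s * (r + 1) + L := by
  have h1 : ((κ.succAbove a : ℕ) : ℤ) ≤ r := by exact_mod_cast Nat.le_of_lt_succ (κ.succAbove a).2
  have h2 : (1 : ℤ) ≤ s := by exact_mod_cast hs
  have h3 : (0 : ℤ) ≤ (κ.succAbove a : ℕ) := by positivity
  unfold nu
  constructor <;> split_ifs <;> nlinarith

end cech

end Vale.Agent.P202
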