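import Vale.Agent.P202.Spec2

/-! Module BT: base change of a dilated complete intersection model. -/

open Finset TensorProduct

namespace Vale.Agent.P202

universe u

theorem btStmt : BtStmt.{u} := by
  intro A A' R T _ _ _ _ _ _ _ _ _ _ _ _ ρ δ ⟨h, k, T', _, _, _, ϖ, α, β, Θ, H⟩
  have := H.tow
  let P := MvPolynomial (Fin h) A
  let P' := MvPolynomial (Fin h) A'
  let φ : P →ₐ[A] P' := MvPolynomial.mapAlgHom (Algebra.ofId A A')
  let j : T' →ₐ[A] A' ⊗[A] T' := Algebra.TensorProduct.includeRight
  let ev : P' →ₐ[A'] A' ⊗[A] T' :=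
    MvPolynomial.aeval fun i => j (algebraMap P T' (MvPolynomial.X i))
  letI : Algebra P' (A' ⊗[A] T') := ev.toRingHom.toAlgebra
  have tow : IsScalarTower A' P' (A' ⊗[A] T') :=
    IsScalarTower.of_algebraMap_eq fun a => (ev.commutes a).symm
  have hX : ∀ i, φ (MvPolynomial.X i) = MvPolynomial.X i := fun i => MvPolynomial.map_X _ i
  have hu : ∀ i, algebraMap P' (A' ⊗[A] T') (MvPolynomial.X i) =
      j (algebraMap P T' (MvPolynomial.X i)) := fun i => MvPolynomial.aeval_X _ _
  have hφ : ∀ p : P, algebraMap P' (A' ⊗[A] T') (φ p) = j (algebraMap P T' p) := fun p => by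
    have : (ev.restrictScalars A).comp φ = j.comp (IsScalarTower.toAlgHom A P T') :=
      MvPolynomial.algHom_ext fun i => by
        simp only [AlgHom.comp_apply, hX]; exact hu i
    exact congr($this p)
  have hs : ∀ (p : P) (z : T'), φ p • j z = j (p • z) := fun p z => by
    rw [Algebra.smul_def, hφ, Algebra.smul_def, map_mul]
  have ht : ∀ (a : A') (z : T'), a ⊗ₜ[A] z = a • j z := fun a z => by
    simp [j, smul_tmul']
  have hδ : ∀ (a : A) (z : T'), algebraMap A A' a • j z = j (a • z) := fun a z => by
    rw [map_smul, algebraMap_smul]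
  have ind : ∀ {Q : A' ⊗[A] T' → Prop}, Q 0 → (∀ x y, Q x → Q y → Q (x + y)) →
      (∀ (a : A') z, Q (a • j z)) → ∀ x, Q x := fun h0 h1 h2 x => by
    induction x with
    | zero => exact h0
    | add x y hx hy => exact h1 x y hx hy
    | tmul a z => rw [ht]; exact h2 a z
  let α' : (Fin ρ → P') →ₗ[P'] A' ⊗[A] T' :=
    Fintype.linearCombination P' fun i => j (α (Pi.single i 1))
  have hα : ∀ v : Fin ρ → P, α' (fun i => φ (v i)) = j (α v) := fun v => by
    simp only [α', Fintype.linearCombination_apply, hs, ← map_sum, ← map_smul]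
    congr 2
    ext1 i
    simp [Pi.single_apply]
  let b0 : T' →ₗ[A] (Fin ρ → P') :=
    { toFun := fun z i => φ (β z i)
      map_add' := fun x y => by ext1 i; simp
      map_smul' := fun a x => by
        ext1 i
        rw [LinearMap.map_smul_of_tower]
        simp }
  let b1 : A' ⊗[A] T' →ₗ[A'] (Fin ρ → P') := b0.liftBaseChange A'
  have hb1 : ∀ z, b1 (j z) = fun i => φ (β z i) := fun z => one_smul A' (b0 z)
  have hb2 : ∀ (p : P') x, b1 (p • x) = p • b1 x := fun p => by
    induction p using MvPolynomial.induction_on with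
    | C a =>
      intro x
      rw [← MvPolynomial.algebraMap_eq, algebraMap_smul, algebraMap_smul, map_smul]
    | add p q hp hq => intro x; rw [add_smul, add_smul, map_add, hp, hq]
    | mul_X p i hp =>
      intro x
      rw [mul_smul, mul_smul, hp]
      congr 1
      refine ind (Q := fun x => b1 (MvPolynomial.X i • x) = MvPolynomial.X i • b1 x) (by simp)
        (fun x y hx hy => by simp only [smul_add, map_add, hx, hy]) (fun a z => ?_) x
      rw [smul_comm, map_smul b1 a, map_smul b1 a, smul_comm _ a, ← hX, hs, hb1, hb1]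
      congr 1
      ext1 l
      simp
  let β' : A' ⊗[A] T' →ₗ[P'] (Fin ρ → P') := ⟨b1.toAddHom, hb2⟩
  have hβ : ∀ z, β' (j z) = fun i => φ (β z i) := hb1
  have hadj : ∀ z ∈ Algebra.adjoin A (Set.range Θ),
      j z ∈ Algebra.adjoin A' (Set.range fun i => j (Θ i)) := fun z hz =>
    Algebra.adjoin_le (S := ((Algebra.adjoin A' (Set.range fun i => j (Θ i))).restrictScalars
      A).comap j) (by rintro _ ⟨i, rfl⟩; exact Algebra.subset_adjoin ⟨i, rfl⟩) hz
  let e := Algebra.IsPushout.equiv A A' R T
  let ϖ' : A' ⊗[A] T' →ₐ[A'] T := e.toAlgHom.comp (Algebra.TensorProduct.map (AlgHom.id A' A') ϖ)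
  refine ⟨h, k, A' ⊗[A] T', inferInstance, inferInstance, inferInstance, ϖ', α', β',
    fun i => j (Θ i), tow, ?_, ?_, fun i => ?_, fun v => ?_, fun z => ?_, fun z hz => ?_,
    fun i => ?_, fun z => ?_⟩
  · obtain ⟨s, hs'⟩ := H.fin.fg_top
    refine ⟨Submodule.fg_def.2 ⟨j '' s, s.finite_toSet.image _, eq_top_iff.2 fun x _ => ?_⟩⟩
    refine ind (Q := fun x => x ∈ Submodule.span P' (j '' s)) (zero_mem _)
      (fun x y => add_mem) (fun a z => Submodule.smul_of_tower_mem _ _ ?_) x
    have hz : z ∈ Submodule.span P (s : Set T') := hs' ▸ Submodule.mem_top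
    induction hz using Submodule.span_induction with
    | mem x hx => exact Submodule.subset_span ⟨x, hx, rfl⟩
    | zero => rw [map_zero]; exact zero_mem _
    | add x y _ _ hx hy => rw [map_add]; exact add_mem hx hy
    | smul p x _ hx => rw [← hs]; exact Submodule.smul_mem _ _ hx
  · exact e.surjective.comp (LinearMap.lTensor_surjective A' (g := ϖ.toLinearMap) H.sur)
  · rw [hu]
    change e ((1 : A') ⊗ₜ ϖ _) = 0
    rw [H.u0, tmul_zero, map_zero]
  · have : β' ∘ₗ α' = algebraMap A A' δ • LinearMap.id := by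
      refine LinearMap.pi_ext' fun i => LinearMap.ext_ring ?_
      simp only [LinearMap.comp_apply, LinearMap.single_apply, LinearMap.smul_apply,
        LinearMap.id_apply, α', Fintype.linearCombination_apply_single, one_smul, hβ, H.ba]
      ext1 l
      by_cases c : l = i <;> simp [c]
    exact congr($this v)
  · refine ind (Q := fun z => α' (β' z) = algebraMap A A' δ • z) (by simp)
      (fun x y hx hy => by simp only [smul_add, map_add, hx, hy]) (fun a z => ?_) z
    rw [LinearMap.map_smul_of_tower, LinearMap.map_smul_of_tower, hβ, hα, H.ab, smul_comm, hδ]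
  · have h1 : z ∈ RingHom.ker (Algebra.TensorProduct.map (AlgHom.id A A') ϖ) :=
      e.injective (hz.trans (map_zero e).symm)
    rw [Algebra.TensorProduct.lTensor_ker _ H.sur] at h1
    rw [Algebra.smul_def]
    refine (Ideal.map_le_iff_le_comap.2 (show _ ≤ Ideal.comap j (Submodule.comap
      (LinearMap.mul _ _ (algebraMap A' _ (algebraMap A A' δ))) (Ideal.span _)) from
        fun w hw => ?_)) h1
    rw [Ideal.mem_comap, Submodule.mem_comap, LinearMap.mul_apply', ← Algebra.smul_def, hδ]
    have := Ideal.mem_map_of_mem j (H.ker w hw)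
    rw [Ideal.map_span, ← Set.range_comp] at this
    rwa [show (fun i => algebraMap (MvPolynomial (Fin h) A') (A' ⊗[A] T') (MvPolynomial.X i)) = _
      from funext hu]
  · rw [hu, ← map_pow, hδ]
    exact hadj _ (H.th i)
  · refine ind (Q := fun z => algebraMap A A' δ • z ∈ Submodule.span P'
      (Algebra.adjoin A' (Set.range fun i => j (Θ i)) : Set (A' ⊗[A] T'))) (by simp)
      (fun x y hx hy => by rw [smul_add]; exact add_mem hx hy) (fun a z => ?_) z
    rw [smul_comm, hδ]
    refine Submodule.smul_of_tower_mem _ _ ?_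
    have hz := H.gen z
    generalize δ • z = w at hz
    induction hz using Submodule.span_induction with
    | mem x hx => exact Submodule.subset_span (hadj _ hx)
    | zero => rw [map_zero]; exact zero_mem _
    | add x y _ _ hx hy => rw [map_add]; exact add_mem hx hy
    | smul p x _ hx => rw [← hs]; exact Submodule.smul_mem _ _ hx

end Vale.Agent.P202
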