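import Vale.Agent.P202.Spec

/-! Anticommutation relations, graded matrices and Koszul complexes. -/

open Finset Matrix MvPowerSeries Filter Topology IsLocalRing
open scoped Kronecker Nat

namespace Vale.Agent.P202

universe u

section car
variable {β : Type*} [Fintype β] [DecidableEq β]

/-- the sign in `ct` -/
noncomputable def sn (j : β) (I : Finset β) : ℤ :=
  (-1) ^ #{i ∈ I | Fintype.equivFin β i < Fintype.equivFin β j}

theorem sn_sq (j : β) (I : Finset β) : sn j I * sn j I = 1 := by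
  rw [sn, ← mul_pow]; simp

theorem sn_insert (j l : β) {I : Finset β} (h : l ∉ I) : sn j (insert l I) =
    (if Fintype.equivFin β l < Fintype.equivFin β j then -1 else 1) * sn j I := by
  unfold sn
  rw [filter_insert]
  split_ifs with h1
  · rw [card_insert_of_notMem (by simp [h]), pow_succ]; ring
  · ring

theorem sn_erase (j l : β) {I : Finset β} (h : l ∈ I) : sn j (I.erase l) =
    (if Fintype.equivFin β l < Fintype.equivFin β j then -1 else 1) * sn j I := by
  have := sn_insert j l (notMem_erase l I)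
  rw [insert_erase h] at this
  rw [this]
  split_ifs <;> ring

theorem ct_eq (j : β) (I' I : Finset β) :
    ct j I' I = if j ∈ I ∧ I' = I.erase j then sn j I else 0 := rfl

theorem ct_eq' (j : β) (I' I : Finset β) :
    ct j I' I = if j ∉ I' ∧ I = insert j I' then sn j I' else 0 := by
  rw [ct_eq]
  by_cases h : j ∈ I ∧ I' = I.erase j
  · obtain ⟨h1, rfl⟩ := h
    rw [if_pos ⟨h1, rfl⟩, if_pos ⟨notMem_erase _ _, (insert_erase h1).symm⟩, sn_erase j j h1]
    simp
  · rw [if_neg h, if_neg]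
    rintro ⟨h1, rfl⟩
    exact h ⟨mem_insert_self _ _, (erase_insert h1).symm⟩

theorem ct_ne {j : β} {I' I : Finset β} (h : ct j I' I ≠ 0) : j ∈ I ∧ I' = I.erase j := by
  by_contra h'
  exact h (by rw [ct_eq, if_neg h'])

theorem ct_ne' {j : β} {I' I : Finset β} (h : ct j I' I ≠ 0) : j ∉ I' ∧ I = insert j I' := by
  by_contra h'
  exact h (by rw [ct_eq', if_neg h'])

theorem ct_card {j : β} {I' I : Finset β} (h : ct j I' I ≠ 0) : I.card = I'.card + 1 := by
  obtain ⟨h1, rfl⟩ := ct_ne' h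
  exact card_insert_of_notMem h1

theorem ct_one (j : β) : ct j ∅ {j} = 1 := by
  rw [ct_eq', if_pos (by simp)]; simp [sn]

theorem mul_ct (M : Matrix (Finset β) (Finset β) ℤ) (l : β) (I' I : Finset β) :
    (M * ct l) I' I = if l ∈ I then M I' (I.erase l) * sn l I else 0 := by
  rw [mul_apply]
  simp only [ct_eq]
  split_ifs with h
  · rw [sum_eq_single (I.erase l)]
    · simp [h]
    · intro b _ hb; simp [hb]
    · simp
  · simp [h]

theorem mul_ctT (M : Matrix (Finset β) (Finset β) ℤ) (l : β) (I' J : Finset β) :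
    (M * (ct l)ᵀ) I' J = if l ∉ J then M I' (insert l J) * sn l J else 0 := by
  rw [mul_apply]
  simp only [transpose_apply, ct_eq']
  split_ifs with h
  · simp [h]
  · rw [sum_eq_single (insert l J)]
    · simp [h]
    · intro b _ hb; simp [hb]
    · simp

theorem fin_lt {j l : β} (h : j ≠ l) : Fintype.equivFin β j < Fintype.equivFin β l ↔
    ¬ Fintype.equivFin β l < Fintype.equivFin β j := by
  have : Fintype.equivFin β j ≠ Fintype.equivFin β l := fun e => h ((Equiv.injective _) e)
  exact ⟨fun a => not_lt.2 a.le, fun a => lt_of_le_of_ne (not_lt.1 a) this⟩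

theorem ct_sq (j : β) : ct j * ct j = 0 := by
  ext I' I
  rw [mul_ct]
  split_ifs with h
  · rw [ct_eq, if_neg (by simp)]; simp
  · simp

theorem ct_anti (j l : β) : ct j * ct l + ct l * ct j = 0 := by
  by_cases h : j = l
  · subst h; simp [ct_sq]
  ext I' I
  rw [Matrix.add_apply, mul_ct, mul_ct, ct_eq, ct_eq]
  by_cases hl : l ∈ I
  · by_cases hj : j ∈ I
    · rw [if_pos hl, if_pos hj, erase_right_comm (a := j)]
      by_cases e : I' = (I.erase l).erase j
      · rw [if_pos ⟨mem_erase.2 ⟨h, hj⟩, e⟩, if_pos ⟨mem_erase.2 ⟨Ne.symm h, hl⟩, e⟩,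
          sn_erase j l hl, sn_erase l j hj]
        by_cases c : Fintype.equivFin β l < Fintype.equivFin β j
        · rw [if_pos c, if_neg (by rw [fin_lt h]; simpa using c)]; simp; ring
        · rw [if_neg c, if_pos ((fin_lt h).2 c)]; simp; ring
      · simp [e]
    · simp [hj]
  · simp [hl]

theorem ct_car (j l : β) : ct j * (ct l)ᵀ + (ct l)ᵀ * ct j = if j = l then 1 else 0 := by
  ext I' J
  rw [Matrix.add_apply, mul_ctT, mul_ct, transpose_apply, ct_eq, ct_eq']
  by_cases h : j = l
  · subst h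
    rw [if_pos rfl, one_apply]
    by_cases hj : j ∈ J
    · simp [hj, sn_erase j j hj, sn_sq]
    · simp [hj, sn_insert j j hj, sn_sq, erase_insert hj]
  · rw [if_neg h]
    by_cases hl : l ∈ J
    · simp [hl, Ne.symm h]
    · by_cases hj : j ∈ J
      · rw [if_pos hl, if_pos hj, erase_insert_of_ne (Ne.symm h)]
        by_cases e : I' = insert l (J.erase j)
        · rw [if_pos ⟨mem_insert_of_mem hj, e⟩, if_pos ⟨by simp [hl], e⟩, sn_insert j l hl,
            sn_erase l j hj]
          by_cases c : Fintype.equivFin β l < Fintype.equivFin β j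
          · rw [if_pos c, if_neg (by rw [fin_lt h]; simpa using c)]; simp; ring
          · rw [if_neg c, if_pos ((fin_lt h).2 c)]; simp; ring
        · simp [e]
      · simp [hj, h]

theorem ctT_sq (j : β) : (ct j)ᵀ * (ct j)ᵀ = 0 := by
  rw [← transpose_mul, ct_sq, transpose_zero]

theorem ctT_anti (j l : β) : (ct j)ᵀ * (ct l)ᵀ + (ct l)ᵀ * (ct j)ᵀ = 0 := by
  rw [← transpose_mul, ← transpose_mul, ← transpose_add, ct_anti, transpose_zero]

variable (A : Type*) [CommRing A]

/-- contraction with coefficients in `A` -/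
noncomputable abbrev io (j : β) : Matrix (Finset β) (Finset β) A := (ct j).map (Int.cast : ℤ → A)

/-- wedge with coefficients in `A` -/
noncomputable abbrev ep (j : β) : Matrix (Finset β) (Finset β) A :=
  (ct j)ᵀ.map (Int.cast : ℤ → A)

theorem cast_mul' (M N : Matrix (Finset β) (Finset β) ℤ) : (M * N).map (Int.cast : ℤ → A) =
    M.map (Int.cast : ℤ → A) * N.map (Int.cast : ℤ → A) :=
  Matrix.map_mul (f := Int.castRingHom A)

theorem cast_add' (M N : Matrix (Finset β) (Finset β) ℤ) : (M + N).map (Int.cast : ℤ → A) =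
    M.map (Int.cast : ℤ → A) + N.map (Int.cast : ℤ → A) := by
  ext; simp

theorem io_sq (j : β) : io A j * io A j = 0 := by
  rw [← cast_mul', ct_sq]; ext; simp

theorem ep_sq (j : β) : ep A j * ep A j = 0 := by
  rw [← cast_mul', ctT_sq]; ext; simp

theorem io_anti (j l : β) : io A j * io A l + io A l * io A j = 0 := by
  rw [← cast_mul', ← cast_mul', ← cast_add', ct_anti]; ext; simp

theorem ep_anti (j l : β) : ep A j * ep A l + ep A l * ep A j = 0 := by
  rw [← cast_mul', ← cast_mul', ← cast_add', ctT_anti]; ext; simp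

theorem io_ep (j l : β) : io A j * ep A l + ep A l * io A j = if j = l then 1 else 0 := by
  rw [← cast_mul', ← cast_mul', ← cast_add', ct_car]
  split_ifs
  · exact Matrix.map_one _ (by simp) (by simp)
  · ext; simp

/-- a sum of anticommuting squares vanishes -/
theorem sum_anti {R : Type*} [AddCommGroup R] (f : β → β → R) (h0 : ∀ j, f j j = 0)
    (h : ∀ j l, f j l + f l j = 0) : ∑ j, ∑ l, f j l = 0 := by
  rw [← sum_product']
  exact sum_involution (fun p _ => p.swap) (fun p _ => h _ _)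
    (fun p _ hp e => hp (by
      have : p.2 = p.1 := congrArg Prod.fst e
      rw [this]; exact h0 _)) (fun p _ => by simp) (fun p _ => by simp)

end car

section gr
variable {A : Type*} [CommRing A] {ι ι' ι'' : Type*} [Fintype ι] [DecidableEq ι] [Fintype ι']
  [DecidableEq ι'] [Fintype ι''] [DecidableEq ι''] {d : ι → ℕ} {d' : ι' → ℕ} {d'' : ι'' → ℕ}

omit [Fintype ι] [DecidableEq ι] [DecidableEq ι'] [Fintype ι''] [DecidableEq ι''] in
theorem Gr.mul {a b c : ℤ} {M : Matrix ι'' ι' A} {N : Matrix ι' ι A} (h : Gr d' d'' a M)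
    (h' : Gr d d' b N) (e : c = a + b) : Gr d d'' c (M * N) := by
  intro i' i hne
  rw [mul_apply] at hne
  obtain ⟨x, -, hx⟩ := exists_ne_zero_of_sum_ne_zero hne
  have h1 := h _ _ (left_ne_zero_of_mul hx)
  have h2 := h' _ _ (right_ne_zero_of_mul hx)
  omega

omit [Fintype ι] [DecidableEq ι] [Fintype ι'] [DecidableEq ι'] in
theorem Gr.add {a : ℤ} {M N : Matrix ι' ι A} (h : Gr d d' a M) (h' : Gr d d' a N) :
    Gr d d' a (M + N) := by
  intro i' i hne
  by_cases e : M i' i = 0
  · exact h' _ _ (by simpa [e] using hne)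
  · exact h _ _ e

omit [Fintype ι] [DecidableEq ι] [Fintype ι'] [DecidableEq ι'] in
theorem Gr.zero {a : ℤ} : Gr d d' a (0 : Matrix ι' ι A) := fun _ _ h => absurd rfl h

omit [Fintype ι] [DecidableEq ι] [Fintype ι'] [DecidableEq ι'] in
theorem Gr.smul {a : ℤ} {M : Matrix ι' ι A} (h : Gr d d' a M) (c : A) : Gr d d' a (c • M) :=
  fun _ _ hne => h _ _ (right_ne_zero_of_mul hne)

omit [Fintype ι] [DecidableEq ι] [Fintype ι'] [DecidableEq ι'] in
theorem Gr.neg {a : ℤ} {M : Matrix ι' ι A} (h : Gr d d' a M) : Gr d d' a (-M) :=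
  fun _ _ hne => h _ _ (by simpa using hne)

omit [Fintype ι] [DecidableEq ι] [Fintype ι'] [DecidableEq ι'] in
theorem Gr.sum {a : ℤ} {γ : Type*} (s : Finset γ) {M : γ → Matrix ι' ι A}
    (h : ∀ x ∈ s, Gr d d' a (M x)) : Gr d d' a (∑ x ∈ s, M x) :=
  sum_induction M (Gr d d' a) (fun _ _ => Gr.add) Gr.zero h

omit [Fintype ι] [Fintype ι'] [DecidableEq ι'] in
theorem Gr.one : Gr d d 0 (1 : Matrix ι ι A) := by
  intro i' i hne
  by_cases e : i' = i
  · simp [e]
  · exact absurd (one_apply_ne e) hne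

omit [Fintype ι] [DecidableEq ι] [Fintype ι'] [DecidableEq ι'] in
theorem Gr.map {B : Type*} [CommRing B] {a : ℤ} {M : Matrix ι' ι A} (h : Gr d d' a M) (f : A → B)
    (hf : f 0 = 0) : Gr d d' a (M.map f) :=
  fun _ _ hne => h _ _ fun e => hne (by rw [map_apply, e, hf])

end gr

section kos
variable {β : Type*} [Fintype β] [DecidableEq β] {A : Type*} [CommRing A] {n n' : Type*}
  [Fintype n] [DecidableEq n] [Fintype n'] [DecidableEq n']

omit [Fintype n] [DecidableEq n] [Fintype n'] [DecidableEq n'] in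
theorem gr_io (j : β) (Y : Matrix n' n A) : Gr kd kd (-1) (io A j ⊗ₖ Y) := by
  rintro ⟨I', a⟩ ⟨I, b⟩ h
  have h1 : ct j I' I ≠ 0 := fun e => h (by simp [e])
  have := ct_card h1
  simp only [kd]; omega

omit [Fintype n] [DecidableEq n] [Fintype n'] [DecidableEq n'] in
theorem gr_ep (j : β) (Y : Matrix n' n A) : Gr kd kd 1 (ep A j ⊗ₖ Y) := by
  rintro ⟨I', a⟩ ⟨I, b⟩ h
  have h1 : ct j I I' ≠ 0 := fun e => h (by simp [e])
  have := ct_card h1
  simp only [kd]; omega

omit [Fintype n] [DecidableEq n] in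
theorem kos_gr (Y : β → Matrix n n A) : Gr kd kd (-1) (Kos Y) :=
  Gr.sum _ fun j _ => gr_io j (Y j)

omit [DecidableEq n] in
theorem kos_sq (Y : β → Matrix n n A) (h : ∀ i j, Commute (Y i) (Y j)) : Kos Y * Kos Y = 0 := by
  unfold Kos
  rw [sum_mul_sum]
  refine sum_anti _ (fun j => ?_) fun j l => ?_
  · rw [← mul_kronecker_mul, io_sq, zero_kronecker]
  · rw [← mul_kronecker_mul, ← mul_kronecker_mul, (h l j).eq, ← add_kronecker, io_anti,
      zero_kronecker]

omit [DecidableEq n] in
/-- the Koszul homotopy -/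
theorem kos_nul (Y Z : β → Matrix n n A) (h : ∀ l j, Commute (Z l) (Y j)) :
    Gr kd kd 1 (∑ l, ep A l ⊗ₖ Z l) ∧ Kos Y * (∑ l, ep A l ⊗ₖ Z l) + (∑ l, ep A l ⊗ₖ Z l) * Kos Y =
      (1 : Matrix (Finset β) (Finset β) A) ⊗ₖ ∑ l, Z l * Y l := by
  refine ⟨Gr.sum _ fun j _ => gr_ep j (Z j), ?_⟩
  unfold Kos
  rw [sum_mul_sum, sum_mul_sum, sum_comm, ← sum_add_distrib]
  have : ∀ l, ∑ j, (io A j ⊗ₖ Y j) * (ep A l ⊗ₖ Z l) + ∑ j, (ep A l ⊗ₖ Z l) * (io A j ⊗ₖ Y j) =
      (1 : Matrix (Finset β) (Finset β) A) ⊗ₖ (Z l * Y l) := by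
    intro l
    rw [← sum_add_distrib, sum_eq_single l]
    · rw [← mul_kronecker_mul, ← mul_kronecker_mul, ← (h l l).eq, ← add_kronecker, io_ep, if_pos rfl]
    · intro j _ hj
      rw [← mul_kronecker_mul, ← mul_kronecker_mul, ← (h l j).eq, ← add_kronecker, io_ep, if_neg hj,
        zero_kronecker]
    · simp
  rw [sum_congr rfl fun l _ => this l]
  ext ⟨I, a⟩ ⟨J, b⟩
  simp [Matrix.sum_apply, mul_sum]

omit [Fintype n] [DecidableEq n] in
theorem kd_le (p : Finset β × n) : kd p ≤ Fintype.card β := card_le_univ _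

theorem kd_sum [Nonempty β] : ∑ p : Finset β × n, (-1 : ℤ) ^ kd p = 0 := by
  rw [Fintype.sum_prod_type]
  simp only [kd, sum_const, ← smul_sum]
  rw [← powerset_univ, sum_powerset_neg_one_pow_card_of_nonempty univ_nonempty, smul_zero]

omit [DecidableEq n] in
/-- the degree zero part of the Koszul differential -/
theorem kos_zero (Y : β → Matrix n n A) (u : β → n → A) (a : n) :
    (Kos Y *ᵥ fun p => ∑ l, if p.1 = {l} then u l p.2 else 0) (∅, a) = ∑ l, (Y l *ᵥ u l) a := by
  have : ∀ j I, ct j (∅ : Finset β) I = if I = {j} then 1 else 0 := by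
    intro j I
    rw [ct_eq']; simp [sn]
  simp only [mulVec, dotProduct, Kos, Matrix.sum_apply, kroneckerMap_apply, map_apply, this,
    Fintype.sum_prod_type, sum_mul]
  rw [sum_comm, sum_comm (s := univ) (t := univ) (f := fun l b => Y l a b * u l b)]
  refine sum_congr rfl fun b _ => ?_
  rw [sum_comm]
  refine sum_congr rfl fun l _ => ?_
  rw [sum_eq_single {l}]
  · simp
  · intro I _ hI; simp [hI]
  · simp

end kos

end Vale.Agent.P202
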