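import Vale.Agent.P202.Spec2

/-! Koszul complexes on complexes. -/

open Finset Matrix MvPowerSeries Filter Topology IsLocalRing
open scoped Kronecker Nat

namespace Vale.Agent.P202

universe u

section bt
variable {A : Type*} [CommRing A] {n : Type*} {o : n → ℕ}

theorem Bt.mul [Fintype n] {M N : Matrix n n A} (h : Bt o M) (h' : Bt o N) : Bt o (M * N) := by
  intro i j hne
  rw [mul_apply] at hne
  obtain ⟨x, -, hx⟩ := exists_ne_zero_of_sum_ne_zero hne
  exact (h' _ _ (right_ne_zero_of_mul hx)).trans (h _ _ (left_ne_zero_of_mul hx))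

theorem Bt.add {M N : Matrix n n A} (h : Bt o M) (h' : Bt o N) : Bt o (M + N) := by
  intro i j hne
  by_cases e : M i j = 0
  · exact h' _ _ (by simpa [e] using hne)
  · exact h _ _ e

theorem Bt.zero : Bt o (0 : Matrix n n A) := fun _ _ h => absurd rfl h

theorem Bt.one [DecidableEq n] : Bt o (1 : Matrix n n A) := fun i j h => by
  by_cases e : i = j
  · exact e ▸ le_rfl
  · exact absurd (one_apply_ne e) h

theorem Bt.smul {M : Matrix n n A} (h : Bt o M) (c : A) : Bt o (c • M) :=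
  fun _ _ hne => h _ _ (right_ne_zero_of_mul hne)

theorem Bt.sum {γ : Type*} (s : Finset γ) {M : γ → Matrix n n A} (h : ∀ x ∈ s, Bt o (M x)) :
    Bt o (∑ x ∈ s, M x) := sum_induction M (Bt o) (fun _ _ => Bt.add) Bt.zero h

theorem Bt.pow [Fintype n] [DecidableEq n] {M : Matrix n n A} (h : Bt o M) (t : ℕ) :
    Bt o (M ^ t) := by
  induction t with
  | zero => simpa using Bt.one
  | succ t ih => rw [pow_succ]; exact ih.mul h

theorem Bt.kron {β : Type*} (N : Matrix β β A) {M : Matrix n n A} (h : Bt o M) :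
    Bt (fun p : β × n => o p.2) (N ⊗ₖ M) := fun _ _ hne => h _ _ (right_ne_zero_of_mul hne)

theorem Bt.const (c : ℕ) (M : Matrix n n A) : Bt (fun _ => c) M := fun _ _ _ => le_rfl

theorem Gr.pow [Fintype n] [DecidableEq n] {d : n → ℕ} {M : Matrix n n A} (h : Gr d d 0 M)
    (t : ℕ) : Gr d d 0 (M ^ t) := by
  induction t with
  | zero => simpa using Gr.one
  | succ t ih => rw [pow_succ]; exact ih.mul h (by simp)

end bt

section kos
variable {β : Type*} [Fintype β] [DecidableEq β] {A : Type*} [CommRing A] {n n' : Type*}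

theorem gr_io' (j : β) : Gr card card (-1) (io A j) := fun I J h => by
  have := ct_card (j := j) (I' := I) (I := J) fun e => h (by simp [e]); omega

theorem gr_ep' (j : β) : Gr card card 1 (ep A j) := fun I J h => by
  have := ct_card (j := j) (I' := J) (I := I) fun e => h (by simp [e]); omega

omit [Fintype β] in
theorem gr_sgn : Gr card card 0 (sgn A β) := fun I J h => by
  by_cases e : I = J
  · simp [e]
  · exact absurd (diagonal_apply_ne _ e) h

omit [Fintype β] [DecidableEq β] in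
theorem Gr.kron {dn : n → ℕ} {dn' : n' → ℕ} {a b c : ℤ} {N : Matrix (Finset β) (Finset β) A}
    {M : Matrix n' n A} (h : Gr card card a N) (h' : Gr dn dn' b M) (e : c = a + b) :
    Gr (kc dn) (kc dn') c (N ⊗ₖ M) := fun p q hne => by
  have h1 := h _ _ (left_ne_zero_of_mul hne)
  have h2 := h' _ _ (right_ne_zero_of_mul hne)
  simp only [kc]; omega

theorem sgn_sq : sgn A β * sgn A β = 1 := by
  rw [sgn, diagonal_mul_diagonal, ← diagonal_one]
  congr 1; ext1 J; rw [← mul_pow]; simp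

theorem sgn_io (j : β) : sgn A β * io A j = -(io A j * sgn A β) := by
  ext1 I J
  rw [sgn, diagonal_mul, Matrix.neg_apply, mul_diagonal]
  by_cases h : ct j I J = 0
  · simp [h]
  · rw [ct_card h, pow_succ]; ring

theorem sgn_ep (j : β) : sgn A β * ep A j = -(ep A j * sgn A β) := by
  ext1 I J
  rw [sgn, diagonal_mul, Matrix.neg_apply, mul_diagonal]
  by_cases h : ct j J I = 0
  · simp [h]
  · rw [ct_card h, pow_succ]; ring

variable [Fintype n] [DecidableEq n]

omit [Fintype n] [DecidableEq n] in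
theorem kosC_gr {dn : n → ℕ} {Y : β → Matrix n n A} {d : Matrix n n A} (h : ∀ l, Gr dn dn 0 (Y l))
    (h' : Gr dn dn (-1) d) : Gr (kc dn) (kc dn) (-1) (KosC Y d) :=
  (Gr.sum _ fun j _ => (gr_io' j).kron (h j) (by simp)).add (gr_sgn.kron h' (by simp))

omit [DecidableEq n] in
theorem anti_sgn (N : β → Matrix (Finset β) (Finset β) A)
    (hN : ∀ j, sgn A β * N j = -(N j * sgn A β)) (Y : β → Matrix n n A) (d : Matrix n n A)
    (h : ∀ l, Commute (Y l) d) :
    (∑ j, N j ⊗ₖ Y j) * (sgn A β ⊗ₖ d) + (sgn A β ⊗ₖ d) * ∑ j, N j ⊗ₖ Y j = 0 := by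
  rw [sum_mul, mul_sum, ← sum_add_distrib]
  refine sum_eq_zero fun j _ => ?_
  rw [← mul_kronecker_mul, ← mul_kronecker_mul, hN, (h j).eq, ← add_kronecker]; simp

omit [DecidableEq n] in
theorem kosC_sq {Y : β → Matrix n n A} {d : Matrix n n A} (h : ∀ i j, Commute (Y i) (Y j))
    (h' : ∀ l, Commute (Y l) d) (dd : d * d = 0) : KosC Y d * KosC Y d = 0 := by
  have := anti_sgn (io A) sgn_io Y d h'
  rw [KosC, add_mul, mul_add, mul_add, kos_sq Y h, ← mul_kronecker_mul, dd, kronecker_zero,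
    zero_add, add_zero]
  exact this

omit [DecidableEq n] in
theorem kosC_nul (Y Z : β → Matrix n n A) (d h : Matrix n n A) (h1 : ∀ l j, Commute (Z l) (Y j))
    (h2 : ∀ l, Commute (Z l) d) (h3 : ∀ l, Commute h (Y l)) :
    KosC Y d * (∑ l, ep A l ⊗ₖ Z l + sgn A β ⊗ₖ h) + (∑ l, ep A l ⊗ₖ Z l + sgn A β ⊗ₖ h) * KosC Y d =
      (1 : Matrix (Finset β) (Finset β) A) ⊗ₖ (∑ l, Z l * Y l + (d * h + h * d)) := by
  have a1 := anti_sgn (io A) sgn_io Y h fun l => (h3 l).symm
  have a2 := anti_sgn (ep A) sgn_ep Z d h2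
  have a3 := (kos_nul Y Z h1).2
  rw [kronecker_add, kronecker_add, ← a3, ← sgn_sq, mul_kronecker_mul, mul_kronecker_mul]
  unfold KosC Kos
  rw [← sub_eq_zero, ← add_zero 0, ← congrArg₂ (· + ·) a1 a2]
  noncomm_ring

omit [DecidableEq β] [DecidableEq n] in
theorem kc_sum [Nonempty β] (dn : n → ℕ) : ∑ p : Finset β × n, (-1 : ℤ) ^ kc dn p = 0 := by
  classical
  rw [Fintype.sum_prod_type]
  simp only [kc, pow_add, ← mul_sum, ← sum_mul]
  rw [← powerset_univ, sum_powerset_neg_one_pow_card_of_nonempty univ_nonempty, zero_mul]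

omit [DecidableEq n] in
/-- the degree zero part of the differential -/
theorem kosC_zero (Y : β → Matrix n n A) (d : Matrix n n A) (u : β → n → A) (w : n → A) (a : n) :
    (KosC Y d *ᵥ fun p => (∑ l, if p.1 = {l} then u l p.2 else 0) + if p.1 = ∅ then w p.2 else 0)
      (∅, a) = ∑ l, (Y l *ᵥ u l) a + (d *ᵥ w) a := by
  have e : ∀ j I, ct j (∅ : Finset β) I = if I = {j} then 1 else 0 := by
    intro j I
    rw [ct_eq']; simp [sn]
  have h1 : (Kos Y *ᵥ fun p => if p.1 = ∅ then w p.2 else 0) (∅, a) = 0 := by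
    simp [mulVec, dotProduct, Kos, Matrix.sum_apply, e, Fintype.sum_prod_type]
  have h2 : ∀ v : Finset β × n → A, ((sgn A β ⊗ₖ d) *ᵥ v) (∅, a) = (d *ᵥ fun b => v (∅, b)) a := by
    intro v
    simp [mulVec, dotProduct, sgn, diagonal_apply, Fintype.sum_prod_type]
  have h3 := congrFun (mulVec_add (Kos Y) (fun p => ∑ l, if p.1 = {l} then u l p.2 else 0)
    fun p => if p.1 = ∅ then w p.2 else 0) (∅, a)
  rw [Pi.add_apply, h1, kos_zero, add_zero] at h3
  rw [KosC, add_mulVec, Pi.add_apply, h2, ← h3]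
  congr 2
  ext1 b
  simp [eq_comm (a := (∅ : Finset β))]

end kos

variable {k : Type u} [Field k] {r : ℕ} {ι : Type} [Fintype ι] [DecidableEq ι]
  {γ : PS k (r + 1)} {M : ℕ}

theorem GdT.gd {o deg : ι → ℕ} {D : Matrix ι ι (PS k (r + 1))} (h : GdT γ M o deg D) :
    Gd γ M deg D :=
  ⟨h.gr, h.dd, h.le, fun j => (h.nul j).imp fun _ a => ⟨a.1, a.2.2⟩⟩

theorem ComC.pow {t d : ℕ} {o dn : ι → ℕ} {Y : Fin d → Matrix ι ι (PS k (r + 1))}
    {d0 : Matrix ι ι (PS k (r + 1))} (h : ComC γ M t o dn Y d0) (a : Fin d → ℕ)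
    (ha : ∀ l, a l ≤ t) : ComC γ M 1 o dn (fun l => Y l ^ a l) d0 := by
  refine ⟨h.le, fun l => (h.g0 l).pow _, h.g1, fun l => (h.b0 l).pow _, h.b1, h.dd,
    fun i j => (h.com i j).pow_pow _ _, fun i => (h.cd i).pow_left _, fun j => ?_⟩
  obtain ⟨Z, H, h1, h2, h3, h4, h5, h6, h7, h8⟩ := h.gen j
  refine ⟨fun l => Z l * Y l ^ (t - a l), H, fun l => (h1 l).mul ((h.g0 l).pow _) (by simp), h2,
    fun l => (h3 l).mul ((h.b0 l).pow _), h4,
    fun l l' => ((h5 l l').pow_right _).mul_left ((h.com _ _).pow_pow _ _),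
    fun l => (h6 l).mul_left ((h.cd l).pow_left _), fun l => (h7 l).pow_right _, ?_⟩
  rw [← h8]
  congr 1
  exact sum_congr rfl fun l _ => by rw [pow_one, mul_assoc, ← pow_add, Nat.sub_add_cancel (ha l)]

theorem ComC.gdT1 {d : ℕ} {o dn : ι → ℕ} {Y : Fin d → Matrix ι ι (PS k (r + 1))}
    {d0 : Matrix ι ι (PS k (r + 1))} (h : ComC γ M 1 o dn Y d0) :
    GdT γ M (fun p => o p.2) (kc dn) (KosC Y d0) := by
  refine ⟨kosC_gr h.g0 h.g1, kosC_sq h.com h.cd h.dd, fun p => ?_,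
    (Bt.sum _ fun j _ => (h.b0 j).kron _).add (h.b1.kron _), fun j => ?_⟩
  · have := h.le p.2
    have := card_le_univ p.1
    simp only [kc, Fintype.card_fin] at *
    omega
  obtain ⟨Z, H, h1, h2, h3, h4, h5, h6, h7, h8⟩ := h.gen j
  refine ⟨_, (Gr.sum univ fun l _ => (gr_ep' l).kron (h1 l) (by simp)).add
    (gr_sgn.kron h2 (by simp)), (Bt.sum _ fun l _ => (h3 l).kron _).add (h4.kron _), ?_⟩
  simp only [pow_one] at h8
  rw [kosC_nul Y Z d0 H h5 h6 h7, h8, kronecker_smul, one_kronecker_one]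

theorem ComC.gdT {t d : ℕ} {o dn : ι → ℕ} {Y : Fin d → Matrix ι ι (PS k (r + 1))}
    {d0 : Matrix ι ι (PS k (r + 1))} (h : ComC γ M t o dn Y d0) (a : Fin d → ℕ)
    (ha : ∀ l, a l ≤ t) : GdT γ M (fun p => o p.2) (kc dn) (KosC (fun l => Y l ^ a l) d0) :=
  (h.pow a ha).gdT1

end Vale.Agent.P202
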