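import Mathlib

/-! Definitions for the proof of Lech's inequality in equal characteristic. -/

open Finset Matrix MvPowerSeries Filter Topology IsLocalRing
open scoped Kronecker Nat

namespace Vale.Agent.P202

universe u v

section lat
variable {k : Type*} [Field k] {E : Type*} [AddCommGroup E] [Module k E]

/-- dimension of `(P + Q) / P` -/
noncomputable def rl (P Q : Submodule k E) : ℕ∞ := Module.length k (Q.map P.mkQ)

/-- relative cycles -/
def Zc (D : Module.End k E) (X X' : ℤ → Submodule k E) (n : ℤ) : Submodule k E :=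
  X n ⊓ (X' (n - 1)).comap D

/-- relative boundaries -/
def Bc (D : Module.End k E) (X X' : ℤ → Submodule k E) (n : ℤ) : Submodule k E :=
  X' n ⊔ (X (n + 1)).map D

/-- dimension of `g ^ c H_n (X / X')` -/
noncomputable def hh (D g : Module.End k E) (c : ℕ) (X X' : ℤ → Submodule k E) (n : ℤ) : ℕ∞ :=
  rl (Bc D X X' n) ((Zc D X X' n).map (g ^ c))

/-- stable under `D` -/
def CxD (D : Module.End k E) (X : ℤ → Submodule k E) : Prop := ∀ n, ∀ x ∈ X n, D x ∈ X (n - 1)

/-- a subcomplex stable under `g` -/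
structure Cx (D g : Module.End k E) (X : ℤ → Submodule k E) : Prop where
  d : CxD D X
  g : ∀ n, ∀ x ∈ X n, g x ∈ X n

def Tame (D g : Module.End k E) (c τ : ℕ) (X X' : ℤ → Submodule k E) : Prop :=
  ∀ n, hh D g c X X' n ≠ ⊤ ∧ hh D g c X X' n ≤ hh D g (c + 1) X X' n + τ

noncomputable def chi (D g : Module.End k E) (c L : ℕ) (X X' : ℤ → Submodule k E) : ℤ :=
  ∑ n ∈ Icc (-L : ℤ) L, (n.negOnePow : ℤ) * (hh D g c X X' n).toNat

/-- `X / X'` is finite dimensional and `g` has cokernel of dimension at most `τ` on it -/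
def Fn (g : Module.End k E) (τ : ℕ) (X X' : ℤ → Submodule k E) : Prop :=
  ∀ n, rl (X' n) (X n) ≠ ⊤ ∧ rl (X' n ⊔ (X n).map g) (X n) ≤ τ

end lat

section car
variable {β : Type*} [Fintype β] [DecidableEq β]

/-- contraction on the exterior algebra -/
noncomputable def ct (j : β) : Matrix (Finset β) (Finset β) ℤ := fun I' I =>
  if j ∈ I ∧ I' = I.erase j then
    (-1) ^ #{i ∈ I | Fintype.equivFin β i < Fintype.equivFin β j} else 0

variable {A : Type*} [CommRing A] {n : Type*} [Fintype n] [DecidableEq n]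

/-- the Koszul differential -/
noncomputable def Kos (Y : β → Matrix n n A) : Matrix (Finset β × n) (Finset β × n) A :=
  ∑ j, (ct j).map (Int.cast : ℤ → A) ⊗ₖ Y j

/-- the Koszul degree -/
def kd (p : Finset β × n) : ℕ := p.1.card

end car

section gc
variable {A : Type*} [CommRing A] {ι ι' : Type*} [Fintype ι] [DecidableEq ι] [Fintype ι']
  [DecidableEq ι']

/-- a matrix that is homogeneous of degree `j` -/
def Gr (deg : ι → ℕ) (deg' : ι' → ℕ) (j : ℤ) (M : Matrix ι' ι A) : Prop :=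
  ∀ i' i, M i' i ≠ 0 → (deg' i' : ℤ) = deg i + j

/-- `γ` times the identity of `(deg, D)` factors through `(deg', D')` up to homotopy -/
def Dom (γ : A) (deg : ι → ℕ) (D : Matrix ι ι A) (deg' : ι' → ℕ) (D' : Matrix ι' ι' A) : Prop :=
  ∃ (P : Matrix ι' ι A) (Q : Matrix ι ι' A) (H : Matrix ι ι A), Gr deg deg' 0 P ∧
    Gr deg' deg 0 Q ∧ Gr deg deg 1 H ∧ D' * P = P * D ∧ D * Q = Q * D' ∧
    Q * P + D * H + H * D = γ • (1 : Matrix ι ι A)

end gc

abbrev PS (k : Type u) (d : ℕ) := MvPowerSeries (Fin d) k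

/-- the maximal ideal of the power series ring -/
noncomputable abbrev mx (k : Type u) [Field k] (d : ℕ) : Ideal (PS k d) := Ideal.span (Set.range X)

/-- the ideal of `t`-th powers of the variables -/
noncomputable abbrev br (k : Type u) [Field k] (d t : ℕ) : Ideal (PS k d) :=
  Ideal.span (Set.range fun i => X i ^ t)

/-- codimension -/
noncomputable def cl (k : Type*) [Field k] {A M : Type*} [CommRing A] [Algebra k A]
    [AddCommGroup M] [Module A M] [Module k M] [IsScalarTower k A M] (N : Submodule A M) : ℕ∞ :=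
  Module.length k (M ⧸ N)

section short
variable {k : Type u} [Field k] {r : ℕ} {ι : Type} [Fintype ι] [DecidableEq ι]

/-- a short complex on which `γ x_j ^ M` is null-homotopic -/
structure Gd (γ : PS k (r + 1)) (M : ℕ) (deg : ι → ℕ) (D : Matrix ι ι (PS k (r + 1))) : Prop where
  gr : Gr deg deg (-1) D
  dd : D * D = 0
  le : ∀ i, deg i ≤ r + 1
  nul : ∀ j, ∃ h, Gr deg deg 1 h ∧ D * h + h * D = (γ * X j ^ M) • (1 : Matrix ι ι _)

end short

abbrev Mon (r : ℕ) := Option (Fin r) →₀ ℕ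
abbrev LL (k : Type u) (r : ℕ) := MvPowerSeries (Option (Fin r)) k
abbrev FJ (r : ℕ) := Finset (Fin r × Bool)

section cech
variable {k : Type u} [Field k] {r : ℕ} {ι : Type} [Fintype ι] [DecidableEq ι]

/-- power series supported in `S` -/
def Pv (k : Type u) [Field k] {σ : Type*} (S : Set (σ →₀ ℕ)) : Submodule k (MvPowerSeries σ k) where
  carrier := {f | ∀ e, coeff e f ≠ 0 → e ∈ S}
  add_mem' {f g} hf hg e he := by
    by_contra h
    exact he (by rw [map_add, not_not.1 (mt (hf e) h), not_not.1 (mt (hg e) h), add_zero])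
  zero_mem' e he := absurd (map_zero _) he
  smul_mem' c f hf e he := hf e fun h => he (by rw [map_smul, h, smul_zero])

/-- the Segre cone in levels `≥ s` -/
def SB (r s : ℕ) : Set (Mon r) := {e | s ≤ e none ∧ ∀ a, e (some a) ≤ e none}

noncomputable def mu (k : Type u) [Field k] (I : Finset (Fin r)) : LL k r :=
  X none * ∏ a ∈ I, X (some a)

/-- the map `x_j ↦ v e_j (z)` -/
structure Th0 (θ : PS k (r + 1) →ₐ[k] LL k r) : Prop where
  ord : ∀ (a : PS k (r + 1)) (s : ℕ), (s : ℕ∞) ≤ a.order → θ a ∈ Pv k (SB r s)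
  low : ∀ (a : PS k (r + 1)) (o : ℕ), a.order ≤ (o : ℕ∞) → ∃ e : Mon r, e none ≤ o ∧ coeff e (θ a) ≠ 0
  hom : ∀ j e, coeff e (θ (X j)) ≠ 0 → e none = 1
  bpf : ∃ c : ℕ, ∀ (M : ℕ) (I : Finset (Fin r)), ∃ g : Fin (r + 1) → LL k r,
    (∀ j, g j ∈ Pv k (SB r 0)) ∧ mu k I ^ (c * M) = ∑ j, g j * θ (X j) ^ M

structure Th (θ : PS k (r + 1) →ₐ[k] LL k r) : Prop extends Th0 θ where
  span : ∃ (C : ℕ) (w : Fin r ! → LL k r), (∀ j, w j ∈ Pv k (SB r 0)) ∧ ∀ b : ℕ,
    rl ((⨆ j, LinearMap.range (LinearMap.mulRight k (w j) ∘ₗ θ.toLinearMap)) ⊔ Pv k (SB r b))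
      (Pv k (SB r 0)) ≤ (C * (b + 1) ^ r : ℕ)

/-- the chart conditions -/
def cond (N0 : ℕ) (ν : Fin r → ℤ) (J : FJ r) : Set (Mon r) :=
  {e | ∀ a, ((a, false) ∈ J ∨ (a, true) ∈ J) ∧ ((a, true) ∉ J → N0 ≤ e (some a)) ∧
    ((a, false) ∉ J → (e (some a) : ℤ) ≤ ν a + e none)}

/-- monomials that carry cohomology of degree `j` -/
def typ (N0 : ℕ) (ν : Fin r → ℤ) (e : Mon r) (j : ℤ) : Prop :=
  (∀ a, N0 ≤ e (some a) ↔ (e (some a) : ℤ) ≤ ν a + e none) ∧ (#{a | e (some a) < N0} : ℤ) = j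

/-- bounded denominators, level at least `l` -/
def Om (N0 : ℕ) (ν : Fin r → ℤ) (N l : ℕ) : Set (Mon r) :=
  {e | l ≤ e none ∧ ∀ a, N0 ≤ e (some a) + N ∧ (e (some a) : ℤ) ≤ ν a + e none + N}

def XX (k : Type u) [Field k] (deg : ι → ℕ) (Ω : ℕ → FJ r → Set (Mon r)) (n : ℤ) :
    Submodule k (ι × FJ r → LL k r) :=
  Submodule.pi Set.univ fun p => Pv k {e | (deg p.1 : ℤ) + r - p.2.card = n ∧ e ∈ Ω (deg p.1) p.2}

/-- Cech cochains with monomials in `Ω` -/
def XS (k : Type u) [Field k] (N0 : ℕ) (ν : Fin r → ℤ) (deg : ι → ℕ) (Ω : ℕ → Set (Mon r)) :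
    ℤ → Submodule k (ι × FJ r → LL k r) := XX k deg fun p J => Ω p ∩ cond N0 ν J

/-- the strand with levels `l` -/
def XF (k : Type u) [Field k] (N0 : ℕ) (ν : Fin r → ℤ) (N : ℕ) (l : ℕ → ℕ) (deg : ι → ℕ) :
    ℤ → Submodule k (ι × FJ r → LL k r) := XS k N0 ν deg fun p => Om N0 ν N (l p)

noncomputable def sg (k : Type u) [Field k] (r : ℕ) : Matrix (FJ r) (FJ r) (LL k r) :=
  diagonal fun J => (-1) ^ J.card

noncomputable def cb (k : Type u) [Field k] (r : ℕ) : Matrix (FJ r) (FJ r) (LL k r) :=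
  ∑ b, (ct b)ᵀ.map (Int.cast : ℤ → LL k r)

/-- the total differential -/
noncomputable def DD (θ : PS k (r + 1) →ₐ[k] LL k r) (D : Matrix ι ι (PS k (r + 1))) :
    Module.End k (ι × FJ r → LL k r) :=
  (D.map θ ⊗ₖ sg k r + (1 : Matrix ι ι (LL k r)) ⊗ₖ cb k r).mulVecLin.restrictScalars k

noncomputable def gg (θ : PS k (r + 1) →ₐ[k] LL k r) (γ : PS k (r + 1)) (ι : Type) :
    Module.End k (ι × FJ r → LL k r) := θ γ • LinearMap.id

/-- the ghost property -/
def Gho (θ : PS k (r + 1) →ₐ[k] LL k r) (γ : PS k (r + 1)) (L : ℕ) (deg : ι → ℕ)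
    (D : Matrix ι ι (PS k (r + 1))) : Prop :=
  ∀ (N0 : ℕ) (ν : Fin r → ℤ) (N : ℕ) (l : ℕ → ℕ), Antitone l → (∀ p, L ≤ l p) → N + L ≤ N0 →
    ∀ n, ∀ z ∈ XF k N0 ν N l deg n, DD θ D z = 0 →
      ∃ w ∈ XF k N0 ν (N + L) (fun p => l p - L) deg (n + 1), DD θ D w = (gg θ γ ι ^ (r + 1)) z

structure Good (θ : PS k (r + 1) →ₐ[k] LL k r) (γ : PS k (r + 1)) (L : ℕ) (deg : ι → ℕ)
    (D : Matrix ι ι (PS k (r + 1))) : Prop where
  gr : Gr deg deg (-1) D
  dd : D * D = 0
  le : ∀ i, deg i ≤ r + 1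
  gho : Gho θ γ L deg D

/-- the twists -/
def nu (s L : ℕ) (κ : Fin (r + 1)) (a : Fin r) : ℤ :=
  s * ((κ.succAbove a : ℕ) + 1) + (if κ.succAbove a < κ then 1 else 0) - 1 + L

/-- the strand used in the definition of `eu`; true level `0` is `L + s (r + 1)` -/
def XE (k : Type u) [Field k] (s L : ℕ) (κ : Fin (r + 1)) (l : ℕ → ℕ) (deg : ι → ℕ) :
    ℤ → Submodule k (ι × FJ r → LL k r) :=
  XF k (2 * L + s * (r + 1)) (nu s L κ) (L + s * (r + 1)) l deg

/-- approximate Euler characteristic -/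
noncomputable def eu (θ : PS k (r + 1) →ₐ[k] LL k r) (γ : PS k (r + 1)) (s L : ℕ)
    (κ : Fin (r + 1)) (deg : ι → ℕ) (D : Matrix ι ι (PS k (r + 1))) : ℤ :=
  chi (DD θ D) (gg θ γ ι) (r + 1) (r + 1) (XE k s L κ (fun _ => L + s * (r + 1)) deg) fun _ => ⊥

end cech

section loc

/-- Hilbert-Samuel function -/
noncomputable def hs (R : Type*) [CommRing R] [IsLocalRing R] (N : ℕ) : ℕ :=
  (Module.length R (R ⧸ maximalIdeal R ^ N)).toNat

def Mult (R : Type*) [CommRing R] [IsLocalRing R] (d : ℕ) (e : ℝ) : Prop :=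
  Tendsto (fun N : ℕ => (d ! : ℝ) * hs R N / (N : ℝ) ^ d) atTop (𝓝 e)

/-- contains a perfect field -/
def HasPF (R : Type*) [CommRing R] : Prop :=
  ∃ (F : Type) (_ : Field F) (_ : PerfectField F), Nonempty (F →+* R)

/-- complete local with coefficient field `K` -/
structure CL (K R : Type*) [Field K] [CommRing R] [Algebra K R] [IsLocalRing R] : Prop where
  noeth : IsNoetherianRing R
  cpl : IsAdicComplete (maximalIdeal R) R
  res : ∀ b : R, ∃ a : K, b - algebraMap K R a ∈ maximalIdeal R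

/-- flat, local and unramified -/
structure Unr {R S : Type*} [CommRing R] [IsLocalRing R] [CommRing S] [IsLocalRing S]
    (f : R →+* S) : Prop where
  flat : f.Flat
  map : (maximalIdeal R).map f = maximalIdeal S

variable (K : Type u) [Field K] (d : ℕ) {R : Type u} [CommRing R] [Algebra (PS K d) R] [Algebra K R]

/-- `R` is local with maximal ideal `m`, residue field `K`, and the variables generate a
reduction of `m` -/
structure Red (m : Ideal R) (c : ℕ) : Prop where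
  res : ∀ b : R, ∃ a : K, b - algebraMap K R a ∈ m
  ne : m ≠ ⊤
  unit : ∀ b, b ∉ m → IsUnit b
  x : ∀ j, algebraMap (PS K d) R (X j) ∈ m
  red : m ^ (c + 1) ≤ (mx K d).map (algebraMap (PS K d) R) * m ^ c

/-- commuting matrices -/
structure Dat (m : Ideal R) {S : Type u} [CommRing S] {n : Type} [Fintype n] [DecidableEq n]
    (ρ : S →+* Matrix n n R) (y ξ : Fin d → S) (N : ℕ) : Prop where
  ne : Nonempty n
  sc : ∀ j, ρ (ξ j) = algebraMap (PS K d) R (X j) • (1 : Matrix n n R)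
  pw : ∀ j, ξ j ^ N ∈ Ideal.span (Set.range y)
  nil : ∀ l i i', (ρ (y l) ^ N) i i' ∈ m

/-- the submodule `Σ Y_l ^ t F` -/
noncomputable def imY {A : Type*} [CommRing A] {n β : Type*} [Fintype n] [DecidableEq n]
    (Y : β → Matrix n n A) (t : ℕ) : Submodule A (n → A) :=
  ⨆ l, LinearMap.range (Y l ^ t).mulVecLin

end loc

end Vale.Agent.P202
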