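import Vale.Agent.P202.Car2
import Vale.Agent.P202.Fr1
import Vale.Agent.P202.Fr2

/-! Blockwise transport of matrices. -/

open Finset Matrix MvPowerSeries Filter Topology IsLocalRing
open scoped Kronecker Nat

namespace Vale.Agent.P202

universe u

namespace Db

section bl
variable {A T : Type u} [CommRing A] [CommRing T] {κ ι ι' ι'' τ τ' τ'' : Type}
  (Φ : T →+ Matrix κ κ A)

def bl (e' : τ' ≃ ι' × κ) (e : τ ≃ ι × κ) (M : Matrix ι' ι T) : Matrix τ' τ A :=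
  fun x y => Φ (M (e' x).1 (e y).1) (e' x).2 (e y).2

variable (e'' : τ'' ≃ ι'' × κ) (e' : τ' ≃ ι' × κ) (e : τ ≃ ι × κ)

theorem bl_add (M N : Matrix ι' ι T) : bl Φ e' e (M + N) = bl Φ e' e M + bl Φ e' e N := by
  ext x y; simp [bl]

theorem bl_zero : bl Φ e' e (0 : Matrix ι' ι T) = 0 := by
  ext x y; simp [bl]

theorem bl_sum {γ : Type*} (s : Finset γ) (M : γ → Matrix ι' ι T) :
    bl Φ e' e (∑ j ∈ s, M j) = ∑ j ∈ s, bl Φ e' e (M j) := by
  ext x y; simp [bl, Matrix.sum_apply]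

theorem bl_gr {d : ι → ℕ} {d' : ι' → ℕ} {j : ℤ} {M : Matrix ι' ι T} (h : Gr d d' j M) :
    Gr (fun x => d (e x).1) (fun x => d' (e' x).1) j (bl Φ e' e M) :=
  fun x y hne => h _ _ fun h0 => hne (by simp [bl, h0])

theorem bl_bt {o : κ → ℕ} (h : ∀ b, Bt o (Φ b)) (M : Matrix ι ι T) :
    Bt (fun x => o (e x).2) (bl Φ e e M) := fun _ _ hne => h _ _ _ hne

theorem bl_kos {β : Type} [Fintype β] [DecidableEq β] (Y : β → Matrix ι ι T) (d : Matrix ι ι T) :
    bl Φ (Equiv.prodAssoc _ _ _).symm (Equiv.prodAssoc _ _ _).symm (KosC Y d) =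
      KosC (fun l => bl Φ (Equiv.refl _) (Equiv.refl _) (Y l))
        (bl Φ (Equiv.refl _) (Equiv.refl _) d) := by
  ext ⟨I, i, a⟩ ⟨J, j, b⟩
  have : ∀ (R : Type u) [CommRing R], sgn R β I J = (sgn ℤ β I J : ℤ) := fun R _ => by
    simp [sgn, diagonal_apply]
  simp only [bl, KosC, Kos, Matrix.sum_apply, Matrix.add_apply, kroneckerMap_apply, map_apply,
    map_sum, map_add, Equiv.prodAssoc_symm_apply, Equiv.refl_apply, this]
  simp only [← zsmul_eq_mul, map_zsmul, Matrix.smul_apply]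

variable [Algebra A T] [Fintype κ] [DecidableEq κ] {Φ} {δ : A} {q : ℕ} (h : Ph δ q Φ)
include h

theorem bl_smul (a : A) (M : Matrix ι' ι T) :
    bl Φ e' e (algebraMap A T a • M) = a ^ q • bl Φ e' e M := by
  ext x y; simp [bl, h.sc]

theorem bl_mul [Fintype ι'] [Fintype τ'] (M : Matrix ι'' ι' T) (N : Matrix ι' ι T) :
    bl Φ e'' e' M * bl Φ e' e N = δ • bl Φ e'' e (M * N) := by
  ext x y
  simp only [bl, mul_apply, Matrix.smul_apply, map_sum, Matrix.sum_apply, smul_sum]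
  rw [← e'.symm.sum_comp, Fintype.sum_prod_type]
  refine sum_congr rfl fun i _ => ?_
  simp only [Equiv.apply_symm_apply]
  rw [← mul_apply, h.mul, Matrix.smul_apply]

theorem bl_one [DecidableEq ι] [DecidableEq τ] :
    bl Φ e e (1 : Matrix ι ι T) = δ • (1 : Matrix τ τ A) := by
  ext x y
  by_cases c : (e x).1 = (e y).1
  · have : x = y ↔ (e x).2 = (e y).2 := ⟨fun c' => c' ▸ rfl, fun c' => e.injective (Prod.ext c c')⟩
    simp [bl, c, h.one, one_apply, this]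
  · have : x ≠ y := fun c' => c (c' ▸ rfl)
    simp [bl, c, this]

variable [Fintype ι] [Fintype τ] [DecidableEq ι] [DecidableEq τ]

theorem bl_pow (M : Matrix ι ι T) (t : ℕ) :
    bl Φ e e M ^ (t + 1) = δ ^ t • bl Φ e e (M ^ (t + 1)) := by
  induction t with
  | zero => simp
  | succ t ih => rw [pow_succ, ih, smul_mul_assoc, bl_mul _ _ _ h, smul_smul, ← pow_succ, ← pow_succ]

theorem bl_dom [Fintype ι'] [Fintype τ'] [DecidableEq ι'] [DecidableEq τ'] {d : ι → ℕ}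
    {d' : ι' → ℕ} {D : Matrix ι ι T} {D' : Matrix ι' ι' T} (H : Dom 1 d D d' D') (t : ℕ) :
    Dom (δ ^ (t + 2)) (fun x => d (e x).1) (bl Φ e e D) (fun x => d' (e' x).1) (bl Φ e' e' D') := by
  obtain ⟨P, Q, H, h1, h2, h3, h4, h5, h6⟩ := H
  refine ⟨bl Φ e' e P, δ ^ t • bl Φ e e' Q, δ ^ t • bl Φ e e H, bl_gr _ _ _ h1,
    (bl_gr _ _ _ h2).smul _, (bl_gr _ _ _ h3).smul _, ?_, ?_, ?_⟩
  · rw [bl_mul _ _ _ h, bl_mul _ _ _ h, h4]
  · rw [Matrix.mul_smul, Matrix.smul_mul, bl_mul _ _ _ h, bl_mul _ _ _ h, h5]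
  · simp only [Matrix.mul_smul, Matrix.smul_mul, bl_mul _ _ _ h, ← smul_add, ← bl_add]
    rw [h6, one_smul, bl_one _ h, smul_smul, smul_smul, ← pow_succ, ← pow_succ]

omit [DecidableEq ι] [DecidableEq τ] in
theorem bl_comm {M N : Matrix ι ι T} (c : Commute M N) : Commute (bl Φ e e M) (bl Φ e e N) := by
  rw [Commute, SemiconjBy, bl_mul _ _ _ h, bl_mul _ _ _ h, c.eq]

omit [Fintype ι] [Fintype τ] in
theorem bl_nul (a : A) (t : ℕ) : δ ^ t • bl Φ e e (algebraMap A T a • (1 : Matrix ι ι T)) =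
    (δ ^ (t + 1) * a ^ q) • (1 : Matrix τ τ A) := by
  rw [bl_smul _ _ h, bl_one _ h, smul_smul, smul_smul]
  congr 1; ring

end bl

section rs
variable {T : Type u} [CommRing T] {J : Ideal T} {c : ℕ} {ι : Type} [Fintype ι] [DecidableEq ι]
  {deg : ι → ℕ} {dF : Matrix ι ι T} {i0 : ι} {d : ℕ}

theorem sc_comm (a : T) (M : Matrix ι ι T) : Commute (a • (1 : Matrix ι ι T)) M :=
  (Commute.one_left M).smul_left a

theorem dec (R : Rs J c deg dF i0) (y : Fin d → T) {b : T}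
    (hb : b ∈ J ⊔ Ideal.span (Set.range y)) : ∃ (a : Fin d → T) (h : Matrix ι ι T),
      Gr deg deg 1 h ∧ ∑ l, (a l • (1 : Matrix ι ι T)) * (y l • 1) + (dF * h + h * dF) = b • 1 := by
  obtain ⟨z, hz, w, hw, rfl⟩ := Submodule.mem_sup.1 hb
  obtain ⟨a, rfl⟩ := Ideal.mem_span_range_iff_exists_fun.1 hw
  obtain ⟨h, h1, h2⟩ := R.nul z hz
  refine ⟨a, h, h1, ?_⟩
  simp [h2, add_smul, sum_smul, smul_smul, add_comm, mul_comm]

end rs

theorem semi {L : Type u} [Field L] [PerfectField L] (p : ℕ) [hp : Fact p.Prime] [CharP L p]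
    {D e lam : ℕ} (B : Ideal (PS L D)) (h : cl L B ≤ lam) (P : Submodule L (PS L D))
    (hP : ∀ a ∈ B, a ^ p ^ e ∈ P) : rl P (Pv L {m | ∀ j, p ^ e ∣ m j}) ≤ lam := by
  have : ExpChar L p := ExpChar.prime hp.out
  have : CharP (PS L D) p := charP_of_injective_algebraMap (algebraMap L _).injective p
  have hp0 := hp.out.ne_zero
  obtain ⟨n, s, hn, hs⟩ := Fr1m.span_of_cl h
  refine (rl_le_of_map (Fintype.linearCombination L fun j => s j ^ p ^ e) (P := ⊥) (Q := ⊤)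
    (by simp) fun f hf => ?_).trans ?_
  · let g : PS L D := fun m => coeff (p ^ e • m) f
    have h1 : expand (p ^ e) (pow_ne_zero e hp0) g = f := by
      ext m
      by_cases c : ∀ j, p ^ e ∣ m j
      · obtain ⟨m', rfl⟩ : ∃ m', m = p ^ e • m' := ⟨m.mapRange (· / p ^ e) (by simp), by
          ext j; simp [Nat.mul_div_cancel' (c j)]⟩
        rw [coeff_expand_smul]; rfl
      · obtain ⟨j, hj⟩ := not_forall.1 c
        rw [coeff_expand_of_not_dvd _ _ _ hj, not_not.1 (mt (hf m) c)]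
    have h2 : (map (iterateFrobeniusEquiv L p e).symm.toRingHom g) ^ p ^ e = f := by
      rw [← map_iterateFrobenius_expand p hp0, map_expand, ← h1]
      congr 1
      ext m
      exact (iterateFrobeniusEquiv L p e).apply_symm_apply _
    obtain ⟨a, ha⟩ := hs (map (iterateFrobeniusEquiv L p e).symm.toRingHom g)
    have h3 := hP _ ha
    rw [sub_pow_char_pow, h2, sum_pow_char_pow] at h3
    refine Submodule.mem_sup.2 ⟨_, h3, _, ⟨fun j => a j ^ p ^ e, trivial, rfl⟩, ?_⟩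
    simp [Fintype.linearCombination_apply, smul_pow]
  · rw [rl_top, (Submodule.quotEquivOfEqBot _ rfl).length_eq, Module.length_eq_finrank]
    simpa using hn

theorem lim2 {p a b g c r : ℕ} (hp : 1 < p) (h : ∀ e s, 1 ≤ s → s + c = p ^ e →
    a * s ^ (r + 1) ≤ b * (s + c) ^ (r + 1) + g * (e + 1) * (s + c) ^ r) : a ≤ b := by
  by_contra hab
  obtain ⟨G, hG⟩ : ∃ G, G = c + g + a * ((r + 1) * c) + 1 := ⟨_, rfl⟩
  have h0 := Nat.lt_pow_self (n := 2 * G) hp
  have h1 : G * (2 * (2 * G) + 1) < p ^ (2 * (2 * G)) := by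
    rw [mul_comm 2 (2 * G), pow_mul]; nlinarith
  have h1' : G ≤ G * (2 * (2 * G) + 1) := Nat.le_mul_of_pos_right _ (by omega)
  obtain ⟨s, hs⟩ : ∃ s, s + c = p ^ (2 * (2 * G)) := ⟨_, Nat.sub_add_cancel (by omega)⟩
  have h2 := h _ s (by omega) hs
  rw [← hs] at h1
  have h3 := Nat.mul_le_mul_left a (F2.bern s c r)
  have h4 : (b + 1) * (s + c) ^ (r + 1) ≤ a * (s + c) ^ (r + 1) := by gcongr; omega
  have h5 : (s + c) * (s + c) ^ r ≤ (g * (2 * (2 * G) + 1) + a * ((r + 1) * c)) * (s + c) ^ r := by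
    rw [← pow_succ']; nlinarith
  have h6 := Nat.le_of_mul_le_mul_right h5 (Nat.pow_pos (by omega))
  have h7 : (g + a * ((r + 1) * c)) * (2 * (2 * G) + 1) ≤ G * (2 * (2 * G) + 1) := by
    gcongr; omega
  nlinarith [Nat.zero_le (a * ((r + 1) * c) * G)]

end Db

end Vale.Agent.P202
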