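import Vale.Agent.P202.Base

/-! Module F2, first part: transporting matrices over `R` to matrices over `A`. -/

open Finset Matrix MvPowerSeries Filter Topology IsLocalRing
open scoped Kronecker Nat

namespace Vale.Agent.P202

namespace F2

/-- a lattice in `R` up to the factor `δ`, and an endomorphism `F` of `R` -/
structure Lt (A R κ : Type*) [CommRing A] [CommRing R] [Algebra A R] where
  al : (κ → A) →ₗ[A] R
  be : R →ₗ[A] (κ → A)
  δ : A
  F : R →+* R
  ba : ∀ w, be (al w) = δ • w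
  ab : ∀ x, al (be x) = δ • x

theorem exLt (A R : Type*) [CommRing A] [IsDomain A] [CommRing R] [IsDomain R] [Algebra A R]
    [Module.Finite A R] (h : 0 < Module.finrank A R) :
    ∃ (al : (Fin (Module.finrank A R) → A) →ₗ[A] R) (be : R →ₗ[A] (Fin (Module.finrank A R) → A))
      (δ : A), δ ≠ 0 ∧ (∀ w, be (al w) = δ • w) ∧ ∀ x, al (be x) = δ • x := by
  obtain ⟨v, hv⟩ := exists_linearIndependent_of_le_finrank (R := A) (M := R) le_rfl
  have hi := hv.fintypeLinearCombination_injective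
  set al := Fintype.linearCombination A v
  have h1 := Module.finrank_quotient_add_finrank_le (LinearMap.range al)
  rw [LinearMap.finrank_range_of_inj hi, Module.finrank_fin_fun] at h1
  obtain ⟨δ, d1, d2⟩ := Submodule.annihilator_top_inter_nonZeroDivisors
    (Module.finrank_eq_zero_iff_isTorsion.1
      (show Module.finrank A (R ⧸ LinearMap.range al) = 0 by omega))
  have d3 : ∀ x : R, (δ • LinearMap.id : R →ₗ[A] R) x ∈ LinearMap.range al := fun x => by
    rw [← Submodule.Quotient.mk_eq_zero]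
    exact Submodule.mem_annihilator.1 d1 (Submodule.Quotient.mk x) trivial
  have ab : ∀ x, al ((LinearEquiv.ofInjective al hi).symm (LinearMap.codRestrict _ _ d3 x)) =
      δ • x := fun x => LinearEquiv.ofInjective_symm_apply ..
  exact ⟨al, (LinearEquiv.ofInjective al hi).symm.toLinearMap ∘ₗ LinearMap.codRestrict _ _ d3, δ,
    nonZeroDivisors.ne_zero d2, fun w => hi ((ab _).trans (map_smul al δ w).symm), ab⟩

namespace Lt

variable {A R κ : Type*} [CommRing A] [CommRing R] [Algebra A R] (L : Lt A R κ)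
  {ι ι' ι'' τ τ' τ'' : Type*}

/-- blockwise `al` -/
def up (e : τ ≃ ι × κ) : (τ → A) →ₗ[A] (ι → R) :=
  LinearMap.pi fun i => L.al ∘ₗ LinearMap.funLeft A A fun b => e.symm (i, b)

/-- blockwise `be` -/
def dn (e : τ ≃ ι × κ) : (ι → R) →ₗ[A] (τ → A) :=
  LinearMap.pi fun x => LinearMap.proj (e x).2 ∘ₗ L.be ∘ₗ LinearMap.proj (e x).1

theorem up_apply (e : τ ≃ ι × κ) (w : τ → A) (i : ι) : L.up e w i = L.al fun b => w (e.symm (i, b)) :=
  rfl

theorem dn_apply (e : τ ≃ ι × κ) (v : ι → R) (x : τ) : L.dn e v x = L.be (v (e x).1) (e x).2 := rfl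

theorem up_dn (e : τ ≃ ι × κ) (v : ι → R) : L.up e (L.dn e v) = L.δ • v := by
  ext i
  simp only [up_apply, dn_apply, Equiv.apply_symm_apply]
  exact L.ab _

theorem dn_up (e : τ ≃ ι × κ) (w : τ → A) : L.dn e (L.up e w) = L.δ • w := by
  ext x
  simp [up_apply, dn_apply, L.ba]

variable [Fintype κ] [DecidableEq κ]

/-- the transported matrix -/
def ph (e' : τ' ≃ ι' × κ) (e : τ ≃ ι × κ) (M : Matrix ι' ι R) : Matrix τ' τ A :=
  fun x y => L.be (L.F (M (e' x).1 (e y).1) * L.al (Pi.single (e y).2 1)) (e' x).2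

variable (e'' : τ'' ≃ ι'' × κ) (e' : τ' ≃ ι' × κ) (e : τ ≃ ι × κ)

theorem ph_add (M N : Matrix ι' ι R) : L.ph e' e (M + N) = L.ph e' e M + L.ph e' e N := by
  ext x y; simp [ph, add_mul]

theorem ph_zero : L.ph e' e (0 : Matrix ι' ι R) = 0 := by
  ext x y; simp [ph]

theorem ph_sum {γ : Type*} (s : Finset γ) (M : γ → Matrix ι' ι R) :
    L.ph e' e (∑ j ∈ s, M j) = ∑ j ∈ s, L.ph e' e (M j) := by
  ext x y; simp [ph, Matrix.sum_apply, sum_mul]

theorem ph_smul {a b : A} (h : L.F (algebraMap A R a) = algebraMap A R b) (M : Matrix ι' ι R) :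
    L.ph e' e (algebraMap A R a • M) = b • L.ph e' e M := by
  ext x y
  simp only [ph, Matrix.smul_apply, smul_eq_mul, map_mul, h, mul_assoc]
  rw [← Algebra.smul_def, map_smul]; rfl

theorem ph_gr {d : ι → ℕ} {d' : ι' → ℕ} {j : ℤ} {M : Matrix ι' ι R} (h : Gr d d' j M) :
    Gr (fun x => d (e x).1) (fun x => d' (e' x).1) j (L.ph e' e M) :=
  fun x y hne => h _ _ fun h0 => hne (by simp [ph, h0])

theorem ph_mem {I : Ideal A} {M : Matrix ι' ι R} (h : ∀ i j, L.F (M i j) ∈ I.map (algebraMap A R))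
    (x : τ') (y : τ) : L.ph e' e M x y ∈ I := by
  have key : ∀ z ∈ I • (⊤ : Submodule A R), L.be z (e' x).2 ∈ I := fun z hz =>
    Submodule.smul_induction_on hz
      (fun a ha w _ => by rw [map_smul]; exact I.mul_mem_right _ ha)
      fun a b ha hb => by rw [map_add]; exact I.add_mem ha hb
  refine key _ ?_
  rw [Ideal.smul_top_eq_map]
  exact Ideal.mul_mem_right _ _ (h _ _)

variable [Fintype ι] [Fintype τ]

theorem ph_mulVec (M : Matrix ι' ι R) (w : τ → A) :
    L.ph e' e M *ᵥ w = L.dn e' (M.map L.F *ᵥ L.up e w) := by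
  ext x
  have h : ∀ i, L.up e w i = ∑ b, w (e.symm (i, b)) • L.al (Pi.single b 1) := fun i => by
    rw [up_apply, LinearMap.pi_apply_eq_sum_univ]
    refine sum_congr rfl fun b _ => congrArg (_ • L.al ·) (funext fun c => ?_)
    simp [Pi.single_apply, eq_comm]
  simp only [mulVec, dotProduct, dn_apply, h, ph, map_apply, mul_sum, map_sum, mul_smul_comm,
    map_smul, Finset.sum_apply, Pi.smul_apply, smul_eq_mul]
  rw [← e.symm.sum_comp, Fintype.sum_prod_type]
  simp only [Equiv.apply_symm_apply, mul_comm]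

theorem ph_mul [Fintype ι'] [Fintype τ'] (M : Matrix ι'' ι' R) (N : Matrix ι' ι R) :
    L.ph e'' e' M * L.ph e' e N = L.δ • L.ph e'' e (M * N) := by
  refine ext_iff_mulVec.2 fun w => ?_
  rw [← mulVec_mulVec, ph_mulVec, ph_mulVec, up_dn, smul_mulVec, ph_mulVec, mulVec_smul, map_smul,
    mulVec_mulVec, Matrix.map_mul]

theorem ph_one [DecidableEq ι] [DecidableEq τ] :
    L.ph e e (1 : Matrix ι ι R) = L.δ • (1 : Matrix τ τ A) := by
  refine ext_iff_mulVec.2 fun w => ?_
  rw [ph_mulVec, Matrix.map_one _ (map_zero _) (map_one _), one_mulVec, dn_up, smul_mulVec,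
    one_mulVec]

theorem ph_pow [DecidableEq ι] [DecidableEq τ] (M : Matrix ι ι R) (t : ℕ) :
    L.ph e e M ^ (t + 1) = L.δ ^ t • L.ph e e (M ^ (t + 1)) := by
  induction t with
  | zero => simp
  | succ t ih => rw [pow_succ, ih, smul_mul_assoc, ph_mul, smul_smul, ← pow_succ, ← pow_succ]

theorem ph_dom [DecidableEq ι] [DecidableEq τ] [Fintype ι'] [Fintype τ'] [DecidableEq ι']
    [DecidableEq τ'] {d : ι → ℕ} {d' : ι' → ℕ} {D : Matrix ι ι R} {D' : Matrix ι' ι' R}
    (h : Dom 1 d D d' D') (t : ℕ) : Dom (L.δ ^ (t + 2)) (fun x => d (e x).1) (L.ph e e D)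
      (fun x => d' (e' x).1) (L.ph e' e' D') := by
  obtain ⟨P, Q, H, h1, h2, h3, h4, h5, h6⟩ := h
  refine ⟨L.ph e' e P, L.δ ^ t • L.ph e e' Q, L.δ ^ t • L.ph e e H, L.ph_gr _ _ h1,
    (L.ph_gr _ _ h2).smul _, (L.ph_gr _ _ h3).smul _, ?_, ?_, ?_⟩
  · rw [ph_mul, ph_mul, h4]
  · rw [Matrix.mul_smul, Matrix.smul_mul, ph_mul, ph_mul, h5]
  · simp only [Matrix.mul_smul, Matrix.smul_mul, ph_mul, ← smul_add, ← ph_add]
    rw [h6, one_smul, ph_one, smul_smul, smul_smul, ← pow_succ, ← pow_succ]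

theorem ph_kos {β : Type*} [Fintype β] [DecidableEq β] [DecidableEq ι] (Y : β → Matrix ι ι R) :
    L.ph (Equiv.prodAssoc _ _ _).symm (Equiv.prodAssoc _ _ _).symm (Kos Y) =
      Kos fun l => L.ph (Equiv.refl _) (Equiv.refl _) (Y l) := by
  ext ⟨I, i, a⟩ ⟨J, j, b⟩
  simp only [ph, Kos, Matrix.sum_apply, kroneckerMap_apply, map_apply, map_sum, map_mul,
    map_intCast, sum_mul, Finset.sum_apply, Equiv.prodAssoc_symm_apply, Equiv.refl_apply,
    mul_assoc]
  simp only [← zsmul_eq_mul, map_zsmul, Pi.smul_apply]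

theorem mem_imY [DecidableEq ι] [DecidableEq τ] {β : Type*} (Y : β → Matrix ι ι R) (t : ℕ)
    {w : τ → A} (h : L.up e w ∈ imY (fun l => (Y l ^ (t + 1)).map L.F) 1) :
    L.δ ^ (t + 2) • w ∈ imY (fun l => L.ph e e (Y l)) (t + 1) := by
  have key : ∀ x ∈ imY (fun l => (Y l ^ (t + 1)).map L.F) 1,
      L.δ ^ (t + 1) • L.dn e x ∈ imY (fun l => L.ph e e (Y l)) (t + 1) := fun x hx => by
    refine Submodule.iSup_induction _ (motive := fun x => L.δ ^ (t + 1) • L.dn e x ∈
      imY (fun l => L.ph e e (Y l)) (t + 1)) hx ?_ (by simp) fun a b ha hb => ?_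
    · rintro l _ ⟨u, rfl⟩
      refine Submodule.mem_iSup_of_mem l ⟨L.dn e u, ?_⟩
      rw [mulVecLin_apply, mulVecLin_apply, ph_pow, smul_mulVec, ph_mulVec, up_dn, mulVec_smul,
        map_smul, smul_smul, ← pow_succ, pow_one]
    · rw [map_add, smul_add]; exact add_mem ha hb
  have := key _ h
  rwa [dn_up, smul_smul, ← pow_succ] at this

end Lt

end F2

end Vale.Agent.P202
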