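import Vale.Agent.P202.Defs

/-! Exact statements of the modules. See `notes/P202.md` for the proofs. -/

open Finset Matrix MvPowerSeries Filter Topology IsLocalRing
open scoped Kronecker Nat

namespace Vale.Agent.P202

universe u

/-! ### Module L (Lat.lean) -/

structure Lat {k E : Type u} [Field k] [AddCommGroup E] [Module k E] (D g : Module.End k E) :
    Prop where
  sub : ∀ X X' X'', CxD D X → CxD D X' → CxD D X'' → X'' ≤ X' → X' ≤ X →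
    ∀ n, hh D g 0 X X'' n ≤ hh D g 0 X' X'' n + hh D g 0 X X' n
  anti : ∀ c X X', Cx D g X → Cx D g X' → ∀ n, hh D g c X X' n ≤ hh D g 0 X X' n
  add : ∀ (c τ L : ℕ) X X' X'', Cx D g X → Cx D g X' → Cx D g X'' → X'' ≤ X' → X' ≤ X →
    (∀ n, (L : ℤ) < |n| → X n = ⊥) → Tame D g c τ X X'' → Tame D g c τ X' X'' →
    Tame D g c τ X X' →
    |chi D g c L X X'' - chi D g c L X' X'' - chi D g c L X X'| ≤ 3 * (2 * L + 1) * c * τ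
  fin : ∀ (c τ L : ℕ) X X', Cx D g X → Cx D g X' → X' ≤ X → (∀ n, (L : ℤ) < |n| → X n = ⊥) →
    Fn g τ X X' → Tame D g c τ X X' ∧
      |chi D g c L X X' - ∑ n ∈ Icc (-L : ℤ) L, (n.negOnePow : ℤ) * (rl (X' n) (X n)).toNat| ≤
        (2 * L + 1) * c * τ
  up : ∀ (c τ : ℕ) X X₁, Cx D g X → Cx D g X₁ → X₁ ≤ X → Fn g τ X X₁ →
    (∀ n, ∀ z ∈ X₁ n, D z = 0 → ∃ w ∈ X (n + 1), D w = (g ^ c) z) →
    Tame D g c τ X (fun _ => ⊥) ∧ ∀ n, hh D g c X (fun _ => ⊥) n ≤ hh D g 0 X X₁ n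
  down : ∀ (c : ℕ) X X₂ n, Cx D g X → Cx D g X₂ → X ≤ X₂ →
    (∀ z ∈ X n, D z = 0 → ∃ w ∈ X₂ (n + 1), D w = (g ^ c) z) →
    hh D g c X (fun _ => ⊥) n ≤ hh D g 0 X₂ X (n + 1)
  red : ∀ X X' n, hh D g 0 X X' (n + 1) = 0 → ∀ w ∈ X (n + 1), D w ∈ X' n →
    ∃ w' ∈ X' (n + 1), D w' = D w
  eqv : ∀ (E' : Type u) [AddCommGroup E'] [Module k E'] (D' g' : Module.End k E') X X' Y Y'
    (P : E →ₗ[k] E') (Q : E' →ₗ[k] E) (c j : ℕ) (n : ℤ), Cx D g X → Cx D g X' →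
    (∀ y, g (Q y) = Q (g' y)) → (∀ z ∈ Zc D X X' n, P z ∈ Zc D' Y Y' n) →
    (∀ y ∈ Bc D' Y Y' n, Q y ∈ Bc D X X' n) →
    (∀ z ∈ Zc D X X' n, Q (P z) - (g ^ j) z ∈ Bc D X X' n) →
    hh D g (c + j) X X' n ≤ hh D' g' c Y Y' n

def LatStmt : Prop := ∀ (k E : Type u) [Field k] [AddCommGroup E] [Module k E]
  (D g : Module.End k E), D * D = 0 → Commute D g → Lat D g

/-! ### Module C (Cb.lean): cohomology of line bundles on products of lines -/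

def CbStmt : Prop := ∀ (k : Type u) [Field k] (r : ℕ) (θ : PS k (r + 1) →ₐ[k] LL k r)
  (ι : Type) [Fintype ι] [DecidableEq ι] (deg : ι → ℕ) (D : Matrix ι ι (PS k (r + 1)))
  (g : Module.End k (ι × FJ r → LL k r)) (N0 : ℕ) (ν : Fin r → ℤ) (Ω Ω' : ℕ → Set (Mon r)),
  Gr deg deg (-1) D → D * D = 0 → (∀ p, Ω' p ⊆ Ω p) → CxD (DD θ D) (XS k N0 ν deg Ω) →
  CxD (DD θ D) (XS k N0 ν deg Ω') →
  (∀ n, hh (DD θ D) g 0 (XS k N0 ν deg Ω) (XS k N0 ν deg Ω') n ≤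
    ∑ i, Set.encard {e | e ∈ Ω (deg i) ∧ e ∉ Ω' (deg i) ∧ typ N0 ν e (deg i - n)}) ∧
  ((∀ p, ∀ e ∈ Ω p, e ∉ Ω' p → typ N0 ν e 0) → ∀ n, hh (DD θ D) g 0
    (XX k deg fun p J => (Ω' p ∪ {e | e ∈ Ω p ∧ ∃ a, (a, false) ∈ J}) ∩ cond N0 ν J)
    (XS k N0 ν deg Ω') n = 0)

/-! ### Module N (Num.lean): dimension counts -/

def NumStmt : Prop := ∀ (k : Type u) [Field k] (r : ℕ) (ι : Type) [Fintype ι] [DecidableEq ι]
  (deg : ι → ℕ) (N0 : ℕ) (ν : Fin r → ℤ) (N : ℕ) (l l' : ℕ → ℕ), (∀ i, deg i ≤ r + 1) → N ≤ N0 →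
  (∀ p, l p ≤ l' p) → (∀ p a, (N0 : ℤ) ≤ ν a + l p + N + 1) →
  ∑ n ∈ Icc (-(r + 1 : ℕ) : ℤ) (r + 1 : ℕ), (n.negOnePow : ℤ) *
      (rl (XF k N0 ν N l' deg n) (XF k N0 ν N l deg n)).toNat =
    ∑ i, (-1) ^ deg i * ∑ m ∈ Ico (l (deg i)) (l' (deg i)), ∏ a, (ν a + m - N0 + 1)

def TauStmt : Prop := ∀ (k : Type u) [Field k] (r : ℕ) (θ : PS k (r + 1) →ₐ[k] LL k r), Th0 θ →
  ∀ (γ : PS k (r + 1)) (o : ℕ), γ.order ≤ (o : ℕ∞) → ∀ (ι : Type) [Fintype ι] [DecidableEq ι]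
  (deg : ι → ℕ) (N0 : ℕ) (ν : Fin r → ℤ) (N : ℕ) (l l' : ℕ → ℕ) (w : ℕ), (∀ p, l p ≤ l' p) →
  (∀ p a, ν a + l' p + 2 * N + 1 ≤ N0 + w) →
  Fn (gg θ γ ι) (Fintype.card ι * 4 ^ r * o * w ^ r) (XF k N0 ν N l deg) (XF k N0 ν N l' deg)

/-! ### Modules S1 (Seg1.lean), S2 (Seg2.lean), G (Gh.lean) -/

def Seg1Stmt : Prop := ∀ (k : Type u) [Field k] (r : ℕ), ∃ θ : PS k (r + 1) →ₐ[k] LL k r, Th0 θ

def Seg2Stmt : Prop := ∀ (k : Type u) [Field k] (r : ℕ) (θ : PS k (r + 1) →ₐ[k] LL k r),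
  Th0 θ → Th θ

def GhStmt : Prop := ∀ (k : Type u) [Field k] (r : ℕ) (θ : PS k (r + 1) →ₐ[k] LL k r), Th0 θ →
  ∃ c : ℕ, ∀ (γ : PS k (r + 1)) (M : ℕ) (ι : Type) [Fintype ι] [DecidableEq ι] (deg : ι → ℕ)
    (D : Matrix ι ι (PS k (r + 1))), Gd γ M deg D → Gho θ γ (c * M) deg D

/-! ### Modules T (Tam.lean), E1 (E1.lean), E3 (E3.lean), E4 (E4.lean) -/

def tau (r o s L n : ℕ) : ℕ := n * 4 ^ r * o * (4 * (r + 1) * (L + s + 1)) ^ r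

/-- entries of order at least `σ` and slope at most `σ` -/
def Slope {k : Type u} [Field k] {r : ℕ} {ι : Type} (D : Matrix ι ι (PS k (r + 1))) (l : ℕ → ℕ) :
    Prop := Antitone l ∧ ∃ σ : ℕ, (∀ i j, (σ : ℕ∞) ≤ (D i j).order) ∧ ∀ p, l p ≤ l (p + 1) + σ

structure Tm {k : Type u} [Field k] {r : ℕ} (θ : PS k (r + 1) →ₐ[k] LL k r) (γ : PS k (r + 1))
    (o s L : ℕ) (κ : Fin (r + 1)) {ι : Type} [Fintype ι] [DecidableEq ι] (deg : ι → ℕ)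
    (D : Matrix ι ι (PS k (r + 1))) : Prop where
  lat : Lat (DD θ D) (gg θ γ ι)
  cx : ∀ l, Slope D l → Cx (DD θ D) (gg θ γ ι) (XE k s L κ l deg)
  bd : ∀ l n, ((r + 1 : ℕ) : ℤ) < |n| → XE k s L κ l deg n = ⊥
  gh : ∀ l, Slope D l → (∀ p, L ≤ l p) → ∀ n, ∀ z ∈ XE k s L κ l deg n, DD θ D z = 0 →
    ∃ w ∈ XE k s L κ (fun p => l p - L) deg (n + 1), DD θ D w = (gg θ γ ι ^ (r + 1)) z
  fn : ∀ l l' : ℕ → ℕ, (∀ p, l p ≤ l' p) → (∀ p, l' p ≤ 2 * L + s * (r + 1)) →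
    Fn (gg θ γ ι) (tau r o s L (Fintype.card ι)) (XE k s L κ l deg) (XE k s L κ l' deg)
  tame : ∀ l, Slope D l → (∀ p, l p ≤ L + s * (r + 1)) →
    Tame (DD θ D) (gg θ γ ι) (r + 1) (tau r o s L (Fintype.card ι)) (XE k s L κ l deg)
      (fun _ => ⊥) ∧ ∀ n, hh (DD θ D) (gg θ γ ι) (r + 1) (XE k s L κ l deg) (fun _ => ⊥) n ≤
        hh (DD θ D) (gg θ γ ι) 0 (XE k s L κ l deg) (XE k s L κ (fun p => l p + L) deg) n

def TamStmt : Prop := ∀ (k : Type u) [Field k] (r : ℕ) (θ : PS k (r + 1) →ₐ[k] LL k r), Th0 θ →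
  ∀ (γ : PS k (r + 1)) (o s L : ℕ) (κ : Fin (r + 1)) (ι : Type) [Fintype ι] [DecidableEq ι]
  (deg : ι → ℕ) (D : Matrix ι ι (PS k (r + 1))), γ.order ≤ (o : ℕ∞) → 1 ≤ s →
  Good θ γ L deg D → Tm θ γ o s L κ deg D

def E1Stmt : Prop := ∀ (k : Type u) [Field k] (r : ℕ) (θ : PS k (r + 1) →ₐ[k] LL k r), Th0 θ →
  ∀ (γ : PS k (r + 1)) (o s L : ℕ) (κ : Fin (r + 1)) (ι ι' : Type) [Fintype ι] [DecidableEq ι]
  [Fintype ι'] [DecidableEq ι'] (deg : ι → ℕ) (D : Matrix ι ι (PS k (r + 1))) (deg' : ι' → ℕ)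
  (D' : Matrix ι' ι' (PS k (r + 1))), Tm θ γ o s L κ deg D → Tm θ γ o s L κ deg' D' →
  Dom γ deg D deg' D' → Dom γ deg' D' deg D →
  |eu θ γ s L κ deg D - eu θ γ s L κ deg' D'| ≤
    (2 * r + 3) * tau r o s L (Fintype.card ι + Fintype.card ι')

/-- `D` is block triangular with diagonal blocks `D₁` (sub) and `D₂` (quotient) -/
structure Tri {A : Type*} [Zero A] {ι ι₁ ι₂ : Type} (e : ι₁ ⊕ ι₂ ≃ ι) (deg : ι → ℕ)
    (D : Matrix ι ι A) (deg₁ : ι₁ → ℕ) (D₁ : Matrix ι₁ ι₁ A) (deg₂ : ι₂ → ℕ)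
    (D₂ : Matrix ι₂ ι₂ A) : Prop where
  g1 : ∀ i, deg (e (.inl i)) = deg₁ i
  g2 : ∀ i, deg (e (.inr i)) = deg₂ i
  d1 : ∀ i j, D (e (.inl i)) (e (.inl j)) = D₁ i j
  d2 : ∀ i j, D (e (.inr i)) (e (.inr j)) = D₂ i j
  d0 : ∀ i j, D (e (.inr i)) (e (.inl j)) = 0

def E2Stmt : Prop := ∀ (k : Type u) [Field k] (r : ℕ) (θ : PS k (r + 1) →ₐ[k] LL k r), Th0 θ →
  ∀ (γ : PS k (r + 1)) (o s L : ℕ) (κ : Fin (r + 1)) (ι ι₁ ι₂ : Type) [Fintype ι] [DecidableEq ι]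
  [Fintype ι₁] [DecidableEq ι₁] [Fintype ι₂] [DecidableEq ι₂] (e : ι₁ ⊕ ι₂ ≃ ι) (deg : ι → ℕ)
  (D : Matrix ι ι (PS k (r + 1))) (deg₁ : ι₁ → ℕ) (D₁ : Matrix ι₁ ι₁ (PS k (r + 1)))
  (deg₂ : ι₂ → ℕ) (D₂ : Matrix ι₂ ι₂ (PS k (r + 1))), Tri e deg D deg₁ D₁ deg₂ D₂ →
  Tm θ γ o s L κ deg D → Tm θ γ o s L κ deg₁ D₁ → Tm θ γ o s L κ deg₂ D₂ →
  |eu θ γ s L κ deg D - eu θ γ s L κ deg₁ D₁ - eu θ γ s L κ deg₂ D₂| ≤
    3 * (2 * r + 3) * (r + 1) * tau r o s L (Fintype.card ι)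

def E3Stmt : Prop := ∀ (k : Type u) [Field k] (r : ℕ) (θ : PS k (r + 1) →ₐ[k] LL k r), Th θ →
  ∃ C : ℕ, ∀ (γ : PS k (r + 1)) (o s L : ℕ) (κ : Fin (r + 1)) (ι : Type) [Fintype ι]
  [DecidableEq ι] (deg : ι → ℕ) (D : Matrix ι ι (PS k (r + 1))), γ.order ≤ (o : ℕ∞) → 1 ≤ s →
  Good θ γ L deg D → Tm θ γ o s L κ deg D →
  ∀ (N : Submodule (PS k (r + 1)) (ι → PS k (r + 1))) (lam : ℕ),
  (∀ v ∈ N, ∃ w, ∀ i, deg i = 0 → γ * v i = (D *ᵥ w) i) → cl k N ≤ lam →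
  eu θ γ s L κ deg D ≤ r ! * lam + Fintype.card ι * (C * (o + s + 1) * (L + s + 1) ^ r)

def E4Stmt : Prop := ∀ (k : Type u) [Field k] (r : ℕ) (θ : PS k (r + 1) →ₐ[k] LL k r), Th0 θ →
  ∀ (γ : PS k (r + 1)) (o s L : ℕ) (ι : Type) [Fintype ι] [DecidableEq ι] (deg : ι → ℕ)
  (D : Matrix ι ι (PS k (r + 1))), 1 ≤ s → Good θ γ L deg D → (∀ κ, Tm θ γ o s L κ deg D) →
  (∀ i j, (s : ℕ∞) ≤ (D i j).order) → ∑ i, (-1 : ℤ) ^ deg i = 0 →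
  (#{i | deg i = 0} * (r + 1)! * s ^ (r + 1) : ℤ) ≤ ∑ κ, eu θ γ s L κ deg D +
    4 * (2 * r + 3) * (r + 1) ^ 2 * tau r o s L (Fintype.card ι)

/-! ### Modules U (Eu.lean), K (Kos.lean), A (CoreA.lean) -/

structure Eu {k : Type u} [Field k] {r : ℕ} (γ : PS k (r + 1)) (M s : ℕ)
    (f : ∀ (ι : Type) [Fintype ι] [DecidableEq ι], (ι → ℕ) → Matrix ι ι (PS k (r + 1)) → ℤ)
    (η η' : ℕ) : Prop where
  e1 : ∀ (ι ι' : Type) [Fintype ι] [DecidableEq ι] [Fintype ι'] [DecidableEq ι'] deg D deg' D',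
    Gd γ M deg D → Gd γ M deg' D' → Dom γ deg D deg' D' → Dom γ deg' D' deg D →
    |f ι deg D - f ι' deg' D'| ≤ (Fintype.card ι + Fintype.card ι') * η
  e2 : ∀ (ι ι₁ ι₂ : Type) [Fintype ι] [DecidableEq ι] [Fintype ι₁] [DecidableEq ι₁] [Fintype ι₂]
    [DecidableEq ι₂] (e : ι₁ ⊕ ι₂ ≃ ι) deg D deg₁ D₁ deg₂ D₂, Tri e deg D deg₁ D₁ deg₂ D₂ →
    Gd γ M deg D → Gd γ M deg₁ D₁ → Gd γ M deg₂ D₂ →
    |f ι deg D - f ι₁ deg₁ D₁ - f ι₂ deg₂ D₂| ≤ Fintype.card ι * η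
  e3 : ∀ (ι : Type) [Fintype ι] [DecidableEq ι] deg D, Gd γ M deg D →
    ∀ (N : Submodule (PS k (r + 1)) (ι → PS k (r + 1))) (lam : ℕ),
    (∀ v ∈ N, ∃ w, ∀ i, deg i = 0 → γ * v i = (D *ᵥ w) i) → cl k N ≤ lam →
    f ι deg D ≤ (r + 1)! * lam + Fintype.card ι * η'
  e4 : ∀ (ι : Type) [Fintype ι] [DecidableEq ι] deg D, Gd γ M deg D →
    (∀ i j, (s : ℕ∞) ≤ (D i j).order) → ∑ i, (-1 : ℤ) ^ deg i = 0 →
    (#{i | deg i = 0} * (r + 1)! * s ^ (r + 1) : ℤ) ≤ f ι deg D + Fintype.card ι * η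

def EuStmt : Prop := ∀ (k : Type u) [Field k] (r : ℕ), ∃ C : ℕ, ∀ (γ : PS k (r + 1)) (o s M : ℕ),
  γ.order ≤ (o : ℕ∞) → 1 ≤ s →
  ∃ f, Eu γ M s f (C * o * (M + s + 1) ^ r) (C * (o + s + 1) * (M + s + 1) ^ r)

/-- commuting matrices whose powers generate `γ x_j ^ M` -/
structure Com {k : Type u} [Field k] {r : ℕ} (γ : PS k (r + 1)) (M t : ℕ) {n : Type} [Fintype n]
    [DecidableEq n] (Y : Fin (r + 1) → Matrix n n (PS k (r + 1))) : Prop where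
  com : ∀ i j, Commute (Y i) (Y j)
  gen : ∀ j, ∃ Z : Fin (r + 1) → Matrix n n (PS k (r + 1)), (∀ l l', Commute (Z l) (Y l')) ∧
    ∑ l, Z l * Y l ^ t = (γ * X j ^ M) • (1 : Matrix n n _)

def KosStmt : Prop := ∀ (k : Type u) [Field k] (r : ℕ) (γ : PS k (r + 1)) (M s η η' : ℕ) f,
  Eu γ M s f η η' → ∀ (t : ℕ) (n : Type) [Fintype n] [DecidableEq n]
  (Y : Fin (r + 1) → Matrix n n (PS k (r + 1))), 1 ≤ t → Com γ M t Y →
  Gd γ M kd (Kos Y) ∧ Gd γ M kd (Kos fun l => Y l ^ t) ∧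
  |f _ kd (Kos fun l => Y l ^ t) - t ^ (r + 1) * f _ kd (Kos Y)| ≤
    5 * (r + 1) * t ^ (r + 1) * (2 ^ (r + 1) * Fintype.card n) * η

def CoreAStmt : Prop := ∀ (k : Type u) [Field k] (r : ℕ), ∃ C : ℕ, ∀ (γ : PS k (r + 1))
  (o s M t : ℕ), γ.order ≤ (o : ℕ∞) → 1 ≤ s → 1 ≤ t → ∀ (n ι : Type) [Fintype n] [DecidableEq n]
  [Fintype ι] [DecidableEq ι] (Y : Fin (r + 1) → Matrix n n (PS k (r + 1))) (deg : ι → ℕ)
  (D : Matrix ι ι (PS k (r + 1))), Com γ M t Y → Gd γ M deg D →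
  (∀ i j, (s : ℕ∞) ≤ (D i j).order) → ∑ i, (-1 : ℤ) ^ deg i = 0 →
  Dom γ deg D kd (Kos Y) → Dom γ kd (Kos Y) deg D →
  ∀ (N : Submodule (PS k (r + 1)) (n → PS k (r + 1))) (lam : ℕ),
  (∀ v ∈ N, γ • v ∈ imY Y t) → cl k N ≤ lam →
  t ^ (r + 1) * #{i | deg i = 0} * s ^ (r + 1) ≤ lam + C * (Fintype.card ι + Fintype.card n) *
    (o * t ^ (r + 1) + s + 1) * (M + s + 1) ^ r

/-! ### Modules M (Min.lean), F1 (Fr1.lean), F2 (Fr2.lean) -/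

def MinStmt : Prop := ∀ (R : Type u) [CommRing R] (m : Ideal R), (∀ b, b ∉ m → IsUnit b) →
  ∀ (ι : Type) [Fintype ι] [DecidableEq ι] (deg : ι → ℕ) (D : Matrix ι ι R),
  Gr deg deg (-1) D → D * D = 0 →
  ∃ (ι' : Type) (_ : Fintype ι') (_ : DecidableEq ι') (deg' : ι' → ℕ) (D' : Matrix ι' ι' R)
    (P : Matrix ι ι' R) (Q : Matrix ι' ι R) (H : Matrix ι ι R),
    Gr deg' deg' (-1) D' ∧ D' * D' = 0 ∧ (∀ i j, D' i j ∈ m) ∧ (∀ i', ∃ i, deg' i' = deg i) ∧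
    ∑ i, (-1 : ℤ) ^ deg' i = ∑ i, (-1 : ℤ) ^ deg i ∧ Gr deg' deg 0 P ∧ Gr deg deg' 0 Q ∧
    Gr deg deg 1 H ∧ D * P = P * D' ∧ D' * Q = Q * D ∧ Q * P = 1 ∧ P * Q + D * H + H * D = 1

def Fr1Stmt : Prop := ∀ (K : Type u) [Field K] [PerfectField K] (p : ℕ) [Fact p.Prime] [CharP K p]
  (d : ℕ) (R : Type u) [CommRing R] [IsDomain R] [Algebra (PS K d) R] [Algebra K R]
  [IsScalarTower K (PS K d) R] [Module.Finite (PS K d) R], 0 < Module.finrank (PS K d) R →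
  ∃ (δ : R) (C : ℕ), δ ≠ 0 ∧ ∀ (e : ℕ) (n β : Type) [Fintype n] [DecidableEq n]
    (W : β → Matrix n n R) (lam lam' : ℕ), cl K (imY W 1) ≤ lam →
    cl K (imY W 1 ⊔ Ideal.span {δ} • ⊤) ≤ lam' →
    cl K (imY (fun l => (W l).map (· ^ p ^ e)) 1) ≤ ((p ^ e) ^ d * (lam + C * lam') : ℕ)

def DomStmt : Prop := ∀ (K : Type u) [Field K] [PerfectField K] (p : ℕ) [Fact p.Prime] [CharP K p]
  (r : ℕ) (R : Type u) [CommRing R] [IsDomain R] [Algebra (PS K (r + 1)) R] [Algebra K R]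
  [IsScalarTower K (PS K (r + 1)) R] [Module.Finite (PS K (r + 1)) R] (m : Ideal R) (c : ℕ)
  (S : Type u) [CommRing S] (n : Type) [Fintype n] [DecidableEq n] (ρ : S →+* Matrix n n R)
  (y ξ : Fin (r + 1) → S) (N : ℕ), Red K (r + 1) m c → Dat K (r + 1) m ρ y ξ N →
  ∃ (δ : R) (C : ℕ), δ ≠ 0 ∧ ∀ t lam lam' : ℕ, 1 ≤ t → cl K (imY (fun l => ρ (y l)) t) ≤ lam →
    cl K (imY (fun l => ρ (y l)) t ⊔ Ideal.span {δ} • ⊤) ≤ lam' →
    t ^ (r + 1) * Module.finrank (PS K (r + 1)) R ≤ lam + C * lam' + C * (t + 1) ^ r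

/-! ### Modules R (Rk.lean), V (Ev.lean), D (Dev.lean) -/

def RkStmt : Prop := ∀ (K : Type u) [Field K] (d : ℕ) (M : Type u) [AddCommGroup M]
  [Module (PS K d) M] [Module K M] [IsScalarTower K (PS K d) M] [Module.Finite (PS K d) M],
  (∀ N, cl K (mx K d ^ N • ⊤ : Submodule (PS K d) M) ≠ ⊤) ∧
  (∀ t, cl K (br K d t • ⊤ : Submodule (PS K d) M) ≠ ⊤) ∧
  Tendsto (fun N : ℕ => (d ! : ℝ) * (cl K (mx K d ^ N • ⊤ : Submodule (PS K d) M)).toNat /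
    (N : ℝ) ^ d) atTop (𝓝 (Module.finrank (PS K d) M)) ∧
  Tendsto (fun t : ℕ => ((cl K (br K d t • ⊤ : Submodule (PS K d) M)).toNat : ℝ) / (t : ℝ) ^ d)
    atTop (𝓝 (Module.finrank (PS K d) M)) ∧
  (Module.finrank (PS K d) M = 0 → ∀ r, d = r + 1 →
    ∃ C : ℕ, ∀ N, cl K (mx K d ^ N • ⊤ : Submodule (PS K d) M) ≤ (C * (N + 1) ^ r : ℕ))

structure Ev (K : Type u) [Field K] (d : ℕ) : Prop where
  ev : ∀ (Λ : Type u) [CommRing Λ] [Algebra K Λ] (I : Ideal Λ), IsAdicComplete I Λ →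
    ∀ y : Fin d → Λ, (∀ i, y i ∈ I.radical) → ∃ f : PS K d →ₐ[K] Λ, ∀ i, f (X i) = y i
  fin : ∀ (M : Type u) [AddCommGroup M] [Module (PS K d) M] [Module K M]
    [IsScalarTower K (PS K d) M], IsHausdorff (mx K d) M →
    cl K (mx K d • ⊤ : Submodule (PS K d) M) ≠ ⊤ → Module.Finite (PS K d) M
  cpl : ∀ (M : Type u) [AddCommGroup M] [Module (PS K d) M] [Module.Finite (PS K d) M],
    IsAdicComplete (mx K d) M
  max : maximalIdeal (PS K d) = mx K d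
  ord : ∀ (a : PS K d) (s : ℕ), a ∈ mx K d ^ s ↔ (s : ℕ∞) ≤ a.order

def EvStmt : Prop := ∀ (K : Type u) [Field K] (d : ℕ), Ev K d

def Core (K : Type u) [Field K] : Prop := ∀ (d : ℕ) (R : Type u) [CommRing R] [Algebra (PS K d) R]
  [Algebra K R] [IsScalarTower K (PS K d) R] [Module.Finite (PS K d) R] (m : Ideal R) (c : ℕ)
  (S : Type u) [CommRing S] (n : Type) [Fintype n] [DecidableEq n] (ρ : S →+* Matrix n n R)
  (y ξ : Fin d → S) (N : ℕ), Red K d m c → Dat K d m ρ y ξ N →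
  ∀ t lam : ℕ, cl K (imY (fun l => ρ (y l)) t) ≤ lam → t ^ d * Module.finrank (PS K d) R ≤ lam

def CorePStmt : Prop := ∀ (K : Type u) [Field K] [PerfectField K] (p : ℕ) [Fact p.Prime]
  [CharP K p], Core K

/-! ### Modules W (Newt.lean), H (Sh.lean), NF (Nf.lean), AT (At.lean), TR (Tr.lean) -/

def NewtStmt : Prop := ∀ (A : Type u) [CommRing A] (I : Ideal A), IsAdicComplete I A →
  ∀ (f : Polynomial A) (a ε : A), ε ∈ I → f.eval a = f.derivative.eval a ^ 2 * ε →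
  ∃ η, f.eval (a + f.derivative.eval a * ε * η) = 0

def Shear {K : Type u} [Field K] {d : ℕ} (c : Fin d → K) (σ : PS K (d + 1) ≃ₐ[K] PS K (d + 1)) :
    Prop := σ (X 0) = X 0 ∧ ∀ i, σ (X i.succ) = X i.succ + C (c i) * X 0

def ShStmt : Prop := ∀ (K : Type u) [Field K] (d : ℕ), (∀ c : Fin d → K, ∃ σ, Shear c σ) ∧
  ∀ T : Set K, T.Infinite → ∀ g : PS K (d + 1), g ≠ 0 → ∃ c : Fin d → K, (∀ i, c i ∈ T) ∧
    ∃ σ, Shear c σ ∧ ∃ j, coeff (Finsupp.single 0 j) (σ g) ≠ 0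

def NfStmt : Prop := ∀ (B : Type u) [CommRing B] [IsDomain B] [CharZero B] (d : ℕ)
  (ξ : Fin d → B), AlgebraicIndependent ℤ ξ → ∀ G : Finset B,
  ∃ (s : ℕ) (w : MvPolynomial (Fin d ⊕ Fin s) ℤ →+* B) (θ : B)
    (f : Polynomial (MvPolynomial (Fin d ⊕ Fin s) ℤ)) (g : MvPolynomial (Fin d ⊕ Fin s) ℤ),
    (∀ i, w (MvPolynomial.X (.inl i)) = ξ i) ∧ (∀ h, Polynomial.eval₂ w θ h = 0 ↔ f ∣ h) ∧
    Polynomial.eval₂ w θ f.derivative ≠ 0 ∧ w g ≠ 0 ∧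
    ∀ b ∈ G, ∃ h, w g * b = Polynomial.eval₂ w θ h

def AtStmt : Prop := ∀ (K : Type u) [Field K] [CharZero K] (d : ℕ) (G : Finset (PS K d))
  (δ : PS K d), δ ≠ 0 → ∃ (k : Type) (_ : Field k) (_ : Finite k) (T : Subring (PS K d))
  (τ : T →+* PS k d), (∀ g ∈ G, g ∈ T) ∧ (∀ i, ∃ h : X i ∈ T, τ ⟨X i, h⟩ = X i) ∧
    ∃ h : δ ∈ T, τ ⟨δ, h⟩ ≠ 0

def Core0Stmt : Prop := ∀ (K : Type u) [Field K] [CharZero K], Core K

/-! ### Modules FS (Fs.lean), LC (Lc.lean), BC (Bc.lean), UN (Unr.lean), O (Gon.lean) -/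

def FsStmt : Prop := ∀ (k : Type) (l : Type u) [Field k] [PerfectField k] [Field l] [Algebra k l],
  Algebra.FormallySmooth k l

def FsStmt' : Prop := ∀ (k l : Type u) [Field k] [PerfectField k] [Field l] [Algebra k l],
  Algebra.FormallySmooth k l

def LcStmt : Prop := ∀ (R T B : Type u) [CommRing R] [IsNoetherianRing R] [CommRing T]
  [Algebra R T] [Module.Flat R T] [CommRing B] [IsNoetherianRing B] [IsLocalRing B] (I : Ideal R)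
  (j : T →+* B), I.map (j.comp (algebraMap R T)) ≠ ⊤ →
  (∀ N b, ∃ t, b - j t ∈ (I ^ N).map (j.comp (algebraMap R T))) →
  (∀ N t, j t ∈ (I ^ N).map (j.comp (algebraMap R T)) → t ∈ (I ^ N).map (algebraMap R T)) →
  (j.comp (algebraMap R T)).Flat

/-- completed base change of the coefficient field, with its universal property -/
def BcStmt : Prop := ∀ (κ K R : Type u) [Field κ] [Field K] [Algebra κ K] [CommRing R]
  [IsLocalRing R] [Algebra κ R], CL κ R → ∃ (R' : Type u) (_ : CommRing R') (_ : IsLocalRing R')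
    (_ : Algebra K R') (a : R →+* R'), CL K R' ∧ Unr a ∧
    (∀ c, a (algebraMap κ R c) = algebraMap K R' (algebraMap κ K c)) ∧
    ∀ (S : Type u) [CommRing S] [IsLocalRing S] [Algebra K S] (g : R →+* S), CL K S →
      (∀ x ∈ maximalIdeal R, g x ∈ maximalIdeal S) →
      (∀ c, g (algebraMap κ R c) = algebraMap K S (algebraMap κ K c)) →
      ∃ g' : R' →ₐ[K] S, ∀ x, g' (a x) = g x

def UnrStmt : Prop := (∀ (R S : Type u) [CommRing R] [IsLocalRing R] [IsNoetherianRing R]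
  [CommRing S] [IsLocalRing S] [IsNoetherianRing S] (f : R →+* S) [IsLocalHom f], f.Flat →
  Function.Injective f ∧ ringKrullDim R ≤ ringKrullDim S ∧ ∀ I : Ideal R,
    Module.length S (S ⧸ I.map f) =
      Module.length R (R ⧸ I) * Module.length S (S ⧸ (maximalIdeal R).map f)) ∧
  (∀ (R S : Type u) [CommRing R] [IsLocalRing R] [CommRing S] [IsLocalRing S] (f : R →+* S),
    Unr f → IsLocalHom f ∧ (∀ N, hs S N = hs R N) ∧
      ∀ I : Ideal R, Module.length S (S ⧸ I.map f) = Module.length R (R ⧸ I)) ∧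
  ∀ (K R M : Type u) [Field K] [CommRing R] [IsLocalRing R] [Algebra K R] [AddCommGroup M]
    [Module R M] [Module K M] [IsScalarTower K R M],
    (∀ b : R, ∃ a : K, b - algebraMap K R a ∈ maximalIdeal R) →
    Module.length R M = Module.length K M

def Gon1Stmt : Prop := ∀ (S : Type u) [CommRing S] [IsLocalRing S] [IsNoetherianRing S], HasPF S →
  ∃ (K S' : Type u) (_ : Field K) (_ : IsAlgClosed K) (_ : CommRing S') (_ : IsLocalRing S')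
    (_ : Algebra K S') (f : S →+* S'), CL K S' ∧ Unr f

def Gon2Stmt : Prop := ∀ (R S : Type u) [CommRing R] [IsLocalRing R] [IsNoetherianRing R]
  [CommRing S] [IsLocalRing S] [IsNoetherianRing S] (f : R →+* S) [IsLocalHom f], HasPF R →
  PerfectField (ResidueField R) →
  ∃ (K R' S' : Type u) (_ : Field K) (_ : IsAlgClosed K) (_ : CommRing R') (_ : IsLocalRing R')
    (_ : Algebra K R') (_ : CommRing S') (_ : IsLocalRing S') (_ : Algebra K S') (a : R →+* R')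
    (b : S →+* S') (f' : R' →ₐ[K] S'), CL K R' ∧ CL K S' ∧ Unr a ∧ Unr b ∧
    ∀ x, f' (a x) = b (f x)

/-! ### Modules NN (Nn.lean), RG (Reg.lean), B1 (Ben1.lean), B2 (Ben2.lean), NO (Norm.lean) -/

def GrStmt : Prop := ∀ (R : Type u) [CommRing R] [IsLocalRing R] [IsNoetherianRing R] (d : ℕ),
  ringKrullDim R = d → ∃ C : ℕ, ∀ N, hs R N ≤ C * (N + 1) ^ d

def RedStmt : Prop := ∀ (K R : Type u) [Field K] [Infinite K] [CommRing R] [IsLocalRing R]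
  [Algebra K R] (d C : ℕ), CL K R → (∀ N, hs R N ≤ C * (N + 1) ^ d) →
  ∃ (x : Fin d → R) (c : ℕ), (∀ i, x i ∈ maximalIdeal R) ∧
    maximalIdeal R ^ (c + 1) ≤ Ideal.span (Set.range x) * maximalIdeal R ^ c

def NnStmt : Prop := ∀ (K R : Type u) [Field K] [Infinite K] [CommRing R] [IsLocalRing R]
  [Algebra K R] (d C : ℕ), CL K R → (∀ N, hs R N ≤ C * (N + 1) ^ d) →
  ∃ (_ : Algebra (PS K d) R) (_ : IsScalarTower K (PS K d) R) (c : ℕ),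
    Module.Finite (PS K d) R ∧ Red K d (maximalIdeal R) c ∧ Mult R d (Module.finrank (PS K d) R)

def RegStmt : Prop := ∀ (K : Type u) [Field K] [Infinite K] (d : ℕ), IsRegularRing (PS K d)

def Ben1Stmt : Prop := ∀ (K R S : Type u) [Field K] [CommRing R] [IsLocalRing R]
  [IsNoetherianRing R] [CommRing S] [IsLocalRing S] [IsNoetherianRing S] (f : R →+* S)
  [IsLocalHom f] (d D : ℕ) [Algebra (PS K D) S] [Module.Finite (PS K D) S], ringKrullDim R = d →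
  (D : WithBot ℕ∞) ≤ ringKrullDim S → ∃ P ∈ ((maximalIdeal R).map f).minimalPrimes,
    (P.comap (algebraMap (PS K D) S)).height ≤ d

def Ben2Stmt : Prop := ∀ (K S : Type u) [Field K] [Infinite K] [CommRing S] (d D : ℕ)
  [Algebra (PS K D) S] [Module.Finite (PS K D) S] (P : Ideal S) [P.IsPrime], HasPF K →
  (P.comap (algebraMap (PS K D) S)).height ≤ d → ∃ (y : Fin d → Localization.AtPrime P) (c : ℕ),
    (∀ l, y l ∈ maximalIdeal _) ∧ maximalIdeal _ ^ c ≤ Ideal.span (Set.range y) ∧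
    ∀ ε : ℝ, 0 < ε → ∀ᶠ t : ℕ in atTop, ((Module.length (Localization.AtPrime P)
      (Localization.AtPrime P ⧸ Ideal.span (Set.range fun l => y l ^ t))).toNat : ℝ) ≤
      (Module.finrank (PS K D) S + ε) * (t : ℝ) ^ d

def NormStmt : Prop := ∀ (R S : Type u) [CommRing R] [IsLocalRing R] [IsNoetherianRing R]
  [CommRing S] [IsLocalRing S] [IsNoetherianRing S] (f : R →+* S) [IsLocalHom f], f.Flat →
  HasPF R → PerfectField (ResidueField R) → ∀ (d : ℕ) (e : ℝ), ringKrullDim R = d → Mult R d e →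
  ∀ (y : Fin d → S) (c : ℕ), (∀ l, y l ∈ maximalIdeal S) →
  maximalIdeal S ^ c ≤ Ideal.span (Set.range y) → maximalIdeal S ^ c ≤ (maximalIdeal R).map f →
  ∀ t : ℕ, e * (t : ℝ) ^ d ≤
    (Module.length S (S ⧸ Ideal.span (Set.range fun l => y l ^ t))).toNat

end Vale.Agent.P202
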