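import Vale.Agent.P202.Spec

/-! Eventual homomorphisms and the transfer of codimension. -/

open Finset Matrix MvPowerSeries Filter Topology IsLocalRing
open scoped Kronecker Nat

namespace Vale.Agent.P202

namespace Tr

/-- eventually semilinear maps -/
structure ES {I : Type*} (F : Filter I) {A M : Type*} [Ring A] [AddCommGroup M] [Module A M]
    {A' M' : I → Type*} [∀ i, Ring (A' i)] [∀ i, AddCommGroup (M' i)] [∀ i, Module (A' i) (M' i)]
    (τ : ∀ i, A → A' i) (ψ : ∀ i, M → M' i) : Prop where
  add : ∀ a b, ∀ᶠ i in F, ψ i (a + b) = ψ i a + ψ i b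
  smul : ∀ a b, ∀ᶠ i in F, ψ i (a • b) = τ i a • ψ i b

section es
variable {I : Type*} {F : Filter I} {A M : Type*} [Ring A] [AddCommGroup M] [Module A M]
    {A' M' : I → Type*} [∀ i, Ring (A' i)] [∀ i, AddCommGroup (M' i)] [∀ i, Module (A' i) (M' i)]
    {τ : ∀ i, A → A' i} {ψ : ∀ i, M → M' i}

theorem ES.zero (h : ES F τ ψ) : ∀ᶠ i in F, ψ i 0 = 0 := by
  filter_upwards [h.add 0 0] with i hi
  rw [add_zero] at hi
  exact left_eq_add.1 hi

theorem ES.sub (h : ES F τ ψ) (a b : M) : ∀ᶠ i in F, ψ i (a - b) = ψ i a - ψ i b := by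
  filter_upwards [h.add (a - b) b] with i hi
  rw [sub_add_cancel] at hi
  rw [hi, add_sub_cancel_right]

theorem ES.sum (h : ES F τ ψ) {β : Type*} (s : Finset β) (f : β → M) :
    ∀ᶠ i in F, ψ i (∑ j ∈ s, f j) = ∑ j ∈ s, ψ i (f j) := by
  classical
  induction s using Finset.induction_on with
  | empty => simpa using h.zero
  | insert a s ha ih =>
    filter_upwards [ih, h.add (f a) (∑ j ∈ s, f j)] with i h1 h2
    rw [Finset.sum_insert ha, Finset.sum_insert ha, h2, h1]

theorem ES.span (h : ES F τ ψ) {s : Set M} {x : M} (hx : x ∈ Submodule.span A s) :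
    ∀ᶠ i in F, ψ i x ∈ Submodule.span (A' i) (ψ i '' s) := by
  induction hx using Submodule.span_induction with
  | mem x hx => exact Eventually.of_forall fun i => Submodule.subset_span ⟨x, hx, rfl⟩
  | zero =>
    filter_upwards [h.zero] with i hi
    rw [hi]; exact Submodule.zero_mem _
  | add x y _ _ hx hy =>
    filter_upwards [hx, hy, h.add x y] with i h1 h2 h3
    rw [h3]; exact Submodule.add_mem _ h1 h2
  | smul a x _ hx =>
    filter_upwards [hx, h.smul a x] with i h1 h2
    rw [h2]; exact Submodule.smul_mem _ _ h1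

theorem ES.span_le (h : ES F τ ψ) {s t : Set M} (ht : t.Finite)
    (hx : t ⊆ Submodule.span A s) :
    ∀ᶠ i in F, Submodule.span (A' i) (ψ i '' t) ≤ Submodule.span (A' i) (ψ i '' s) := by
  filter_upwards [(eventually_all_finite ht).2 fun x hxt => h.span (hx hxt)] with i hi
  rw [Submodule.span_le]
  rintro _ ⟨x, hxt, rfl⟩
  exact hi x hxt

theorem ES.pi (h : ES F τ ψ) (n : Type*) [Finite n] :
    ES F τ (fun i (v : n → M) => (fun a => ψ i (v a) : n → M' i)) where
  add a b := by
    filter_upwards [eventually_all.2 fun j => h.add (a j) (b j)] with i hi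
    exact funext hi
  smul a b := by
    filter_upwards [eventually_all.2 fun j => h.smul a (b j)] with i hi
    exact funext hi

end es

/-- eventual ring homomorphisms -/
structure EH {I : Type*} (F : Filter I) {R : Type*} [Ring R] {R' : I → Type*} [∀ i, Ring (R' i)]
    (ψ : ∀ i, R → R' i) : Prop where
  es : ES F ψ ψ
  one : ∀ᶠ i in F, ψ i 1 = 1

section eh
variable {I : Type*} {F : Filter I} {R : Type*} [Ring R] {R' : I → Type*} [∀ i, Ring (R' i)]
    {ψ : ∀ i, R → R' i}

theorem EH.mul (h : EH F ψ) (a b : R) : ∀ᶠ i in F, ψ i (a * b) = ψ i a * ψ i b := h.es.smul a b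

theorem EH.pow (h : EH F ψ) (a : R) (N : ℕ) : ∀ᶠ i in F, ψ i (a ^ N) = ψ i a ^ N := by
  induction N with
  | zero => simpa using h.one
  | succ N ih =>
    filter_upwards [ih, h.mul (a ^ N) a] with i h1 h2
    rw [pow_succ, pow_succ, h2, h1]

theorem EH.mulVec (h : EH F ψ) {n : Type*} [Fintype n] (P : Matrix n n R) (v : n → R) :
    ∀ᶠ i in F, (fun a => ψ i ((P *ᵥ v) a)) = P.map (ψ i) *ᵥ fun a => ψ i (v a) := by
  filter_upwards [eventually_all.2 fun a => h.es.sum univ fun j => P a j * v j,
    eventually_all.2 fun a => eventually_all.2 fun j => h.mul (P a j) (v j)] with i h1 h2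
  funext a
  simp only [Matrix.mulVec, dotProduct, h1 a, h2 a, Matrix.map_apply]

theorem EH.mat (h : EH F ψ) (n : Type*) [Fintype n] [DecidableEq n] :
    EH F (fun i (P : Matrix n n R) => (P.map (ψ i) : Matrix n n (R' i))) where
  es :=
    { add := fun P Q => by
        filter_upwards [eventually_all.2 fun a => eventually_all.2 fun j =>
          h.es.add (P a j) (Q a j)] with i h1
        ext a j
        simp only [Matrix.map_apply, Matrix.add_apply, h1 a j]
      smul := fun P Q => by
        filter_upwards [eventually_all.2 fun a => eventually_all.2 fun j =>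
          h.es.sum univ fun l => P a l * Q l j, eventually_all.2 fun a => eventually_all.2 fun j =>
          eventually_all.2 fun l => h.mul (P a l) (Q l j)] with i h1 h2
        ext a j
        simp only [smul_eq_mul, Matrix.map_apply, Matrix.mul_apply, h1 a j, h2 a j] }
  one := by
    filter_upwards [h.one, h.es.zero] with i h1 h0
    exact Matrix.map_one _ h0 h1

end eh

section ideal
variable {I : Type*} {F : Filter I} {R : Type*} [CommRing R] {R' : I → Type*}
  [∀ i, CommRing (R' i)] {ψ : ∀ i, R → R' i}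

open Pointwise in
theorem fin_pow {s : Set R} (hs : s.Finite) (c : ℕ) : (s ^ c).Finite := by
  induction c with
  | zero => rw [pow_zero]; exact Set.finite_one
  | succ c ih => rw [pow_succ]; exact ih.mul hs

open Pointwise in
theorem EH.im_mul (h : EH F ψ) {s t : Set R} (hs : s.Finite) (ht : t.Finite) :
    ∀ᶠ i in F, ψ i '' (s * t) = ψ i '' s * ψ i '' t := by
  filter_upwards [(eventually_all_finite hs).2 fun x _ => (eventually_all_finite ht).2 fun y _ =>
    h.mul x y] with i hi
  ext z
  constructor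
  · rintro ⟨_, ⟨x, hx, y, hy, rfl⟩, rfl⟩
    exact ⟨_, ⟨x, hx, rfl⟩, _, ⟨y, hy, rfl⟩, (hi x hx y hy).symm⟩
  · rintro ⟨_, ⟨x, hx, rfl⟩, _, ⟨y, hy, rfl⟩, rfl⟩
    exact ⟨_, ⟨x, hx, y, hy, rfl⟩, hi x hx y hy⟩

open Pointwise in
theorem EH.im_pow (h : EH F ψ) {s : Set R} (hs : s.Finite) (c : ℕ) :
    ∀ᶠ i in F, ψ i '' (s ^ c) = (ψ i '' s) ^ c := by
  induction c with
  | zero =>
    filter_upwards [h.one] with i hi
    rw [pow_zero, pow_zero, Set.image_one, hi, Set.singleton_one]
  | succ c ih =>
    filter_upwards [ih, h.im_mul (fin_pow hs c) hs] with i h1 h2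
    rw [pow_succ, pow_succ, h2, h1]

open Pointwise in
theorem EH.red (h : EH F ψ) {s t : Set R} (hs : s.Finite) (ht : t.Finite) (c : ℕ)
    (H : Ideal.span s ^ (c + 1) ≤ Ideal.span t * Ideal.span s ^ c) :
    ∀ᶠ i in F, Ideal.span (ψ i '' s) ^ (c + 1) ≤
      Ideal.span (ψ i '' t) * Ideal.span (ψ i '' s) ^ c := by
  have H' : s ^ (c + 1) ⊆ Submodule.span R (t * s ^ c) := by
    rw [← Submodule.span_le, ← Submodule.span_mul_span, ← Submodule.span_pow,
      ← Submodule.span_pow]
    exact H
  filter_upwards [h.es.span_le (fin_pow hs (c + 1)) H', h.im_pow hs (c + 1), h.im_pow hs c,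
    h.im_mul ht (fin_pow hs c)] with i h1 h2 h3 h4
  rw [h2, h4, h3, ← Submodule.span_mul_span, ← Submodule.span_pow, ← Submodule.span_pow] at h1
  exact h1

end ideal

section flag

theorem socle {A M : Type*} [CommRing A] [IsLocalRing A] [AddCommGroup M] [Module A M]
    (N : Submodule A M) (hN : N ≠ ⊤) (hl : Module.length A (M ⧸ N) ≠ ⊤) :
    ∃ w, w ∉ N ∧ ∀ a ∈ maximalIdeal A, a • w ∈ N := by
  have h1 := (isFiniteLength_iff_isNoetherian_isArtinian.1 (Module.length_ne_top_iff.1 hl)).2
  have h2 : Nontrivial (M ⧸ N) := Submodule.Quotient.nontrivial_iff.2 hN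
  obtain h | ⟨P, hP, -⟩ := eq_bot_or_exists_atom_le (⊤ : Submodule A (M ⧸ N))
  · exact absurd h top_ne_bot
  have h3 : IsSimpleModule A P := isSimpleModule_iff_isAtom.2 hP
  have h4 := IsLocalRing.eq_maximalIdeal (IsSimpleModule.annihilator_isMaximal (R := A) (M := P))
  obtain ⟨q, hq, hq0⟩ := (Submodule.ne_bot_iff _).1 hP.1
  obtain ⟨w, rfl⟩ := N.mkQ_surjective q
  refine ⟨w, fun hw => hq0 ((Submodule.Quotient.mk_eq_zero _).2 hw), fun a ha => ?_⟩
  rw [← h4] at ha
  have h5 := congrArg Subtype.val (Module.mem_annihilator.1 ha ⟨_, hq⟩)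
  exact (Submodule.Quotient.mk_eq_zero _).1 h5

theorem cl_step {k A M : Type*} [Field k] [CommRing A] [Algebra k A] [AddCommGroup M] [Module A M]
    [Module k M] [IsScalarTower k A M] (N : Submodule A M) (w : M)
    (hw : ∀ a : A, ∃ c : k, a • w - c • w ∈ N) :
    cl k N ≤ cl k (N ⊔ Submodule.span A {w}) + 1 := by
  let g := (Submodule.factor (le_sup_left : N ≤ N ⊔ Submodule.span A {w})).restrictScalars k
  let f := LinearMap.toSpanSingleton k (M ⧸ N) (N.mkQ w)
  have hg : Function.Surjective g :=
    Submodule.factor_surjective (le_sup_left : N ≤ N ⊔ Submodule.span A {w})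
  have he : Function.Exact (LinearMap.range f).subtype g := by
    intro x
    obtain ⟨x, rfl⟩ := N.mkQ_surjective x
    constructor
    · intro hx
      have hx' : x ∈ N ⊔ Submodule.span A {w} := (Submodule.Quotient.mk_eq_zero _).1 hx
      obtain ⟨y, hy, z, hz, rfl⟩ := Submodule.mem_sup.1 hx'
      obtain ⟨a, rfl⟩ := Submodule.mem_span_singleton.1 hz
      obtain ⟨c, hc⟩ := hw a
      refine ⟨⟨_, c, rfl⟩, ?_⟩
      change c • N.mkQ w = _
      rw [← LinearMap.map_smul_of_tower, eq_comm, N.mkQ_apply, N.mkQ_apply,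
        Submodule.Quotient.eq, add_sub_assoc]
      exact N.add_mem hy hc
    · rintro ⟨⟨_, c, rfl⟩, hc⟩
      rw [← hc]
      change g (c • N.mkQ w) = 0
      rw [map_smul]
      have : g (N.mkQ w) = 0 := (Submodule.Quotient.mk_eq_zero _).2
        (Submodule.mem_sup_right (Submodule.mem_span_singleton_self w))
      rw [this, smul_zero]
  unfold cl
  rw [Module.length_eq_add_of_exact _ g (Submodule.subtype_injective _) hg he, add_comm]
  refine add_le_add le_rfl ?_
  refine (Module.length_le_of_surjective f.rangeRestrict f.surjective_rangeRestrict).trans ?_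
  exact (Module.length_eq_one k k).le

theorem cl_anti {k A M : Type*} [Field k] [CommRing A] [Algebra k A] [AddCommGroup M] [Module A M]
    [Module k M] [IsScalarTower k A M] {N N' : Submodule A M} (h : N ≤ N') : cl k N' ≤ cl k N :=
  Module.length_le_of_surjective ((Submodule.factor h).restrictScalars k)
    (Submodule.factor_surjective h)

theorem len_le_cl (k : Type*) {A M : Type*} [Field k] [CommRing A] [Algebra k A] [AddCommGroup M]
    [Module A M] [Module k M] [IsScalarTower k A M] (N : Submodule A M) :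
    Module.length A (M ⧸ N) ≤ cl k N := by
  unfold cl
  rw [← WithBot.coe_le_coe, Module.coe_length, Module.coe_length]
  exact Order.krullDim_le_of_orderEmbedding (Submodule.restrictScalarsEmbedding k A (M ⧸ N))

theorem ps_res {k : Type*} [Field k] {d : ℕ} (hm : maximalIdeal (PS k d) = mx k d) (a : PS k d) :
    a - algebraMap k (PS k d) (constantCoeff a) ∈ mx k d := by
  rw [← hm, mem_maximalIdeal, mem_nonunits_iff, MvPowerSeries.isUnit_iff_constantCoeff]
  simp [MvPowerSeries.algebraMap_apply]

variable {I : Type*} {F : Filter I} {K M : Type*} [Field K] {d : ℕ} [AddCommGroup M]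
    [Module (PS K d) M] {k M' : I → Type*} [∀ i, Field (k i)] [∀ i, AddCommGroup (M' i)]
    [∀ i, Module (PS (k i) d) (M' i)] [∀ i, Module (k i) (M' i)]
    [∀ i, IsScalarTower (k i) (PS (k i) d) (M' i)]
    {τ : ∀ i, PS K d → PS (k i) d} {ψ : ∀ i, M → M' i}

theorem ES.flag (h : ES F τ ψ) (hm : maximalIdeal (PS K d) = mx K d)
    (hm' : ∀ i, maximalIdeal (PS (k i) d) = mx (k i) d) (hX : ∀ i j, τ i (X j) = X j)
    {g : Set M} (hg : g.Finite) (hg' : ∀ᶠ i in F, Submodule.span (PS (k i) d) (ψ i '' g) = ⊤)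
    (lam : ℕ) : ∀ s : Set M, Module.length (PS K d) (M ⧸ Submodule.span (PS K d) s) ≤ lam →
      ∀ᶠ i in F, cl (k i) (Submodule.span (PS (k i) d) (ψ i '' s)) ≤ lam := by
  have h0 : ∀ (s : Set M) (l : ℕ∞), Submodule.span (PS K d) s = ⊤ →
      ∀ᶠ i in F, cl (k i) (Submodule.span (PS (k i) d) (ψ i '' s)) ≤ l := by
    intro s l hs
    filter_upwards [h.span_le (s := s) hg (by rw [hs]; exact Set.subset_univ _), hg'] with i h1 h2
    rw [h2, top_le_iff] at h1
    have : Subsingleton (M' i ⧸ Submodule.span (PS (k i) d) (ψ i '' s)) :=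
      Submodule.Quotient.subsingleton_iff.2 h1
    unfold cl
    rw [Module.length_eq_zero]
    exact zero_le
  induction lam with
  | zero =>
    intro s hs
    refine h0 s _ (Submodule.Quotient.subsingleton_iff.1 ((Module.length_eq_zero_iff (R := PS K d)).1 ?_))
    exact le_antisymm (by simpa using hs) zero_le
  | succ lam ih =>
    intro s hs
    by_cases ht : Submodule.span (PS K d) s = ⊤
    · exact h0 s _ ht
    obtain ⟨w, hw, hw'⟩ := socle _ ht (ne_top_of_le_ne_top (ENat.natCast_ne_top _) hs)
    have h1 : Submodule.span (PS K d) s < Submodule.span (PS K d) (insert w s) :=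
      lt_of_le_of_ne (Submodule.span_mono (Set.subset_insert _ _)) fun he =>
        hw (he ▸ Submodule.subset_span (Set.mem_insert _ _))
    have h2 := Order.coheight_add_one_le h1
    rw [← Module.length_quotient, ← Module.length_quotient] at h2
    have h3 := ih (insert w s) ((ENat.add_le_add_iff_right ENat.one_ne_top).1
      (by simpa using h2.trans hs))
    have h4 : ∀ j, (X j : PS K d) • w ∈ Submodule.span (PS K d) s := fun j =>
      hw' _ (hm ▸ Ideal.subset_span ⟨j, rfl⟩)
    filter_upwards [h3, eventually_all.2 fun j => h.span (h4 j),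
      eventually_all.2 fun j => h.smul (X j) w] with i e1 e2 e3
    rw [Set.image_insert_eq, Submodule.span_insert, sup_comm] at e1
    refine (cl_step _ (ψ i w) fun a => ⟨constantCoeff a, ?_⟩).trans ?_
    · rw [← algebraMap_smul (PS (k i) d) (constantCoeff a) (ψ i w), ← sub_smul]
      have e4 : mx (k i) d ≤ (Submodule.span (PS (k i) d) (ψ i '' s)).comap
          (LinearMap.toSpanSingleton (PS (k i) d) (M' i) (ψ i w)) := by
        rw [Ideal.span_le]
        rintro _ ⟨j, rfl⟩
        have e5 := e2 j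
        rw [e3 j, hX] at e5
        exact e5
      exact e4 (ps_res (hm' i) a)
    · push_cast
      exact add_le_add e1 le_rfl

end flag

end Tr

end Vale.Agent.P202
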