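import Vale.Agent.P202.Tr1

/-! Specialisation of a finite algebra along a partially defined homomorphism. -/

open Finset Matrix MvPowerSeries Filter Topology IsLocalRing
open scoped Kronecker Nat TensorProduct

namespace Vale.Agent.P202

universe u

namespace Tr

theorem key0 {A M ι : Type*} [CommRing A] [IsDomain A] [AddCommGroup M] [Module A M] [Fintype ι]
    [DecidableEq ι] (b : ι → M) (hb : Submodule.span A (Set.range b) = ⊤) :
    ∃ (J : Finset ι) (β : M →ₗ[A] (J → A)) (δ : A), δ ≠ 0 ∧ Module.finrank A M ≤ J.card ∧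
      ∀ a : J, β (b a) = Pi.single a δ := by
  classical
  have hM : Module.Finite A M := ⟨⟨univ.image b, by simpa using hb⟩⟩
  obtain ⟨s, hs, h⟩ := exists_maximal_linearIndepOn A b
  have h' : ∀ i, ∃ a : A, a ≠ 0 ∧ a • b i ∈ Submodule.span A (b '' s) := fun i => by
    by_cases hi : i ∈ s
    · exact ⟨1, one_ne_zero, by rw [one_smul]; exact Submodule.subset_span ⟨i, hi, rfl⟩⟩
    · exact h i hi
  choose a ha0 ha using h'
  let J := s.toFinset
  have hJ : LinearIndependent A fun j : J => b j := by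
    have : LinearIndepOn A b (J : Set ι) := by simpa [J] using hs
    exact this
  have hr : Set.range (fun j : J => b j) = b '' s := by
    ext x; simp [J]
  have hδ : ∀ x : M, (∏ i, a i) • x ∈ Submodule.span A (Set.range fun j : J => b j) := by
    intro x
    have hx : x ∈ Submodule.span A (Set.range b) := hb ▸ Submodule.mem_top
    induction hx using Submodule.span_induction with
    | mem x hx =>
      obtain ⟨i, rfl⟩ := hx
      rw [← Finset.prod_erase_mul _ _ (mem_univ i), mul_smul, hr]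
      exact Submodule.smul_mem _ _ (ha i)
    | zero => rw [smul_zero]; exact Submodule.zero_mem _
    | add x y _ _ hx hy => rw [smul_add]; exact Submodule.add_mem _ hx hy
    | smul c x _ hx => rw [smul_comm]; exact Submodule.smul_mem _ _ hx
  have hδ0 : (∏ i, a i) ≠ 0 := Finset.prod_ne_zero_iff.2 fun i _ => ha0 i
  refine ⟨J, (Finsupp.linearEquivFunOnFinite A A J).toLinearMap ∘ₗ hJ.repr ∘ₗ
    LinearMap.codRestrict _ ((∏ i, a i) • LinearMap.id) hδ, ∏ i, a i, hδ0, ?_, fun j => ?_⟩
  · rw [← Submodule.finrank_quotient_add_finrank (Submodule.span A (Set.range fun j : J => b j)),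
      finrank_span_eq_card hJ, Fintype.card_coe, Module.finrank_eq_zero_iff.2, zero_add]
    intro x
    obtain ⟨x, rfl⟩ := Submodule.mkQ_surjective _ x
    exact ⟨_, hδ0, (Submodule.Quotient.mk_eq_zero _).2 (hδ x)⟩
  · have : hJ.repr (LinearMap.codRestrict _ ((∏ i, a i) • LinearMap.id) hδ (b j)) =
        Finsupp.single j (∏ i, a i) := by
      apply hJ.repr_eq
      simp
    simp only [LinearMap.comp_apply, this]
    simp

theorem key1 {A : Type u} [CommRing A] (T : Subring A) {A' : Type} [CommRing A'] [IsDomain A']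
    (τ : T →+* A') {R : Type u} [CommRing R] [Algebra A R] {ι J : Type} [Fintype ι] [Fintype J]
    [DecidableEq J] (b : ι → R) (R0 : Subalgebra T R) (hb : ∀ i, b i ∈ R0)
    (hsp : ∀ r ∈ R0, r ∈ Submodule.span T (Set.range b)) (β : R →ₗ[A] (J → A)) (v : J → ι)
    (δ : T) (hδ : τ δ ≠ 0) (hβ : ∀ i a, β (b i) a ∈ T) (hv : ∀ a, β (b (v a)) = Pi.single a δ.1) :
    ∃ (R' : Type) (_ : CommRing R') (_ : Algebra A' R') (ψ : R0 →+* R'),
      (∀ a : T, ψ (algebraMap T R0 a) = algebraMap A' R' (τ a)) ∧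
      Submodule.span A' (Set.range fun i => ψ ⟨b i, hb i⟩) = ⊤ ∧
      Fintype.card J ≤ Module.finrank A' R' := by
  classical
  letI := τ.toAlgebra
  have h0 : Submodule.span T (Set.range fun i => (⟨b i, hb i⟩ : R0)) = ⊤ := by
    rw [eq_top_iff]
    rintro ⟨r, hr⟩ -
    obtain ⟨c, rfl⟩ := (Submodule.mem_span_range_iff_exists_fun T).1 (hsp r hr)
    refine (Submodule.mem_span_range_iff_exists_fun T).2 ⟨c, Subtype.ext ?_⟩
    simp
  have h1 : Submodule.span A' (Set.range fun i => ((1 : A') ⊗ₜ[T] (⟨b i, hb i⟩ : R0))) = ⊤ := by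
    have := Submodule.baseChange_span (R := T) (A := A') (Set.range fun i => (⟨b i, hb i⟩ : R0))
    rw [h0, Submodule.baseChange_top, ← Set.range_comp] at this
    exact this.symm
  have hfin : Module.Finite A' (A' ⊗[T] R0) :=
    ⟨⟨univ.image fun i => ((1 : A') ⊗ₜ[T] (⟨b i, hb i⟩ : R0)), by simpa using h1⟩⟩
  have hsm : Small.{0} (A' ⊗[T] R0) := Module.Finite.small A' _
  let e := Shrink.algEquiv.{0} A' (A' ⊗[T] R0)
  have hβ' : ∀ r : R0, ∀ a, β r a ∈ T := by
    rintro ⟨r, hr⟩ a
    obtain ⟨c, rfl⟩ := (Submodule.mem_span_range_iff_exists_fun T).1 (hsp r hr)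
    simp only [map_sum, Finset.sum_apply]
    refine T.sum_mem fun i _ => ?_
    rw [LinearMap.map_smul_of_tower]
    exact T.mul_mem (c i).2 (hβ i a)
  let β0 : R0 →ₗ[T] (J → A') :=
    { toFun := fun r a => τ ⟨β r a, hβ' r a⟩
      map_add' := fun r s => by
        funext a
        rw [Pi.add_apply, ← map_add]
        exact congrArg τ (Subtype.ext (by simp))
      map_smul' := fun c r => by
        funext a
        change _ = τ c * τ _
        rw [← map_mul]
        refine congrArg τ (Subtype.ext ?_)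
        change β ((c : A) • (r : R)) a = c * β r a
        rw [map_smul]; rfl }
  refine ⟨Shrink.{0} (A' ⊗[T] R0), inferInstance, inferInstance,
    e.symm.toRingEquiv.toRingHom.comp Algebra.TensorProduct.includeRight.toRingHom,
    fun a => ?_, ?_, ?_⟩
  · change e.symm (Algebra.TensorProduct.includeRight (algebraMap T R0 a)) = _
    rw [AlgHom.commutes, ← e.symm.commutes]
    rfl
  · have := congrArg (Submodule.map e.symm.toLinearEquiv.toLinearMap) h1
    rw [Submodule.map_span, Submodule.map_top, LinearEquiv.range, ← Set.range_comp] at this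
    exact this
  · rw [e.toLinearEquiv.finrank_eq]
    have hl : LinearIndependent A' fun a => ((1 : A') ⊗ₜ[T] (⟨b (v a), hb _⟩ : R0)) := by
      refine LinearIndependent.of_comp (LinearMap.liftBaseChange A' β0) ?_
      have e1 : ∀ a, β0 ⟨b (v a), hb _⟩ = Pi.single a (τ δ) := fun a => by
        funext a'
        change τ ⟨β (b (v a)) a', _⟩ = _
        simp only [hv]
        by_cases h : a' = a
        · subst h; simp
        · simp only [Pi.single_eq_of_ne h]; exact τ.map_zero
      rw [Fintype.linearIndependent_iff]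
      intro g hg a
      have := congrFun hg a
      simp only [Function.comp_apply, LinearMap.liftBaseChange_tmul, one_smul, e1,
        Finset.sum_apply, Pi.smul_apply, Pi.single_apply, smul_eq_mul, mul_ite, mul_zero,
        Finset.sum_ite_eq, mem_univ, if_true, Pi.zero_apply] at this
      exact (mul_eq_zero.1 this).resolve_right hδ
    exact hl.fintype_card_le_finrank

theorem key2 (hA : AtStmt.{u}) (K : Type u) [Field K] [CharZero K] (d : ℕ) (R : Type u)
    [CommRing R] [Algebra (PS K d) R] {s : ℕ} (b : Fin s → R)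
    (hb : Submodule.span (PS K d) (Set.range b) = ⊤) (i : Finset (PS K d) × Finset R) :
    ∃ (k : Type) (_ : Field k) (_ : Finite k) (R' : Type) (_ : CommRing R')
      (_ : Algebra (PS k d) R') (τ : PS K d → PS k d) (ψ : R → R'),
      (∀ x ∈ i.2, ∀ y ∈ i.2, ψ (x + y) = ψ x + ψ y ∧ ψ (x * y) = ψ x * ψ y) ∧ ψ 1 = 1 ∧
      (∀ a ∈ i.1, ψ (algebraMap (PS K d) R a) = algebraMap (PS k d) R' (τ a)) ∧
      (∀ j, τ (X j) = X j) ∧ Submodule.span (PS k d) (ψ '' Set.range b) = ⊤ ∧
      Module.finrank (PS K d) R ≤ Module.finrank (PS k d) R' := by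
  classical
  have := NoZeroDivisors.to_isDomain (PS K d)
  obtain ⟨J, β, δ, hδ, hJ, hβ⟩ := key0 b hb
  have hc : ∀ r : R, ∃ c : Fin s → PS K d, ∑ j, c j • b j = r := fun r =>
    (Submodule.mem_span_range_iff_exists_fun _).1 (hb ▸ Submodule.mem_top)
  choose c hc using hc
  let H : Finset R := insert 1 (i.2 ∪ (univ : Finset (Fin s × Fin s)).image fun p => b p.1 * b p.2)
  obtain ⟨k, _, _, T, τ, hG, hX, hδT, hδ'⟩ := hA K d (i.1 ∪ (H ×ˢ univ).image (fun p => c p.1 p.2) ∪
    (univ : Finset (Fin s × J)).image fun p => β (b p.1) p.2) δ hδ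
  have := NoZeroDivisors.to_isDomain (PS k d)
  have hH : ∀ r ∈ H, r ∈ Submodule.span T (Set.range b) := fun r hr =>
    (Submodule.mem_span_range_iff_exists_fun T).2 ⟨fun j => ⟨c r j, hG _ (mem_union_left _
      (mem_union_right _ (mem_image.2 ⟨(r, j), mem_product.2 ⟨hr, mem_univ _⟩, rfl⟩)))⟩, hc r⟩
  let R0 : Subalgebra T R := (Submodule.span T (Set.range b)).toSubalgebra
    (hH 1 (mem_insert_self _ _)) fun x y hx hy => by
      have h1 := Submodule.mul_mem_mul hx hy
      rw [Submodule.span_mul_span] at h1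
      refine (Submodule.span_le.2 ?_ : _ ≤ Submodule.span T (Set.range b)) h1
      rintro _ ⟨_, ⟨p, rfl⟩, _, ⟨q, rfl⟩, rfl⟩
      exact hH _ (mem_insert_of_mem (mem_union_right _ (mem_image.2 ⟨(p, q), mem_univ _, rfl⟩)))
  have hb0 : ∀ j, b j ∈ R0 := fun j => Submodule.subset_span ⟨j, rfl⟩
  obtain ⟨R', _, _, ψ, h1, h2, h3⟩ := key1 T τ b R0 hb0 (fun r hr => hr) β (fun a => a.1) ⟨δ, hδT⟩ hδ'
    (fun p q => hG _ (mem_union_right _ (mem_image.2 ⟨(p, q), mem_univ _, rfl⟩))) hβ
  have hi : ∀ x ∈ i.2, x ∈ R0 := fun x hx => hH x (mem_insert_of_mem (mem_union_left _ hx))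
  refine ⟨k, _, ‹_›, R', _, ‹_›, fun a => if h : a ∈ T then τ ⟨a, h⟩ else 0,
    fun r => if h : r ∈ R0 then ψ ⟨r, h⟩ else 0, fun x hx y hy => ?_, ?_, fun a ha => ?_,
    fun j => ?_, ?_, ?_⟩
  · simp only [dif_pos (hi x hx), dif_pos (hi y hy), dif_pos (R0.add_mem (hi x hx) (hi y hy)),
      dif_pos (R0.mul_mem (hi x hx) (hi y hy)), ← map_add, ← map_mul]
    exact ⟨rfl, rfl⟩
  · simp only [dif_pos R0.one_mem]
    exact ψ.map_one
  · have haT : a ∈ T := hG _ (mem_union_left _ (mem_union_left _ ha))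
    have ha0 : algebraMap (PS K d) R a ∈ R0 := R0.algebraMap_mem (⟨a, haT⟩ : T)
    simp only [dif_pos haT, dif_pos ha0]
    exact h1 ⟨a, haT⟩
  · obtain ⟨h, h'⟩ := hX j
    simp only [dif_pos h, h']
  · rw [← Set.range_comp, ← h2]
    refine congrArg _ (congrArg _ (funext fun j => ?_))
    simp only [Function.comp_apply, dif_pos (hb0 j)]
  · rw [Fintype.card_coe] at h3
    exact hJ.trans h3

end Tr

end Vale.Agent.P202
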