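import Vale.Agent.P202.Spec2

/-! A monic tower over a polynomial ring that maps onto a large subalgebra. -/

open Finset Polynomial

namespace Vale.Agent.P202

universe u

namespace Twm

theorem exmonic {S R : Type*} [CommRing S] [IsDomain S] [CommRing R] [Algebra S R]
    (inj : ∀ x : S, algebraMap S R x = 0 → x = 0) {b : R} (hb : IsAlgebraic S b) :
    ∃ c : S, c ≠ 0 ∧ ∃ g : S[X], g.Monic ∧ aeval (algebraMap S R c * b) g = 0 ∧
      LinearIndependent S fun i : Fin g.natDegree => (algebraMap S R c * b) ^ (i : ℕ) := by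
  classical
  have hex : ∃ n, ∃ p : S[X], p ≠ 0 ∧ aeval b p = 0 ∧ p.natDegree = n :=
    let ⟨p, h0, h1⟩ := hb; ⟨_, p, h0, h1, rfl⟩
  obtain ⟨p, h0, h1, h2⟩ := Nat.find_spec hex
  have hc := leadingCoeff_ne_zero.2 h0
  refine ⟨p.leadingCoeff, hc, p.integralNormalization, monic_integralNormalization h0,
    integralNormalization_aeval_eq_zero h1 inj, ?_⟩
  rw [Fintype.linearIndependent_iff]
  intro g hg i
  let q : S[X] := ∑ j : Fin p.integralNormalization.natDegree,
    C (g j * p.leadingCoeff ^ (j : ℕ)) * X ^ (j : ℕ)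
  have hq : q = 0 := by
    by_contra hq
    have h3 : q.natDegree < p.integralNormalization.natDegree :=
      (natDegree_lt_iff_degree_lt hq).2 (degree_sum_fin_lt _)
    rw [natDegree_integralNormalization, h2] at h3
    refine Nat.find_min hex h3 ⟨q, hq, ?_, rfl⟩
    rw [← hg]
    simp only [q, map_sum, map_mul, aeval_C, map_pow, aeval_X, Algebra.smul_def, mul_pow, mul_assoc]
  have h4 := congrArg (fun r => coeff r i) hq
  simp only [q, finsetSum_coeff, coeff_C_mul_X_pow, coeff_zero, Fin.val_inj,
    Finset.sum_ite_eq, mem_univ, if_true] at h4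
  exact (mul_eq_zero.1 h4).resolve_right (pow_ne_zero _ hc)

theorem eval₂_in {A B T : Type*} [CommRing A] [CommRing B] [CommRing T] [Algebra A T]
    (S : Subalgebra A T) (f : B →+* T) (hf : ∀ x, f x ∈ S) {x : T} (hx : x ∈ S) (p : B[X]) :
    p.eval₂ f x ∈ S := by
  rw [eval₂_eq_sum_range]
  exact S.sum_mem fun i _ => S.mul_mem (hf _) (S.pow_mem hx _)

variable {A R P : Type u} [CommRing A] [IsDomain A] [CommRing R] [IsDomain R] [Algebra A R]
  [CommRing P] [Algebra A P]

theorem range_le {T ι : Type*} [CommRing T] [Algebra A T] [Algebra P T] [Fintype ι]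
    (ε : P →ₐ[A] A) (e : Module.Basis ι P T) (ev : T →ₐ[A] R)
    (hev : ∀ p, ev (algebraMap P T p) = algebraMap A R (ε p)) (t : T) :
    ev t = ∑ i, ε (e.repr t i) • ev (e i) := by
  conv_lhs => rw [← e.sum_repr t]
  simp only [map_sum, Algebra.smul_def, map_mul, hev]

theorem tower [Module.Finite A R] (hinj : Function.Injective (algebraMap A R)) (ε : P →ₐ[A] A) :
    ∀ (n : ℕ) (b : Fin n → R) (U : Fin n → P), (∀ j, ε (U j) = 0) →
    ∃ (T : Type u) (_ : CommRing T) (_ : Algebra A T) (_ : Algebra P T) (_ : IsScalarTower A P T)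
      (ι : Type) (_ : Fintype ι) (e : Module.Basis ι P T) (ev : T →ₐ[A] R) (Θ : Fin n → T) (a : A),
      a ≠ 0 ∧ (∀ j, a • b j ∈ ev.range) ∧
      (∀ p, ev (algebraMap P T p) = algebraMap A R (ε p)) ∧
      LinearIndependent A (fun i => ev (e i)) ∧ (∀ i, e i ∈ Algebra.adjoin A (Set.range Θ)) ∧
      ∀ j, algebraMap P T (U j) ∈ Algebra.adjoin A (Set.range Θ) := by
  intro n
  induction n with
  | zero =>
    intro b U _
    refine ⟨P, inferInstance, inferInstance, inferInstance, inferInstance, Unit, inferInstance,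
      Module.Basis.singleton Unit P, (Algebra.ofId A R).comp ε, Fin.elim0, 1, one_ne_zero,
      fun j => j.elim0, fun p => rfl, ?_, fun i => ?_, fun j => j.elim0⟩
    · rw [Fintype.linearIndependent_iff]
      intro g hg i
      apply hinj
      simpa [Algebra.smul_def] using hg
    · rw [Module.Basis.singleton_apply]; exact Subalgebra.one_mem _
  | succ n ih =>
    intro b U hU
    obtain ⟨T, _, _, _, _, ι, _, e, ev, Θ, a, ha, h1, h2, h3, h4, h5⟩ :=
      ih (fun j => b j.succ) (fun j => U j.succ) fun j => hU _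
    have hb : IsAlgebraic ev.range (b 0) :=
      ((Algebra.IsIntegral.isIntegral (R := A) (b 0)).tower_top (A := ev.range)).isAlgebraic
    obtain ⟨c, hc, g, hg, hg0, hgi⟩ := exmonic (S := ev.range) (fun x hx => Subtype.ext hx) hb
    set θ := algebraMap ev.range R c * b 0 with hθ
    have hca : IsAlgebraic A c :=
      ((isIntegral_algHom_iff ev.range.val Subtype.val_injective).1
        (Algebra.IsIntegral.isIntegral (R := A) (c : R))).isAlgebraic
    obtain ⟨a', ha', c', hc'⟩ := hca.exists_nonzero_dvd (mem_nonZeroDivisors_of_ne_zero hc)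
    let B := Algebra.adjoin A (Set.range Θ)
    let ψ : B →+* ev.range := (ev.rangeRestrict.comp B.val).toRingHom
    have hψ : Function.Surjective ψ := by
      rintro ⟨_, t, rfl⟩
      refine ⟨⟨∑ i, ε (e.repr t i) • e i, B.sum_mem fun i _ => B.smul_mem (h4 i) _⟩,
        Subtype.ext ?_⟩
      change ev (∑ i, ε (e.repr t i) • e i) = ev t
      rw [range_le ε e ev h2 t]
      simp only [map_sum, map_smul]
    obtain ⟨f0, hf0, hd0, hm0⟩ := lifts_and_natDegree_eq_and_monic
      ((mem_lifts g).2 (map_surjective ψ hψ g)) hg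
    have hpos : 0 < g.natDegree := by
      rw [Nat.pos_iff_ne_zero]
      intro h
      rw [hg.natDegree_eq_zero.1 h, map_one] at hg0
      exact one_ne_zero hg0
    have : Nontrivial T := ev.toRingHom.domain_nontrivial
    let f : T[X] := f0.map B.val.toRingHom
    have hfm : f.Monic := hm0.map _
    have hfd : f.natDegree = g.natDegree := (hm0.natDegree_map _).trans hd0
    let F : T[X] := f - C (algebraMap P T (U 0))
    have hF : F.Monic := hfm.sub_of_left (degree_C_le.trans_lt
      (natDegree_pos_iff_degree_pos.1 (hfd ▸ hpos)))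
    have hFd : F.natDegree = g.natDegree := natDegree_sub_C.trans hfd
    have hFθ : F.eval₂ (ev : T →+* R) θ = 0 := by
      rw [eval₂_sub, eval₂_C, eval₂_map]
      have e1 : (ev : T →+* R).comp B.val.toRingHom = (algebraMap ev.range R).comp ψ := rfl
      rw [e1, ← eval₂_map, hf0, ← aeval_def, hg0]
      simp [h2, hU]
    let ev' := AdjoinRoot.liftAlgHom F ev θ hFθ
    let Θ' : Fin (n + 1) → AdjoinRoot F := Fin.cons (AdjoinRoot.root F) fun j => AdjoinRoot.of F (Θ j)
    have hr : AdjoinRoot.root F ∈ Algebra.adjoin A (Set.range Θ') := Algebra.subset_adjoin ⟨0, rfl⟩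
    have hB : ∀ x ∈ B, AdjoinRoot.of F x ∈ Algebra.adjoin A (Set.range Θ') := fun x hx => by
      refine (Algebra.adjoin_le ?_ : B ≤ (Algebra.adjoin A (Set.range Θ')).comap
        (AdjoinRoot.ofAlgHom A F)) hx
      rintro _ ⟨j, rfl⟩
      exact Algebra.subset_adjoin ⟨j.succ, rfl⟩
    have hof : ∀ t, ev' (AdjoinRoot.of F t) = ev t := AdjoinRoot.liftAlgHom_of _ _ _ _
    have hrt : ev' (AdjoinRoot.root F) = θ := AdjoinRoot.liftAlgHom_root _ _ _ _
    have hbas : ∀ i, e.smulTower (AdjoinRoot.powerBasis' hF).basis i =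
        AdjoinRoot.of F (e i.1) * AdjoinRoot.root F ^ (i.2 : ℕ) := fun i => by
      rw [Module.Basis.smulTower_apply, PowerBasis.basis_eq_pow, Algebra.smul_def]; rfl
    refine ⟨AdjoinRoot F, inferInstance, inferInstance, inferInstance, inferInstance,
      ι × Fin F.natDegree, inferInstance, e.smulTower (AdjoinRoot.powerBasis' hF).basis, ev', Θ',
      a * a', mul_ne_zero ha ha', fun j => ?_, fun p => (hof _).trans (h2 p), ?_, fun i => ?_,
      fun j => ?_⟩
    · refine Fin.cases ?_ (fun j => ?_) j
      · obtain ⟨t, ht⟩ := c'.2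
        refine ⟨a • (AdjoinRoot.of F t * AdjoinRoot.root F), ?_⟩
        have e1 : algebraMap A R a' = (c : R) * ev t := by
          have := congrArg Subtype.val hc'
          exact this.trans (congrArg _ ht.symm)
        change ev' _ = _
        rw [map_smul, map_mul, hof, hrt, mul_smul, Algebra.smul_def a', e1, hθ]
        change _ • (_ * ((c : R) * _)) = _
        ring_nf
      · obtain ⟨t, ht⟩ := h1 j
        refine ⟨a' • AdjoinRoot.of F t, ?_⟩
        change ev' _ = _
        rw [map_smul, hof, mul_comm, mul_smul]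
        exact congrArg _ ht
    · have e1 : LinearIndependent A fun i => (ev.rangeRestrict (e i) : ev.range) :=
        LinearIndependent.of_comp ev.range.val.toLinearMap h3
      have e2 : LinearIndependent ev.range fun i : Fin F.natDegree => θ ^ (i : ℕ) := by
        rw [hFd]; exact hgi
      have e3 := linearIndependent_smul e1 e2
      have e4 : (fun i => ev' (e.smulTower (AdjoinRoot.powerBasis' hF).basis i)) =
          fun p : ι × Fin F.natDegree => ev.rangeRestrict (e p.1) • θ ^ (p.2 : ℕ) := by
        funext i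
        rw [hbas, map_mul, map_pow, hof, hrt]; rfl
      exact e4 ▸ e3
    · exact (hbas i).symm ▸ Subalgebra.mul_mem _ (hB _ (h4 _)) (Subalgebra.pow_mem _ hr _)
    · refine Fin.cases ?_ (fun j => hB _ (h5 j)) j
      have e1 := AdjoinRoot.eval₂_root F
      rw [eval₂_sub, eval₂_C, eval₂_map, sub_eq_zero] at e1
      change AdjoinRoot.of F _ ∈ _
      exact e1 ▸ eval₂_in _ ((AdjoinRoot.of F).comp B.val.toRingHom) (fun x => hB _ x.2) hr f0

end Twm

end Vale.Agent.P202
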